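import Vale.Agent.P154.ADef

/-! TASK ABase: unfolding lemmas for the small checker functions and packed digits.
Plan. Most are `rfl`, `cases` on the Booleans or on the structure, `Finset.sum_range_succ`,
`interval_cases s`. `V8.at u s` is `nth 0 [..] s` (for a literal `s` it reduces by `rfl`).
`ones_eq`: geometric sum as in `mask_eq` (`Nat.geomSum_eq`). `dg x l = x / 2^(96 l) % 2^96`
(`Nat.shiftRight_eq_div_pow`, `Nat.and_two_pow_sub_one_eq_mod`). `pk_sound`: from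
`x &&& M = x`, `M = ∑ l < L, (2^38 - 1) * 2^(96 l)`: `dg x l = dg x l &&& dg M l`
(`Nat.shiftRight_and_distrib`, or bitwise with `Nat.eq_of_testBit_eq`), `dg M l` is `2^38 - 1` for
`l < L` (`digit_KrBase`) and `0` beyond, `Nat.and_le_right`; also `x ≤ M < 2^(96 L)`, and every
`x < B^L` is the sum of its digits (induction on `L`). -/

namespace Vale.Agent.P154

open Finset

theorem band_iff (a b : Bool) : band a b = true ↔ a = true ∧ b = true := by
  cases a <;> cases b <;> simp [band]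
theorem bor_iff (a b : Bool) : bor a b = true ↔ a = true ∨ b = true := by
  cases a <;> cases b <;> simp [bor]
theorem frc_eq (n : ℕ) (k : ℕ → Bool) : frc n k = k n := by cases n <;> rfl
theorem rec_ite {α : Type} (x y : α) (b : Bool) :
    Bool.rec (motive := fun _ => α) x y b = if b = true then y else x := by cases b <;> rfl
theorem nmin_eq (a b : ℕ) : nmin a b = min a b := by
  change a - (a - b) = _
  omega
theorem nmax_eq (a b : ℕ) : nmax a b = max a b := by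
  change a + (b - a) = _
  omega
theorem nabs_cast (a b : ℕ) : (nabs a b : ℝ) = |(a : ℝ) - b| := by
  change ((a - b + (b - a) : ℕ) : ℝ) = _
  rcases le_total a b with h | h
  · rw [Nat.sub_eq_zero_of_le h, zero_add, Nat.cast_sub h, abs_sub_comm,
      abs_of_nonneg (sub_nonneg.2 (Nat.cast_le.2 h))]
  · rw [Nat.sub_eq_zero_of_le h, add_zero, Nat.cast_sub h,
      abs_of_nonneg (sub_nonneg.2 (Nat.cast_le.2 h))]
theorem cd_ge (x : ℕ) {d : ℕ} (hd : 0 < d) : (x : ℝ) / d ≤ cd x d := by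
  change _ ≤ ((x / d + 1 : ℕ) : ℝ)
  rw [div_le_iff₀ (Nat.cast_pos.2 hd)]
  exact_mod_cast ((Nat.div_lt_iff_lt_mul hd).1 (Nat.lt_succ_self _)).le
theorem shr_le (x k : ℕ) : (Nat.shiftRight x k : ℝ) ≤ x / 2 ^ k := by
  change ((x >>> k : ℕ) : ℝ) ≤ _
  rw [Nat.shiftRight_eq_div_pow]
  exact_mod_cast Nat.cast_div_le (α := ℝ) (m := x) (n := 2 ^ k)
theorem lt_shr (x k : ℕ) : (x : ℝ) / 2 ^ k < Nat.shiftRight x k + 1 := by
  change _ < ((x >>> k : ℕ) : ℝ) + 1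
  rw [Nat.shiftRight_eq_div_pow, div_lt_iff₀ (by positivity)]
  exact_mod_cast (Nat.div_lt_iff_lt_mul (Nat.two_pow_pos k)).1 (Nat.lt_succ_self _)
theorem shl_eq (x k : ℕ) : Nat.shiftLeft x k = x * 2 ^ k := Nat.shiftLeft_eq x k
theorem mz_eq (a x : ℕ) : mz a x = a * x := by
  cases a with
  | zero => exact (Nat.zero_mul x).symm
  | succ a => rfl
theorem sumN_eq (n : ℕ) (f : ℕ → ℕ) : sumN n f = ∑ k ∈ range n, f k := by
  induction n with
  | zero => rfl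
  | succ n ih => rw [sum_range_succ, ← ih]; rfl
theorem lsq_cast (n : ℕ) : (lsq n : ℝ) = lamR n ^ 2 * 2 ^ 96 := by
  change ((nabs n 140737488355328 ^ 2 : ℕ) : ℝ) = _
  rw [Nat.cast_pow, nabs_cast, sq_abs, lamR]
  push_cast
  ring
theorem dnR_cast (n : ℕ) : (dnR n : ℝ) = 3 * lamR n ^ 2 * 2 ^ 262 := by
  have e : dnR n = 3 * lsq n * 2 ^ 166 := shl_eq (3 * lsq n) 166
  have h : ∀ x y : ℝ, 3 * (x * y ^ 96) * y ^ 166 = 3 * x * y ^ 262 := fun x y => by ring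
  rw [e, Nat.cast_mul, Nat.cast_mul, lsq_cast, Nat.cast_pow, Nat.cast_ofNat, Nat.cast_ofNat]
  exact h _ _
theorem lamR_shl (n : ℕ) : lamR (Nat.shiftLeft n 38) = lamJ n := by
  rw [shl_eq, lamR, lamJ]
  push_cast
  ring
theorem vq_zero (n : ℕ) : vq n 0 = 2 ^ 50 := rfl
theorem vq_ge (n : ℕ) {d : ℕ} (hd : 0 < d) : ((n : ℝ) / d) ^ 2 ≤ vq n d / 2 ^ 40 := by
  obtain ⟨d, rfl⟩ := Nat.exists_eq_succ_of_ne_zero hd.ne'
  have h := cd_ge (Nat.shiftLeft (n * n) 40) (Nat.mul_pos hd hd)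
  rw [le_div_iff₀ (by positivity)]
  refine le_of_eq_of_le ?_ h
  rw [shl_eq, Nat.cast_mul, Nat.cast_mul, Nat.cast_mul, Nat.cast_pow, Nat.cast_ofNat]
  ring

theorem V8.dot_eq (u v : V8) : u.dot v = ∑ s ∈ range 8, u.at s * v.at s := by
  obtain ⟨a0, a1, a2, a3, a4, a5, a6, a7⟩ := u
  obtain ⟨b0, b1, b2, b3, b4, b5, b6, b7⟩ := v
  change a0 * b0 + a1 * b1 + (a2 * b2 + a3 * b3) + (a4 * b4 + a5 * b5 + (a6 * b6 + a7 * b7)) = _
  simp only [sum_range_succ, sum_range_zero]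
  change _ = 0 + a0 * b0 + a1 * b1 + a2 * b2 + a3 * b3 + a4 * b4 + a5 * b5 + a6 * b6 + a7 * b7
  ring
theorem V8.sum_eq (u : V8) : u.sum = ∑ s ∈ range 8, u.at s := by
  obtain ⟨a0, a1, a2, a3, a4, a5, a6, a7⟩ := u
  change a0 + a1 + (a2 + a3) + (a4 + a5 + (a6 + a7)) = _
  simp only [sum_range_succ, sum_range_zero]
  change _ = 0 + a0 + a1 + a2 + a3 + a4 + a5 + a6 + a7
  ring
theorem V8.map2_at (f : ℕ → ℕ → ℕ) (u v : V8) {s : ℕ} (hs : s < 8) :
    (V8.map2 f u v).at s = f (u.at s) (v.at s) := by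
  interval_cases s <;> rfl
theorem V8.of_at (f : ℕ → ℕ) {s : ℕ} (hs : s < 8) : (V8.of f).at s = f s := by
  interval_cases s <;> rfl
theorem cst_at (x : ℕ) {s : ℕ} (hs : s < 8) : (cst x).at s = x := by
  interval_cases s <;> rfl
theorem sel_at (f g : ℕ → ℕ → ℕ) (u v : V8) {s : ℕ} (hs : s < 8) :
    (sel f g u v).at s = if s < 6 then f (u.at s) (v.at s) else g (u.at s) (v.at s) := by
  interval_cases s <;> rfl
theorem dg8_at (u : V8) (i : ℕ) {s : ℕ} (hs : s < 8) : (dg8 u i).at s = dg (u.at s) i :=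
  V8.map2_at _ u u hs

theorem ones_eq (L : ℕ) : ones L = ∑ l ∈ range L, 2 ^ (96 * l) := by
  change (1 <<< (96 * L) - 1) / (2 ^ 96 - 1) = _
  rw [Nat.one_shiftLeft, pow_mul, ← Nat.geomSum_eq (by norm_num)]
  simp only [pow_mul]
theorem ab_dg (x l : ℕ) : dg x l = x / (2 ^ 96) ^ l % 2 ^ 96 := by
  change (x >>> (96 * l)) &&& (2 ^ 96 - 1) = _
  rw [Nat.shiftRight_eq_div_pow, Nat.and_two_pow_sub_one_eq_mod, pow_mul]
theorem ab_dg_and (x y l : ℕ) : dg (x &&& y) l ≤ dg y l := by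
  change ((x &&& y) >>> (96 * l)) &&& _ ≤ (y >>> (96 * l)) &&& _
  rw [Nat.shiftRight_and_distrib, Nat.and_assoc]
  exact Nat.and_le_right
theorem ab_sum_lt {B : ℕ} (c : ℕ) (hc : c < B) (L : ℕ) : ∑ l ∈ range L, c * B ^ l < B ^ L := by
  induction L with
  | zero => simp
  | succ L ih =>
    rw [sum_range_succ, pow_succ]
    nlinarith [Nat.mul_le_mul_right (B ^ L) (Nat.succ_le_of_lt hc)]
theorem ab_digits (B x L : ℕ) : x % B ^ L = ∑ l ∈ range L, x / B ^ l % B * B ^ l := by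
  induction L with
  | zero => simp [Nat.mod_one]
  | succ L ih => rw [sum_range_succ, ← ih, Nat.mod_pow_succ, mul_comm]
theorem pk_sound {L x : ℕ} (h : pkOK L x = true) :
    (∀ l, dg x l < 2 ^ 38) ∧ x = ∑ l ∈ range L, dg x l * 2 ^ (96 * l) := by
  have h1 : x &&& (ones L * 274877906943) = x := Nat.eq_of_beq_eq_true h
  have h2 : ones L * 274877906943 = ∑ l ∈ range L, 274877906943 * (2 ^ 96) ^ l := by
    rw [ones_eq, sum_mul]
    exact sum_congr rfl fun l _ => by rw [pow_mul, mul_comm]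
  have h3 := ab_sum_lt (B := 2 ^ 96) 274877906943 (by norm_num) L
  rw [h2] at h1
  have h4 : x < (2 ^ 96) ^ L := (h1.symm.le.trans Nat.and_le_right).trans_lt h3
  refine ⟨fun l => ?_, ?_⟩
  · rcases lt_or_ge l L with hl | hl
    · have h5 := ab_dg_and x (∑ l ∈ range L, 274877906943 * (2 ^ 96) ^ l) l
      rw [h1, ab_dg (∑ l ∈ range L, _),
        digit_KrBase _ L (fun _ => 274877906943) (fun _ => by norm_num) hl] at h5
      exact h5.trans_lt (by norm_num)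
    · rw [ab_dg, Nat.div_eq_of_lt (h4.trans_le (Nat.pow_le_pow_right (by norm_num) hl))]
      norm_num
  · simp only [ab_dg, pow_mul]
    rw [← ab_digits, Nat.mod_eq_of_lt h4]
theorem ab_zero {v : V8} (h : zero2 v = true) {s : ℕ} (h6 : 6 ≤ s) (h8 : s < 8) (l : ℕ) :
    dg (v.at s) l = 0 := by
  have h1 : v.x6 + v.x7 = 0 := Nat.eq_of_beq_eq_true h
  have h2 : v.at s = 0 := by
    interval_cases s
    · change v.x6 = 0
      omega
    · change v.x7 = 0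
      omega
  rw [h2, ab_dg, Nat.zero_div, Nat.zero_mod]
theorem wOK_sound {w : Wt} (h : wOK w = true) :
    (∀ s < 8, pkOK w.L (w.ap.at s) = true ∧ pkOK w.L (w.am.at s) = true ∧
      pkOK w.L (w.bp.at s) = true ∧ pkOK w.L (w.bm.at s) = true) ∧
    pkOK w.L w.cp = true ∧ pkOK w.L w.cm = true ∧
    (w.u = false → ∀ s, 6 ≤ s → s < 8 → ∀ l, dg (w.ap.at s) l = 0 ∧ dg (w.am.at s) l = 0 ∧
      dg (w.bp.at s) l = 0 ∧ dg (w.bm.at s) l = 0) := by
  simp only [wOK, band_iff, v8OK, allLt_iff] at h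
  obtain ⟨⟨⟨h1, h2⟩, h3, h4⟩, ⟨h5, h6⟩, h7⟩ := h
  refine ⟨fun s hs => ⟨h1 s hs, h2 s hs, h3 s hs, h4 s hs⟩, h5, h6, fun hu s s6 s8 l => ?_⟩
  rw [hu] at h7
  obtain ⟨a, b⟩ := (band_iff _ _).1 h7
  obtain ⟨a1, a2⟩ := (band_iff _ _).1 a
  obtain ⟨b1, b2⟩ := (band_iff _ _).1 b
  exact ⟨ab_zero a1 s6 s8 l, ab_zero a2 s6 s8 l, ab_zero b1 s6 s8 l, ab_zero b2 s6 s8 l⟩

end Vale.Agent.P154
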