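import Vale.Agent.P154.ATab

/-! Antiferromagnetic case: checkers for the central disc, the search tree and the small regime
(definitions only). -/

namespace Vale.Agent.P154

noncomputable def nth {α : Type} (d : α) (l : List α) : ℕ → α :=
  List.rec (motive := fun _ => ℕ → α) (fun _ => d)
    (fun a _ r n => Nat.rec (motive := fun _ => α) a (fun m _ => r m) n) l
noncomputable def V8.at (u : V8) (s : ℕ) : ℕ :=
  nth 0 [u.x0, u.x1, u.x2, u.x3, u.x4, u.x5, u.x6, u.x7] s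
noncomputable def sumN (n : ℕ) (f : ℕ → ℕ) : ℕ :=
  Nat.rec (motive := fun _ => ℕ) 0 (fun k r => Nat.add r (f k)) n
noncomputable def zc (s k j : ℕ) : ℤ := nth 0 (nth [] (nth [] zT s) k) j
noncomputable def zr (s k j : ℕ) : ℤ := nth 0 (nth [] (nth [] zRT s) k) j
/-- bound for the sum of the absolute values of the coefficients of degree `k` -/
noncomputable def zn (s k : ℕ) : ℕ := nth 0 (nth [] zST s) k
def dg (x l : ℕ) : ℕ := Nat.land (Nat.shiftRight x (Nat.mul 96 l)) 79228162514264337593543950335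

/-! tables for the Taylor mode of the outer checker -/
noncomputable def utT (k : ℕ) : V8 := V8.of fun s =>
  Nat.succ (Nat.shiftRight (sumN 15 fun i => Nat.mul (Nat.mul (Nat.mul (Nat.add i 2) (Nat.add i 1))
    (zn s (Nat.add i 4))) (Nat.mul (Nat.pow k i) (Nat.pow 16 (Nat.sub 14 i)))) 71)
noncomputable def wtT (k : ℕ) : V8 := V8.of fun s =>
  Nat.succ (Nat.shiftRight (Nat.mul (zN.at s) (Nat.pow k 15)) 51)

/-- all digits are below `2^38` and there are `L` of them -/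
noncomputable def pkOK (L x : ℕ) : Bool :=
  Nat.beq (Nat.land x (Nat.mul (ones L) 274877906943)) x
noncomputable def v8OK (L : ℕ) (v : V8) : Bool := allLt 8 fun s => pkOK L (v.at s)
def zero2 (v : V8) : Bool := Nat.beq (Nat.add v.x6 v.x7) 0
noncomputable def wOK (w : Wt) : Bool :=
  band (band (band (v8OK w.L w.ap) (v8OK w.L w.am)) (band (v8OK w.L w.bp) (v8OK w.L w.bm)))
    (band (band (pkOK w.L w.cp) (pkOK w.L w.cm))
      (Bool.rec (band (band (zero2 w.ap) (zero2 w.am)) (band (zero2 w.bp) (zero2 w.bm))) true w.u))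

/-! the central disc; `lam = l / 1024`, scale of the coefficients `2^48` -/

noncomputable def inK (k : ℕ) : Bool := band (Nat.ble 2 k) (Nat.ble k 18)
noncomputable def kR (l : ℤ) (s k j : ℕ) : ℤ :=
  Bool.rec 0 (Int.shiftRight (Int.mul (zr s k j) (Int.pow l (Nat.sub k 2)))
    (Nat.sub (Nat.mul 10 k) 8)) (inK k)
/-- error terms; `D` is the length of the parameter interval, `L` the largest absolute value -/
noncomputable def eR (D L s k : ℕ) : ℕ :=
  Bool.rec (Bool.rec 0 (Nat.succ (Nat.shiftRight (Nat.mul (zN.at s) (Nat.pow L 17)) 162))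
      (Nat.beq k 19))
    (Nat.add 9 (Nat.shiftRight (Nat.mul (Nat.mul (Nat.mul D D)
      (Nat.mul (Nat.sub k 2) (Nat.sub k 3))) (Nat.mul (Nat.pow L (Nat.sub k 4)) (zn s k)))
      (Nat.sub (Nat.mul 10 k) 5))) (inK k)
/-- `∑ k < n, f k * m^k * H^(n - 1 - k)` -/
noncomputable def horE (m H : Ex) (f : ℕ → Ex) (n : ℕ) : Ex :=
  Nat.rec (motive := fun _ => Ex) (Ex.c 0)
    (fun k r => Ex.add (Ex.mul H r) (Ex.mul (f k) (Ex.pw m k))) n
def lin (i : ℕ) (a b : ℤ) : Ex := Ex.add (Ex.c a) (Ex.mul (Ex.c b) (Ex.v i))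
/-- a cell `t ∈ [t1, t2) / 33`, `tau ∈ [u1, u2) / 8`; `n` coefficients in `t` -/
structure Cel where
  t1 : ℤ
  t2 : ℤ
  u1 : ℤ
  u2 : ℤ
  n : ℕ
noncomputable def Cel.polT (c : Cel) (g : ℕ → ℤ) : Ex :=
  horE (lin 0 c.t1 c.t2) (lin 0 33 33) (fun k => Ex.c (g k)) c.n
noncomputable def Cel.pol (c : Cel) (f : ℕ → ℕ → ℤ) : Ex :=
  horE (lin 1 c.u1 c.u2) (lin 1 8 8) (fun j => c.polT (f j)) 7
noncomputable def Cel.pol0 (c : Cel) (g : ℕ → ℤ) : Ex :=
  Ex.mul (Ex.pw (lin 1 8 8) 6) (c.polT g)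
def sgI (neg : Bool) : ℤ := Bool.rec 1 (-1) neg
/-- plus or minus the Taylor polynomial divided by `t ^ sh`, minus the error terms -/
noncomputable def Cel.phi (c : Cel) (l : ℤ) (D L sh : ℕ) (neg : Bool) (s : ℕ) : Ex :=
  Ex.add (Ex.mul (Ex.c (sgI neg)) (c.pol fun j k => kR l s (Nat.add k sh) j))
    (Ex.mul (Ex.c (-1)) (c.pol0 fun k => Int.ofNat (eR D L s (Nat.add k sh))))
noncomputable def Cel.one (c : Cel) (neg : Bool) : Ex :=
  c.pol0 fun k => Bool.rec 0 (Int.mul (sgI neg) 281474976710656) (Nat.beq k 0)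
noncomputable def Cel.sz (c : Cel) : ℕ := Nat.mul (Nat.succ c.n) 8
noncomputable def Cel.om (c : Cel) : ℕ := Nat.shiftLeft 1 (Nat.mul 256 c.sz)
noncomputable def Cel.kz (c : Cel) (e : Ex) : ℤ :=
  Int.add (e.kv fun i => Nat.mul 256 (strd [Nat.succ c.n, 8] i)) (Int.ofNat c.om)
noncomputable def Cel.kn (c : Cel) (e : Ex) : ℕ := Int.toNat (c.kz e)
noncomputable def Cel.ok (c : Cel) (e : Ex) : Bool :=
  band (Nat.ble e.nrm (Nat.shiftLeft 1 190)) (Bool.not (isNeg (c.kz e)))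
noncomputable def Cel.ok8 (c : Cel) (e : Bool → ℕ → Ex) : Bool :=
  allLt 8 fun s => band (c.ok (e false s)) (c.ok (e true s))
noncomputable def mz (a x : ℕ) : ℕ := Bool.rec (Nat.mul a x) 0 (Nat.beq a 0)
noncomputable def Cel.k8 (c : Cel) (e : ℕ → Ex) : V8 := V8.of fun s => c.kn (e s)
noncomputable def Cel.dt (c : Cel) (e : Bool → ℕ → Ex) (xp xm : V8) : ℕ :=
  Nat.add (V8.map2 mz xp (c.k8 (e false))).sum (V8.map2 mz xm (c.k8 (e true))).sum
noncomputable def Cel.fin (c : Cel) (v x : ℕ) : Bool :=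
  band (Nat.ble x 18446744073709551616)
    (mskOK (Nat.sub (Nat.add v (mask 256 c.sz)) (Nat.mul x c.om)) (mask 256 c.sz))
/-- `xp * e1 false + xm * e1 true + ... + zp - zm` has nonnegative coefficients -/
noncomputable def Cel.row (c : Cel) (e1 e2 e3 : Bool → ℕ → Ex) (xp xm yp ym vp vm : V8)
    (zp zm : ℕ) : Bool :=
  c.fin (s3 (Nat.add (c.dt e1 xp xm) (c.dt e2 yp ym)) (c.dt e3 vp vm)
      (Nat.add (mz zp (c.kn (c.one false))) (mz zm (c.kn (c.one true)))))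
    (s3 (s3 xp.sum xm.sum yp.sum) (s3 ym.sum vp.sum vm.sum) (Nat.add zp zm))
noncomputable def Cel.pre (c : Cel) (e1 e2 e3 : Bool → ℕ → Ex) : Bool :=
  band (band (c.ok (c.one false)) (c.ok (c.one true)))
    (band (c.ok8 e1) (band (c.ok8 e2) (c.ok8 e3)))
def lamI (n : ℕ) : ℤ := Int.subNatNat n 512
def lamL (n m : ℕ) : ℕ := nmax (nabs n 512) (nabs m 512)
noncomputable def dg8 (u : V8) (i : ℕ) : V8 := V8.map2 (fun x _ => dg x i) u u
noncomputable def two (n m : ℕ) (f : ℤ → Bool) : Bool :=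
  band (f (lamI n)) (Bool.rec (f (lamI m)) true (Nat.beq n m))
/-- all consecutive pairs of a list -/
noncomputable def allP (f : ℤ → ℤ → Bool) (l : List ℤ) : ℤ → Bool :=
  List.rec (motive := fun _ => ℤ → Bool) (fun a => Nat.ble 9 (Int.toNat a))
    (fun b _ r a => band (f a b) (r b)) l
noncomputable def cenI1 (w : Wt) (c : Cel) (e1 e2 : Bool → ℕ → Ex) (i0 cnt : ℕ) : Bool :=
  band (c.pre e1 e2 e2) (allLt cnt fun i => frc (Nat.add i0 i) fun j =>
    c.row e1 e2 e2 (dg8 w.am j) (dg8 w.ap j) (dg8 w.bp j) (dg8 w.bm j) (cst 0) (cst 0)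
      (dg w.cm j) (dg w.cp j))
/-- leaves `i0 ≤ i < i0 + cnt` on `t ∈ [t1, t2) / 33` -/
noncomputable def cenI (w : Wt) (n m i0 cnt : ℕ) (t1 t2 : ℤ) (us : List ℤ) : Bool :=
  allP (fun a b => two n m fun l => (fun c : Cel => cenI1 w c (c.phi 1024 0 1024 0)
    (c.phi l (Nat.sub m n) (lamL n m) 0) i0 cnt) ⟨t1, t2, a, b, 20⟩) us (-8)

/-! the small regime: leaf `L - 2` is the potential, leaf `L - 1` its shift -/
noncomputable def wP (w : Wt) (s : ℕ) : ℕ := dg (w.ap.at s) (Nat.sub w.L 2)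
noncomputable def wM (w : Wt) (s : ℕ) : ℕ := dg (w.am.at s) (Nat.sub w.L 2)
noncomputable def mA (w : Wt) (s : ℕ) : ℕ := Nat.add (dg (w.bp.at s) (Nat.sub w.L 1)) (wM w s)
noncomputable def mB (w : Wt) (s : ℕ) : ℕ := Nat.add (dg (w.bm.at s) (Nat.sub w.L 1)) (wP w s)
noncomputable def mP (w : Wt) (s : ℕ) : ℕ := Nat.mul 512 (Nat.sub (mA w s) (mB w s))
noncomputable def mM (w : Wt) (s : ℕ) : ℕ := Nat.mul 512 (Nat.sub (mB w s) (mA w s))
noncomputable def smR (w : Wt) (c : Cel) (e1 e2 e3 : Bool → ℕ → Ex) (x y zp zm : ℕ) : Bool :=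
  c.row e1 e2 e3 (V8.of fun s => Nat.mul x (wM w s)) (V8.of fun s => Nat.mul x (wP w s))
    (V8.of fun s => Nat.mul x (wP w s)) (V8.of fun s => Nat.mul x (wM w s))
    (V8.of fun s => Nat.mul y (mP w s)) (V8.of fun s => Nat.mul y (mM w s)) zp zm
noncomputable def cenII1 (w : Wt) (kap : ℕ) (c : Cel) (e1 e2 e3 : Bool → ℕ → Ex) : Bool :=
  band (c.pre e1 e2 e3) (band
    (allLt 8 fun k => smR w c e1 e2 e3 65536 (Nat.mul 1536 k)
      (Nat.mul kap (Nat.mul 36 (Nat.mul k k))) (Nat.mul kap 9))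
    (smR w c e1 e2 e3 0 128 (Nat.mul kap 21) 0))
noncomputable def cenII (w : Wt) (kap n m : ℕ) (t1 t2 : ℤ) (us : List ℤ) : Bool :=
  allP (fun a b => two n m fun l => (fun c : Cel => cenII1 w kap c (c.phi 1024 0 1024 4)
    (c.phi l (Nat.sub m n) (lamL n m) 4) (c.phi l (Nat.sub m n) (lamL n m) 2))
    ⟨t1, t2, a, b, 18⟩) us (-8)
/-- twelve times the ratio of the second order coefficients -/
noncomputable def gam (s : ℕ) : ℕ := nth 0 [12, 9, 8, 5, 9, 11] s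
noncomputable def cub (s : ℕ) : ℕ := nth 0 [16, 9, 8, 5, 11, 14] s
noncomputable def smOK (w : Wt) (kap : ℕ) : Bool :=
  band (Nat.ble 2 w.L) (band
    (allLt 8 fun s => band (band (Nat.beq (dg (w.ap.at s) (Nat.sub w.L 1)) (wP w s))
        (Nat.beq (dg (w.am.at s) (Nat.sub w.L 1)) (wM w s)))
      (band (Nat.beq (dg (w.bp.at s) (Nat.sub w.L 2)) (wP w s))
        (Nat.beq (dg (w.bm.at s) (Nat.sub w.L 2)) (wM w s))))
    (band (Nat.beq (s3 (Nat.add (dg w.cp (Nat.sub w.L 1)) (dg w.cm (Nat.sub w.L 1)))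
        (Nat.add (dg w.cp (Nat.sub w.L 2)) (dg w.cm (Nat.sub w.L 2)))
        (s3 (Nat.add (wP w 0) (mM w 0)) (sumN 7 fun s => Nat.add (wM w (Nat.succ s))
          (mP w (Nat.succ s))) (sumN 2 fun s => Nat.add (wP w (Nat.add s 6))
          (mM w (Nat.add s 6))))) 0)
      (band (Nat.beq (Nat.mul 16 (wM w 0)) (sumN 6 fun s => Nat.mul (cub s) (wP w s)))
        (band (allLt 6 fun s => Nat.ble (Nat.mul 147456 (mM w s))
            (Nat.mul (Nat.mul (wP w s) (gam s)) (Nat.sub 12288 (gam s))))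
          (Nat.ble (Nat.succ (s3 (Nat.mul 144 (wM w 0)) (Nat.mul 288 kap)
            (sumN 6 fun s => Nat.mul (wP w s) (Nat.mul (gam s) (gam s)))))
            (Nat.mul 288 (mP w 0)))))))

/-! the search tree; boxes have scale `2^32`, powers scale `2^128` -/

def sh7 (r x : ℕ) : ℕ := Nat.add (Nat.shiftRight x 128) r
noncomputable def pw2 (r x n h : ℕ) : ℕ :=
  Bool.rec (sh7 r (Nat.mul h x)) h (Nat.beq (Nat.mod n 2) 0)
def sq7 (r h : ℕ) : ℕ := sh7 r (Nat.mul h h)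
def o7 : ℕ := 340282366920938463463374607431768211456
/-- `x ^ n`, rounded down for `r = 0` and up for `r = 1`; needs `n < 2 ^ k` -/
noncomputable def pwr (r x k : ℕ) : ℕ → ℕ :=
  Nat.rec (motive := fun _ => ℕ → ℕ) (fun _ => o7)
    (fun _ p n => Bool.rec (pw2 r x n (sq7 r (p (Nat.div n 2)))) o7 (Nat.beq n 0)) k
/-- `1 - x + x^2 / 2` for `x = v / 2^44`, exact in scale `2^128` -/
def ex2 (v : ℕ) : ℕ :=
  Nat.add (Nat.sub o7 (Nat.shiftLeft v 84)) (Nat.shiftLeft (Nat.mul v v) 39)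
noncomputable def bsL (d v : ℕ) : ℕ :=
  Bool.rec (Nat.sub o7 (cd (Nat.shiftLeft v 96) d))
    (Nat.sub (ex2 v) (cd (Nat.pow v 3) 96)) (Nat.beq d 0)
noncomputable def bsH (d v : ℕ) : ℕ :=
  Bool.rec (Nat.sub o7 (Nat.div (Nat.shiftLeft v 96) d)) (ex2 v) (Nat.beq d 0)
noncomputable def exN (d j : ℕ) : ℕ := Bool.rec (Nat.sub d j) 4096 (Nat.beq d 0)
noncomputable def eL (d v : ℕ) : ℕ := pwr 0 (bsL d v) 21 (exN d 1)
noncomputable def eH (d v : ℕ) : ℕ := pwr 1 (bsH d v) 21 (exN d 1)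
noncomputable def nL (d v : ℕ) : ℕ := Nat.sub o7 (pwr 1 (bsH d v) 21 (exN d 0))
noncomputable def sgT (d t : ℕ) : ℕ := Nat.sub t (Bool.rec (cd t d) 0 (Nat.beq d 0))
def big : ℕ := Nat.shiftLeft 1 210
noncomputable def hV (dl ap am bp bm T E v : ℕ) : ℕ :=
  Nat.sub (s3 big (mz ap (Nat.add T (Nat.succ (Nat.shiftRight (Nat.mul E v) 32))))
    (Nat.mul bm (Nat.shiftLeft v 96)))
    (Nat.add (mz am (nL dl v)) (Nat.mul bp (Nat.shiftLeft v 96)))
noncomputable def hT (dl ap am bp bm T E lo hi : ℕ) : ℕ :=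
  nmax (hV dl ap am bp bm T E lo) (hV dl ap am bp bm T E hi)
noncomputable def hS (dl du ap am bp bm t lo hi : ℕ) : ℕ :=
  hT dl ap am bp bm
    (Nat.sub o7 (Nat.shiftRight (Nat.mul (eL du t) (Nat.add o7 (sgT du (Nat.shiftLeft t 96)))) 128))
    (eH du t) lo hi
def tg (t s : ℕ) : ℕ := Nat.land (Nat.shiftRight t (Nat.mul 38 s)) 274877906943
noncomputable def bor (a b : Bool) : Bool := Bool.rec b true a
noncomputable def lfOK (w : Wt) (dl du l t : ℕ) (lo hi : ℕ → ℕ) : Bool :=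
  band (Nat.ble (Nat.add l 3) w.L) (band
    (allLt 8 fun s => bor (bor (Nat.beq du 0)
        (Nat.beq (Nat.add (dg (w.ap.at s) l) (dg (w.am.at s) l)) 0))
      (band (Nat.ble (hi s) (Nat.shiftLeft du 32)) (Nat.ble (tg t s) (Nat.shiftLeft du 32))))
    (Nat.ble (Nat.succ (Nat.add (sumN 8 fun s => hS dl du (dg (w.ap.at s) l) (dg (w.am.at s) l)
        (dg (w.bp.at s) l) (dg (w.bm.at s) l) (tg t s) (lo s) (hi s))
        (Nat.shiftLeft (dg w.cm l) 128)))
      (Nat.add (Nat.mul 8 big) (Nat.shiftLeft (dg w.cp l) 128))))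

inductive BTr where
  | lf (l t : ℕ) : BTr
  | nd (s m : ℕ) (x y : BTr) : BTr

noncomputable def upd (f : ℕ → ℕ) (s m : ℕ) (i : ℕ) : ℕ := Bool.rec (f i) m (Nat.beq i s)
noncomputable def BTr.go (w : Wt) (dl du : ℕ) (T : BTr) : (ℕ → ℕ) → (ℕ → ℕ) → Bool :=
  BTr.rec (motive := fun _ => (ℕ → ℕ) → (ℕ → ℕ) → Bool) (fun l t lo hi => lfOK w dl du l t lo hi)
    (fun s m _ _ x y lo hi => band (Nat.ble m 137438953472)
      (band (x lo (upd hi s m)) (y (upd lo s m) hi))) T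
noncomputable def lo0 (s : ℕ) : ℕ := Bool.rec 0 8388608 (Nat.beq s 0)
noncomputable def hi0 (dl s : ℕ) : ℕ :=
  Bool.rec 137438953472 (nmin 137438953472 (Nat.shiftLeft dl 32))
    (band (Nat.ble 1 dl) (Nat.ble s 5))
noncomputable def treeOK (w : Wt) (dl du : ℕ) (T : BTr) : Bool :=
  band (band (Nat.ble dl 1000000) (Nat.ble du 1000000))
    (band (bor (Nat.beq dl 0) (band (Nat.ble 1 du) (Nat.ble du dl))) (T.go w dl du lo0 (hi0 dl)))

end Vale.Agent.P154
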