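import Vale.Agent.P154.AChr

/-! TASK ASeg0: calculus on a segment.
Plan. `interp_ge`: `g + K/2 * θ * (1 - θ)`-type comparison: the function
`φ θ = g θ - K / 2 * θ ^ 2` has `φ'' ≤ 0`, so it is concave on `[0, 1]`
(`concaveOn_of_deriv2_nonpos'` or `AntitoneOn.concaveOn_of_deriv`, or Rolle / mean value theorem by
hand with `antitoneOn_of_deriv_nonpos`); evaluate concavity at `θ = (1 - θ) * 0 + θ * 1`.
`interp_abs`: apply it to `g` and `-g`, `θ * (1 - θ) ≤ 1 / 4`. `mon_deriv`: put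
`G θ = Complex.exp (∑ i, sx s i * Real.log (lc θ u v i))`; on the segment `mon s (lc θ u v) = (G θ).re`
and `‖G θ‖ = mon0 s (lc θ u v)` (`Real.rpow_def_of_pos`; if `sg s i = 0` then `sx s i = 0` and the
factor is `1`). With `d i = v i - u i`, `w i θ = d i / lc θ u v i`: `G' = G * ∑ sx i * w i`,
`(w i)' = - w i ^ 2`, `G'' = G * ((∑ sx i * w i)^2 - ∑ sx i * w i ^ 2) =
- G * ∑_{i<j} sx i * sx j * (w i - w j)^2` since `∑ sx i = 1`; a term with `sx s i = 0` is the constant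
`0`, so no positivity is needed for it. `mon_cont`: `mon0` is continuous on the closed orthant
(`Real.continuousAt_rpow_const`); at a point where all relevant coordinates are positive `mon` is
continuous; otherwise `mon0 = 0` and `|mon| ≤ mon0` (squeeze). -/

namespace Vale.Agent.P154

open Finset Filter Topology

theorem interp_ge {g g1 g2 : ℝ → ℝ} {K : ℝ}
    (h1 : ∀ θ, 0 ≤ θ → θ ≤ 1 → HasDerivAt g (g1 θ) θ)
    (h2 : ∀ θ, 0 ≤ θ → θ ≤ 1 → HasDerivAt g1 (g2 θ) θ) (hK : ∀ θ, 0 ≤ θ → θ ≤ 1 → g2 θ ≤ K)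
    {θ : ℝ} (a : 0 ≤ θ) (b : θ ≤ 1) :
    (1 - θ) * g 0 + θ * g 1 - K / 2 * (θ * (1 - θ)) ≤ g θ := by
  have hs : ∀ x ∈ interior (Set.Icc (0 : ℝ) 1), 0 ≤ x ∧ x ≤ 1 :=
    fun x hx => Set.mem_Icc.1 (interior_subset hx)
  have d1 : ∀ x, 0 ≤ x → x ≤ 1 → HasDerivAt (fun x => g x - K / 2 * x ^ 2) (g1 x - K * x) x := by
    intro x a b
    refine ((h1 x a b).fun_sub ((hasDerivAt_pow 2 x).const_mul (K / 2))).congr_deriv ?_
    push_cast
    ring
  have d2 : ∀ x, 0 ≤ x → x ≤ 1 → HasDerivAt (fun x => g1 x - K * x) (g2 x - K) x := by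
    intro x a b
    refine ((h2 x a b).fun_sub ((hasDerivAt_id' x).const_mul K)).congr_deriv ?_
    ring
  have hc : ConcaveOn ℝ (Set.Icc (0 : ℝ) 1) fun x => g x - K / 2 * x ^ 2 :=
    concaveOn_of_hasDerivWithinAt2_nonpos (convex_Icc 0 1)
      (fun x hx => (d1 x hx.1 hx.2).continuousAt.continuousWithinAt)
      (fun x hx => (d1 x (hs x hx).1 (hs x hx).2).hasDerivWithinAt)
      (fun x hx => (d2 x (hs x hx).1 (hs x hx).2).hasDerivWithinAt)
      (fun x hx => sub_nonpos.2 (hK x (hs x hx).1 (hs x hx).2))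
  have := hc.2 (Set.left_mem_Icc.2 zero_le_one) (Set.right_mem_Icc.2 zero_le_one)
    (sub_nonneg.2 b) a (sub_add_cancel 1 θ)
  simp only [smul_eq_mul, mul_zero, mul_one, zero_add] at this
  nlinarith [this]

theorem interp_abs {g g1 g2 : ℝ → ℝ} {K : ℝ}
    (h1 : ∀ θ, 0 ≤ θ → θ ≤ 1 → HasDerivAt g (g1 θ) θ)
    (h2 : ∀ θ, 0 ≤ θ → θ ≤ 1 → HasDerivAt g1 (g2 θ) θ) (hK : ∀ θ, 0 ≤ θ → θ ≤ 1 → |g2 θ| ≤ K)
    {θ : ℝ} (a : 0 ≤ θ) (b : θ ≤ 1) : |g θ - ((1 - θ) * g 0 + θ * g 1)| ≤ K / 8 := by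
  have k1 := interp_ge h1 h2 (fun θ a b => (abs_le.1 (hK θ a b)).2) a b
  have k2 := interp_ge (g := fun x => -g x) (g1 := fun x => -g1 x) (g2 := fun x => -g2 x) (K := K)
    (fun θ a b => (h1 θ a b).neg) (fun θ a b => (h2 θ a b).neg)
    (fun θ a b => by linarith [(abs_le.1 (hK θ a b)).1]) a b
  have hK0 : 0 ≤ K := (abs_nonneg _).trans (hK θ a b)
  have h4 : K / 2 * (θ * (1 - θ)) ≤ K / 8 := by nlinarith [mul_nonneg hK0 (sq_nonneg (θ - 1 / 2))]
  rw [abs_le]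
  constructor <;> linarith

/-- interpolation of powers -/
theorem interp_pow (p : ℕ) {x y L θ : ℝ} (hx : |x| ≤ L) (hy : |y| ≤ L) (a : 0 ≤ θ) (b : θ ≤ 1) :
    |((1 - θ) * x + θ * y) ^ p - ((1 - θ) * x ^ p + θ * y ^ p)| ≤
      (p : ℝ) * ((p - 1 : ℕ) : ℝ) * L ^ (p - 2) * (y - x) ^ 2 / 8 := by
  have d0 : ∀ t : ℝ, HasDerivAt (fun t : ℝ => (1 - t) * x + t * y) (y - x) t := by
    intro t
    refine ((((hasDerivAt_id' t).const_sub 1).mul_const x).fun_add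
      ((hasDerivAt_id' t).mul_const y)).congr_deriv ?_
    ring
  have key := interp_abs (g := fun t => ((1 - t) * x + t * y) ^ p)
    (g1 := fun t => (p : ℝ) * ((1 - t) * x + t * y) ^ (p - 1) * (y - x))
    (g2 := fun t => (p : ℝ) * (((p - 1 : ℕ) : ℝ) * ((1 - t) * x + t * y) ^ (p - 1 - 1) * (y - x)) *
      (y - x))
    (K := (p : ℝ) * ((p - 1 : ℕ) : ℝ) * L ^ (p - 2) * (y - x) ^ 2)
    (fun t _ _ => (d0 t).fun_pow p)
    (fun t _ _ => (((d0 t).fun_pow (p - 1)).const_mul (p : ℝ)).mul_const (y - x))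
    (fun t a b => by
      have hz : |(1 - t) * x + t * y| ≤ L := by
        have e1 := abs_add_le ((1 - t) * x) (t * y)
        rw [abs_mul, abs_mul, abs_of_nonneg a, abs_of_nonneg (sub_nonneg.2 b)] at e1
        nlinarith [mul_le_mul_of_nonneg_left hx (sub_nonneg.2 b), mul_le_mul_of_nonneg_left hy a]
      have e : (p : ℝ) * (((p - 1 : ℕ) : ℝ) * ((1 - t) * x + t * y) ^ (p - 1 - 1) * (y - x)) *
          (y - x) = (p : ℝ) * ((p - 1 : ℕ) : ℝ) * ((1 - t) * x + t * y) ^ (p - 2) * (y - x) ^ 2 := by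
        rw [show p - 1 - 1 = p - 2 by omega]
        ring
      rw [e, abs_mul, abs_mul, abs_pow, abs_of_nonneg (sq_nonneg (y - x)),
        abs_of_nonneg (by positivity : (0 : ℝ) ≤ (p : ℝ) * ((p - 1 : ℕ) : ℝ))]
      gcongr) a b
  simpa using key

noncomputable def dw (θ : ℝ) (u v : Fin 3 → ℝ) (i j : Fin 3) : ℝ :=
  (v i - u i) / lc θ u v i - (v j - u j) / lc θ u v j

theorem sx_re_ASeg0 (s : ℕ) (i : Fin 3) : (sx s i).re = (sg s i : ℝ) / 6 := by
  simp only [sx, Complex.add_re, Complex.ofReal_re, Complex.mul_re, Complex.I_re, Complex.I_im,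
    Complex.ofReal_im, mul_zero, zero_mul, sub_zero, add_zero]

theorem sx_im_ASeg0 (s : ℕ) (i : Fin 3) : (sx s i).im = ta s i := by
  simp only [sx, Complex.add_im, Complex.ofReal_re, Complex.mul_im, Complex.I_re, Complex.I_im,
    Complex.ofReal_im, mul_zero, mul_one, zero_add, add_zero]

theorem sx_zero_ASeg0 {s : ℕ} {i : Fin 3} (h : sg s i = 0) : sx s i = 0 := by
  have ht : ta s i = 0 := by
    by_contra h'
    exact ta_ne_AChr h' h
  apply Complex.ext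
  · rw [sx_re_ASeg0, h]
    simp
  · rw [sx_im_ASeg0, ht]
    simp

theorem sx_sum_ASeg0 (s : ℕ) : sx s 0 + sx s 1 + sx s 2 = 1 := by
  apply Complex.ext
  · have := w_sum_AChr s
    rw [Fin.sum_univ_three] at this
    simpa only [Complex.add_re, sx_re_ASeg0, Complex.one_re] using this
  · simp only [Complex.add_im, sx_im_ASeg0, Complex.one_im]
    by_cases hs : s < 6
    · simp [ta, hs]
    · simp [ta, hs]
      norm_num

theorem re_deriv_ASeg0 {F : ℝ → ℂ} {F' : ℂ} {t : ℝ} (h : HasDerivAt F F' t) :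
    HasDerivAt (fun t => (F t).re) F'.re t :=
  Complex.reCLM.hasFDerivAt.comp_hasDerivAt t h

theorem mon_deriv (s : ℕ) {u v : Fin 3 → ℝ}
    (hp : ∀ θ, 0 ≤ θ → θ ≤ 1 → ∀ i, sg s i ≠ 0 → 0 < lc θ u v i) :
    ∃ (G : ℝ → ℂ) (g1 : ℝ → ℝ), ∀ θ, 0 ≤ θ → θ ≤ 1 →
      mon s (lc θ u v) = (G θ).re ∧ ‖G θ‖ = mon0 s (lc θ u v) ∧
      HasDerivAt (fun θ => (G θ).re) (g1 θ) θ ∧
      HasDerivAt g1 (-(G θ * (sx s 0 * sx s 1 * (dw θ u v 0 1 ^ 2 : ℝ) +
        sx s 0 * sx s 2 * (dw θ u v 0 2 ^ 2 : ℝ) + sx s 1 * sx s 2 * (dw θ u v 1 2 ^ 2 : ℝ))).re) θ := by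
  have d0 : ∀ i (t : ℝ), HasDerivAt (fun t : ℝ => lc t u v i) (v i - u i) t := by
    intro i t
    refine ((((hasDerivAt_id' t).const_sub 1).mul_const (u i)).fun_add
      ((hasDerivAt_id' t).mul_const (v i))).congr_deriv ?_
    ring
  have d1 : ∀ θ, 0 ≤ θ → θ ≤ 1 → ∀ i, HasDerivAt
      (fun t : ℝ => sx s i * ((Real.log (lc t u v i) : ℝ) : ℂ))
      (sx s i * (((v i - u i) / lc θ u v i : ℝ) : ℂ)) θ := by
    intro θ a b i
    by_cases h : sg s i = 0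
    · simp only [sx_zero_ASeg0 h, zero_mul]
      exact hasDerivAt_const _ _
    · exact ((d0 i θ).log (hp θ a b i h).ne').ofReal_comp.const_mul _
  have d2 : ∀ θ, 0 ≤ θ → θ ≤ 1 → ∀ i, HasDerivAt
      (fun t : ℝ => sx s i * (((v i - u i) / lc t u v i : ℝ) : ℂ))
      (-(sx s i * (((v i - u i) / lc θ u v i : ℝ) : ℂ) ^ 2)) θ := by
    intro θ a b i
    by_cases h : sg s i = 0
    · simp only [sx_zero_ASeg0 h, zero_mul, neg_zero]
      exact hasDerivAt_const _ _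
    · have hne := (hp θ a b i h).ne'
      have e1 : HasDerivAt (fun t : ℝ => (v i - u i) / lc t u v i)
          (-((v i - u i) / lc θ u v i) ^ 2) θ := by
        refine ((hasDerivAt_const θ (v i - u i)).fun_div (d0 i θ) hne).congr_deriv ?_
        field_simp
        ring
      refine (e1.ofReal_comp.const_mul (sx s i)).congr_deriv ?_
      push_cast
      ring
  have dG : ∀ θ, 0 ≤ θ → θ ≤ 1 → HasDerivAt
      (fun t : ℝ => Complex.exp (∑ i, sx s i * ((Real.log (lc t u v i) : ℝ) : ℂ)))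
      (Complex.exp (∑ i, sx s i * ((Real.log (lc θ u v i) : ℝ) : ℂ)) *
        ∑ i, sx s i * (((v i - u i) / lc θ u v i : ℝ) : ℂ)) θ := fun θ a b =>
    (HasDerivAt.fun_sum fun i _ => d1 θ a b i).cexp
  refine ⟨fun t => Complex.exp (∑ i, sx s i * ((Real.log (lc t u v i) : ℝ) : ℂ)),
    fun t => (Complex.exp (∑ i, sx s i * ((Real.log (lc t u v i) : ℝ) : ℂ)) *
      ∑ i, sx s i * (((v i - u i) / lc t u v i : ℝ) : ℂ)).re, fun θ a b => ?_⟩
  have hre : Real.exp (∑ i, sx s i * ((Real.log (lc θ u v i) : ℝ) : ℂ)).re =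
      mon0 s (lc θ u v) := by
    rw [Complex.re_sum, Real.exp_sum]
    refine Finset.prod_congr rfl fun i _ => ?_
    have e : (sx s i * ((Real.log (lc θ u v i) : ℝ) : ℂ)).re =
        Real.log (lc θ u v i) * ((sg s i : ℝ) / 6) := by
      rw [Complex.re_mul_ofReal, sx_re_ASeg0, mul_comm]
    rw [e]
    by_cases h : sg s i = 0
    · simp [h]
    · exact (Real.rpow_def_of_pos (hp θ a b i h) _).symm
  have him : (∑ i, sx s i * ((Real.log (lc θ u v i) : ℝ) : ℂ)).im =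
      ∑ i, ta s i * Real.log (lc θ u v i) := by
    rw [Complex.im_sum]
    refine Finset.sum_congr rfl fun i _ => ?_
    rw [Complex.im_mul_ofReal, sx_im_ASeg0]
  refine ⟨?_, ?_, re_deriv_ASeg0 (dG θ a b), ?_⟩
  · rw [Complex.exp_re, hre, him]
    rfl
  · rw [Complex.norm_exp, hre]
  · have := re_deriv_ASeg0 ((dG θ a b).fun_mul (HasDerivAt.fun_sum fun i (_ : i ∈ univ) =>
      d2 θ a b i))
    convert this using 1
    rw [← Complex.neg_re]
    congr 1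
    have hs := sx_sum_ASeg0 s
    simp only [Fin.sum_univ_three (fun i => sx s i * (((v i - u i) / lc θ u v i : ℝ) : ℂ)),
      Fin.sum_univ_three (fun i => -(sx s i * (((v i - u i) / lc θ u v i : ℝ) : ℂ) ^ 2)), dw,
      Complex.ofReal_pow, Complex.ofReal_sub ((v _ - u _) / _)]
    generalize Complex.exp _ = E
    generalize (((v 0 - u 0) / lc θ u v 0 : ℝ) : ℂ) = w0
    generalize (((v 1 - u 1) / lc θ u v 1 : ℝ) : ℂ) = w1
    generalize (((v 2 - u 2) / lc θ u v 2 : ℝ) : ℂ) = w2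
    linear_combination (-E * (sx s 0 * w0 ^ 2 + sx s 1 * w1 ^ 2 + sx s 2 * w2 ^ 2)) * hs

theorem nrm_ASeg0 {z w : ℂ} {c : ℕ}
    (h : 1296 * ((z.re ^ 2 + z.im ^ 2) * (w.re ^ 2 + w.im ^ 2)) ≤ (c : ℝ) ^ 2) :
    36 * ‖z * w‖ ≤ c := by
  refine le_of_sq_le_sq ?_ (Nat.cast_nonneg c)
  rw [mul_pow, norm_mul, mul_pow, Complex.sq_norm, Complex.sq_norm, Complex.normSq_apply,
    Complex.normSq_apply]
  refine le_trans (le_of_eq ?_) h
  ring

theorem norm_sx (s : ℕ) : 36 * ‖sx s 0 * sx s 1‖ ≤ wt s 0 1 ∧ 36 * ‖sx s 0 * sx s 2‖ ≤ wt s 0 2 ∧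
    36 * ‖sx s 1 * sx s 2‖ ≤ wt s 1 2 := by
  match s with
  | 0 | 1 | 2 | 3 | 4 | 5 | 6 =>
    refine ⟨nrm_ASeg0 ?_, nrm_ASeg0 ?_, nrm_ASeg0 ?_⟩ <;>
      simp [sx_re_ASeg0, sx_im_ASeg0, sg, ta, wt] <;> norm_num
  | n + 7 =>
    have h1 : ¬ n + 7 < 6 := by omega
    have h2 : n + 7 ≠ 6 := by omega
    refine ⟨nrm_ASeg0 ?_, nrm_ASeg0 ?_, nrm_ASeg0 ?_⟩ <;>
      simp [sx_re_ASeg0, sx_im_ASeg0, sg, ta, wt, h1] <;> norm_num

theorem mon_cont (s : ℕ) {f : Fin 3 → ℝ} (hf : ∀ i, 0 ≤ f i) :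
    Tendsto (fun ε : ℝ => mon s fun i => f i + ε) (𝓝[>] 0) (𝓝 (mon s f)) := by
  have t0 : ∀ i, Tendsto (fun ε : ℝ => f i + ε) (𝓝[>] 0) (𝓝 (f i)) := by
    intro i
    have : Tendsto (fun ε : ℝ => f i + ε) (𝓝 0) (𝓝 (f i + 0)) :=
      tendsto_const_nhds.add tendsto_id
    rw [add_zero] at this
    exact this.mono_left nhdsWithin_le_nhds
  have t1 : Tendsto (fun ε : ℝ => mon0 s fun i => f i + ε) (𝓝[>] 0) (𝓝 (mon0 s f)) :=
    tendsto_finsetProd _ fun i _ => (t0 i).rpow_const (Or.inr (by positivity))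
  by_cases h : mon0 s f = 0
  · have e : mon s f = 0 := by rw [mon_eq_AChr, h, zero_mul]
    rw [e]
    rw [h] at t1
    refine squeeze_zero_norm' ?_ t1
    filter_upwards [self_mem_nhdsWithin] with ε hε
    exact abs_mon_le s fun i => add_nonneg (hf i) (le_of_lt hε)
  · refine t1.mul (Real.continuous_cos.continuousAt.tendsto.comp
      (tendsto_finsetSum _ fun i _ => ?_))
    by_cases ht : ta s i = 0
    · simp only [ht, zero_mul]
      exact tendsto_const_nhds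
    · exact ((t0 i).log (ne_of_mon0_AChr h (ta_ne_AChr ht))).const_mul _

end Vale.Agent.P154
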