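import Vale.Agent.P154.APar
import Vale.Agent.P154.ASeg0

/-! TASK ACenP: the polynomials of a cell are lower bounds for the Taylor polynomials.
Plan. `ev_horE`: induction on `n`. So `(c.pol f).ev x = H * ∑ j < 7, (∑ k < c.n, f j k * t^k) * τ^j`
and `(c.pol0 g).ev x = H * ∑ k < c.n, g k * t^k` with `H = c.Hs x / 2^48 ≥ 0`. `kR_near`:
`Int.shiftRight_eq_div_pow`, floor division, `zr_near`. `Cel.phi_le`: compare the coefficients of
`t^k` for `k < c.n`, `K = k + sh`. If `2 ≤ K ≤ 18`: with `p = K - 2`,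
`(1 - θ) * ∑ kR l1 * τ^j + θ * ∑ kR l2 * τ^j` differs from
`2^48 * zp s K τ * ((1 - θ) * y1^p + θ * y2^p)` by at most `7 * (1 + 1/4096) ≤ 8`, this differs from
`2^48 * zp s K τ * y^p` by at most `2^48 * zn / 2^60 * p (p - 1) (L/1024)^(p-2) (D/1024)^2 / 8`
(`interp_pow`, `abs_zp_le`), and `eR D L s K` is at least the sum (`lt_shr`). If `K = 19` then `kR = 0`
and `eR ≥ 2^48 * zNr s * (L/1024)^17`; otherwise both vanish. Reindex the sum in `gp`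
(`Finset.sum_Ico_eq_sum_range`, or write both sides as sums over `range` with `if`). -/

namespace Vale.Agent.P154

open Finset

theorem ev_horE (x : ℕ → ℝ) (m H : Ex) (f : ℕ → Ex) {t : ℝ} (ht : m.ev x = H.ev x * t) (n : ℕ) :
    (horE m H f (n + 1)).ev x = H.ev x ^ n * ∑ k ∈ range (n + 1), (f k).ev x * t ^ k :=  by
  induction n with
  | zero =>
    change (Ex.add (Ex.mul H (Ex.c 0)) (Ex.mul (f 0) (Ex.pw m 0))).ev x = _
    simp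
  | succ n ih =>
    change (Ex.add (Ex.mul H (horE m H f (n + 1))) (Ex.mul (f (n + 1)) (Ex.pw m (n + 1)))).ev x = _
    rw [Ex.ev_add, Ex.ev_mul, Ex.ev_mul, Ex.ev_pw, ih, ht, sum_range_succ _ (n + 1)]
    ring

theorem shrI_ACenP (M : ℤ) (n : ℕ) : |((Int.shiftRight M n : ℤ) : ℝ) - M / 2 ^ n| ≤ 1 := by
  change |((M >>> n : ℤ) : ℝ) - _| ≤ 1
  rw [Int.shiftRight_eq_div_pow]
  have hp : (0 : ℤ) < ((2 ^ n : ℕ) : ℤ) := by positivity
  have h1 := Int.ediv_mul_le M hp.ne'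
  have h2 := Int.lt_ediv_add_one_mul_self M hp
  generalize M / ((2 ^ n : ℕ) : ℤ) = q at h1 h2 ⊢
  have h3 : (q : ℝ) * 2 ^ n ≤ M := by exact_mod_cast h1
  have h4 : (M : ℝ) < (q + 1) * 2 ^ n := by exact_mod_cast h2
  have h5 : (0 : ℝ) < 2 ^ n := by positivity
  rw [← le_div_iff₀ h5] at h3
  rw [← div_lt_iff₀ h5] at h4
  rw [abs_le]
  constructor <;> linarith

theorem inK_ACenP (k : ℕ) : inK k = true ↔ 2 ≤ k ∧ k ≤ 18 := by
  rw [inK, band_iff, Nat.ble_eq, Nat.ble_eq]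

theorem abs_y_ACenP {l : ℤ} {L : ℕ} (hl : |l| ≤ L) : |(l : ℝ) / 1024| ≤ (L : ℝ) / 1024 := by
  have h : |(l : ℝ)| ≤ L := by exact_mod_cast hl
  rw [abs_div, abs_of_pos (by norm_num : (0 : ℝ) < 1024)]
  linarith

theorem kR_near {s k j : ℕ} (hs : s < 8) (h2 : 2 ≤ k) (hk : k < 19) (hj : j < 7) {l : ℤ}
    (hl : |l| ≤ 1024) :
    |(kR l s k j : ℝ) - 2 ^ 48 * (zq s k j * ((l : ℝ) / 1024) ^ (k - 2))| ≤ 1 + 1 / 4096 :=  by
  obtain ⟨p, rfl⟩ : ∃ p, k = p + 2 := ⟨k - 2, by omega⟩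
  have e1 : kR l s (p + 2) j = Int.shiftRight (zr s (p + 2) j * l ^ p) (10 * p + 12) := by
    rw [kR, (inK_ACenP _).2 ⟨by omega, by omega⟩]
    have e2 : Nat.sub (Nat.mul 10 (p + 2)) 8 = 10 * p + 12 := by
      change 10 * (p + 2) - 8 = _
      omega
    rw [e2]
    rfl
  have h1 := shrI_ACenP (zr s (p + 2) j * l ^ p) (10 * p + 12)
  have h3 := zr_near hs hk hj
  have h4 : |(l : ℝ) / 1024| ≤ 1 := by
    have := abs_y_ACenP (L := 1024) hl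
    norm_num at this ⊢
    exact this
  have h5 : |((l : ℝ) / 1024) ^ p| ≤ 1 := by
    rw [abs_pow]
    exact pow_le_one₀ (abs_nonneg _) h4
  have e3 : ((zr s (p + 2) j * l ^ p : ℤ) : ℝ) / 2 ^ (10 * p + 12) =
      2 ^ 48 * ((zr s (p + 2) j : ℝ) / 2 ^ 60 * ((l : ℝ) / 1024) ^ p) := by
    rw [pow_add, pow_mul, div_pow]
    push_cast
    field_simp
    norm_num
  rw [e3, ← e1] at h1
  rw [Nat.add_sub_cancel]
  generalize ((l : ℝ) / 1024) ^ p = u at h1 h5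
  generalize (zr s (p + 2) j : ℝ) / 2 ^ 60 = a at h1 h3
  generalize zq s (p + 2) j = b at h3
  have h6 : |(b - a) * u| ≤ 1 / 2 ^ 60 := by
    rw [abs_mul]
    exact (mul_le_of_le_one_right (abs_nonneg _) h5).trans h3
  rw [abs_le] at h1 h6 ⊢
  constructor <;> nlinarith [h1.1, h1.2, h6.1, h6.2]

theorem Cel.Hs_pos {c : Cel} {x : ℕ → ℝ} {t τ : ℝ} (h : c.At x t τ) : 0 < c.Hs x :=  by
  have h0 := h.1 0
  have h1 := h.1 1
  unfold Cel.Hs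
  positivity

theorem ev_lin_ACenP (x : ℕ → ℝ) (i : ℕ) (a b : ℤ) : (lin i a b).ev x = a + b * x i := rfl

theorem ev_polT_ACenP {c : Cel} {x : ℕ → ℝ} {t τ : ℝ} (h : c.At x t τ) (hn : 1 ≤ c.n) (g : ℕ → ℤ) :
    (c.polT g).ev x = (33 + 33 * x 0) ^ (c.n - 1) * ∑ k ∈ range c.n, (g k : ℝ) * t ^ k := by
  have e : (lin 0 33 33).ev x = 33 + 33 * x 0 := by
    rw [ev_lin_ACenP]
    push_cast
    rfl
  have h1 := ev_horE x (lin 0 c.t1 c.t2) (lin 0 33 33) (fun k => Ex.c (g k)) (t := t)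
    (by rw [e, ev_lin_ACenP]; exact h.2.1) (c.n - 1)
  rw [Nat.sub_add_cancel hn, e] at h1
  exact h1

theorem ev_H_ACenP (x : ℕ → ℝ) : (lin 1 8 8).ev x = 8 + 8 * x 1 := by
  rw [ev_lin_ACenP]
  push_cast
  rfl

theorem ev_pol0_ACenP {c : Cel} {x : ℕ → ℝ} {t τ : ℝ} (h : c.At x t τ) (hn : 1 ≤ c.n) (g : ℕ → ℤ) :
    (c.pol0 g).ev x = c.Hs x / 2 ^ 48 * ∑ k ∈ range c.n, (g k : ℝ) * t ^ k := by
  rw [Cel.pol0, Ex.ev_mul, Ex.ev_pw, ev_H_ACenP, ev_polT_ACenP h hn, Cel.Hs]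
  ring

theorem ev_pol_ACenP {c : Cel} {x : ℕ → ℝ} {t τ : ℝ} (h : c.At x t τ) (hn : 1 ≤ c.n)
    (f : ℕ → ℕ → ℤ) : (c.pol f).ev x =
      c.Hs x / 2 ^ 48 * ∑ k ∈ range c.n, (∑ j ∈ range 7, (f j k : ℝ) * τ ^ j) * t ^ k := by
  have h1 := ev_horE x (lin 1 c.u1 c.u2) (lin 1 8 8) (fun j => c.polT (f j)) (t := τ)
    (by rw [ev_H_ACenP, ev_lin_ACenP]; exact h.2.2) 6
  have e : ∑ k ∈ range c.n, (∑ j ∈ range 7, (f j k : ℝ) * τ ^ j) * t ^ k =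
      ∑ j ∈ range 7, (∑ k ∈ range c.n, (f j k : ℝ) * t ^ k) * τ ^ j := by
    simp only [sum_mul]
    rw [sum_comm]
    exact sum_congr rfl fun j _ => sum_congr rfl fun k _ => by ring
  refine h1.trans ?_
  rw [e, ev_H_ACenP, mul_sum, mul_sum]
  refine sum_congr rfl fun j _ => ?_
  rw [ev_polT_ACenP h hn, Cel.Hs]
  ring

theorem Cel.ev_one {c : Cel} {x : ℕ → ℝ} {t τ : ℝ} (h : c.At x t τ) (hn : 1 ≤ c.n) (neg : Bool) :
    (c.one neg).ev x = sgI neg * c.Hs x :=  by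
  rw [Cel.one, ev_pol0_ACenP h hn, sum_eq_single 0]
  · change _ * (((sgI neg * 281474976710656 : ℤ) : ℝ) * _) = _
    push_cast
    ring
  · intro k _ hk
    obtain ⟨k, rfl⟩ := Nat.exists_eq_succ_of_ne_zero hk
    change ((0 : ℤ) : ℝ) * _ = 0
    simp
  · intro h0
    exact absurd (mem_range.2 hn) h0

theorem sg_le_ACenP (neg : Bool) {a b e : ℝ} (h : |a - b| ≤ e) :
    sgI neg * a - e ≤ sgI neg * b := by
  rw [abs_le] at h
  cases neg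
  · change ((1 : ℤ) : ℝ) * a - e ≤ ((1 : ℤ) : ℝ) * b
    push_cast
    linarith [h.2]
  · change ((-1 : ℤ) : ℝ) * a - e ≤ ((-1 : ℤ) : ℝ) * b
    push_cast
    linarith [h.1]

theorem kS_ACenP {s k : ℕ} (hs : s < 8) (h2 : 2 ≤ k) (hk : k < 19) {l : ℤ} (hl : |l| ≤ 1024)
    {τ : ℝ} (hτ : |τ| ≤ 1) :
    |∑ j ∈ range 7, (kR l s k j : ℝ) * τ ^ j - 2 ^ 48 * (zp s k τ * ((l : ℝ) / 1024) ^ (k - 2))| ≤
      8 := by
  rw [zp, sum_mul, mul_sum, ← sum_sub_distrib]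
  refine (abs_sum_le_sum_abs _ _).trans ((sum_le_card_nsmul _ _ (1 + 1 / 4096) fun j hj => ?_).trans
    (by rw [card_range]; norm_num))
  have h1 := kR_near hs h2 hk (mem_range.1 hj) hl
  have e : (kR l s k j : ℝ) * τ ^ j - 2 ^ 48 * (zq s k j * τ ^ j * ((l : ℝ) / 1024) ^ (k - 2)) =
      ((kR l s k j : ℝ) - 2 ^ 48 * (zq s k j * ((l : ℝ) / 1024) ^ (k - 2))) * τ ^ j := by ring
  rw [e, abs_mul, abs_pow]
  exact (mul_le_of_le_one_right (abs_nonneg _) (pow_le_one₀ (abs_nonneg _) hτ)).trans h1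

theorem eR_in_ACenP (D L s p : ℕ) (hp : p + 2 ≤ 18) :
    8 + 2 ^ 48 * ((zn s (p + 2) : ℝ) / 2 ^ 60 * ((p : ℝ) * ((p - 1 : ℕ) : ℝ) *
      ((L : ℝ) / 1024) ^ (p - 2) * ((D : ℝ) / 1024) ^ 2 / 8)) ≤ eR D L s (p + 2) := by
  have e1 : eR D L s (p + 2) = 9 + Nat.shiftRight (D * D * (p * (p - 1)) *
      (L ^ (p - 2) * zn s (p + 2))) (10 * p + 15) := by
    rw [eR, (inK_ACenP _).2 ⟨by omega, hp⟩]
    have e2 : Nat.sub (Nat.mul 10 (p + 2)) 5 = 10 * p + 15 := by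
      change 10 * (p + 2) - 5 = _
      omega
    have e3 : Nat.sub (p + 2) 3 = p - 1 := by
      change p + 2 - 3 = _
      omega
    have e4 : Nat.sub (p + 2) 4 = p - 2 := by
      change p + 2 - 4 = _
      omega
    rw [e2, e3, e4]
    rfl
  have h1 := lt_shr (D * D * (p * (p - 1)) * (L ^ (p - 2) * zn s (p + 2))) (10 * p + 15)
  have e5 : 2 ^ 48 * ((zn s (p + 2) : ℝ) / 2 ^ 60 * ((p : ℝ) * ((p - 1 : ℕ) : ℝ) *
      ((L : ℝ) / 1024) ^ (p - 2) * ((D : ℝ) / 1024) ^ 2 / 8)) =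
      ((D * D * (p * (p - 1)) * (L ^ (p - 2) * zn s (p + 2)) : ℕ) : ℝ) / 2 ^ (10 * p + 15) := by
    rcases Nat.lt_or_ge p 2 with h | h
    · interval_cases p <;> simp
    · obtain ⟨q, rfl⟩ : ∃ q, p = q + 2 := ⟨p - 2, by omega⟩
      rw [Nat.add_sub_cancel, show 10 * (q + 2) + 15 = 10 * q + 35 by ring, pow_add, pow_mul,
        div_pow, Nat.cast_mul, Nat.cast_mul, Nat.cast_mul, Nat.cast_mul, Nat.cast_mul, Nat.cast_pow]
      generalize ((q + 2 - 1 : ℕ) : ℝ) = a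
      generalize ((q + 2 : ℕ) : ℝ) = b
      field_simp
      norm_num
      ring
  rw [e5, e1, Nat.cast_add, Nat.cast_ofNat]
  linarith

theorem eR_19_ACenP (D L s : ℕ) : 2 ^ 48 * (zNr s * ((L : ℝ) / 1024) ^ 17) ≤ eR D L s 19 := by
  have e1 : eR D L s 19 = Nat.shiftRight (zN.at s * L ^ 17) 162 + 1 := rfl
  have h1 := lt_shr (zN.at s * L ^ 17) 162
  have e2 : 2 ^ 48 * (zNr s * ((L : ℝ) / 1024) ^ 17) = ((zN.at s * L ^ 17 : ℕ) : ℝ) / 2 ^ 162 := by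
    rw [zNr, V8.r, Nat.cast_mul, Nat.cast_pow]
    ring
  rw [e2, e1, Nat.cast_add, Nat.cast_one]
  exact h1.le

theorem coef_ACenP {τ : ℝ} (hτ : |τ| ≤ 1) {l1 l2 : ℤ} {D L : ℕ} (a1 : |l1| ≤ L)
    (a2 : |l2| ≤ L) (a3 : L ≤ 1024) (a4 : |l2 - l1| ≤ D) {θ : ℝ} (b1 : 0 ≤ θ) (b2 : θ ≤ 1)
    {s : ℕ} (hs : s < 8) (neg : Bool) (K : ℕ) :
    sgI neg * ((1 - θ) * ∑ j ∈ range 7, (kR l1 s K j : ℝ) * τ ^ j +
        θ * ∑ j ∈ range 7, (kR l2 s K j : ℝ) * τ ^ j) - eR D L s K ≤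
      2 ^ 48 * (sgI neg * (if 2 ≤ K ∧ K ≤ 18 then
          zp s K τ * (((1 - θ) * l1 + θ * l2) / 1024) ^ (K - 2) else 0) -
        if K = 19 then zNr s * ((L : ℝ) / 1024) ^ 17 else 0) := by
  by_cases hK : 2 ≤ K ∧ K ≤ 18
  · rw [if_pos hK, if_neg (by omega), sub_zero, mul_left_comm]
    refine sg_le_ACenP neg ?_
    obtain ⟨p, rfl⟩ : ∃ p, K = p + 2 := ⟨K - 2, by omega⟩
    have a5 : (L : ℤ) ≤ 1024 := by exact_mod_cast a3
    have k1 := kS_ACenP hs hK.1 (by omega) (a1.trans a5) hτ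
    have k2 := kS_ACenP hs hK.1 (by omega) (a2.trans a5) hτ
    have k3 := interp_pow p (abs_y_ACenP a1) (abs_y_ACenP a2) b1 b2
    have k4 := abs_zp_le hs (k := p + 2) (by omega) hτ
    have k5 := eR_in_ACenP D L s p hK.2
    have k6 : ((l2 : ℝ) / 1024 - (l1 : ℝ) / 1024) ^ 2 ≤ ((D : ℝ) / 1024) ^ 2 := by
      have := abs_y_ACenP a4
      rw [Int.cast_sub, sub_div] at this
      rw [← sq_abs]
      exact pow_le_pow_left₀ (abs_nonneg _) this 2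
    have k7 : (p : ℝ) * ((p - 1 : ℕ) : ℝ) * ((L : ℝ) / 1024) ^ (p - 2) *
        ((l2 : ℝ) / 1024 - (l1 : ℝ) / 1024) ^ 2 / 8 ≤
        (p : ℝ) * ((p - 1 : ℕ) : ℝ) * ((L : ℝ) / 1024) ^ (p - 2) * ((D : ℝ) / 1024) ^ 2 / 8 :=
      div_le_div_of_nonneg_right (mul_le_mul_of_nonneg_left k6 (by positivity)) (by norm_num)
    have k8 := mul_le_mul k4 (k3.trans k7) (abs_nonneg _) (by positivity)
    rw [← abs_mul] at k8
    have e : ((1 - θ) * l1 + θ * l2 : ℝ) / 1024 =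
        (1 - θ) * ((l1 : ℝ) / 1024) + θ * ((l2 : ℝ) / 1024) := by ring
    rw [Nat.add_sub_cancel] at k1 k2 ⊢
    rw [e]
    refine le_trans ?_ k5
    generalize (zn s (p + 2) : ℝ) / 2 ^ 60 * ((p : ℝ) * ((p - 1 : ℕ) : ℝ) *
      ((L : ℝ) / 1024) ^ (p - 2) * ((D : ℝ) / 1024) ^ 2 / 8) = E at k8 ⊢
    generalize ((1 - θ) * ((l1 : ℝ) / 1024) + θ * ((l2 : ℝ) / 1024)) ^ p = u at k8 ⊢
    generalize ((l1 : ℝ) / 1024) ^ p = u1 at k1 k8
    generalize ((l2 : ℝ) / 1024) ^ p = u2 at k2 k8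
    generalize ∑ j ∈ range 7, (kR l1 s (p + 2) j : ℝ) * τ ^ j = S1 at k1 ⊢
    generalize ∑ j ∈ range 7, (kR l2 s (p + 2) j : ℝ) * τ ^ j = S2 at k2 ⊢
    generalize zp s (p + 2) τ = z at k1 k2 k8 ⊢
    have e2 : (1 - θ) * S1 + θ * S2 - 2 ^ 48 * (z * u) =
        (1 - θ) * (S1 - 2 ^ 48 * (z * u1)) + θ * (S2 - 2 ^ 48 * (z * u2)) -
          2 ^ 48 * (z * (u - ((1 - θ) * u1 + θ * u2))) := by ring
    rw [e2]
    generalize S1 - 2 ^ 48 * (z * u1) = d1 at k1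
    generalize S2 - 2 ^ 48 * (z * u2) = d2 at k2
    generalize z * (u - ((1 - θ) * u1 + θ * u2)) = d3 at k8
    have b3 : 0 ≤ 1 - θ := sub_nonneg.2 b2
    rw [abs_le] at k1 k2 k8 ⊢
    have m1 := mul_le_mul_of_nonneg_left k1.1 b3
    have m2 := mul_le_mul_of_nonneg_left k1.2 b3
    have m3 := mul_le_mul_of_nonneg_left k2.1 b1
    have m4 := mul_le_mul_of_nonneg_left k2.2 b1
    constructor <;> linarith [k8.1, k8.2]
  · have hi : inK K = false := by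
      rw [← Bool.not_eq_true, inK_ACenP]
      exact hK
    have hz : ∀ (l : ℤ) (j : ℕ), kR l s K j = 0 := fun l j => by rw [kR, hi]
    simp only [hz, Int.cast_zero, zero_mul, sum_const_zero, mul_zero, add_zero, if_neg hK, zero_sub]
    split_ifs with h19
    · rw [h19]
      linarith [eR_19_ACenP D L s]
    · simp

theorem Cel.phi_le {c : Cel} {x : ℕ → ℝ} {t τ : ℝ} (h : c.At x t τ) (h0 : 0 ≤ t) (hτ : |τ| ≤ 1)
    {sh : ℕ} (hsh : sh ≤ 19) (hn : 20 ≤ c.n + sh) {l1 l2 : ℤ} {D L : ℕ} (a1 : |l1| ≤ L)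
    (a2 : |l2| ≤ L) (a3 : L ≤ 1024) (a4 : |l2 - l1| ≤ D) {θ : ℝ} (b1 : 0 ≤ θ) (b2 : θ ≤ 1)
    {s : ℕ} (hs : s < 8) (neg : Bool) :
    (1 - θ) * (c.phi l1 D L sh neg s).ev x + θ * (c.phi l2 D L sh neg s).ev x ≤
      c.Hs x * (sgI neg * gp s sh (((1 - θ) * l1 + θ * l2) / 1024) t τ -
        zNr s * ((L : ℝ) / 1024) ^ 17 * t ^ (19 - sh)) :=  by
  have hn1 : 1 ≤ c.n := by omega
  have hH : 0 ≤ c.Hs x / 2 ^ 48 := div_nonneg (Cel.Hs_pos h).le (by positivity)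
  have e1 : ∀ l : ℤ, (c.phi l D L sh neg s).ev x = c.Hs x / 2 ^ 48 * ∑ k ∈ range c.n,
      (sgI neg * ∑ j ∈ range 7, (kR l s (k + sh) j : ℝ) * τ ^ j - eR D L s (k + sh)) * t ^ k := by
    intro l
    rw [Cel.phi, Ex.ev_add, Ex.ev_mul, Ex.ev_mul, ev_pol_ACenP h hn1, ev_pol0_ACenP h hn1, Ex.ev_c,
      Ex.ev_c, mul_left_comm, mul_left_comm _ (c.Hs x / 2 ^ 48), ← mul_add, mul_sum, mul_sum,
      ← sum_add_distrib]
    congr 1
    refine sum_congr rfl fun k _ => ?_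
    change _ * ((∑ j ∈ range 7, (kR l s (k + sh) j : ℝ) * τ ^ j) * _) +
      _ * ((((eR D L s (k + sh) : ℕ) : ℤ) : ℝ) * _) = _
    push_cast
    ring
  obtain ⟨y, hy⟩ : ∃ y : ℝ, y = ((1 - θ) * l1 + θ * l2) / 1024 := ⟨_, rfl⟩
  have e2 : gp s sh y t τ = ∑ k ∈ range c.n, (if 2 ≤ k + sh ∧ k + sh ≤ 18 then
      zp s (k + sh) τ * y ^ (k + sh - 2) else 0) * t ^ k := by
    have e3 : ∑ K ∈ Ico sh (sh + c.n), (if 2 ≤ K ∧ K ≤ 18 then
        zp s K τ * y ^ (K - 2) else 0) * t ^ (K - sh) = ∑ k ∈ range c.n,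
        (if 2 ≤ k + sh ∧ k + sh ≤ 18 then zp s (k + sh) τ * y ^ (k + sh - 2) else 0) * t ^ k := by
      rw [sum_Ico_eq_sum_range, Nat.add_sub_cancel_left]
      exact sum_congr rfl fun k _ => by rw [Nat.add_sub_cancel_left, add_comm sh k]
    rw [← e3, gp]
    refine sum_subset_zero_on_sdiff (fun K hK => ?_) (fun K hK => ?_) fun K hK => ?_
    · rw [mem_Ico] at hK ⊢
      omega
    · rw [mem_sdiff, mem_Ico, mem_Ico] at hK
      rw [if_neg (by omega), zero_mul]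
    · rw [mem_Ico] at hK
      rw [if_pos (by omega)]
  have e4 : zNr s * ((L : ℝ) / 1024) ^ 17 * t ^ (19 - sh) = ∑ k ∈ range c.n,
      (if k + sh = 19 then zNr s * ((L : ℝ) / 1024) ^ 17 else 0) * t ^ k := by
    rw [sum_eq_single (19 - sh), if_pos (by omega)]
    · intro k _ hk
      rw [if_neg (by omega), zero_mul]
    · intro hk
      exact absurd (mem_range.2 (by omega)) hk
  have e5 : ∀ a : ℝ, c.Hs x * a = c.Hs x / 2 ^ 48 * (2 ^ 48 * a) := fun a => by ring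
  rw [e1, e1, mul_left_comm, mul_left_comm θ, ← mul_add, e5, ← hy, e2, e4]
  refine mul_le_mul_of_nonneg_left ?_ hH
  rw [mul_sum, mul_sum, mul_sum, ← sum_add_distrib, ← sum_sub_distrib, mul_sum]
  refine sum_le_sum fun k _ => ?_
  have k1 := mul_le_mul_of_nonneg_right
    (coef_ACenP hτ a1 a2 a3 a4 b1 b2 hs neg (k + sh)) (pow_nonneg h0 k)
  rw [← hy] at k1
  refine le_of_eq_of_le ?_ (k1.trans_eq ?_) <;> ring

end Vale.Agent.P154
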