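import Vale.Agent.P154.ABase

/-! TASK ACenR: the packed positivity check in a cell of the central disc.
Plan. Degrees: `Ex.dg`, `Ex.nv` unfold by `rfl` on constructors (`a + (b - a)` is the maximum);
induction for `Ex.pw` (`dg i (pw a k) = k * dg i a`) and for `horE` (`dg 0 (polT) ≤ c.n`,
`dg 1 (polT) = 0`, `dg 1 (pol) ≤ 7`, `dg 0 (pol) ≤ c.n`). `Cel.row_sound`: build the expression
`e = ∑ Ex.mul (Ex.c x) (e1 false s) + ...` (define it by recursion on `s`, or with `Ex.sum` of a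
`List.map` over `List.range 8`) and prove `posChk 256 [c.n + 1, 8] e = true`: degrees from `Cel.Deg`;
`nrm e ≤ (∑ x) * 2^190 ≤ 2^254`; `strd [c.n + 1, 8] 2 = c.sz`; since `c.kz a ≥ 0` for all parts,
`(c.kn a : ℤ) = kv a + c.om`, so `v - (∑ x) * c.om = kv e` in `ℤ` and
`Int.toNat (kv e + mask) = v + mask - (∑ x) * c.om` (`Int.toNat_sub'` or `omega`). Then
`posChk_sound`. `Cel.cover`: induction on the list; for `a ≤ y < b` with `y = 8 τ` take
`x 1 = (y - a) / (b - y)`, and the same for `33 t`. -/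

namespace Vale.Agent.P154

theorem dg_add_ACenR (i : ℕ) (a b : Ex) : (Ex.add a b).dg i = max (a.dg i) (b.dg i) :=
  nmax_eq _ _
theorem dg_mul_ACenR (i : ℕ) (a b : Ex) : (Ex.mul a b).dg i = a.dg i + b.dg i := rfl
theorem nv_add_ACenR (a b : Ex) : (Ex.add a b).nv = max a.nv b.nv := nmax_eq _ _
theorem nv_mul_ACenR (a b : Ex) : (Ex.mul a b).nv = max a.nv b.nv := nmax_eq _ _
theorem dg_c_ACenR (i : ℕ) (z : ℤ) : (Ex.c z).dg i = 0 := rfl
theorem nv_c_ACenR (z : ℤ) : (Ex.c z).nv = 0 := rfl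

theorem dg_pw_ACenR (i : ℕ) (a : Ex) (k : ℕ) : (Ex.pw a k).dg i = k * a.dg i := by
  induction k with
  | zero => exact (Nat.zero_mul _).symm
  | succ k ih =>
    change a.dg i + (Ex.pw a k).dg i = _
    rw [ih]; ring

theorem nv_pw_ACenR (a : Ex) (k : ℕ) : (Ex.pw a k).nv ≤ a.nv := by
  induction k with
  | zero => exact Nat.zero_le _
  | succ k ih =>
    change (Ex.mul a (Ex.pw a k)).nv ≤ _
    rw [nv_mul_ACenR]; omega

theorem horE_succ_ACenR (m H : Ex) (f : ℕ → Ex) (k : ℕ) :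
    horE m H f (k + 1) = Ex.add (Ex.mul H (horE m H f k)) (Ex.mul (f k) (Ex.pw m k)) := rfl

theorem dg_horE_ACenR (i : ℕ) {m H : Ex} {f : ℕ → Ex} {d e : ℕ} (h1 : m.dg i ≤ d) (h2 : H.dg i ≤ d)
    (h3 : ∀ k, (f k).dg i ≤ e) (n : ℕ) : (horE m H f n).dg i ≤ n * d + e := by
  induction n with
  | zero => exact Nat.zero_le _
  | succ n ih =>
    rw [horE_succ_ACenR, dg_add_ACenR, dg_mul_ACenR, dg_mul_ACenR, dg_pw_ACenR]
    have h4 := h3 n
    have h5 := Nat.mul_le_mul_left n h1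
    rw [Nat.succ_mul]
    omega

theorem nv_horE_ACenR {m H : Ex} {f : ℕ → Ex} {N : ℕ} (h1 : m.nv ≤ N) (h2 : H.nv ≤ N)
    (h3 : ∀ k, (f k).nv ≤ N) (n : ℕ) : (horE m H f n).nv ≤ N := by
  induction n with
  | zero => exact Nat.zero_le _
  | succ n ih =>
    rw [horE_succ_ACenR, nv_add_ACenR, nv_mul_ACenR, nv_mul_ACenR]
    have h4 := h3 n
    have h5 := nv_pw_ACenR m n
    omega

theorem polT_ACenR (c : Cel) (g : ℕ → ℤ) :
    (c.polT g).nv ≤ 2 ∧ (c.polT g).dg 0 ≤ c.n ∧ (c.polT g).dg 1 ≤ 0 := by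
  refine ⟨nv_horE_ACenR (show 1 ≤ 2 by norm_num) (show 1 ≤ 2 by norm_num)
    (fun _ => Nat.zero_le _) _, ?_, ?_⟩
  · have := dg_horE_ACenR 0 (m := lin 0 c.t1 c.t2) (H := lin 0 33 33) (f := fun k => Ex.c (g k))
      (d := 1) (e := 0) le_rfl le_rfl (fun _ => le_rfl) c.n
    rw [mul_one, add_zero] at this
    exact this
  · have := dg_horE_ACenR 1 (m := lin 0 c.t1 c.t2) (H := lin 0 33 33) (f := fun k => Ex.c (g k))
      (d := 0) (e := 0) le_rfl le_rfl (fun _ => le_rfl) c.n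
    rw [mul_zero, add_zero] at this
    exact this

theorem pol_ACenR (c : Cel) (f : ℕ → ℕ → ℤ) : c.Deg (c.pol f) := by
  unfold Cel.pol
  refine ⟨nv_horE_ACenR (m := lin 1 c.u1 c.u2) (H := lin 1 8 8) (f := fun j => c.polT (f j))
    (N := 2) le_rfl le_rfl (fun j => (polT_ACenR c (f j)).1) 7, ?_, ?_⟩
  · have := dg_horE_ACenR 0 (m := lin 1 c.u1 c.u2) (H := lin 1 8 8) (f := fun j => c.polT (f j))
      (d := 0) (e := c.n) le_rfl le_rfl (fun j => (polT_ACenR c (f j)).2.1) 7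
    rw [mul_zero, zero_add] at this
    exact this
  · exact dg_horE_ACenR 1 (m := lin 1 c.u1 c.u2) (H := lin 1 8 8) (f := fun j => c.polT (f j))
      (d := 1) (e := 0) le_rfl le_rfl (fun j => (polT_ACenR c (f j)).2.2) 7

theorem pol0_ACenR (c : Cel) (g : ℕ → ℤ) : c.Deg (c.pol0 g) := by
  obtain ⟨h1, h2, h3⟩ := polT_ACenR c g
  have h4 : (Ex.pw (lin 1 8 8) 6).nv ≤ 2 := nv_pw_ACenR _ _
  have h5 : (lin 1 8 8).dg 0 = 0 := rfl
  have h6 : (lin 1 8 8).dg 1 = 1 := rfl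
  unfold Cel.pol0 Cel.Deg
  rw [nv_mul_ACenR, dg_mul_ACenR, dg_mul_ACenR, dg_pw_ACenR, dg_pw_ACenR, h5, h6]
  omega

theorem deg_add_ACenR {c : Cel} {a b : Ex} (ha : c.Deg a) (hb : c.Deg b) : c.Deg (Ex.add a b) := by
  obtain ⟨h1, h2, h3⟩ := ha
  obtain ⟨h4, h5, h6⟩ := hb
  unfold Cel.Deg
  rw [nv_add_ACenR, dg_add_ACenR, dg_add_ACenR]
  omega

theorem deg_sm_ACenR {c : Cel} {a : Ex} (ha : c.Deg a) (z : ℤ) : c.Deg (Ex.mul (Ex.c z) a) := by
  obtain ⟨h1, h2, h3⟩ := ha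
  unfold Cel.Deg
  rw [nv_mul_ACenR, dg_mul_ACenR, dg_mul_ACenR, dg_c_ACenR, dg_c_ACenR, nv_c_ACenR]
  omega

/-- the real number `r` is the value at `x` of an expression with packed value `v` and weight `X` -/
def Rep_ACenR (c : Cel) (x : ℕ → ℝ) (r : ℝ) (v X : ℕ) : Prop :=
  ∃ e : Ex, c.Deg e ∧ e.nrm ≤ X * 2 ^ 190 ∧
    (v : ℤ) = (e.kv fun i => Nat.mul 256 (strd [Nat.succ c.n, 8] i)) + X * (c.om : ℤ) ∧ e.ev x = r

theorem rep_add_ACenR {c : Cel} {x : ℕ → ℝ} {r r' : ℝ} {v v' X X' : ℕ} (h : Rep_ACenR c x r v X)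
    (h' : Rep_ACenR c x r' v' X') : Rep_ACenR c x (r + r') (v + v') (X + X') := by
  obtain ⟨e, h1, h2, h3, h4⟩ := h
  obtain ⟨e', h1', h2', h3', h4'⟩ := h'
  refine ⟨Ex.add e e', deg_add_ACenR h1 h1', ?_, ?_, by rw [Ex.ev_add, h4, h4']⟩
  · change e.nrm + e'.nrm ≤ _
    rw [add_mul]
    exact add_le_add h2 h2'
  · change _ = (e.kv _ + e'.kv _) + _
    rw [Nat.cast_add, Nat.cast_add, h3, h3']
    ring

theorem rep_leaf_ACenR {c : Cel} (x : ℕ → ℝ) {a : Ex} (hd : c.Deg a) (ho : c.ok a = true) (w : ℕ) :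
    Rep_ACenR c x (w * a.ev x) (mz w (c.kn a)) w := by
  obtain ⟨h1, h2⟩ := (band_iff _ _).1 ho
  have h3 : a.nrm ≤ 2 ^ 190 := by
    have := Nat.le_of_ble_eq_true h1
    rwa [shl_eq, one_mul] at this
  have h4 : 0 ≤ c.kz a := by
    generalize c.kz a = z at h2
    cases z with
    | ofNat n => exact Int.natCast_nonneg n
    | negSucc n => exact absurd h2 Bool.false_ne_true
  refine ⟨Ex.mul (Ex.c w) a, deg_sm_ACenR hd _, ?_, ?_, by simp⟩
  · change w * a.nrm ≤ _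
    exact Nat.mul_le_mul_left w h3
  · change _ = (w : ℤ) * a.kv _ + _
    rw [mz_eq, Nat.cast_mul, Cel.kn, Int.toNat_of_nonneg h4, ← mul_add]
    rfl

theorem rep_sum_ACenR {c : Cel} {x : ℕ → ℝ} {r : ℕ → ℝ} {v X : ℕ → ℕ} (n : ℕ)
    (h : ∀ s < n, Rep_ACenR c x (r s) (v s) (X s)) :
    Rep_ACenR c x (∑ s ∈ Finset.range n, r s) (∑ s ∈ Finset.range n, v s)
      (∑ s ∈ Finset.range n, X s) := by
  induction n with
  | zero =>
    refine ⟨Ex.c 0, ⟨Nat.zero_le _, Nat.zero_le _, Nat.zero_le _⟩, Nat.zero_le _, ?_, by simp⟩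
    change _ = (0 : ℤ) + _
    simp
  | succ n ih =>
    rw [Finset.sum_range_succ, Finset.sum_range_succ, Finset.sum_range_succ]
    exact rep_add_ACenR (ih fun s hs => h s (by omega)) (h n (by omega))

theorem rep_dt_ACenR {c : Cel} (x : ℕ → ℝ) {e : Bool → ℕ → Ex} (hd : ∀ b s, c.Deg (e b s))
    (ho : c.ok8 e = true) (xp xm : V8) :
    Rep_ACenR c x (ev8 x e xp xm) (c.dt e xp xm) (xp.sum + xm.sum) := by
  have h1 : ∀ s < 8, c.ok (e false s) = true ∧ c.ok (e true s) = true := fun s hs =>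
    (band_iff _ _).1 ((allLt_iff _ _).1 ho s hs)
  have key : ∀ (b : Bool) (y : V8), (∀ s < 8, c.ok (e b s) = true) →
      Rep_ACenR c x (∑ s ∈ Finset.range 8, y.r s * (e b s).ev x)
        (V8.map2 mz y (c.k8 (e b))).sum y.sum := by
    intro b y hb
    rw [V8.sum_eq, V8.sum_eq]
    refine rep_sum_ACenR 8 fun s hs => ?_
    rw [V8.map2_at _ _ _ hs, Cel.k8, V8.of_at _ hs]
    exact rep_leaf_ACenR x (hd b s) (hb s hs) _
  rw [ev8, Finset.sum_add_distrib]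
  exact rep_add_ACenR (key false xp fun s hs => (h1 s hs).1) (key true xm fun s hs => (h1 s hs).2)

theorem rep_fin_ACenR {c : Cel} {x : ℕ → ℝ} (hx : ∀ i, 0 ≤ x i) {r : ℝ} {v X : ℕ}
    (h : Rep_ACenR c x r v X) (hf : c.fin v X = true) : 0 ≤ r := by
  obtain ⟨e, ⟨d1, d2, d3⟩, h2, h3, rfl⟩ := h
  obtain ⟨f1, f2⟩ := (band_iff _ _).1 hf
  have f3 : X ≤ 2 ^ 64 := Nat.le_of_ble_eq_true f1
  refine posChk_sound (W := 256) (bs := [Nat.succ c.n, 8]) ?_ x hx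
  simp only [posChk, Bool.and_eq_true, Nat.ble_eq]
  refine ⟨by norm_num, d1, ?_, ?_, ?_⟩
  · have e1 : degOK e [Nat.succ c.n, 8] 0 = Bool.rec false
        (Bool.rec false true (Nat.ble (e.dg 1 + 1) 8)) (Nat.ble (e.dg 0 + 1) (c.n + 1)) := rfl
    rw [e1, Nat.ble_eq_true_of_le (Nat.succ_le_succ d2), Nat.ble_eq_true_of_le (Nat.succ_le_succ d3)]
  · rw [shl_eq, one_mul]
    have a1 : X * 2 ^ 190 ≤ 2 ^ 64 * 2 ^ 190 := Nat.mul_le_mul_right _ f3
    have a2 : (2 : ℕ) ^ 64 * 2 ^ 190 < 2 ^ (Nat.sub 256 1) := by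
      rw [← pow_add]
      exact Nat.pow_lt_pow_right (by norm_num) (by decide)
    exact (h2.trans a1).trans_lt a2
  · have e2 : strd [Nat.succ c.n, 8] [Nat.succ c.n, 8].length = c.sz := rfl
    rw [e2]
    refine Eq.trans (congrArg (fun u => mskOK u (mask 256 c.sz)) ?_) f2
    have h4 : (v : ℤ) = (e.kv fun i => Nat.mul 256 (strd [Nat.succ c.n, 8] i)) +
        ((X * c.om : ℕ) : ℤ) := by rw [h3, Nat.cast_mul]
    change Int.toNat (e.kv _ + ((mask 256 c.sz : ℕ) : ℤ)) = v + mask 256 c.sz - X * c.om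
    generalize (e.kv fun i => Nat.mul 256 (strd [Nat.succ c.n, 8] i)) = K at h4 ⊢
    generalize X * c.om = Y at h4 ⊢
    generalize mask 256 c.sz = M
    omega

theorem cover_ACenR {F : ℤ → ℤ → Bool} {y : ℝ} (hy : y ≤ 8) (us : List ℤ) (a : ℤ)
    (h : allP F us a = true) (ha : (a : ℝ) ≤ y) :
    ∃ a b : ℤ, F a b = true ∧ (a : ℝ) ≤ y ∧ y < b := by
  induction us generalizing a with
  | nil =>
    have h1 : 9 ≤ Int.toNat a := Nat.le_of_ble_eq_true h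
    have h2 : (9 : ℤ) ≤ a := by omega
    have h3 : (9 : ℝ) ≤ a := by exact_mod_cast h2
    linarith
  | cons b us ih =>
    obtain ⟨h1, h2⟩ := (band_iff _ _).1 h
    rcases lt_or_ge y b with hb | hb
    · exact ⟨a, b, h1, ha, hb⟩
    · exact ih b h2 hb

theorem Cel.deg_phi (c : Cel) (l : ℤ) (D L sh : ℕ) (neg : Bool) (s : ℕ) :
    c.Deg (c.phi l D L sh neg s) :=   deg_add_ACenR (deg_sm_ACenR (pol_ACenR c _) _) (deg_sm_ACenR (pol0_ACenR c _) _)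

theorem Cel.deg_one (c : Cel) (neg : Bool) : c.Deg (c.one neg) :=  pol0_ACenR c _

theorem Cel.row_sound (c : Cel) {e1 e2 e3 : Bool → ℕ → Ex} (d1 : ∀ b s, c.Deg (e1 b s))
    (d2 : ∀ b s, c.Deg (e2 b s)) (d3 : ∀ b s, c.Deg (e3 b s)) (hp : c.pre e1 e2 e3 = true)
    {xp xm yp ym vp vm : V8} {zp zm : ℕ} (hr : c.row e1 e2 e3 xp xm yp ym vp vm zp zm = true)
    {x : ℕ → ℝ} (hx : ∀ i, 0 ≤ x i) :
    0 ≤ ev8 x e1 xp xm + ev8 x e2 yp ym + ev8 x e3 vp vm +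
      (zp * (c.one false).ev x + zm * (c.one true).ev x) :=  by
  obtain ⟨p1, p2⟩ := (band_iff _ _).1 hp
  obtain ⟨p3, p4⟩ := (band_iff _ _).1 p1
  obtain ⟨p5, p6⟩ := (band_iff _ _).1 p2
  obtain ⟨p7, p8⟩ := (band_iff _ _).1 p6
  have key := rep_add_ACenR (rep_add_ACenR (rep_add_ACenR (rep_dt_ACenR x d1 p5 xp xm)
    (rep_dt_ACenR x d2 p7 yp ym)) (rep_dt_ACenR x d3 p8 vp vm))
    (rep_add_ACenR (rep_leaf_ACenR x (c.deg_one false) p3 zp)
      (rep_leaf_ACenR x (c.deg_one true) p4 zm))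
  refine rep_fin_ACenR hx key (Eq.trans (congrArg (c.fin _) ?_) hr)
  change _ = (xp.sum + xm.sum + yp.sum) + (ym.sum + vp.sum + vm.sum) + (zp + zm)
  ring

theorem Cel.cover {F : ℤ → ℤ → Bool} {us : List ℤ} (h : allP F us (-8) = true) (t1 t2 : ℤ) (n : ℕ)
    {t τ : ℝ} (h1 : (t1 : ℝ) ≤ 33 * t) (h2 : 33 * t < t2) (hτ : |τ| ≤ 1) :
    ∃ (a b : ℤ) (x : ℕ → ℝ), F a b = true ∧ Cel.At ⟨t1, t2, a, b, n⟩ x t τ :=  by
  obtain ⟨h3, h4⟩ := abs_le.1 hτ
  obtain ⟨a, b, hF, ha, hb⟩ := cover_ACenR (y := 8 * τ) (by linarith) us (-8) h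
    (by push_cast; linarith)
  have p1 : 0 < (t2 : ℝ) - 33 * t := sub_pos.2 h2
  have p2 : 0 < (b : ℝ) - 8 * τ := sub_pos.2 hb
  refine ⟨a, b, fun i => if i = 0 then (33 * t - t1) / (t2 - 33 * t) else
    (8 * τ - a) / (b - 8 * τ), hF, fun i => ?_, ?_, ?_⟩
  · dsimp only
    split_ifs
    · exact div_nonneg (sub_nonneg.2 h1) p1.le
    · exact div_nonneg (sub_nonneg.2 ha) p2.le
  · simp only [if_true]
    field_simp
    ring
  · simp only [one_ne_zero, if_false]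
    field_simp
    ring

theorem two_sound {n m : ℕ} {F : ℤ → Bool} (h : two n m F = true) :
    F (lamI n) = true ∧ F (lamI m) = true :=  by
  obtain ⟨h1, h2⟩ := (band_iff _ _).1 h
  refine ⟨h1, ?_⟩
  cases hb : Nat.beq n m with
  | false => rw [hb] at h2; exact h2
  | true => rw [← Nat.eq_of_beq_eq_true hb]; exact h1

end Vale.Agent.P154
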