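import Vale.Agent.P154.ABase

/-! TASK ASm: the small regime.
Plan. `smOK` says (natural numbers): leaf `L - 1` has the same `ap`, `am` as leaf `L - 2`, leaf
`L - 2` has `b = a`; `c = 0` for both; `wP 0 = 0`, `mM 0 = 0`, `wM s = mP s = 0` for `1 ≤ s ≤ 7`,
`wP s = mM s = 0` for `s = 6, 7`; the cubic relation; `mM s ≤ wP s * g * (1 - g / 1024)` with
`g = gam s / 12`; `wM 0 / 2 + kap + ∑ wP s * g^2 / 2 < mP 0`. Always
`mP s - mM s = 512 * (mA s - mB s)` in the reals, so `bR w (L - 1) s = wR w s + mR w s / 512`.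
`si_of_li`: the expression without `kap` is affine in `Z`. `sm_sound`: `Fix.lin` with
`a = wR`, `b = wR + Z * mR`, `c = - kap / 2^32 * Z^2` and `Z = σ * V 0` gives
`0 ≤ - ∑ wR s * ρ s - Z * ∑ mR s * V s + kap / 2^32 * Z^2` with `ρ s = V s - N (V s)`. Use the upper
bound of `Rho` for `s = 0` and the lower bound with `t = g * V 0` for `1 ≤ s ≤ 5`:
`wP s * ρ s ≥ Z * mM s * V s - wP s * σ * g^2 * V 0 ^ 2 / 2`. This gives
`0 ≤ σ * V 0 ^ 2 * (wM 0 / 2 + ∑ wP s * g^2 / 2 + kap * σ - mP 0)`, hence `V 0 = 0`. -/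

namespace Vale.Agent.P154

open Finset

theorem sm_unp_ASm {w : Wt} {kap : ℕ} (h : smOK w kap = true) :
    2 ≤ w.L ∧ (∀ s < 8, (dg (w.ap.at s) (w.L - 1) = wP w s ∧ dg (w.am.at s) (w.L - 1) = wM w s) ∧
      dg (w.bp.at s) (w.L - 2) = wP w s ∧ dg (w.bm.at s) (w.L - 2) = wM w s) ∧
    (dg w.cp (w.L - 1) = 0 ∧ dg w.cm (w.L - 1) = 0 ∧ dg w.cp (w.L - 2) = 0 ∧
      dg w.cm (w.L - 2) = 0) ∧ (wP w 0 = 0 ∧ mM w 0 = 0) ∧
    (∀ s, 1 ≤ s → s < 8 → wM w s = 0 ∧ mP w s = 0) ∧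
    (∀ s, 6 ≤ s → s < 8 → wP w s = 0 ∧ mM w s = 0) ∧
    16 * wM w 0 = ∑ s ∈ range 6, cub s * wP w s ∧
    (∀ s < 6, 147456 * mM w s ≤ wP w s * gam s * (12288 - gam s)) ∧
    144 * wM w 0 + 288 * kap + ∑ s ∈ range 6, wP w s * (gam s * gam s) + 1 ≤ 288 * mP w 0 := by
  simp only [smOK, band_iff, allLt_iff, Nat.ble_eq, Nat.beq_eq, sumN_eq, s3, Nat.add_eq,
    Nat.mul_eq, Nat.sub_eq, Nat.succ_eq_add_one, Nat.add_eq_zero_iff, sum_eq_zero_iff,
    mem_range] at h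
  obtain ⟨h1, h2, ⟨⟨⟨a1, a2⟩, a3, a4⟩, ⟨b1, b2⟩, b3⟩, h4, h5, h6⟩ := h
  refine ⟨h1, h2, ⟨a1, a2, a3, a4⟩, b1, fun s s1 s8 => ?_, fun s s1 s8 => ?_, h4, h5, h6⟩
  · obtain ⟨k, rfl⟩ : ∃ k, s = k + 1 := ⟨s - 1, by omega⟩
    exact b2 k (by omega)
  · obtain ⟨k, rfl⟩ : ∃ k, s = k + 6 := ⟨s - 6, by omega⟩
    exact b3 k (by omega)

theorem mR_eq_ASm (w : Wt) (s : ℕ) : bR w (w.L - 1) s = wR w s + mR w s / 512 := by
  have e : (mP w s : ℝ) - mM w s = 512 * ((mA w s : ℝ) - mB w s) := by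
    have e1 : mP w s = 512 * (mA w s - mB w s) := rfl
    have e2 : mM w s = 512 * (mB w s - mA w s) := rfl
    rw [e1, e2]
    rcases le_total (mA w s) (mB w s) with h | h
    · rw [Nat.sub_eq_zero_of_le h]
      push_cast [Nat.cast_sub h]
      ring
    · rw [Nat.sub_eq_zero_of_le h]
      push_cast [Nat.cast_sub h]
      ring
  have e3 : mA w s = dg (w.bp.at s) (w.L - 1) + wM w s := rfl
  have e4 : mB w s = dg (w.bm.at s) (w.L - 1) + wP w s := rfl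
  rw [bR, wR, mR, e, e3, e4]
  push_cast
  ring

theorem sm_cub {w : Wt} {kap : ℕ} (h : smOK w kap = true) :
    ∑ s ∈ range 6, wR w s * cub s = 0 ∧ wR w 6 = 0 ∧ wR w 7 = 0 := by
  obtain ⟨-, -, -, ⟨p0, -⟩, h1, h6, hc, -⟩ := sm_unp_ASm h
  refine ⟨?_, ?_, ?_⟩
  · have hc' : (16 : ℝ) * wM w 0 = ∑ s ∈ range 6, (cub s : ℝ) * wP w s := by exact_mod_cast hc
    have c0 : cub 0 = 16 := rfl
    simp only [sum_range_succ, sum_range_zero, wR, (h1 1 (by norm_num) (by norm_num)).1,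
      (h1 2 (by norm_num) (by norm_num)).1, (h1 3 (by norm_num) (by norm_num)).1,
      (h1 4 (by norm_num) (by norm_num)).1, (h1 5 (by norm_num) (by norm_num)).1, c0] at hc' ⊢
    push_cast at hc' ⊢
    linear_combination (-1 / 2 ^ 32 : ℝ) * hc'
  · simp [wR, (h1 6 (by norm_num) (by norm_num)).1, (h6 6 (by norm_num) (by norm_num)).1]
  · simp [wR, (h1 7 (by norm_num) (by norm_num)).1, (h6 7 (by norm_num) (by norm_num)).1]

theorem si_of_li {w : Wt} {kap : ℕ} (h : smOK w kap = true) {lam : ℝ} {f : Fin 3 → ℝ}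
    (h2 : LI w lam (w.L - 2) f) (h1 : LI w lam (w.L - 1) f) {Z : ℝ} (a : 0 ≤ Z)
    (b : Z ≤ 1 / 512) : SI w kap lam Z f := by
  obtain ⟨-, hs, ⟨c1, c2, c3, c4⟩, -⟩ := sm_unp_ASm h
  have e2 : ∑ s ∈ range 8, aR w (w.L - 2) s * PP s f - ∑ s ∈ range 8, bR w (w.L - 2) s *
      RR s lam f = ∑ s ∈ range 8, wR w s * (PP s f - RR s lam f) := by
    rw [← sum_sub_distrib]
    refine sum_congr rfl fun s hs' => ?_
    have q1 : aR w (w.L - 2) s = wR w s := rfl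
    have q2 : bR w (w.L - 2) s = wR w s := by
      rw [bR, (hs s (mem_range.1 hs')).2.1, (hs s (mem_range.1 hs')).2.2, wR]
    rw [q1, q2]
    ring
  have e1 : ∑ s ∈ range 8, aR w (w.L - 1) s * PP s f - ∑ s ∈ range 8, bR w (w.L - 1) s *
      RR s lam f = ∑ s ∈ range 8, wR w s * (PP s f - RR s lam f) -
        (∑ s ∈ range 8, mR w s * RR s lam f) / 512 := by
    rw [sum_div, ← sum_sub_distrib, ← sum_sub_distrib]
    refine sum_congr rfl fun s hs' => ?_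
    have q1 : aR w (w.L - 1) s = wR w s := by
      rw [aR, (hs s (mem_range.1 hs')).1.1, (hs s (mem_range.1 hs')).1.2, wR]
    rw [q1, mR_eq_ASm]
    ring
  unfold LI at h1 h2
  rw [e2, cR, c3, c4] at h2
  rw [e1, cR, c1, c2] at h1
  simp only [Nat.cast_zero, sub_zero, zero_div] at h1 h2
  unfold SI
  have k : (0 : ℝ) ≤ kap / 2 ^ 32 * Z ^ 2 := by positivity
  nlinarith [mul_nonneg a h1, mul_nonneg (sub_nonneg.2 b) h2]

theorem sm_two {w : Wt} {kap : ℕ} (h : smOK w kap = true) : 2 ≤ w.L := by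
  exact (sm_unp_ASm h).1

theorem sm_sound {w : Wt} {kap : ℕ} (h : smOK w kap = true) {lam σ : ℝ} {N : ℝ → ℝ}
    {U V : ℕ → ℝ} (hF : Fix lam N U V) (hR : Rho lam N σ)
    (hS : ∀ Z : ℝ, 0 ≤ Z → Z ≤ 1 / 512 → ∀ f ∈ Simp 3, SI w kap lam Z f) (hV : V 0 ≤ 1 / 512) :
    V 0 = 0 := by
  obtain ⟨-, -, -, ⟨p0, m0⟩, h1, h6, -, hm, hl⟩ := sm_unp_ASm h
  obtain ⟨σ0, σ1, hR⟩ := hR
  have V0 := hF.nn 0 (by norm_num)
  have Z0 : 0 ≤ σ * V 0 := mul_nonneg σ0.le V0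
  have Z1 : σ * V 0 ≤ 1 / 512 := by nlinarith
  have key := hF.lin (wR w) (fun s => wR w s + σ * V 0 * mR w s)
    (-(kap / 2 ^ 32 * (σ * V 0) ^ 2)) (fun f hf => by
      have := hS _ Z0 Z1 f hf
      unfold SI at this
      have e : ∑ s ∈ range 8, wR w s * PP s f -
          ∑ s ∈ range 8, (wR w s + σ * V 0 * mR w s) * RR s lam f =
          ∑ s ∈ range 8, wR w s * (PP s f - RR s lam f) -
            σ * V 0 * ∑ s ∈ range 8, mR w s * RR s lam f := by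
        rw [mul_sum, ← sum_sub_distrib, ← sum_sub_distrib]
        exact sum_congr rfl fun s _ => by ring
      rw [e]
      linarith)
  rw [← sum_sub_distrib] at key
  have t0 : wR w 0 * U 0 - (wR w 0 + σ * V 0 * mR w 0) * V 0 ≤
      σ * V 0 ^ 2 * ((wM w 0 : ℝ) / 2 - mP w 0) / 2 ^ 32 := by
    have r := (hR (V 0) V0 (hF.le 0 (by norm_num))).1
    rw [hF.eq 0 (by norm_num), wR, mR, p0, m0]
    have := mul_le_mul_of_nonneg_left r (Nat.cast_nonneg (α := ℝ) (wM w 0))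
    push_cast
    linear_combination (1 / 2 ^ 32 : ℝ) * this
  have t1 : ∀ s, 1 ≤ s → s < 6 → wR w s * U s - (wR w s + σ * V 0 * mR w s) * V s ≤
      σ * V 0 ^ 2 * ((wP w s : ℝ) * (gam s * gam s) / 288) / 2 ^ 32 := by
    intro s s1 s6
    have g12 : gam s ≤ 12 := by interval_cases s <;> decide
    have g12' : (gam s : ℝ) ≤ 12 := by exact_mod_cast g12
    have g0 : (0 : ℝ) ≤ gam s := Nat.cast_nonneg _
    have Vs := hF.nn s (by omega)
    have hm' : (147456 : ℝ) * mM w s ≤ wP w s * gam s * (12288 - gam s) := by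
      have := (Nat.cast_le (α := ℝ)).2 (hm s s6)
      push_cast [Nat.cast_sub (show gam s ≤ 12288 by omega)] at this
      exact this
    have r := (hR (V s) Vs (hF.le s s6)).2 (gam s / 12 * V 0) (by positivity) (by nlinarith)
    rw [hF.eq s (by omega), wR, mR, (h1 s s1 (by omega)).1, (h1 s s1 (by omega)).2]
    have a1 := mul_le_mul_of_nonneg_left r (Nat.cast_nonneg (α := ℝ) (wP w s))
    have a2 := mul_le_mul_of_nonneg_left hm' (mul_nonneg Z0 Vs)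
    have a3 : 0 ≤ σ * V 0 * V s * (wP w s * (gam s * gam s)) * (1 / 512 - V 0) :=
      mul_nonneg (by positivity) (sub_nonneg.2 hV)
    push_cast
    linear_combination (1 / 2 ^ 32 : ℝ) * a1 + (1 / 2 ^ 32 / 147456 : ℝ) * a2 +
      (1 / 2 ^ 32 / 288 : ℝ) * a3
  have t6 : ∀ s, 6 ≤ s → s < 8 → wR w s * U s - (wR w s + σ * V 0 * mR w s) * V s = 0 := by
    intro s s6 s8
    simp [wR, mR, (h1 s (by omega) s8).1, (h1 s (by omega) s8).2, (h6 s s6 s8).1, (h6 s s6 s8).2]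
  have hl' : (144 : ℝ) * wM w 0 + 288 * kap + ∑ s ∈ range 6, (wP w s : ℝ) * (gam s * gam s) + 1 ≤
      288 * mP w 0 := by exact_mod_cast hl
  simp only [sum_range_succ, sum_range_zero, p0, Nat.cast_zero, zero_mul, zero_add] at key hl'
  rw [t6 6 (by norm_num) (by norm_num), t6 7 (by norm_num) (by norm_num)] at key
  have b1 := t1 1 (by norm_num) (by norm_num)
  have b2 := t1 2 (by norm_num) (by norm_num)
  have b3 := t1 3 (by norm_num) (by norm_num)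
  have b4 := t1 4 (by norm_num) (by norm_num)
  have b5 := t1 5 (by norm_num) (by norm_num)
  have q0 : 0 ≤ σ * V 0 ^ 2 := by positivity
  have c1 := mul_le_mul_of_nonneg_left hl' q0
  have c2 : 0 ≤ σ * V 0 ^ 2 * kap * (1 - σ) := mul_nonneg (by positivity) (sub_nonneg.2 σ1)
  have fin : σ * V 0 ^ 2 ≤ 0 := by
    linear_combination (288 * 2 ^ 32 : ℝ) * (key + t0 + b1 + b2 + b3 + b4 + b5) + c1 + 288 * c2
  have : V 0 ^ 2 ≤ 0 := by
    by_contra hc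
    exact absurd (mul_pos σ0 (not_le.1 hc)) (not_lt.2 fin)
  exact pow_eq_zero_iff (two_ne_zero) |>.1 (le_antisymm this (sq_nonneg _))

end Vale.Agent.P154
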