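import Vale.Agent.P154.ACenR
import Vale.Agent.P154.ACenP
import Vale.Agent.P154.ASm

/-! TASK ACenT: soundness of the checks on the central disc.
Plan. Take `τ` from `par_exists`, `t = tR f < 1`, a cell from `Cel.cover`, both ends from
`two_sound`; `lamI n = n - 512`, `lam = ((1 - θ) * lamI n + θ * lamI m) / 1024`, `|lam| ≤ L / 1024`
with `L = lamL n m ≤ 512`. `ev8_le`: sum `Cel.phi_le` with the nonnegative weights. By `rr_enc`,
`xp * (g - e) + xm * (- g - e) ≤ (xp - xm) * (- RR s lam f)` for `g = gp s 0 lam t τ`,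
`e = zNr s * (L/1024)^17 * t^19`; for `PP` use `PP_eq`, `l1 = l2 = 1024`, `D = 0`, `L = 1024`.
`cenI_sound`: convex combination of `Cel.row_sound` at both ends, divide by `c.Hs x > 0` and `2^32`
(`dg8_at`, `cst_at`, `frc_eq`, `allLt_iff`). `cenII_sound`: if `t = 0` then `PP = RR = 0` by `rr_enc`
(`gp_two`). Otherwise put `A = ∑ wR * (PP - RR)`, `B = - ∑ mR * RR`, `κ = kap / 2^32`. With `gp_four`,
`zp_three`, `sm_cub` the terms of degree two and three cancel in `A`, so a row `smR .. x y zp zm`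
gives `0 ≤ x * A / t^4 + y * B / t^2 + (zp - zm) / 2^32` (note `mP`, `mM` carry no further factor).
Let `a = t^2 / 8`, `Z = η * a`, `q η = A / a^2 + η * B / a + κ * η^2`. The rows say
`q (3k/16) ≥ κ * (3/32)^2` for `k < 8` and `B / a + κ * 21/16 ≥ 0`. For `η` between two grid points
`q η` is the linear interpolation minus `κ * (η - η_k) * (η_(k+1) - η) ≤ κ * (3/32)^2`; for
`η ≥ 21/16`, `q η - q (21/16) = (η - 21/16) * (B / a + κ * (η + 21/16)) ≥ 0`. -/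

namespace Vale.Agent.P154

open Finset

theorem lamI_cast_ACenT (n : ℕ) : ((lamI n : ℤ) : ℝ) = n - 512 := by
  have : lamI n = (n : ℤ) - 512 := by
    unfold lamI
    rw [Int.subNatNat_eq_coe]
    rfl
  rw [this]
  push_cast
  ring

theorem lam_ACenT {n m : ℕ} (hnm : n ≤ m) (hm : m ≤ 1024) {lam : ℝ} (h1 : lamJ n ≤ lam)
    (h2 : lam ≤ lamJ m) :
    |lamI n| ≤ (lamL n m : ℕ) ∧ |lamI m| ≤ (lamL n m : ℕ) ∧ lamL n m ≤ 1024 ∧
      |lamI m - lamI n| ≤ (Nat.sub m n : ℕ) ∧ |lam| ≤ (lamL n m : ℝ) / 1024 ∧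
      ∃ θ : ℝ, 0 ≤ θ ∧ θ ≤ 1 ∧ ((1 - θ) * lamI n + θ * lamI m) / 1024 = lam := by
  have eI : ∀ k : ℕ, lamI k = (k : ℤ) - 512 := fun k => by
    unfold lamI
    rw [Int.subNatNat_eq_coe]
    rfl
  have eL : lamL n m = max (n - 512 + (512 - n)) (m - 512 + (512 - m)) := nmax_eq _ _
  have a1 : |lamI n| ≤ (lamL n m : ℕ) := by
    rw [eI, eL, abs_le]
    constructor <;> omega
  have a2 : |lamI m| ≤ (lamL n m : ℕ) := by
    rw [eI, eL, abs_le]
    constructor <;> omega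
  have r1 : |(n : ℝ) - 512| ≤ (lamL n m : ℝ) := by
    rw [← lamI_cast_ACenT]
    exact_mod_cast a1
  have r2 : |(m : ℝ) - 512| ≤ (lamL n m : ℝ) := by
    rw [← lamI_cast_ACenT]
    exact_mod_cast a2
  unfold lamJ at h1 h2
  refine ⟨a1, a2, by rw [eL]; omega, ?_, ?_, ?_⟩
  · rw [eI, eI, Nat.sub_eq, abs_le]
    constructor <;> omega
  · rw [abs_le] at r1 r2 ⊢
    constructor <;> linarith [r1.1, r2.2]
  · rw [lamI_cast_ACenT, lamI_cast_ACenT]
    rcases hnm.eq_or_lt with rfl | hlt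
    · exact ⟨0, le_rfl, zero_le_one, by linarith⟩
    · have hd : (0 : ℝ) < m - n := sub_pos.2 (by exact_mod_cast hlt)
      refine ⟨(1024 * lam + 512 - n) / (m - n), div_nonneg (by linarith) hd.le,
        (div_le_one hd).2 (by linarith), ?_⟩
      field_simp
      ring

theorem ev8_le_ACenT {c : Cel} {x : ℕ → ℝ} {t τ : ℝ} (h : c.At x t τ) (h0 : 0 ≤ t) (hτ : |τ| ≤ 1)
    {sh : ℕ} (hsh : sh ≤ 19) (hn : 20 ≤ c.n + sh) {l1 l2 : ℤ} {D L : ℕ} (a1 : |l1| ≤ L)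
    (a2 : |l2| ≤ L) (a3 : L ≤ 1024) (a4 : |l2 - l1| ≤ D) {θ : ℝ} (b1 : 0 ≤ θ) (b2 : θ ≤ 1)
    (xp xm : V8) :
    (1 - θ) * ev8 x (c.phi l1 D L sh) xp xm + θ * ev8 x (c.phi l2 D L sh) xp xm ≤
      c.Hs x * ∑ s ∈ range 8,
        (xp.r s * (gp s sh (((1 - θ) * l1 + θ * l2) / 1024) t τ -
          zNr s * ((L : ℝ) / 1024) ^ 17 * t ^ (19 - sh)) +
        xm.r s * (-gp s sh (((1 - θ) * l1 + θ * l2) / 1024) t τ -
          zNr s * ((L : ℝ) / 1024) ^ 17 * t ^ (19 - sh))) := by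
  unfold ev8
  rw [mul_sum, mul_sum, mul_sum, ← sum_add_distrib]
  refine sum_le_sum fun s hs => ?_
  have k1 := Cel.phi_le h h0 hτ hsh hn a1 a2 a3 a4 b1 b2 (mem_range.1 hs) false
  have k2 := Cel.phi_le h h0 hτ hsh hn a1 a2 a3 a4 b1 b2 (mem_range.1 hs) true
  have e1 : ((sgI false : ℤ) : ℝ) = 1 := Int.cast_one
  have e2 : ((sgI true : ℤ) : ℝ) = -1 := by
    change ((-1 : ℤ) : ℝ) = _
    norm_num
  rw [e1] at k1
  rw [e2] at k2
  have p1 := mul_le_mul_of_nonneg_left k1 (show 0 ≤ xp.r s from Nat.cast_nonneg _)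
  have p2 := mul_le_mul_of_nonneg_left k2 (show 0 ≤ xm.r s from Nat.cast_nonneg _)
  linear_combination p1 + p2

theorem enc_ACenT {s : ℕ} (hs : s < 8) {f : Fin 3 → ℝ} {τ : ℝ} (hτ : |τ| ≤ 1)
    (h : Par (fun i => f i - 1) (tR f / 4) τ) (ht : tR f ≤ 1) {lam M : ℝ} (h0 : lam ≠ 0)
    (h1 : |lam| ≤ M) (h2 : M ≤ 1) :
    gp s 0 lam (tR f) τ - zNr s * M ^ 17 * tR f ^ 19 ≤ -RR s lam f ∧
      -gp s 0 lam (tR f) τ - zNr s * M ^ 17 * tR f ^ 19 ≤ RR s lam f := by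
  have t0 : 0 ≤ tR f := Real.sqrt_nonneg _
  have k := rr_enc hs hτ h h0 (mul_le_one₀ (h1.trans h2) t0 ht)
  have k2 : zNr s * |lam| ^ 17 * tR f ^ 19 ≤ zNr s * M ^ 17 * tR f ^ 19 := by
    have := zNr_nonneg s
    gcongr
  rw [abs_le] at k
  constructor <;> linarith [k.1, k.2]

theorem one_ACenT {c : Cel} {x : ℕ → ℝ} {t τ : ℝ} (h : c.At x t τ) (hn : 1 ≤ c.n) :
    (c.one false).ev x = c.Hs x ∧ (c.one true).ev x = -c.Hs x := by
  rw [Cel.ev_one h hn, Cel.ev_one h hn]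
  have e1 : ((sgI false : ℤ) : ℝ) = 1 := Int.cast_one
  have e2 : ((sgI true : ℤ) : ℝ) = -1 := by
    change ((-1 : ℤ) : ℝ) = _
    norm_num
  rw [e1, e2]
  constructor <;> ring

theorem tlt_ACenT {t : ℝ} {t2 : ℤ} (ht : t2 ≤ 33) (h : 33 * t < t2) : t ≤ 1 := by
  have : (t2 : ℝ) ≤ 33 := by exact_mod_cast ht
  linarith

theorem cenI_sound {w : Wt} {n m i0 cnt : ℕ} {t1 t2 : ℤ} {us : List ℤ} (hnm : n ≤ m)
    (hm : m ≤ 1024) (ht : t2 ≤ 33) (h : cenI w n m i0 cnt t1 t2 us = true) :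
    CenGood w n m i0 cnt t1 t2 := by
  intro f hf lam l1 l2 l0 u1 u2 l i1 i2
  obtain ⟨τ, hτ, hP⟩ := par_exists hf
  have t0 : 0 ≤ tR f := Real.sqrt_nonneg _
  have tle := tlt_ACenT ht u2
  obtain ⟨a, b, x, hF, hA⟩ := Cel.cover h t1 t2 20 u1 u2 hτ
  obtain ⟨hn, hm'⟩ := two_sound hF
  obtain ⟨a1, a2, a3, a4, a5, θ, b1, b2, eθ⟩ := lam_ACenT hnm hm l1 l2
  generalize hc : (⟨t1, t2, a, b, 20⟩ : Cel) = c at hA hn hm'
  have hcn : c.n = 20 := by rw [← hc]
  have row : ∀ z : ℤ, cenI1 w c (c.phi 1024 0 1024 0) (c.phi z (Nat.sub m n) (lamL n m) 0) i0 cnt =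
      true → 0 ≤ ev8 x (c.phi 1024 0 1024 0) (dg8 w.am l) (dg8 w.ap l) +
        ev8 x (c.phi z (Nat.sub m n) (lamL n m) 0) (dg8 w.bp l) (dg8 w.bm l) +
        ((dg w.cm l : ℝ) - dg w.cp l) * c.Hs x := by
    intro z hz
    simp only [cenI1, band_iff, allLt_iff, frc_eq, Nat.add_eq] at hz
    have r := hz.2 (l - i0) (by omega)
    rw [show i0 + (l - i0) = l by omega] at r
    have k := Cel.row_sound c (fun b s => c.deg_phi _ _ _ _ b s) (fun b s => c.deg_phi _ _ _ _ b s)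
      (fun b s => c.deg_phi _ _ _ _ b s) hz.1 r hA.1
    have e0 : ev8 x (c.phi z (Nat.sub m n) (lamL n m) 0) (cst 0) (cst 0) = 0 := by
      refine sum_eq_zero fun s hs => ?_
      simp [V8.r, cst_at 0 (mem_range.1 hs)]
    rw [e0, (one_ACenT hA (by omega)).1, (one_ACenT hA (by omega)).2] at k
    linarith
  have r1 := row _ hn
  have r2 := row _ hm'
  have k1 := ev8_le_ACenT hA t0 hτ (sh := 0) (by norm_num) (by omega) (l1 := 1024) (l2 := 1024)
    (D := 0) (L := 1024) (by norm_num) (by norm_num) le_rfl (by norm_num) b1 b2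
    (dg8 w.am l) (dg8 w.ap l)
  have k2 := ev8_le_ACenT hA t0 hτ (sh := 0) (by norm_num) (by omega) a1 a2 a3 a4 b1 b2
    (dg8 w.bp l) (dg8 w.bm l)
  rw [eθ] at k2
  have e1 : ((1 - θ) * ((1024 : ℤ) : ℝ) + θ * ((1024 : ℤ) : ℝ)) / 1024 = 1 := by
    push_cast
    ring
  rw [e1] at k1
  have hL : (lamL n m : ℝ) / 1024 ≤ 1 := by
    rw [div_le_one (by norm_num)]
    exact_mod_cast a3
  have s1 : ∑ s ∈ range 8, ((dg8 w.am l).r s * (gp s 0 1 (tR f) τ -
      zNr s * (((1024 : ℕ) : ℝ) / 1024) ^ 17 * tR f ^ (19 - 0)) + (dg8 w.ap l).r s *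
      (-gp s 0 1 (tR f) τ - zNr s * (((1024 : ℕ) : ℝ) / 1024) ^ 17 * tR f ^ (19 - 0))) ≤
      2 ^ 32 * ∑ s ∈ range 8, aR w l s * PP s f := by
    rw [mul_sum]
    refine sum_le_sum fun s hs => ?_
    obtain ⟨q1, q2⟩ := enc_ACenT (mem_range.1 hs) hτ hP tle (lam := 1)
      (M := ((1024 : ℕ) : ℝ) / 1024) one_ne_zero (by norm_num) (by norm_num)
    rw [← PP_eq] at q1 q2
    simp only [V8.r, dg8_at _ _ (mem_range.1 hs), aR, Nat.sub_zero]
    have p1 := mul_le_mul_of_nonneg_left q1 (Nat.cast_nonneg (α := ℝ) (dg (w.am.at s) l))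
    have p2 := mul_le_mul_of_nonneg_left q2 (Nat.cast_nonneg (α := ℝ) (dg (w.ap.at s) l))
    linear_combination p1 + p2
  have s2 : ∑ s ∈ range 8, ((dg8 w.bp l).r s * (gp s 0 lam (tR f) τ -
      zNr s * ((lamL n m : ℝ) / 1024) ^ 17 * tR f ^ (19 - 0)) + (dg8 w.bm l).r s *
      (-gp s 0 lam (tR f) τ - zNr s * ((lamL n m : ℝ) / 1024) ^ 17 * tR f ^ (19 - 0))) ≤
      -(2 ^ 32 * ∑ s ∈ range 8, bR w l s * RR s lam f) := by
    rw [mul_sum, ← sum_neg_distrib]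
    refine sum_le_sum fun s hs => ?_
    obtain ⟨q1, q2⟩ := enc_ACenT (mem_range.1 hs) hτ hP tle l0 a5 hL
    simp only [V8.r, dg8_at _ _ (mem_range.1 hs), bR, Nat.sub_zero]
    have p1 := mul_le_mul_of_nonneg_left q1 (Nat.cast_nonneg (α := ℝ) (dg (w.bp.at s) l))
    have p2 := mul_le_mul_of_nonneg_left q2 (Nat.cast_nonneg (α := ℝ) (dg (w.bm.at s) l))
    linear_combination p1 + p2
  have hH := Cel.Hs_pos hA
  have m1 := mul_le_mul_of_nonneg_left s1 hH.le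
  have m2 := mul_le_mul_of_nonneg_left s2 hH.le
  have m3 := mul_nonneg (sub_nonneg.2 b2) r1
  have m4 := mul_nonneg b1 r2
  have fin : 0 ≤ c.Hs x * (2 ^ 32 * (∑ s ∈ range 8, aR w l s * PP s f -
      ∑ s ∈ range 8, bR w l s * RR s lam f - cR w l)) := by
    unfold cR
    linear_combination m1 + m2 + m3 + m4 + k1 + k2
  have fin2 := nonneg_of_mul_nonneg_right fin hH
  have fin3 := nonneg_of_mul_nonneg_right fin2 (by positivity)
  unfold LI
  linarith

theorem quad_ACenT {P Q κ η : ℝ} (hκ : 0 ≤ κ)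
    (h : ∀ k : ℕ, k < 8 → 0 ≤ P + 3 * k / 16 * Q + κ * ((3 * k / 16) ^ 2 - 9 / 1024))
    (h2 : 0 ≤ 16 * Q + 21 * κ) (hη : 0 ≤ η) : 0 ≤ P + η * Q + κ * η ^ 2 := by
  rcases le_total (21 / 16) η with c | c
  · have k := h 7 (by norm_num)
    push_cast at k
    have k2 : 0 ≤ (η - 21 / 16) * (Q + κ * (η + 21 / 16)) :=
      mul_nonneg (sub_nonneg.2 c) (by nlinarith [mul_nonneg hκ hη])
    nlinarith
  · have step : ∀ k : ℕ, k < 7 → 3 * (k : ℝ) / 16 ≤ η → η ≤ 3 * ((k : ℝ) + 1) / 16 →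
        0 ≤ P + η * Q + κ * η ^ 2 := by
      intro k hk c1 c2
      have k1 := h k (by omega)
      have k2 := h (k + 1) (by omega)
      push_cast at k2
      have m1 := mul_nonneg (sub_nonneg.2 c2) k1
      have m2 := mul_nonneg (sub_nonneg.2 c1) k2
      have m3 := mul_nonneg hκ (sq_nonneg (η - 3 * (k : ℝ) / 16 - 3 / 32))
      linear_combination (16 / 3 : ℝ) * m1 + (16 / 3 : ℝ) * m2 + m3
    rcases le_total η (3 / 16) with c0 | c0
    · exact step 0 (by norm_num) (by push_cast; linarith) (by push_cast; linarith)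
    rcases le_total η (6 / 16) with c1 | c1
    · exact step 1 (by norm_num) (by push_cast; linarith) (by push_cast; linarith)
    rcases le_total η (9 / 16) with c2 | c2
    · exact step 2 (by norm_num) (by push_cast; linarith) (by push_cast; linarith)
    rcases le_total η (12 / 16) with c3 | c3
    · exact step 3 (by norm_num) (by push_cast; linarith) (by push_cast; linarith)
    rcases le_total η (15 / 16) with c4 | c4
    · exact step 4 (by norm_num) (by push_cast; linarith) (by push_cast; linarith)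
    rcases le_total η (18 / 16) with c5 | c5
    · exact step 5 (by norm_num) (by push_cast; linarith) (by push_cast; linarith)
    · exact step 6 (by norm_num) (by push_cast; linarith) (by push_cast; linarith)

theorem cub_ACenT {w : Wt} {kap : ℕ} (hs : smOK w kap = true) (τ : ℝ) :
    ∑ s ∈ range 8, wR w s * zp s 3 τ = 0 := by
  obtain ⟨h1, h6, h7⟩ := sm_cub hs
  rw [sum_range_succ, sum_range_succ, h6, h7,
    sum_congr rfl fun s hs => by rw [zp_three (mem_range.1 hs)]]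
  have : ∑ s ∈ range 6, wR w s * (cub s / 1536 * τ) = (∑ s ∈ range 6, wR w s * cub s) * (τ / 1536) := by
    rw [sum_mul]
    exact sum_congr rfl fun s _ => by ring
  rw [this, h1]
  ring

theorem smR_ACenT {w : Wt} {kap n m : ℕ} (hs : smOK w kap = true) (hnm : n ≤ m) (hm : m ≤ 1024)
    {f : Fin 3 → ℝ} {lam τ : ℝ} (l1 : lamJ n ≤ lam) (l2 : lam ≤ lamJ m) (l0 : lam ≠ 0)
    (hτ : |τ| ≤ 1) (hP : Par (fun i => f i - 1) (tR f / 4) τ) (tle : tR f ≤ 1) {c : Cel}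
    (hcn : c.n = 18) {x : ℕ → ℝ} (hA : c.At x (tR f) τ) {X Y zp' zm : ℕ}
    (hr : ∀ z : ℤ, z = lamI n ∨ z = lamI m →
      c.pre (c.phi 1024 0 1024 4) (c.phi z (Nat.sub m n) (lamL n m) 4)
        (c.phi z (Nat.sub m n) (lamL n m) 2) = true ∧
      smR w c (c.phi 1024 0 1024 4) (c.phi z (Nat.sub m n) (lamL n m) 4)
        (c.phi z (Nat.sub m n) (lamL n m) 2) X Y zp' zm = true) :
    0 ≤ X * (∑ s ∈ range 8, wR w s * (PP s f - RR s lam f)) -
      Y * (∑ s ∈ range 8, mR w s * RR s lam f) * tR f ^ 2 +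
      ((zp' : ℝ) - zm) / 2 ^ 32 * tR f ^ 4 := by
  have t0 : 0 ≤ tR f := Real.sqrt_nonneg _
  obtain ⟨a1, a2, a3, a4, a5, θ, b1, b2, eθ⟩ := lam_ACenT hnm hm l1 l2
  have row : ∀ z : ℤ, z = lamI n ∨ z = lamI m →
      0 ≤ ev8 x (c.phi 1024 0 1024 4) (V8.of fun s => Nat.mul X (wM w s))
          (V8.of fun s => Nat.mul X (wP w s)) +
        ev8 x (c.phi z (Nat.sub m n) (lamL n m) 4) (V8.of fun s => Nat.mul X (wP w s))
          (V8.of fun s => Nat.mul X (wM w s)) +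
        ev8 x (c.phi z (Nat.sub m n) (lamL n m) 2) (V8.of fun s => Nat.mul Y (mP w s))
          (V8.of fun s => Nat.mul Y (mM w s)) + ((zp' : ℝ) - zm) * c.Hs x := by
    intro z hz
    have k := Cel.row_sound c (fun b s => c.deg_phi _ _ _ _ b s) (fun b s => c.deg_phi _ _ _ _ b s)
      (fun b s => c.deg_phi _ _ _ _ b s) (hr z hz).1 (hr z hz).2 hA.1
    rw [(one_ACenT hA (by omega)).1, (one_ACenT hA (by omega)).2] at k
    linarith
  have r1 := row _ (Or.inl rfl)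
  have r2 := row _ (Or.inr rfl)
  have k1 := ev8_le_ACenT hA t0 hτ (sh := 4) (by norm_num) (by omega) (l1 := 1024) (l2 := 1024)
    (D := 0) (L := 1024) (by norm_num) (by norm_num) le_rfl (by norm_num) b1 b2
    (V8.of fun s => Nat.mul X (wM w s)) (V8.of fun s => Nat.mul X (wP w s))
  have k2 := ev8_le_ACenT hA t0 hτ (sh := 4) (by norm_num) (by omega) a1 a2 a3 a4 b1 b2
    (V8.of fun s => Nat.mul X (wP w s)) (V8.of fun s => Nat.mul X (wM w s))
  have k3 := ev8_le_ACenT hA t0 hτ (sh := 2) (by norm_num) (by omega) a1 a2 a3 a4 b1 b2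
    (V8.of fun s => Nat.mul Y (mP w s)) (V8.of fun s => Nat.mul Y (mM w s))
  rw [eθ] at k2 k3
  have e1 : ((1 - θ) * ((1024 : ℤ) : ℝ) + θ * ((1024 : ℤ) : ℝ)) / 1024 = 1 := by
    push_cast
    ring
  rw [e1] at k1
  have hL : (lamL n m : ℝ) / 1024 ≤ 1 := by
    rw [div_le_one (by norm_num)]
    exact_mod_cast a3
  generalize hS1 : Finset.sum (M := ℝ) (range 8) _ = S1 at k1
  generalize hS2 : Finset.sum (M := ℝ) (range 8) _ = S2 at k2
  generalize hS3 : Finset.sum (M := ℝ) (range 8) _ = S3 at k3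
  have s12 : tR f ^ 4 * (S1 + S2) ≤
      2 ^ 32 * X * ∑ s ∈ range 8, wR w s * (PP s f - RR s lam f) := by
    have e : 2 ^ 32 * X * ∑ s ∈ range 8, wR w s * (PP s f - RR s lam f) =
        ∑ s ∈ range 8, 2 ^ 32 * X * (wR w s * (PP s f - RR s lam f) +
          wR w s * zp s 3 τ * ((1 - lam) * tR f ^ 3)) := by
      rw [← mul_sum, sum_add_distrib, ← sum_mul, cub_ACenT hs]
      ring
    rw [e, ← hS1, ← hS2, ← sum_add_distrib, mul_sum]
    refine sum_le_sum fun s hs => ?_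
    obtain ⟨q1, q2⟩ := enc_ACenT (mem_range.1 hs) hτ hP tle (lam := 1)
      (M := ((1024 : ℕ) : ℝ) / 1024) one_ne_zero (by norm_num) (by norm_num)
    obtain ⟨q3, q4⟩ := enc_ACenT (mem_range.1 hs) hτ hP tle l0 a5 hL
    rw [← PP_eq, gp_four] at q1 q2
    rw [gp_four] at q3 q4
    simp only [V8.r, V8.of_at _ (mem_range.1 hs), wR, Nat.mul_eq, Nat.cast_mul]
    have p1 := mul_le_mul_of_nonneg_left q1
      (mul_nonneg (Nat.cast_nonneg (α := ℝ) X) (Nat.cast_nonneg (α := ℝ) (wM w s)))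
    have p2 := mul_le_mul_of_nonneg_left q2
      (mul_nonneg (Nat.cast_nonneg (α := ℝ) X) (Nat.cast_nonneg (α := ℝ) (wP w s)))
    have p3 := mul_le_mul_of_nonneg_left q3
      (mul_nonneg (Nat.cast_nonneg (α := ℝ) X) (Nat.cast_nonneg (α := ℝ) (wP w s)))
    have p4 := mul_le_mul_of_nonneg_left q4
      (mul_nonneg (Nat.cast_nonneg (α := ℝ) X) (Nat.cast_nonneg (α := ℝ) (wM w s)))
    linear_combination p1 + p2 + p3 + p4
  have s3 : tR f ^ 2 * S3 ≤ -(2 ^ 32 * Y * ∑ s ∈ range 8, mR w s * RR s lam f) := by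
    rw [← hS3, mul_sum, mul_sum, ← sum_neg_distrib]
    refine sum_le_sum fun s hs => ?_
    obtain ⟨q3, q4⟩ := enc_ACenT (mem_range.1 hs) hτ hP tle l0 a5 hL
    rw [gp_two] at q3 q4
    simp only [V8.r, V8.of_at _ (mem_range.1 hs), mR, Nat.mul_eq, Nat.cast_mul]
    have p3 := mul_le_mul_of_nonneg_left q3
      (mul_nonneg (Nat.cast_nonneg (α := ℝ) Y) (Nat.cast_nonneg (α := ℝ) (mP w s)))
    have p4 := mul_le_mul_of_nonneg_left q4
      (mul_nonneg (Nat.cast_nonneg (α := ℝ) Y) (Nat.cast_nonneg (α := ℝ) (mM w s)))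
    linear_combination p3 + p4
  have hH := Cel.Hs_pos hA
  have m3 := mul_nonneg (sub_nonneg.2 b2) r1
  have m4 := mul_nonneg b1 r2
  have fin : 0 ≤ c.Hs x * (S1 + S2 + S3 + ((zp' : ℝ) - zm)) := by
    linear_combination m3 + m4 + k1 + k2 + k3
  have fin2 := mul_nonneg (pow_nonneg t0 4) (nonneg_of_mul_nonneg_right fin hH)
  have s3' := mul_le_mul_of_nonneg_left s3 (pow_nonneg t0 2)
  linear_combination (1 / 2 ^ 32 : ℝ) * (fin2 + s12 + s3')

theorem cenII_sound {w : Wt} {kap n m : ℕ} {t1 t2 : ℤ} {us : List ℤ} (hs : smOK w kap = true)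
    (hnm : n ≤ m) (hm : m ≤ 1024) (ht : t2 ≤ 33) (h : cenII w kap n m t1 t2 us = true) :
    Good2 w kap n m t1 t2 := by
  intro f hf lam l1 l2 l0 u1 u2 Z hZ
  obtain ⟨τ, hτ, hP⟩ := par_exists hf
  have t0 : 0 ≤ tR f := Real.sqrt_nonneg _
  have tle := tlt_ACenT ht u2
  have hκ : (0 : ℝ) ≤ kap / 2 ^ 32 := by positivity
  unfold SI
  rcases t0.eq_or_lt with e0 | tpos
  · have z : ∀ s ∈ range 8, ∀ y : ℝ, y ≠ 0 → RR s y f = 0 := by
      intro s hs y hy
      have k := rr_enc (mem_range.1 hs) hτ hP hy (by rw [← e0]; simp)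
      rw [gp_two, ← e0] at k
      simpa using k
    rw [sum_eq_zero fun s hs => by rw [PP_eq, z s hs 1 one_ne_zero, z s hs lam l0]; simp,
      sum_eq_zero fun s hs => by rw [z s hs lam l0]; simp]
    have := mul_nonneg hκ (sq_nonneg Z)
    linarith
  obtain ⟨a, b, x, hF, hA⟩ := Cel.cover h t1 t2 18 u1 u2 hτ
  obtain ⟨hn, hm'⟩ := two_sound hF
  generalize hc : (⟨t1, t2, a, b, 18⟩ : Cel) = c at hA hn hm'
  have hcn : c.n = 18 := by rw [← hc]
  have hz : ∀ z : ℤ, z = lamI n ∨ z = lamI m → cenII1 w kap c (c.phi 1024 0 1024 4)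
      (c.phi z (Nat.sub m n) (lamL n m) 4) (c.phi z (Nat.sub m n) (lamL n m) 2) = true := by
    rintro z (rfl | rfl)
    · exact hn
    · exact hm'
  simp only [cenII1, band_iff, allLt_iff] at hz
  have r1 := fun k (hk : k < 8) => smR_ACenT hs hnm hm l1 l2 l0 hτ hP tle hcn hA
    fun z h => ⟨(hz z h).1, (hz z h).2.1 k hk⟩
  have r2 := smR_ACenT hs hnm hm l1 l2 l0 hτ hP tle hcn hA fun z h => ⟨(hz z h).1, (hz z h).2.2⟩
  generalize ∑ s ∈ range 8, wR w s * (PP s f - RR s lam f) = A at r1 r2 ⊢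
  generalize ∑ s ∈ range 8, mR w s * RR s lam f = B at r1 r2 ⊢
  generalize tR f = t at r1 r2 tpos
  simp only [Nat.mul_eq, Nat.cast_mul, Nat.cast_ofNat, Nat.cast_zero] at r1 r2
  have t2p : 0 < t ^ 2 := by positivity
  have t4p : 0 < t ^ 4 := by positivity
  have key := quad_ACenT (P := 64 * A / t ^ 4) (Q := -(8 * B / t ^ 2)) (η := 8 * Z / t ^ 2) hκ
    (fun k hk => by
      have k1 := div_nonneg (r1 k hk) (mul_pos (by norm_num : (0 : ℝ) < 1024) t4p).le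
      refine k1.trans (le_of_eq ?_)
      field_simp
      ring)
    (by
      have k1 := div_nonneg r2 t4p.le
      refine k1.trans (le_of_eq ?_)
      field_simp
      ring) (by positivity)
  have k2 := mul_nonneg key (div_pos t4p (by norm_num : (0 : ℝ) < 64)).le
  refine k2.trans (le_of_eq ?_)
  field_simp
  ring

end Vale.Agent.P154
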