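import Vale.Agent.P154.ADef

/-! TASK AChr: elementary properties of the eight characters.
Plan. `sum_perm3`: as `sum_perm4_Chr` in `Chr.lean`. For `s` use `match s` with the cases
`0, ..., 6, n + 7` (for `s ≥ 7` everything is the case `7`); always `∑ i, sg s i = 6`,
`∑ i, ta s i = 0`, `ta s i ≠ 0 → sg s i ≠ 0`. `mon0_le`: weighted AM-GM
(`Real.geom_mean_le_arith_mean_weighted`) gives `mon0 s (f ∘ π) ≤ ∑ i, sg s i / 6 * f (π i)`, and
the average over `π` of `f (π i)` is `avg f`. `chi_smul`: for `c > 0`, `Real.mul_rpow`, and either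
`mon0 = 0` or `log (c * f i) = log c + log (f i)` where `ta s i ≠ 0`. `chi_mul`: in the same way
`mon s (f * g) = mon0 f * mon0 g * cos (A f + A g)`; expand the cosine, reindex `τ ↦ τ * π`
(see `Mmu_mul`); the sine part `∑ σ, mon0 s (g ∘ σ) * sin (A (g ∘ σ))` vanishes (reindex with
`σ ↦ σ * swap 0 1` for `s ≥ 6`; `ta = 0` for `s < 6`). `chi_pow6`: `(a^6)^(k/6) = a^k`
(`Real.rpow_natCast`, `Real.rpow_mul`), `Real.log_pow`, `Real.cos_neg`.
`ca_le_chi`: with `G = mon0 0 g = (g 0 * g 1 * g 2)^(1/3)`: `G^2 ≤ (g0 g1 + g0 g2 + g1 g2) / 3 =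
1 - ca g / 2` (AM-GM, e.g. with `g i = y i ^ 3`), so `G ≤ 1 - ca g / 4`. -/

namespace Vale.Agent.P154

open Finset

theorem sum_perm3 (G : Fin 3 → Fin 3 → Fin 3 → ℝ) :
    ∑ σ : Equiv.Perm (Fin 3), G (σ 0) (σ 1) (σ 2) =
      G 0 1 2 + G 0 2 1 + G 1 0 2 + G 1 2 0 + G 2 0 1 + G 2 1 0 := by
  have hinj : Function.Injective fun σ : Equiv.Perm (Fin 3) => (σ 0, σ 1, σ 2) := by
    intro σ τ h
    simp only [Prod.mk.injEq] at h
    ext i
    fin_cases i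
    · exact congrArg Fin.val h.1
    · exact congrArg Fin.val h.2.1
    · exact congrArg Fin.val h.2.2
  have h1 : ∑ σ : Equiv.Perm (Fin 3), G (σ 0) (σ 1) (σ 2) =
      ∑ t ∈ Finset.univ.image fun σ : Equiv.Perm (Fin 3) => (σ 0, σ 1, σ 2),
        G t.1 t.2.1 t.2.2 := by
    rw [Finset.sum_image fun σ _ τ _ h => hinj h]
  have h2 : (Finset.univ.image fun σ : Equiv.Perm (Fin 3) => (σ 0, σ 1, σ 2)) =
      ([(0, 1, 2), (0, 2, 1), (1, 0, 2), (1, 2, 0), (2, 0, 1), (2, 1, 0)] :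
        List (Fin 3 × Fin 3 × Fin 3)).toFinset := by
    decide +kernel
  rw [h1, h2, List.sum_toFinset _ (by decide +kernel)]
  simp only [List.map_cons, List.sum_cons, List.map_nil, List.sum_nil]
  ring
theorem avg3 (h : Fin 3 → ℝ) : avg h = (h 0 + h 1 + h 2) / 3 := by
  simp only [avg, Fin.sum_univ_three, Nat.cast_ofNat]
theorem pavg3 (F : Equiv.Perm (Fin 3) → ℝ) : pavg F = (∑ τ, F τ) / 6 := by
  unfold pavg
  norm_num [Nat.factorial]
theorem sg_sum (s : ℕ) : sg s 0 + sg s 1 + sg s 2 = 6 := by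
  match s with
  | 0 | 1 | 2 | 3 | 4 | 5 | 6 | _ + 7 => rfl

theorem sg_ge_AChr {s : ℕ} (hs : ¬ s < 6) : sg s 0 = sg s 1 ∧ sg s 0 ≠ 0 := by
  match s, hs with
  | 0, h | 1, h | 2, h | 3, h | 4, h | 5, h => exact absurd (by norm_num) h
  | 6, _ => exact ⟨rfl, by decide⟩
  | _ + 7, _ => exact ⟨rfl, show (3 : ℕ) ≠ 0 by decide⟩

theorem w_sum_AChr (s : ℕ) : ∑ i, (sg s i : ℝ) / 6 = 1 := by
  have h : ((sg s 0 + sg s 1 + sg s 2 : ℕ) : ℝ) = 6 := by rw [sg_sum]; norm_num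
  push_cast at h
  rw [Fin.sum_univ_three]
  linarith

theorem ta_ne_AChr {s : ℕ} {i : Fin 3} (h : ta s i ≠ 0) : sg s i ≠ 0 := by
  unfold ta at h
  by_cases hs : s < 6
  · simp [hs] at h
  · obtain ⟨a, b⟩ := sg_ge_AChr hs
    rw [if_neg hs] at h
    fin_cases i
    · exact b
    · exact a ▸ b
    · simp at h

noncomputable def ang_AChr (s : ℕ) (f : Fin 3 → ℝ) : ℝ := ∑ i, ta s i * Real.log (f i)

theorem mon_eq_AChr (s : ℕ) (f : Fin 3 → ℝ) : mon s f = mon0 s f * Real.cos (ang_AChr s f) := rfl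

theorem ang_lt_AChr {s : ℕ} (hs : s < 6) (f : Fin 3 → ℝ) : ang_AChr s f = 0 := by
  simp [ang_AChr, ta, hs]

theorem ang_ge_AChr {s : ℕ} (hs : ¬ s < 6) (f : Fin 3 → ℝ) :
    ang_AChr s f = (Real.log (f 0) - Real.log (f 1)) / 2 := by
  simp [ang_AChr, ta, hs, Fin.sum_univ_three]
  ring

theorem ang_const_AChr (s : ℕ) (c : ℝ) : ang_AChr s (fun _ => c) = 0 := by
  by_cases hs : s < 6
  · exact ang_lt_AChr hs _
  · rw [ang_ge_AChr hs]; simp

theorem mon0_const_AChr (s : ℕ) {c : ℝ} (hc : 0 ≤ c) : mon0 s (fun _ => c) = c := by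
  unfold mon0
  rw [← Real.rpow_sum_of_nonneg hc (fun i _ => by positivity), w_sum_AChr, Real.rpow_one]

theorem mon0_mul_AChr (s : ℕ) {f g : Fin 3 → ℝ} (hf : ∀ i, 0 ≤ f i) (hg : ∀ i, 0 ≤ g i) :
    mon0 s (f * g) = mon0 s f * mon0 s g := by
  unfold mon0
  rw [← Finset.prod_mul_distrib]
  exact Finset.prod_congr rfl fun i _ => Real.mul_rpow (hf i) (hg i)

theorem ne_of_mon0_AChr {s : ℕ} {f : Fin 3 → ℝ} (h : mon0 s f ≠ 0) {i : Fin 3}
    (hi : sg s i ≠ 0) : f i ≠ 0 := by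
  intro h0
  apply h
  unfold mon0
  refine Finset.prod_eq_zero (Finset.mem_univ i) ?_
  rw [h0]
  exact Real.zero_rpow (by positivity)

theorem mon_mul_AChr (s : ℕ) {f g : Fin 3 → ℝ} (hf : ∀ i, 0 ≤ f i) (hg : ∀ i, 0 ≤ g i) :
    mon s (f * g) = mon0 s f * mon0 s g * Real.cos (ang_AChr s f + ang_AChr s g) := by
  rw [mon_eq_AChr, mon0_mul_AChr s hf hg]
  by_cases h1 : mon0 s f = 0
  · simp [h1]
  by_cases h2 : mon0 s g = 0
  · simp [h2]
  congr 2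
  unfold ang_AChr
  rw [← Finset.sum_add_distrib]
  refine Finset.sum_congr rfl fun i _ => ?_
  by_cases ht : ta s i = 0
  · simp [ht]
  · rw [Pi.mul_apply, Real.log_mul (ne_of_mon0_AChr h1 (ta_ne_AChr ht))
      (ne_of_mon0_AChr h2 (ta_ne_AChr ht)), mul_add]

theorem mon0_nonneg (s : ℕ) {f : Fin 3 → ℝ} (hf : ∀ i, 0 ≤ f i) : 0 ≤ mon0 s f :=
  Finset.prod_nonneg fun i _ => Real.rpow_nonneg (hf i) _
theorem mon0_mono (s : ℕ) {f g : Fin 3 → ℝ} (hf : ∀ i, 0 ≤ f i) (h : ∀ i, f i ≤ g i) :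
    mon0 s f ≤ mon0 s g :=
  Finset.prod_le_prod (fun i _ => Real.rpow_nonneg (hf i) _)
    fun i _ => Real.rpow_le_rpow (hf i) (h i) (by positivity)
theorem abs_mon_le (s : ℕ) {f : Fin 3 → ℝ} (hf : ∀ i, 0 ≤ f i) : |mon s f| ≤ mon0 s f := by
  rw [mon_eq_AChr, abs_mul, abs_of_nonneg (mon0_nonneg s hf)]
  exact mul_le_of_le_one_right (mon0_nonneg s hf) (Real.abs_cos_le_one _)
theorem mon_real {s : ℕ} (hs : s < 6) (f : Fin 3 → ℝ) : mon s f = mon0 s f := by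
  rw [mon_eq_AChr, ang_lt_AChr hs, Real.cos_zero, mul_one]
theorem chi_real {s : ℕ} (hs : s < 6) (f : Fin 3 → ℝ) : chi s f = chi0 s f := by
  unfold chi chi0
  simp only [mon_real hs]
theorem chi0_six (f : Fin 3 → ℝ) : chi0 6 f = chi 0 f := by
  rw [chi_real (by norm_num)]
  rfl
theorem chi0_seven (f : Fin 3 → ℝ) : chi0 7 f = chi 1 f := by
  rw [chi_real (by norm_num)]
  rfl
theorem mon0_pow6 (s : ℕ) {y : Fin 3 → ℝ} (hy : ∀ i, 0 ≤ y i) :
    mon0 s (fun i => y i ^ 6) = ∏ i, y i ^ sg s i := by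
  unfold mon0
  refine Finset.prod_congr rfl fun i _ => ?_
  show (y i ^ 6) ^ ((sg s i : ℝ) / 6) = _
  rw [← Real.rpow_natCast (y i) 6, ← Real.rpow_mul (hy i), ← Real.rpow_natCast]
  congr 1
  push_cast
  ring
theorem chi_perm (s : ℕ) (f : Fin 3 → ℝ) (τ : Equiv.Perm (Fin 3)) : chi s (f ∘ τ) = chi s f := by
  unfold chi pavg
  congr 1
  exact Equiv.sum_comp (Equiv.mulLeft τ) fun π : Equiv.Perm (Fin 3) => mon s (f ∘ π)
theorem chi0_le (s : ℕ) {f : Fin 3 → ℝ} (hf : ∀ i, 0 ≤ f i) : chi0 s f ≤ avg f := by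
  have h : ∀ π : Equiv.Perm (Fin 3), mon0 s (f ∘ π) ≤
      (sg s 0 : ℝ) / 6 * f (π 0) + (sg s 1 : ℝ) / 6 * f (π 1) + (sg s 2 : ℝ) / 6 * f (π 2) := by
    intro π
    have := Real.geom_mean_le_arith_mean_weighted Finset.univ (fun i => (sg s i : ℝ) / 6) (f ∘ π)
      (fun i _ => by positivity) (w_sum_AChr s) (fun i _ => hf _)
    rw [Fin.sum_univ_three] at this
    exact this
  have h1 := Finset.sum_le_sum fun π (_ : π ∈ Finset.univ) => h π
  rw [sum_perm3 fun a b c =>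
    (sg s 0 : ℝ) / 6 * f a + (sg s 1 : ℝ) / 6 * f b + (sg s 2 : ℝ) / 6 * f c] at h1
  have h2 := w_sum_AChr s
  rw [Fin.sum_univ_three] at h2
  unfold chi0
  rw [pavg3, avg3, div_le_iff₀ (by norm_num)]
  refine h1.trans (le_of_eq ?_)
  linear_combination 2 * (f 0 + f 1 + f 2) * h2
theorem abs_chi_le (s : ℕ) {f : Fin 3 → ℝ} (hf : ∀ i, 0 ≤ f i) : |chi s f| ≤ avg f := by
  refine le_trans ?_ (chi0_le s hf)
  unfold chi chi0
  rw [pavg3, pavg3, abs_div, abs_of_pos (by norm_num : (0 : ℝ) < 6)]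
  refine div_le_div_of_nonneg_right ((Finset.abs_sum_le_sum_abs _ _).trans
    (Finset.sum_le_sum fun π _ => abs_mon_le s fun i => hf _)) (by norm_num)
theorem chi_nonneg {s : ℕ} (hs : s < 6) {f : Fin 3 → ℝ} (hf : ∀ i, 0 ≤ f i) : 0 ≤ chi s f := by
  rw [chi_real hs]
  unfold chi0
  rw [pavg3]
  exact div_nonneg (Finset.sum_nonneg fun π _ => mon0_nonneg s fun i => hf _) (by norm_num)
theorem chi_smul (s : ℕ) {c : ℝ} (hc : 0 ≤ c) {f : Fin 3 → ℝ} (hf : ∀ i, 0 ≤ f i) :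
    chi s (fun i => c * f i) = c * chi s f := by
  unfold chi
  rw [pavg3, pavg3, ← mul_div_assoc, Finset.mul_sum]
  congr 1
  refine Finset.sum_congr rfl fun π _ => ?_
  have h := mon_mul_AChr s (f := fun _ => c) (g := f ∘ π) (fun _ => hc) (fun i => hf _)
  rw [mon0_const_AChr s hc, ang_const_AChr, zero_add, mul_assoc, ← mon_eq_AChr] at h
  exact h
theorem hom_chi (s : ℕ) {h : Fin 3 → ℝ} (hh : ∀ i, 0 ≤ h i) : hom (chi s) h = chi s h := by
  unfold hom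
  have ha := abs_chi_le s hh
  have h0 : 0 ≤ avg h := (abs_nonneg _).trans ha
  rcases h0.eq_or_lt with h1 | h1
  · rw [← h1] at ha
    rw [abs_nonpos_iff.1 ha, ← h1, zero_mul]
  · rw [← chi_smul s h0 fun i => div_nonneg (hh i) h0]
    congr 1
    funext i
    field_simp
theorem bdd_chi (s : ℕ) : Bdd (chi s) :=
  ⟨1, fun f hf => by rw [← hf.2]; exact abs_chi_le s hf.1⟩
theorem chi_one (s : ℕ) : chi s (fun _ => 1) = 1 := by
  unfold chi
  have h : ∀ π : Equiv.Perm (Fin 3), mon s ((fun _ => 1) ∘ π) = 1 := by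
    intro π
    show mon s (fun _ => 1) = 1
    rw [mon_eq_AChr, mon0_const_AChr s zero_le_one, ang_const_AChr, Real.cos_zero, mul_one]
  rw [pavg3]
  simp only [h, Finset.sum_const, Finset.card_univ, Fintype.card_perm, Fintype.card_fin]
  norm_num [Nat.factorial]

theorem sin_sum_AChr (s : ℕ) (g : Fin 3 → ℝ) :
    ∑ σ : Equiv.Perm (Fin 3), mon0 s (g ∘ σ) * Real.sin (ang_AChr s (g ∘ σ)) = 0 := by
  by_cases hs : s < 6
  · simp [ang_lt_AChr hs]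
  have h := Equiv.sum_comp (Equiv.mulRight (Equiv.swap (0 : Fin 3) 1))
    fun σ : Equiv.Perm (Fin 3) => mon0 s (g ∘ σ) * Real.sin (ang_AChr s (g ∘ σ))
  have h2 : ∀ σ : Equiv.Perm (Fin 3),
      mon0 s (g ∘ (Equiv.mulRight (Equiv.swap (0 : Fin 3) 1) σ : Equiv.Perm (Fin 3))) *
        Real.sin (ang_AChr s
          (g ∘ (Equiv.mulRight (Equiv.swap (0 : Fin 3) 1) σ : Equiv.Perm (Fin 3)))) =
      -(mon0 s (g ∘ σ) * Real.sin (ang_AChr s (g ∘ σ))) := by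
    intro σ
    have e2 : Equiv.swap (0 : Fin 3) 1 2 = 2 := by decide
    rw [ang_ge_AChr hs, ang_ge_AChr hs, ← mul_neg, ← Real.sin_neg]
    simp only [mon0, Fin.prod_univ_three, Function.comp_apply, Equiv.coe_mulRight,
      Equiv.Perm.mul_apply, Equiv.swap_apply_left, Equiv.swap_apply_right, e2,
      (sg_ge_AChr hs).1]
    congr 1
    · ring
    · congr 1
      ring
  rw [Finset.sum_congr rfl fun σ _ => h2 σ, Finset.sum_neg_distrib] at h
  linarith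

theorem chi_mul (s : ℕ) {f g : Fin 3 → ℝ} (hf : ∀ i, 0 ≤ f i) (hg : ∀ i, 0 ≤ g i) :
    pavg (fun τ : Equiv.Perm (Fin 3) => chi s (f * (g ∘ τ))) = chi s f * chi s g := by
  have h : ∀ π : Equiv.Perm (Fin 3), ∑ τ : Equiv.Perm (Fin 3), mon s ((f * (g ∘ τ)) ∘ π) =
      mon s (f ∘ π) * ∑ σ : Equiv.Perm (Fin 3), mon s (g ∘ σ) := by
    intro π
    have e1 : ∑ τ : Equiv.Perm (Fin 3), mon s ((f * (g ∘ τ)) ∘ π) =
        ∑ σ : Equiv.Perm (Fin 3), mon s ((f ∘ π) * (g ∘ σ)) :=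
      Equiv.sum_comp (Equiv.mulRight π) fun σ : Equiv.Perm (Fin 3) => mon s ((f ∘ π) * (g ∘ σ))
    have e2 : ∀ σ : Equiv.Perm (Fin 3), mon s ((f ∘ π) * (g ∘ σ)) =
        mon s (f ∘ π) * mon s (g ∘ σ) - mon0 s (f ∘ π) * Real.sin (ang_AChr s (f ∘ π)) *
          (mon0 s (g ∘ σ) * Real.sin (ang_AChr s (g ∘ σ))) := by
      intro σ
      rw [mon_mul_AChr s (f := f ∘ π) (g := g ∘ σ) (fun i => hf _) (fun i => hg _), Real.cos_add,
        mon_eq_AChr, mon_eq_AChr]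
      ring
    rw [e1, Finset.sum_congr rfl fun σ _ => e2 σ, Finset.sum_sub_distrib, ← Finset.mul_sum,
      ← Finset.mul_sum, sin_sum_AChr, mul_zero, sub_zero]
  unfold chi
  simp only [pavg3]
  rw [← Finset.sum_div, Finset.sum_comm, Finset.sum_congr rfl fun π _ => h π, ← Finset.sum_mul]
  ring
theorem chi_pow6 (s : ℕ) {a b c : ℝ} (ha : 0 ≤ a) (hb : 0 ≤ b) (hc : 0 ≤ c) :
    6 * chi s ![a ^ 6, b ^ 6, c ^ 6] = XX s a b c := by
  have hy : ∀ i, 0 ≤ ![a, b, c] i := by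
    intro i
    fin_cases i
    · exact ha
    · exact hb
    · exact hc
  have e : ![a ^ 6, b ^ 6, c ^ 6] = fun i => ![a, b, c] i ^ 6 := by
    funext i
    fin_cases i <;> rfl
  have h : ∀ π : Equiv.Perm (Fin 3), mon s (![a ^ 6, b ^ 6, c ^ 6] ∘ π) =
      ![a, b, c] (π 0) ^ sg s 0 * ![a, b, c] (π 1) ^ sg s 1 * ![a, b, c] (π 2) ^ sg s 2 *
        Real.cos (if s < 6 then 0 else
          3 * (Real.log (![a, b, c] (π 0)) - Real.log (![a, b, c] (π 1)))) := by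
    intro π
    rw [e, mon_eq_AChr]
    congr 1
    · exact (mon0_pow6 s (y := fun i => ![a, b, c] (π i)) fun i => hy _).trans
        (Fin.prod_univ_three _)
    · congr 1
      by_cases hs : s < 6
      · rw [if_pos hs, ang_lt_AChr hs]
      · rw [if_neg hs, ang_ge_AChr hs]
        simp only [Function.comp_apply, Real.log_pow]
        push_cast
        ring
  have hc' : ∀ x y : ℝ, Real.cos (3 * (x - y)) = Real.cos (3 * (y - x)) := by
    intro x y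
    rw [← Real.cos_neg]
    congr 1
    ring
  unfold chi
  rw [pavg3, Finset.sum_congr rfl fun π _ => h π, sum_perm3 fun i j k =>
    ![a, b, c] i ^ sg s 0 * ![a, b, c] j ^ sg s 1 * ![a, b, c] k ^ sg s 2 *
        Real.cos (if s < 6 then 0 else
          3 * (Real.log (![a, b, c] i) - Real.log (![a, b, c] j)))]
  simp only [Matrix.cons_val_zero, Matrix.cons_val_one, Matrix.cons_val_two, Matrix.head_cons,
    Matrix.tail_cons]
  match s with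
  | 0 | 1 | 2 | 3 | 4 | 5 =>
    rw [if_pos (by norm_num)]
    simp [sg, XX]
    ring
  | 6 =>
    simp [sg, XX, hc' (Real.log b) (Real.log a), hc' (Real.log c) (Real.log a),
      hc' (Real.log c) (Real.log b)]
    ring
  | n + 7 =>
    have hn : ¬ n + 7 < 6 := by omega
    simp [sg, XX, hn, hc' (Real.log b) (Real.log a), hc' (Real.log c) (Real.log a),
      hc' (Real.log c) (Real.log b)]
    ring
theorem ca_le_chi {g : Fin 3 → ℝ} (hg : g ∈ Simp 3) : ca g ≤ 4 * (1 - chi 0 g) := by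
  obtain ⟨a, ha, ea⟩ : ∃ a : ℝ, 0 ≤ a ∧ a ^ 6 = g 0 :=
    ⟨g 0 ^ ((6 : ℕ) : ℝ)⁻¹, Real.rpow_nonneg (hg.1 0) _,
      Real.rpow_inv_natCast_pow (hg.1 0) (by norm_num)⟩
  obtain ⟨b, hb, eb⟩ : ∃ a : ℝ, 0 ≤ a ∧ a ^ 6 = g 1 :=
    ⟨g 1 ^ ((6 : ℕ) : ℝ)⁻¹, Real.rpow_nonneg (hg.1 1) _,
      Real.rpow_inv_natCast_pow (hg.1 1) (by norm_num)⟩
  obtain ⟨c, hc, ec⟩ : ∃ a : ℝ, 0 ≤ a ∧ a ^ 6 = g 2 :=
    ⟨g 2 ^ ((6 : ℕ) : ℝ)⁻¹, Real.rpow_nonneg (hg.1 2) _,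
      Real.rpow_inv_natCast_pow (hg.1 2) (by norm_num)⟩
  have e : g = ![a ^ 6, b ^ 6, c ^ 6] := by
    funext i
    fin_cases i
    · exact ea.symm
    · exact eb.symm
    · exact ec.symm
  have h1 := chi_pow6 0 ha hb hc
  rw [← e] at h1
  simp only [XX] at h1
  have h2 := hg.2
  rw [avg3, ← ea, ← eb, ← ec] at h2
  unfold ca
  rw [avg3, ← ea, ← eb, ← ec]
  have h3 : 0 ≤ (a ^ 2 * b ^ 2 + a ^ 2 * c ^ 2 + b ^ 2 * c ^ 2) *
      ((a ^ 2 * b ^ 2 - a ^ 2 * c ^ 2) ^ 2 + (a ^ 2 * b ^ 2 - b ^ 2 * c ^ 2) ^ 2 +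
        (a ^ 2 * c ^ 2 - b ^ 2 * c ^ 2) ^ 2) := by positivity
  have h4 : 3 * ((a * b * c) ^ 2) ^ 2 ≤ a ^ 6 * b ^ 6 + a ^ 6 * c ^ 6 + b ^ 6 * c ^ 6 := by
    nlinarith [h3]
  generalize (a * b * c) ^ 2 = G at h1 h4
  generalize a ^ 6 = x at h2 h4 ⊢
  generalize b ^ 6 = y at h2 h4 ⊢
  generalize c ^ 6 = z at h2 h4 ⊢
  have h5 : z = 3 - x - y := by linarith
  subst h5
  nlinarith [sq_nonneg (G - 1)]

end Vale.Agent.P154
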