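import Vale.Agent.P154.ASeg0

/-! TASK ACon: concavity.
Plan. For positive `u`, `v` use `mon_deriv` and `interp_ge` with `K = 0`. For `s < 6` the numbers
`sx s i` are nonnegative reals and `G θ` is real and nonnegative (`(G θ).re = mon0 = ‖G θ‖`; it is
enough to use `(G * r).re = G.re * r` for real `r`). For `s = 6, 7` apply `mon_deriv` to `s` and to
`s - 6` (same `sg`, so the same `mon0`): the second derivative of `4 * mon (s - 6) + e * mon s` is at
most `- mon0 * ∑ (4 * sg i * sg j / 36 - wt s i j / 36) * dw^2 ≤ 0` (`norm_sx`, `Complex.abs_re_le_norm`;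
`16 ≥ 13, 8` and `36 ≥ 18`). For nonnegative `u`, `v` replace them by `u + ε`, `v + ε`
(`lc θ (u + ε) (v + ε) = lc θ u v + ε`) and use `mon_cont`, `le_of_tendsto_of_tendsto`.
For `chi` average over the permutations (`lc θ u v ∘ π = lc θ (u ∘ π) (v ∘ π)`).
`Cvx`: `hom` is linear in the function, `hom_chi`; `h + k = 2 * lc (1/2) h k`, `chi_smul`. -/

namespace Vale.Agent.P154

open Filter Topology

lemma lc_zero_ACon (u v : Fin 3 → ℝ) : lc 0 u v = u := by funext i; simp [lc]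
lemma lc_one_ACon (u v : Fin 3 → ℝ) : lc 1 u v = v := by funext i; simp [lc]

lemma sx_real_ACon {r : ℕ} (hr : r < 6) (i j : Fin 3) :
    sx r i * sx r j = (((wt r i j : ℝ) / 36 : ℝ) : ℂ) := by
  simp only [sx, ta, wt, if_pos hr, Pi.zero_apply]
  push_cast
  ring

lemma pos_ACon {r s : ℕ} (hr : r < 6) (hsg : sg s = sg r) {c e : ℝ}
    (h01 : |e| * wt s 0 1 ≤ c * wt r 0 1) (h02 : |e| * wt s 0 2 ≤ c * wt r 0 2)
    (h12 : |e| * wt s 1 2 ≤ c * wt r 1 2) {u v : Fin 3 → ℝ} (hu : ∀ i, 0 < u i)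
    (hv : ∀ i, 0 < v i) {θ : ℝ} (a : 0 ≤ θ) (b : θ ≤ 1) :
    (1 - θ) * (c * mon r u + e * mon s u) + θ * (c * mon r v + e * mon s v) ≤
      c * mon r (lc θ u v) + e * mon s (lc θ u v) := by
  have hp : ∀ θ : ℝ, 0 ≤ θ → θ ≤ 1 → ∀ i, 0 < lc θ u v i := fun θ a b i => by
    unfold lc
    rcases eq_or_lt_of_le a with h | h
    · rw [← h]; simpa using hu i
    · have := mul_nonneg (sub_nonneg.2 b) (hu i).le
      have := mul_pos h (hv i)
      linarith
  obtain ⟨G, g, hG⟩ := mon_deriv r (u := u) (v := v) fun θ a b i _ => hp θ a b i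
  obtain ⟨H, h, hH⟩ := mon_deriv s (u := u) (v := v) fun θ a b i _ => hp θ a b i
  have key := interp_ge (K := 0) (g := fun θ => c * (G θ).re + e * (H θ).re)
    (g1 := fun θ => c * g θ + e * h θ)
    (fun θ a b => ((hG θ a b).2.2.1.const_mul c).add ((hH θ a b).2.2.1.const_mul e))
    (fun θ a b => ((hG θ a b).2.2.2.const_mul c).add ((hH θ a b).2.2.2.const_mul e))
    (fun θ a b => ?_) a b
  · rw [← (hG 0 le_rfl zero_le_one).1, ← (hH 0 le_rfl zero_le_one).1,
      ← (hG 1 zero_le_one le_rfl).1, ← (hH 1 zero_le_one le_rfl).1, ← (hG θ a b).1,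
      ← (hH θ a b).1, lc_zero_ACon, lc_one_ACon] at key
    linarith
  · obtain ⟨n1, n2, n3⟩ := norm_sx s
    have e1 : (G θ).re = mon0 r (lc θ u v) := by rw [← (hG θ a b).1, mon_real hr]
    have e2 : ‖H θ‖ = mon0 r (lc θ u v) := by rw [(hH θ a b).2.1]; simp only [mon0, hsg]
    have m0 : 0 ≤ mon0 r (lc θ u v) := by rw [← e2]; exact norm_nonneg _
    have d1 := sq_nonneg (dw θ u v 0 1)
    have d2 := sq_nonneg (dw θ u v 0 2)
    have d3 := sq_nonneg (dw θ u v 1 2)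
    generalize dw θ u v 0 1 ^ 2 = D1 at *
    generalize dw θ u v 0 2 ^ 2 = D2 at *
    generalize dw θ u v 1 2 ^ 2 = D3 at *
    have e3 : (G θ * (sx r 0 * sx r 1 * (D1 : ℂ) + sx r 0 * sx r 2 * (D2 : ℂ) +
        sx r 1 * sx r 2 * (D3 : ℂ))).re =
        mon0 r (lc θ u v) * ((wt r 0 1 * D1 + wt r 0 2 * D2 + wt r 1 2 * D3) / 36) := by
      rw [sx_real_ACon hr, sx_real_ACon hr, sx_real_ACon hr, ← Complex.ofReal_mul,
        ← Complex.ofReal_mul, ← Complex.ofReal_mul, ← Complex.ofReal_add, ← Complex.ofReal_add,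
        Complex.re_mul_ofReal, e1]
      ring
    have e4 : ‖sx s 0 * sx s 1 * (D1 : ℂ) + sx s 0 * sx s 2 * (D2 : ℂ) +
        sx s 1 * sx s 2 * (D3 : ℂ)‖ ≤ (wt s 0 1 * D1 + wt s 0 2 * D2 + wt s 1 2 * D3) / 36 := by
      refine norm_add₃_le.trans ?_
      rw [norm_mul _ (D1 : ℂ), norm_mul _ (D2 : ℂ), norm_mul _ (D3 : ℂ), Complex.norm_of_nonneg d1,
        Complex.norm_of_nonneg d2, Complex.norm_of_nonneg d3]
      have := mul_le_mul_of_nonneg_right n1 d1
      have := mul_le_mul_of_nonneg_right n2 d2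
      have := mul_le_mul_of_nonneg_right n3 d3
      linarith
    have e5 := (Complex.abs_re_le_norm (H θ * (sx s 0 * sx s 1 * (D1 : ℂ) +
      sx s 0 * sx s 2 * (D2 : ℂ) + sx s 1 * sx s 2 * (D3 : ℂ)))).trans
      ((norm_mul _ _).le.trans (mul_le_mul e2.le e4 (norm_nonneg _) m0))
    rw [e3]
    generalize (H θ * (sx s 0 * sx s 1 * (D1 : ℂ) + sx s 0 * sx s 2 * (D2 : ℂ) +
      sx s 1 * sx s 2 * (D3 : ℂ))).re = X at *
    generalize mon0 r (lc θ u v) = M at *
    have e6 : e * -X ≤ |e| * |X| := by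
      rw [← abs_neg X, ← abs_mul]; exact le_abs_self _
    have e7 := mul_le_mul_of_nonneg_left e5 (abs_nonneg e)
    have e8 := mul_le_mul_of_nonneg_right h01 (mul_nonneg m0 d1)
    have e9 := mul_le_mul_of_nonneg_right h02 (mul_nonneg m0 d2)
    have e10 := mul_le_mul_of_nonneg_right h12 (mul_nonneg m0 d3)
    nlinarith

lemma gen_ACon {r s : ℕ} (hr : r < 6) (hsg : sg s = sg r) {c e : ℝ}
    (h01 : |e| * wt s 0 1 ≤ c * wt r 0 1) (h02 : |e| * wt s 0 2 ≤ c * wt r 0 2)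
    (h12 : |e| * wt s 1 2 ≤ c * wt r 1 2) {u v : Fin 3 → ℝ} (hu : ∀ i, 0 ≤ u i)
    (hv : ∀ i, 0 ≤ v i) {θ : ℝ} (a : 0 ≤ θ) (b : θ ≤ 1) :
    (1 - θ) * (c * chi r u + e * chi s u) + θ * (c * chi r v + e * chi s v) ≤
      c * chi r (lc θ u v) + e * chi s (lc θ u v) := by
  have h1 : ∀ u v : Fin 3 → ℝ, (∀ i, 0 ≤ u i) → (∀ i, 0 ≤ v i) →
      (1 - θ) * (c * mon r u + e * mon s u) + θ * (c * mon r v + e * mon s v) ≤
        c * mon r (lc θ u v) + e * mon s (lc θ u v) := by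
    intro u v hu hv
    have hl : ∀ i, 0 ≤ lc θ u v i := fun i =>
      add_nonneg (mul_nonneg (sub_nonneg.2 b) (hu i)) (mul_nonneg a (hv i))
    refine le_of_tendsto_of_tendsto
      (((((mon_cont r hu).const_mul c).add ((mon_cont s hu).const_mul e)).const_mul (1 - θ)).add
        ((((mon_cont r hv).const_mul c).add ((mon_cont s hv).const_mul e)).const_mul θ))
      (((mon_cont r hl).const_mul c).add ((mon_cont s hl).const_mul e)) ?_
    filter_upwards [self_mem_nhdsWithin] with ε hε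
    have h2 := pos_ACon hr hsg h01 h02 h12 (u := fun i => u i + ε) (v := fun i => v i + ε)
      (fun i => add_pos_of_nonneg_of_pos (hu i) hε) (fun i => add_pos_of_nonneg_of_pos (hv i) hε) a b
    have h3 : lc θ (fun i => u i + ε) (fun i => v i + ε) = fun i => lc θ u v i + ε := by
      funext i; simp only [lc]; ring
    rwa [h3] at h2
  have h2 := Finset.sum_le_sum fun (π : Equiv.Perm (Fin 3)) (_ : π ∈ Finset.univ) =>
    h1 (u ∘ π) (v ∘ π) (fun i => hu _) fun i => hv _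
  have h3 : ∀ π : Equiv.Perm (Fin 3), lc θ (u ∘ π) (v ∘ π) = lc θ u v ∘ π := fun π => rfl
  simp only [h3, Finset.sum_add_distrib, ← Finset.mul_sum] at h2
  simp only [chi, pavg3]
  linarith

lemma half_ACon (s : ℕ) {h k : Fin 3 → ℝ} (hh : ∀ i, 0 ≤ h i) (hk : ∀ i, 0 ≤ k i) :
    chi s (h + k) = 2 * chi s (lc (1 / 2) h k) := by
  rw [← chi_smul s zero_le_two (f := lc (1 / 2) h k) fun i =>
    add_nonneg (mul_nonneg (by norm_num) (hh i)) (mul_nonneg (by norm_num) (hk i))]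
  congr 1
  funext i
  simp only [Pi.add_apply, lc]; ring

theorem conc_real {s : ℕ} (hs : s < 6) {u v : Fin 3 → ℝ} (hu : ∀ i, 0 ≤ u i) (hv : ∀ i, 0 ≤ v i)
    {θ : ℝ} (a : 0 ≤ θ) (b : θ ≤ 1) : (1 - θ) * chi s u + θ * chi s v ≤ chi s (lc θ u v) := by
  have h := gen_ACon hs rfl (c := 1) (e := 0) (by simp) (by simp) (by simp) hu hv a b
  simpa using h

theorem conc_cx {s : ℕ} (hs : s = 6 ∨ s = 7) {e : ℝ} (he : |e| ≤ 1) {u v : Fin 3 → ℝ}
    (hu : ∀ i, 0 ≤ u i) (hv : ∀ i, 0 ≤ v i) {θ : ℝ} (a : 0 ≤ θ) (b : θ ≤ 1) :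
    (1 - θ) * (4 * chi (s - 6) u + e * chi s u) + θ * (4 * chi (s - 6) v + e * chi s v) ≤
      4 * chi (s - 6) (lc θ u v) + e * chi s (lc θ u v) := by
  rcases hs with rfl | rfl
  · refine gen_ACon (r := 0) (s := 6) (c := 4) (by norm_num) rfl ?_ ?_ ?_ hu hv a b
    · have e1 : wt 6 0 1 = 13 := by decide
      have e2 : wt 0 0 1 = 4 := by decide
      rw [e1, e2]; push_cast; linarith
    · have e1 : wt 6 0 2 = 8 := by decide
      have e2 : wt 0 0 2 = 4 := by decide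
      rw [e1, e2]; push_cast; linarith
    · have e1 : wt 6 1 2 = 8 := by decide
      have e2 : wt 0 1 2 = 4 := by decide
      rw [e1, e2]; push_cast; linarith
  · refine gen_ACon (r := 1) (s := 7) (c := 4) (by norm_num) rfl ?_ ?_ ?_ hu hv a b
    · have e1 : wt 7 0 1 = 18 := by decide
      have e2 : wt 1 0 1 = 9 := by decide
      rw [e1, e2]; push_cast; linarith
    · have e1 : wt 7 0 2 = 0 := by decide
      have e2 : wt 1 0 2 = 0 := by decide
      rw [e1, e2]; push_cast; linarith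
    · have e1 : wt 7 1 2 = 0 := by decide
      have e2 : wt 1 1 2 = 0 := by decide
      rw [e1, e2]; push_cast; linarith

theorem cvx_real {s : ℕ} (hs : s < 6) : Cvx fun f => -chi s f := by
  intro h k hh hk
  have e : ∀ x : Fin 3 → ℝ, (∀ i, 0 ≤ x i) → hom (fun f => -chi s f) x = -chi s x := fun x hx => by
    rw [← hom_chi s hx]; simp only [hom]; ring
  rw [e (h + k) fun i => add_nonneg (hh i) (hk i), e h hh, e k hk, half_ACon s hh hk]
  have := conc_real hs hh hk (θ := 1 / 2) (by norm_num) (by norm_num)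
  linarith

theorem cvx_cx {s : ℕ} (hs : s = 6 ∨ s = 7) :
    Cvx fun f => -(4 * chi (s - 6) f + chi s f) := by
  intro h k hh hk
  have e : ∀ x : Fin 3 → ℝ, (∀ i, 0 ≤ x i) →
      hom (fun f => -(4 * chi (s - 6) f + chi s f)) x = -(4 * chi (s - 6) x + chi s x) :=
    fun x hx => by
      rw [← hom_chi s hx, ← hom_chi (s - 6) hx]; simp only [hom]; ring
  rw [e (h + k) fun i => add_nonneg (hh i) (hk i), e h hh, e k hk, half_ACon s hh hk,
    half_ACon (s - 6) hh hk]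
  have := conc_cx hs (e := 1) (by simp) hh hk (θ := 1 / 2) (by norm_num) (by norm_num)
  linarith

end Vale.Agent.P154
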