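import Vale.Agent.P154.ABase

/-! TASK ACs1: the basic cosine and sine evaluation `csB`. All numbers have scale `2^40`.
Plan. Let `Z = (u - v) / (u + v) ∈ [0, 1/3]`, `z / 2^40 ∈ [Z - 2^-40, Z]`,
`log u - log v = log (1 + Z) - log (1 - Z) = 2 * ∑ Z^(2k+1) / (2k+1)`
(`Real.hasSum_log_sub_log_of_abs_lt_one`, tail after nine terms at most `Z^19 / 19 * 9 / 8`; or twice
`Real.abs_log_sub_add_sum_range_le`). One Horner step `hs` or `nsx` has a rounding error below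
`2^-40`, the constants of `atn` are within `2^-40` of `1 / (2k+1)`, and older errors are multiplied
by `w ≤ 1/9` (resp. `p / k ≤ 0.55`). So `f / 2^40` is within `1.7e-10` of `θ / 2`, `f / 2^40 ≤ 1.04`.
With `φ = f / 2^40`: `Complex.exp_bound'` with `n = 14` gives `cos φ` and `sin φ` up to
`2 * φ^14 / 14! ≤ 4e-11`, the omitted term `φ^13 / 13!` of the sine is below `2.7e-10`; so
`|c - cos φ| ≤ 6e-11`, `|s - sin φ| ≤ 3.3e-10`; no truncated subtraction is active (each `nsx` value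
is between `0` and `2^40`). Then `2 c^2 - 1`, `2 c s` approximate `cos (2 φ)`, `sin (2 φ)`
(`Real.cos_two_mul`, `Real.sin_two_mul`); `‖a + b i‖ ≤ |a| + |b|`, and
`‖exp (i x) - exp (i y)‖ ≤ |x - y|` (`Real.norm_exp_I_mul_ofReal_sub_one_le`). A clean way: one
generic lemma for a step, `|hs w c h / 2^40 - (C + W * H)| ≤ ...`, applied repeatedly. -/

namespace Vale.Agent.P154

def CsE (x : ℕ × ℕ) (θ ε : ℝ) : Prop :=
  ‖((((x.1 : ℝ) / 2 ^ 40 - 1 : ℝ) : ℂ) + (((x.2 : ℝ) / 2 ^ 40 - 1 : ℝ) : ℂ) * Complex.I) -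
    Complex.exp (θ * Complex.I)‖ ≤ ε

/-- `n / 2^40` is within `k * 10^-12` of `y` -/
def A1 (n : ℕ) (y k : ℝ) : Prop := |(n : ℝ) / 2 ^ 40 - y| ≤ k / 10 ^ 12

theorem a1_mul {a b x y δ ε A Y : ℝ} (h1 : |a - x| ≤ δ) (h2 : |b - y| ≤ ε) (h3 : |a| ≤ A)
    (h4 : |y| ≤ Y) : |a * b - x * y| ≤ A * ε + δ * Y := by
  have e : a * b - x * y = a * (b - y) + (a - x) * y := by ring
  rw [e]
  refine (abs_add_le _ _).trans (add_le_add ?_ ?_)
  · rw [abs_mul]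
    exact mul_le_mul h3 h2 (abs_nonneg _) ((abs_nonneg _).trans h3)
  · rw [abs_mul]
    exact mul_le_mul h1 h4 (abs_nonneg _) ((abs_nonneg _).trans h1)

theorem a1_shr (a b : ℕ) : A1 (Nat.shiftRight (Nat.mul a b) 40) (a / 2 ^ 40 * (b / 2 ^ 40)) 1 := by
  have h1 := shr_le (Nat.mul a b) 40
  have h2 := lt_shr (Nat.mul a b) 40
  have e : ((Nat.mul a b : ℕ) : ℝ) = a * b := Nat.cast_mul a b
  rw [e] at h1 h2
  unfold A1
  rw [abs_le]
  constructor <;> linarith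

theorem a1_shr39 (a b : ℕ) :
    A1 (Nat.shiftRight (Nat.mul a b) 39) (2 * (a / 2 ^ 40 * (b / 2 ^ 40))) 1 := by
  have h1 := shr_le (Nat.mul a b) 39
  have h2 := lt_shr (Nat.mul a b) 39
  have e : ((Nat.mul a b : ℕ) : ℝ) = a * b := Nat.cast_mul a b
  rw [e] at h1 h2
  unfold A1
  rw [abs_le]
  constructor <;> linarith

theorem a1_ns {p h k : ℕ} {x y : ℝ} (K : ℕ) (hk : k = K * 2 ^ 40) (hK : 2 ≤ K) (hp : A1 p x 1)
    (hx : |x| ≤ 109 / 100) (hh : A1 h y 4 ∧ (h : ℝ) ≤ 2 ^ 40) :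
    A1 (nsx p k h) (1 - x / K * y) 4 ∧ (nsx p k h : ℝ) ≤ 2 ^ 40 := by
  have hK' : (2 : ℝ) ≤ K := by exact_mod_cast hK
  have hk0 : 0 < k := hk ▸ Nat.mul_pos (by omega) (Nat.two_pow_pos 40)
  have hk' : (k : ℝ) = K * 2 ^ 40 := by rw [hk]; push_cast; ring
  have h0 : |(h : ℝ) / 2 ^ 40| ≤ 1 := by
    rw [abs_of_nonneg (by positivity), div_le_one (by positivity)]
    exact hh.2
  have h1 := a1_mul hh.1 hp h0 hx
  have h2 : ((p * h / k : ℕ) : ℝ) ≤ p * h / k := by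
    exact_mod_cast Nat.cast_div_le (α := ℝ) (m := p * h) (n := k)
  have h3 : (p * h : ℝ) / k ≤ ((p * h / k : ℕ) : ℝ) + 1 := by
    exact_mod_cast cd_ge (p * h) hk0
  have e : (p * h : ℝ) / k = (h : ℝ) / 2 ^ 40 * (p / 2 ^ 40) / K * 2 ^ 40 := by
    rw [hk']
    field_simp
  have h4 : |(h : ℝ) / 2 ^ 40 * (p / 2 ^ 40) / K - x / K * y| ≤ 3 / 10 ^ 12 := by
    rw [show (h : ℝ) / 2 ^ 40 * (p / 2 ^ 40) / K - x / K * y =
      ((h : ℝ) / 2 ^ 40 * (p / 2 ^ 40) - y * x) / K by ring, abs_div, Nat.abs_cast,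
      div_le_iff₀ (by linarith)]
    linarith
  have h5 : (h : ℝ) / 2 ^ 40 * (p / 2 ^ 40) / K ≤ 1 := by
    rw [div_le_one (by linarith)]
    have h6 : (p : ℝ) / 2 ^ 40 ≤ 2 := by linarith [(abs_le.1 hp).2, (abs_le.1 hx).2]
    nlinarith [(abs_le.1 h0).2, show (0 : ℝ) ≤ (h : ℝ) / 2 ^ 40 by positivity,
      show (0 : ℝ) ≤ (p : ℝ) / 2 ^ 40 by positivity]
  have h7 : p * h / k ≤ 1099511627776 := by
    have : ((p * h / k : ℕ) : ℝ) ≤ (1099511627776 : ℕ) := by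
      push_cast
      linarith
    exact_mod_cast this
  have h8 : (nsx p k h : ℝ) = 2 ^ 40 - ((p * h / k : ℕ) : ℝ) := by
    change ((1099511627776 - p * h / k : ℕ) : ℝ) = _
    rw [Nat.cast_sub h7]
    norm_num
  rw [e] at h2 h3
  refine ⟨?_, by rw [h8]; linarith [(p * h / k).cast_nonneg (α := ℝ)]⟩
  unfold A1
  rw [h8, abs_le]
  constructor <;> linarith [(abs_le.1 h4).1, (abs_le.1 h4).2]

theorem a1_one : A1 1099511627776 1 4 ∧ ((1099511627776 : ℕ) : ℝ) ≤ 2 ^ 40 := by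
  unfold A1
  norm_num

theorem a1_taylor {φ : ℝ} (h0 : 0 ≤ φ) (h1 : φ ≤ 104 / 100) :
    |1 - φ * φ / 2 * (1 - φ * φ / 12 * (1 - φ * φ / 30 * (1 - φ * φ / 56 * (1 - φ * φ / 90 *
      (1 - φ * φ / 132 * 1))))) - Real.cos φ| ≤ 40 / 10 ^ 12 ∧
    |φ * (1 - φ * φ / 6 * (1 - φ * φ / 20 * (1 - φ * φ / 42 * (1 - φ * φ / 72 *
      (1 - φ * φ / 110 * 1))))) - Real.sin φ| ≤ 310 / 10 ^ 12 := by
  have hn : ‖(φ : ℂ) * Complex.I‖ = φ := by simp [abs_of_nonneg h0]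
  have h := Complex.exp_bound' (x := φ * Complex.I) (n := 14) (by
    rw [hn, div_le_iff₀ (by positivity)]
    norm_num
    linarith)
  have h13 : φ ^ 13 ≤ (104 / 100) ^ 13 := pow_le_pow_left₀ h0 h1 13
  have h14 : φ ^ 14 ≤ (104 / 100) ^ 14 := pow_le_pow_left₀ h0 h1 14
  have h2 : φ ^ 14 / (Nat.factorial 14 : ℕ) * 2 ≤ 40 / 10 ^ 12 := by
    norm_num [Nat.factorial] at h14 ⊢
    linarith
  rw [hn] at h
  have e : ∑ m ∈ Finset.range 14, ((φ : ℂ) * Complex.I) ^ m / (m.factorial : ℂ) =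
      ((1 - φ ^ 2 / 2 + φ ^ 4 / 24 - φ ^ 6 / 720 + φ ^ 8 / 40320 - φ ^ 10 / 3628800 +
        φ ^ 12 / 479001600 : ℝ) : ℂ) + ((φ - φ ^ 3 / 6 + φ ^ 5 / 120 - φ ^ 7 / 5040 +
        φ ^ 9 / 362880 - φ ^ 11 / 39916800 + φ ^ 13 / 6227020800 : ℝ) : ℂ) * Complex.I := by
    simp only [Finset.sum_range_succ, Finset.sum_range_zero, mul_pow, Complex.I_pow_eq_pow_mod']
    norm_num [Nat.factorial]
    ring
  rw [e] at h
  have h3 := (Complex.abs_re_le_norm _).trans (h.trans h2)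
  have h4 := (Complex.abs_im_le_norm _).trans (h.trans h2)
  simp only [Complex.sub_re, Complex.sub_im, Complex.add_re, Complex.add_im, Complex.mul_re,
    Complex.mul_im, Complex.ofReal_re, Complex.ofReal_im, Complex.I_re, Complex.I_im,
    Complex.exp_ofReal_mul_I_re, Complex.exp_ofReal_mul_I_im] at h3 h4
  rw [abs_le] at h3 h4 ⊢
  rw [abs_le]
  have h5 : 0 ≤ φ ^ 13 := by positivity
  norm_num at h13
  refine ⟨⟨?_, ?_⟩, ?_, ?_⟩ <;> linarith [h3.1, h3.2, h4.1, h4.2]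

theorem csF_sound {f : ℕ} (hf : (f : ℝ) / 2 ^ 40 ≤ 104 / 100) :
    CsE (csF f) (2 * ((f : ℝ) / 2 ^ 40)) (115 / 10 ^ 11) := by
  obtain ⟨φ, hφ⟩ : ∃ φ : ℝ, φ = (f : ℝ) / 2 ^ 40 := ⟨_, rfl⟩
  have h0 : 0 ≤ φ := by rw [hφ]; positivity
  have hp := a1_shr f f
  obtain ⟨p, hp'⟩ : ∃ p, p = Nat.shiftRight (Nat.mul f f) 40 := ⟨_, rfl⟩
  rw [← hφ] at hf hp ⊢
  rw [← hp'] at hp
  have hx : |φ * φ| ≤ 109 / 100 := by
    rw [abs_of_nonneg (by positivity)]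
    nlinarith
  have hc := a1_ns (k := 2199023255552) 2 (by norm_num) (by norm_num) hp hx
    (a1_ns (k := 13194139533312) 12 (by norm_num) (by norm_num) hp hx
    (a1_ns (k := 32985348833280) 30 (by norm_num) (by norm_num) hp hx
    (a1_ns (k := 61572651155456) 56 (by norm_num) (by norm_num) hp hx
    (a1_ns (k := 98956046499840) 90 (by norm_num) (by norm_num) hp hx
    (a1_ns (k := 145135534866432) 132 (by norm_num) (by norm_num) hp hx a1_one)))))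
  have hs := (a1_ns (k := 6597069766656) 6 (by norm_num) (by norm_num) hp hx
    (a1_ns (k := 21990232555520) 20 (by norm_num) (by norm_num) hp hx
    (a1_ns (k := 46179488366592) 42 (by norm_num) (by norm_num) hp hx
    (a1_ns (k := 79164837199872) 72 (by norm_num) (by norm_num) hp hx
    (a1_ns (k := 120946279055360) 110 (by norm_num) (by norm_num) hp hx a1_one))))).1
  change A1 (cosn p) _ _ ∧ (cosn p : ℝ) ≤ _ at hc
  change A1 (sinn p) _ _ at hs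
  have hs2 := a1_shr f (sinn p)
  obtain ⟨t1, t2⟩ := a1_taylor h0 hf
  obtain ⟨s, hs'⟩ : ∃ s, s = Nat.shiftRight (Nat.mul f (sinn p)) 40 := ⟨_, rfl⟩
  have e : csF f = csD (cosn p) s := by rw [hs', hp']; rfl
  rw [← hs', ← hφ] at hs2
  have k1 := a1_shr39 (cosn p) (cosn p)
  have k2 := a1_shr39 (cosn p) s
  unfold A1 at hc hs hs2 k1 k2
  simp only [Nat.cast_ofNat] at hc hs
  have c1 : |(cosn p : ℝ) / 2 ^ 40| ≤ 1 := by
    rw [abs_of_nonneg (by positivity), div_le_one (by positivity)]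
    exact hc.2
  have c2 : |(cosn p : ℝ) / 2 ^ 40 - Real.cos φ| ≤ 44 / 10 ^ 12 :=
    (abs_sub_le _ _ _).trans ((add_le_add hc.1 t1).trans (by norm_num))
  have s1 := a1_mul (a := φ) (x := φ) (δ := 0) (A := 104 / 100) (by simp) hs
    (by rwa [abs_of_nonneg h0]) le_rfl
  have s2 : |(s : ℝ) / 2 ^ 40 - Real.sin φ| ≤ 316 / 10 ^ 12 :=
    (abs_sub_le _ _ _).trans ((add_le_add hs2 ((abs_sub_le _ _ _).trans
      (add_le_add s1 t2))).trans (by norm_num))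
  have m1 := a1_mul c2 c2 c1 (Real.abs_cos_le_one φ)
  have m2 := a1_mul c2 s2 c1 (Real.abs_sin_le_one φ)
  unfold CsE
  rw [e, Complex.exp_mul_I, ← Complex.ofReal_cos, ← Complex.ofReal_sin, Real.cos_two_mul,
    Real.sin_two_mul, add_sub_add_comm, ← sub_mul, ← Complex.ofReal_sub, ← Complex.ofReal_sub]
  refine (norm_add_le _ _).trans ?_
  rw [norm_mul, Complex.norm_I, mul_one, Complex.norm_real, Complex.norm_real, Real.norm_eq_abs,
    Real.norm_eq_abs]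
  have e1 : ((csD (cosn p) s).1 : ℝ) = (Nat.shiftRight (Nat.mul (cosn p) (cosn p)) 39 : ℕ) := rfl
  have e2 : ((csD (cosn p) s).2 : ℝ) = 2 ^ 40 + (Nat.shiftRight (Nat.mul (cosn p) s) 39 : ℕ) := by
    change ((1099511627776 + Nat.shiftRight (Nat.mul (cosn p) s) 39 : ℕ) : ℝ) = _
    rw [Nat.cast_add]
    norm_num
  rw [e1, e2]
  rw [abs_le] at k1 k2 m1 m2
  refine (add_le_add (abs_le.2 ⟨?_, ?_⟩) (abs_le.2 ⟨?_, ?_⟩)).trans
    (show (200 / 10 ^ 12 : ℝ) + 800 / 10 ^ 12 ≤ _ by norm_num) <;>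
    linarith [k1.1, k1.2, k2.1, k2.2, m1.1, m1.2, m2.1, m2.2]

theorem a1_hs {w h : ℕ} {x y : ℝ} (c : ℕ) (C : ℝ) (hc : A1 c C 1) (hw : A1 w x 3)
    (hw' : (w : ℝ) / 2 ^ 40 ≤ 1 / 9) (hh : A1 h y 6) (hy : |y| ≤ 1) :
    A1 (hs w c h) (C + x * y) 6 := by
  have h1 := a1_mul hw hh (A := 1 / 9) (by rwa [abs_of_nonneg (by positivity)]) hy
  have h2 := a1_shr w h
  have e : (hs w c h : ℝ) = c + (Nat.shiftRight (Nat.mul w h) 40 : ℕ) := Nat.cast_add _ _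
  unfold A1 at *
  rw [e]
  rw [abs_le] at *
  constructor <;> linarith [h1.1, h1.2, h2.1, h2.2, hc.1, hc.2]

theorem a1_hs' {w h : ℕ} {x y : ℝ} (c : ℕ) (C : ℝ) (hc : A1 c C 1) (hC : |C| ≤ 1 / 3)
    (hw : A1 w x 3) (hw' : (w : ℝ) / 2 ^ 40 ≤ 1 / 9) (hx : |x| ≤ 1 / 9)
    (hh : A1 h y 6 ∧ |y| ≤ 1) : A1 (hs w c h) (C + x * y) 6 ∧ |C + x * y| ≤ 1 := by
  refine ⟨a1_hs c C hc hw hw' hh.1 hh.2, (abs_add_le _ _).trans ?_⟩
  rw [abs_mul]
  nlinarith [hh.2, abs_nonneg x, abs_nonneg y]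

theorem a1_exp (x y : ℝ) :
    ‖Complex.exp (x * Complex.I) - Complex.exp (y * Complex.I)‖ ≤ |x - y| := by
  have e : Complex.exp (x * Complex.I) - Complex.exp (y * Complex.I) =
      Complex.exp (y * Complex.I) * (Complex.exp (Complex.I * ((x - y : ℝ) : ℂ)) - 1) := by
    rw [mul_sub, mul_one, ← Complex.exp_add]
    push_cast
    ring_nf
  rw [e, norm_mul, Complex.norm_exp_ofReal_mul_I, one_mul]
  exact Real.norm_exp_I_mul_ofReal_sub_one_le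

theorem a1_atn {z : ℕ} {Z : ℝ} (h0 : 0 ≤ Z) (h1 : Z ≤ 1 / 3) (hz : A1 z Z 1)
    (hz' : (z : ℝ) / 2 ^ 40 ≤ Z) :
    A1 (Nat.shiftRight (Nat.mul (Nat.mul 3 z) (atn (Nat.shiftRight (Nat.mul z z) 40))) 40)
      (3 * (1 / 2 * Real.log ((1 + Z) / (1 - Z)))) 200 := by
  have z0 : (0 : ℝ) ≤ (z : ℝ) / 2 ^ 40 := by positivity
  have k0 := a1_shr z z
  have k1 := shr_le (Nat.mul z z) 40
  obtain ⟨w, hw⟩ : ∃ w, w = Nat.shiftRight (Nat.mul z z) 40 := ⟨_, rfl⟩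
  rw [← hw] at k0 k1 ⊢
  have k2 := a1_mul hz hz (A := 1 / 3) (Y := 1 / 3) (by rw [abs_of_nonneg z0]; linarith)
    (by rwa [abs_of_nonneg h0])
  have w1 : A1 w (Z * Z) 3 := (abs_sub_le _ _ _).trans ((add_le_add k0 k2).trans (by norm_num))
  have w2 : (w : ℝ) / 2 ^ 40 ≤ 1 / 9 := by
    have e : ((Nat.mul z z : ℕ) : ℝ) = z * z := Nat.cast_mul z z
    have : (z : ℝ) / 2 ^ 40 * (z / 2 ^ 40) ≤ 1 / 9 := by nlinarith
    rw [e] at k1
    linarith
  have w3 : |Z * Z| ≤ 1 / 9 := by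
    rw [abs_of_nonneg (by positivity)]
    nlinarith
  have q := a1_hs' 366503875925 (1 / 3) (by unfold A1; norm_num [abs_le]) (by norm_num [abs_le])
    w1 w2 w3 (a1_hs' 219902325555 (1 / 5) (by unfold A1; norm_num [abs_le]) (by norm_num [abs_le])
    w1 w2 w3 (a1_hs' 157073089682 (1 / 7) (by unfold A1; norm_num [abs_le]) (by norm_num [abs_le])
    w1 w2 w3 (a1_hs' 122167958641 (1 / 9) (by unfold A1; norm_num [abs_le]) (by norm_num [abs_le])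
    w1 w2 w3 (a1_hs' 99955602525 (1 / 11) (by unfold A1; norm_num [abs_le]) (by norm_num [abs_le])
    w1 w2 w3 (a1_hs' 84577817521 (1 / 13) (by unfold A1; norm_num [abs_le]) (by norm_num [abs_le])
    w1 w2 w3 (a1_hs' 73300775185 (1 / 15) (by unfold A1; norm_num [abs_le]) (by norm_num [abs_le])
    w1 w2 w3 (h := 64677154575) (y := 1 / 17)
      ⟨by unfold A1; norm_num [abs_le], by norm_num [abs_le]⟩))))))
  have a := a1_hs 1099511627776 1 (by unfold A1; norm_num) w1 w2 q.1 q.2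
  change A1 (atn w) _ _ at a
  have k3 := a1_shr (Nat.mul 3 z) (atn w)
  have e : ((Nat.mul 3 z : ℕ) : ℝ) / 2 ^ 40 = 3 * (z / 2 ^ 40) := by
    change ((3 * z : ℕ) : ℝ) / 2 ^ 40 = _
    push_cast
    ring
  rw [e] at k3
  have k4 := a1_mul hz a (A := 1 / 3) (Y := 2) (by rw [abs_of_nonneg z0]; linarith)
    ((abs_add_le _ _).trans (by
      rw [abs_mul, abs_one]
      nlinarith [q.2, abs_nonneg (Z * Z)]))
  have t := Real.sum_range_sub_log_div_le (x := Z) (by rw [abs_of_nonneg h0]; linarith) 11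
  have t1 : |Z| ^ (2 * 11 + 1) / (1 - Z ^ 2) ≤ 12 / 10 ^ 12 := by
    rw [abs_of_nonneg h0, div_le_iff₀ (by nlinarith)]
    have := pow_le_pow_left₀ h0 h1 (2 * 11 + 1)
    norm_num at this ⊢
    nlinarith
  have t2 := pow_le_pow_left₀ h0 h1 19
  have t3 := pow_le_pow_left₀ h0 h1 21
  have t4 : 0 ≤ Z ^ 19 := by positivity
  have t5 : 0 ≤ Z ^ 21 := by positivity
  have t6 := t.trans t1
  simp only [Finset.sum_range_succ, Finset.sum_range_zero] at t6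
  unfold A1 at k3 ⊢
  rw [abs_le] at k3 k4 t6 ⊢
  norm_num at t2 t3 t6
  constructor <;> linarith [k3.1, k3.2, k4.1, k4.2, t6.1, t6.2]

theorem csB_sound {u v : ℕ} (hv : 0 < v) (h1 : v ≤ u) (h2 : u ≤ 2 * v) :
    CsE (csB (Nat.div (Nat.shiftLeft (Nat.sub u v) 40) (Nat.add u v)))
      (3 * (Real.log u - Real.log v)) (16 / 10 ^ 10) := by
  have v0 : (0 : ℝ) < v := Nat.cast_pos.2 hv
  have v1 : (v : ℝ) ≤ u := Nat.cast_le.2 h1
  have v2 : (u : ℝ) ≤ 2 * v := by exact_mod_cast h2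
  obtain ⟨z, hz⟩ : ∃ z, z = Nat.div (Nat.shiftLeft (Nat.sub u v) 40) (Nat.add u v) := ⟨_, rfl⟩
  have hz' : z = (u - v) * 2 ^ 40 / (u + v) := by rw [hz, shl_eq]; rfl
  have z1 : (z : ℝ) ≤ (u - v) * 2 ^ 40 / (u + v) := by
    have := Nat.cast_div_le (α := ℝ) (m := (u - v) * 2 ^ 40) (n := u + v)
    rw [← hz', Nat.cast_mul, Nat.cast_sub h1, Nat.cast_add, Nat.cast_pow, Nat.cast_ofNat] at this
    exact this
  have z2 : ((u : ℝ) - v) * 2 ^ 40 / (u + v) ≤ z + 1 := by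
    have := cd_ge ((u - v) * 2 ^ 40) (d := u + v) (by omega)
    change _ ≤ (((u - v) * 2 ^ 40 / (u + v) + 1 : ℕ) : ℝ) at this
    rw [← hz', Nat.cast_mul, Nat.cast_sub h1, Nat.cast_add, Nat.cast_pow, Nat.cast_ofNat,
      Nat.cast_add, Nat.cast_one] at this
    exact this
  rw [mul_div_right_comm] at z1 z2
  have Z0 : 0 ≤ ((u : ℝ) - v) / (u + v) := div_nonneg (by linarith) (by linarith)
  have Z1 : ((u : ℝ) - v) / (u + v) ≤ 1 / 3 := by
    rw [div_le_iff₀ (by linarith)]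
    linarith
  have a := a1_atn (z := z) Z0 Z1 (abs_le.2 ⟨by linarith, by linarith⟩) (by linarith)
  have e : (1 + ((u : ℝ) - v) / (u + v)) / (1 - ((u : ℝ) - v) / (u + v)) = u / v := by
    have : (u : ℝ) + v ≠ 0 := by linarith
    have h3 : (1 : ℝ) - (u - v) / (u + v) = 2 * v / (u + v) := by
      field_simp
      ring
    rw [h3]
    field_simp
    ring
  have l1 : Real.log ((u : ℝ) / v) ≤ Real.log 2 :=
    Real.log_le_log (div_pos (by linarith) v0) ((div_le_iff₀ v0).2 v2)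
  rw [e] at a
  rw [← hz, ← Real.log_div (by linarith) v0.ne']
  unfold A1 at a
  rw [abs_le] at a
  have b := csF_sound (f := Nat.shiftRight (Nat.mul (Nat.mul 3 z)
    (atn (Nat.shiftRight (Nat.mul z z) 40))) 40) (by linarith [a.2, Real.log_two_lt_d9])
  unfold CsE at b ⊢
  refine (norm_sub_le_norm_sub_add_norm_sub _ _ _).trans ((add_le_add b ((a1_exp _ _).trans
    (abs_le.2 ⟨?_, ?_⟩))).trans (show (115 / 10 ^ 11 : ℝ) + 400 / 10 ^ 12 ≤ _ by norm_num)) <;>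
    linarith [a.1, a.2]

end Vale.Agent.P154
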