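import Vale.Agent.P154.ACs1

/-! TASK ACs2: rotations, the full evaluation `cs`, and the cosine of a sum.
Plan. `rot_const`: `log 2` to thirteen digits from `Real.abs_log_sub_add_sum_range_le` with
`x = 1/2`, `n = 48` (or the series of `log (1 + Z) - log (1 - Z)` with `Z = 1/3`), then
`Complex.exp_bound'` at a rational point near `3 log 2 = 2.0794415416798...` (or at half of it and
square), `norm_num`, and `‖exp (i x) - exp (i y)‖ ≤ |x - y|`. `rot_sound`: up to rounding (below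
`2^-40` in each coordinate) `rot` multiplies the encoded complex number by
`(-535456025215 + 960319043170 i) / 2^40`; a truncated subtraction replaces a coordinate below `-1`
by `-1`, which only decreases its distance to the cosine or sine. `cs_sound`: induction on the
fuel `k ≥ 1` for `csR u k v` with `0 < v ≤ u ≤ v * 2^k`, error `16 / 10^10 + k / 10^11`;
`log u - log v = (log u - log (2 v)) + log 2`. `c3_sound`: `c3 / 2^40 - 1` is, up to rounding and
truncation, the real part of the product of the two encoded numbers. -/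

namespace Vale.Agent.P154

private theorem log_two_near : |Real.log 2 - 6931471805599 / 10 ^ 13| ≤ 1 / 10 ^ 13 := by
  have h := Real.abs_log_sub_add_sum_range_le (x := 1 / 2) (by norm_num [abs_of_pos]) 48
  have e : Real.log (1 - 1 / 2) = -Real.log 2 := by
    rw [show (1 - 1 / 2 : ℝ) = 2⁻¹ by norm_num, Real.log_inv]
  rw [e, abs_of_pos (by norm_num : (0 : ℝ) < 1 / 2)] at h
  simp only [Finset.sum_range_succ, Finset.sum_range_zero] at h
  norm_num at h
  rw [abs_le] at h ⊢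
  constructor <;> linarith [h.1, h.2]

private theorem exp_I_sub (x y : ℝ) :
    ‖Complex.exp (x * Complex.I) - Complex.exp (y * Complex.I)‖ ≤ |x - y| := by
  have e : Complex.exp (x * Complex.I) - Complex.exp (y * Complex.I) =
      Complex.exp (y * Complex.I) * (Complex.exp (Complex.I * ((x - y : ℝ) : ℂ)) - 1) := by
    rw [mul_sub, ← Complex.exp_add, mul_one]
    congr 2
    push_cast
    ring
  rw [e, norm_mul, Complex.norm_exp_ofReal_mul_I, one_mul]
  exact Real.norm_exp_I_mul_ofReal_sub_one_le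

private theorem sum_I (t : ℝ) :
    ∑ m ∈ Finset.range 22, ((t : ℂ) * Complex.I) ^ m / (m.factorial : ℂ) =
      ((1 - t ^ 2 / 2 + t ^ 4 / 24 - t ^ 6 / 720 + t ^ 8 / 40320 - t ^ 10 / 3628800 +
        t ^ 12 / 479001600 - t ^ 14 / 87178291200 + t ^ 16 / 20922789888000 -
        t ^ 18 / 6402373705728000 + t ^ 20 / 2432902008176640000 : ℝ) : ℂ) +
      ((t - t ^ 3 / 6 + t ^ 5 / 120 - t ^ 7 / 5040 + t ^ 9 / 362880 - t ^ 11 / 39916800 +
        t ^ 13 / 6227020800 - t ^ 15 / 1307674368000 + t ^ 17 / 355687428096000 -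
        t ^ 19 / 121645100408832000 + t ^ 21 / 51090942171709440000 : ℝ) : ℂ) * Complex.I := by
  simp only [Finset.sum_range_succ, Finset.sum_range_zero, mul_pow, Nat.factorial]
  simp only [Complex.I_pow_eq_pow_mod', Nat.reduceMod, Complex.I_sq, Complex.I_pow_three,
    Complex.I_pow_four, pow_zero, pow_one]
  push_cast
  ring

private theorem norm_le_add {z w : ℂ} {δ : ℝ} (hδ : 0 ≤ δ) (h1 : |z.re| ≤ |w.re| + δ)
    (h2 : |z.im| ≤ |w.im| + δ) : ‖z‖ ≤ ‖w‖ + 2 * δ := by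
  have a1 := Complex.abs_re_le_norm w
  have a2 := Complex.abs_im_le_norm w
  have e1 : ‖z‖ ^ 2 = |z.re| ^ 2 + |z.im| ^ 2 := by
    rw [Complex.sq_norm, Complex.normSq_apply, sq_abs, sq_abs]; ring
  have e2 : ‖w‖ ^ 2 = |w.re| ^ 2 + |w.im| ^ 2 := by
    rw [Complex.sq_norm, Complex.normSq_apply, sq_abs, sq_abs]; ring
  have b1 : |z.re| ^ 2 ≤ (|w.re| + δ) ^ 2 := by gcongr
  have b2 : |z.im| ^ 2 ≤ (|w.im| + δ) ^ 2 := by gcongr
  refine abs_le_of_sq_le_sq' ?_ (by positivity) |>.2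
  nlinarith [mul_le_mul_of_nonneg_left a1 hδ, mul_le_mul_of_nonneg_left a2 hδ, sq_nonneg δ]

private theorem trunc1 (K P : ℕ) {τ : ℝ} (hτ : -1 ≤ τ) :
    |((Nat.sub K (Nat.shiftRight P 40) : ℕ) : ℝ) / 2 ^ 40 - 1 - τ| ≤
      |((K : ℝ) - P / 2 ^ 40) / 2 ^ 40 - 1 - τ| + 1 / 2 ^ 40 := by
  have a1 := shr_le P 40
  have a2 := lt_shr P 40
  generalize Nat.shiftRight P 40 = q at a1 a2 ⊢
  change |((K - q : ℕ) : ℝ) / 2 ^ 40 - 1 - τ| ≤ _
  have b1 := le_abs_self (((K : ℝ) - P / 2 ^ 40) / 2 ^ 40 - 1 - τ)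
  have b2 := neg_abs_le (((K : ℝ) - P / 2 ^ 40) / 2 ^ 40 - 1 - τ)
  rcases le_total q K with h | h
  · rw [Nat.cast_sub h, abs_le]
    constructor <;> linarith
  · have h' : (K : ℝ) ≤ q := Nat.cast_le.2 h
    rw [Nat.sub_eq_zero_of_le h, Nat.cast_zero, abs_le]
    constructor <;> linarith

private theorem trunc2 (P M : ℕ) {τ : ℝ} (hτ : -1 ≤ τ) :
    |((Nat.shiftRight (Nat.sub P M) 40 : ℕ) : ℝ) / 2 ^ 40 - 1 - τ| ≤
      |((P : ℝ) - M) / 2 ^ 40 / 2 ^ 40 - 1 - τ| + 1 / 2 ^ 40 := by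
  have a1 := shr_le (Nat.sub P M) 40
  have a2 := lt_shr (Nat.sub P M) 40
  generalize Nat.shiftRight (Nat.sub P M) 40 = q at a1 a2 ⊢
  change _ ≤ ((P - M : ℕ) : ℝ) / _ at a1
  change ((P - M : ℕ) : ℝ) / _ < _ at a2
  have b1 := le_abs_self (((P : ℝ) - M) / 2 ^ 40 / 2 ^ 40 - 1 - τ)
  have b2 := neg_abs_le (((P : ℝ) - M) / 2 ^ 40 / 2 ^ 40 - 1 - τ)
  have hq : (0 : ℝ) ≤ q := Nat.cast_nonneg q
  rcases le_total M P with h | h
  · rw [Nat.cast_sub h] at a1 a2
    rw [abs_le]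
    constructor <;> linarith
  · have h' : (P : ℝ) ≤ M := Nat.cast_le.2 h
    rw [Nat.sub_eq_zero_of_le h, Nat.cast_zero] at a1 a2
    rw [abs_le]
    constructor <;> linarith

private theorem mul_err {z w : ℂ} {θ η ε δ : ℝ} (hz : ‖z - Complex.exp (θ * Complex.I)‖ ≤ ε)
    (hw : ‖w - Complex.exp (η * Complex.I)‖ ≤ δ) :
    ‖z * w - Complex.exp ((θ + η : ℝ) * Complex.I)‖ ≤ ε * (1 + δ) + δ := by
  have e : z * w - Complex.exp ((θ + η : ℝ) * Complex.I) =
      (z - Complex.exp (θ * Complex.I)) * w +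
        Complex.exp (θ * Complex.I) * (w - Complex.exp (η * Complex.I)) := by
    rw [Complex.ofReal_add, add_mul, Complex.exp_add]
    ring
  have hw1 : ‖w‖ ≤ 1 + δ := by
    have := norm_add_le (Complex.exp (η * Complex.I)) (w - Complex.exp (η * Complex.I))
    rw [Complex.norm_exp_ofReal_mul_I, add_sub_cancel] at this
    linarith
  rw [e]
  refine (norm_add_le _ _).trans ?_
  rw [norm_mul, norm_mul, Complex.norm_exp_ofReal_mul_I, one_mul]
  exact add_le_add (mul_le_mul hz hw1 (norm_nonneg _) ((norm_nonneg _).trans hz)) hw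

theorem rot_const : ‖(((-535456025215 / 2 ^ 40 : ℝ) : ℂ) +
    ((960319043170 / 2 ^ 40 : ℝ) : ℂ) * Complex.I) -
      Complex.exp ((3 * Real.log 2 : ℝ) * Complex.I)‖ ≤ 4 / 10 ^ 12 := by
  set t : ℝ := 3 * (6931471805599 / 10 ^ 13) with ht
  have a1 := exp_I_sub t (3 * Real.log 2)
  have a2 : |t - 3 * Real.log 2| ≤ 3 / 10 ^ 13 := by
    have := log_two_near
    rw [abs_le] at this ⊢
    constructor <;> linarith [this.1, this.2]
  have hn : ‖(t : ℂ) * Complex.I‖ = t := by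
    rw [norm_mul, Complex.norm_I, mul_one, Complex.norm_real, Real.norm_of_nonneg (by positivity)]
  have a3 := Complex.exp_bound' (x := (t : ℂ) * Complex.I) (n := 22) (by rw [hn, ht]; norm_num)
  rw [hn, sum_I] at a3
  have a4 : t ^ 22 / ((22 : ℕ).factorial : ℝ) * 2 ≤ 1 / 10 ^ 13 := by
    rw [ht]
    norm_num [Nat.factorial]
  generalize hC : (1 - t ^ 2 / 2 + t ^ 4 / 24 - t ^ 6 / 720 + t ^ 8 / 40320 - t ^ 10 / 3628800 +
        t ^ 12 / 479001600 - t ^ 14 / 87178291200 + t ^ 16 / 20922789888000 -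
        t ^ 18 / 6402373705728000 + t ^ 20 / 2432902008176640000 : ℝ) = C at a3
  generalize hS : (t - t ^ 3 / 6 + t ^ 5 / 120 - t ^ 7 / 5040 + t ^ 9 / 362880 - t ^ 11 / 39916800 +
        t ^ 13 / 6227020800 - t ^ 15 / 1307674368000 + t ^ 17 / 355687428096000 -
        t ^ 19 / 121645100408832000 + t ^ 21 / 51090942171709440000 : ℝ) = S at a3
  have c1 : |(-535456025215 / 2 ^ 40 : ℝ) - C| ≤ 1 / 10 ^ 12 := by
    rw [← hC, ht, abs_le]
    constructor <;> norm_num
  have c2 : |(960319043170 / 2 ^ 40 : ℝ) - S| ≤ 1 / 10 ^ 12 := by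
    rw [← hS, ht, abs_le]
    constructor <;> norm_num
  have a5 : ‖(((-535456025215 / 2 ^ 40 : ℝ) : ℂ) + ((960319043170 / 2 ^ 40 : ℝ) : ℂ) * Complex.I) -
      ((C : ℂ) + (S : ℂ) * Complex.I)‖ ≤ 2 / 10 ^ 12 := by
    refine (Complex.norm_le_abs_re_add_abs_im _).trans ?_
    simp only [Complex.sub_re, Complex.add_re, Complex.ofReal_re, Complex.mul_re, Complex.I_re,
      Complex.ofReal_im, Complex.I_im, Complex.sub_im, Complex.add_im, Complex.mul_im, mul_zero,
      mul_one, sub_zero, add_zero, zero_add]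
    linarith
  rw [norm_sub_rev] at a3
  have t1 := norm_sub_le_norm_sub_add_norm_sub
    (((-535456025215 / 2 ^ 40 : ℝ) : ℂ) + ((960319043170 / 2 ^ 40 : ℝ) : ℂ) * Complex.I)
    ((C : ℂ) + (S : ℂ) * Complex.I) (Complex.exp ((3 * Real.log 2 : ℝ) * Complex.I))
  have t2 := norm_sub_le_norm_sub_add_norm_sub ((C : ℂ) + (S : ℂ) * Complex.I)
    (Complex.exp ((t : ℂ) * Complex.I)) (Complex.exp ((3 * Real.log 2 : ℝ) * Complex.I))
  refine t1.trans ((add_le_add a5 (t2.trans (add_le_add (a3.trans a4) (a1.trans a2)))).trans ?_)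
  norm_num

theorem rot_sound {x : ℕ × ℕ} {θ ε : ℝ} (h : CsE x θ ε) (hε : ε ≤ 1) :
    CsE (rot x) (θ + 3 * Real.log 2) (ε + 1 / 10 ^ 11) := by
  obtain ⟨c, s⟩ := x
  unfold CsE at h ⊢
  have hε0 : 0 ≤ ε := (norm_nonneg _).trans h
  have m := mul_err h rot_const
  set φ : ℝ := θ + 3 * Real.log 2 with hφ
  have r1 := trunc1 2595286696161 (Nat.add (Nat.mul 535456025215 c) (Nat.mul 960319043170 s))
    (Real.neg_one_le_cos φ)
  have r2 := trunc2 (Nat.add 741783991161103209988096 (Nat.mul 960319043170 c))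
    (Nat.mul 535456025215 s) (Real.neg_one_le_sin φ)
  refine (norm_le_add (δ := 1 / 2 ^ 40) (by positivity) ?_ ?_).trans
    ((add_le_add_left m _).trans (by nlinarith))
  · simp only [Complex.sub_re, Complex.add_re, Complex.ofReal_re, Complex.mul_re, Complex.I_re,
      Complex.ofReal_im, Complex.I_im, Complex.add_im, Complex.mul_im, mul_zero,
      mul_one, sub_zero, add_zero, zero_add, Complex.exp_ofReal_mul_I_re]
    refine r1.trans (le_of_eq ?_)
    congr 2
    simp only [Nat.add_eq, Nat.mul_eq]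
    push_cast
    ring
  · simp only [Complex.sub_im, Complex.add_re, Complex.ofReal_re, Complex.mul_re, Complex.I_re,
      Complex.ofReal_im, Complex.I_im, Complex.add_im, Complex.mul_im, mul_zero,
      mul_one, sub_zero, add_zero, zero_add, Complex.exp_ofReal_mul_I_im]
    refine r2.trans (le_of_eq ?_)
    congr 2
    simp only [Nat.add_eq, Nat.mul_eq]
    push_cast
    ring

private theorem csR_sound (u k : ℕ) : ∀ v : ℕ, 0 < v → v ≤ u → u ≤ v * 2 ^ (k + 1) → k ≤ 21 →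
    CsE (csR u (k + 1) v) (3 * (Real.log u - Real.log v)) (16 / 10 ^ 10 + k / 10 ^ 11) := by
  have unf : ∀ k v : ℕ, csR u (k + 1) v = if 2 * v + 1 ≤ u then rot (csR u k (2 * v)) else
      csB (Nat.div (Nat.shiftLeft (Nat.sub u v) 40) (Nat.add u v)) := by
    intro k v
    change Bool.rec (motive := fun _ => ℕ × ℕ) _ (rot (csR u k (2 * v))) (Nat.ble (2 * v + 1) u) = _
    rw [rec_ite]
    simp only [Nat.ble_eq]
  have base : ∀ (k v : ℕ), 0 < v → v ≤ u → ¬ 2 * v + 1 ≤ u →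
      CsE (csR u (k + 1) v) (3 * (Real.log u - Real.log v)) (16 / 10 ^ 10 + k / 10 ^ 11) := by
    intro k v hv h1 h2
    rw [unf, if_neg h2]
    have := csB_sound hv h1 (by omega)
    unfold CsE at this ⊢
    have hk : (0 : ℝ) ≤ k / 10 ^ 11 := by positivity
    linarith
  induction k with
  | zero =>
    intro v hv h1 h2 _
    exact base 0 v hv h1 (by omega)
  | succ k ih =>
    intro v hv h1 h2 hk
    by_cases h : 2 * v + 1 ≤ u
    · rw [unf, if_pos h]
      have i := ih (2 * v) (by omega) (by omega) (by rw [pow_succ] at h2; nlinarith) (by omega)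
      have hk' : (k : ℝ) ≤ 21 := by exact_mod_cast (by omega : k ≤ 21)
      have r := rot_sound i (by linarith)
      have hv' : (v : ℝ) ≠ 0 := by positivity
      have e1 : 3 * (Real.log u - Real.log ((2 * v : ℕ) : ℝ)) + 3 * Real.log 2 =
          3 * (Real.log u - Real.log v) := by
        push_cast
        rw [Real.log_mul two_ne_zero hv']
        ring
      have e2 : (16 / 10 ^ 10 + k / 10 ^ 11 + 1 / 10 ^ 11 : ℝ) =
          16 / 10 ^ 10 + ((k + 1 : ℕ) : ℝ) / 10 ^ 11 := by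
        push_cast
        ring
      rwa [e1, e2] at r
    · exact base (k + 1) v hv h1 h

theorem cs_sound {u v : ℕ} (hv : 0 < v) (h1 : v ≤ u) (h2 : u ≤ v * 2 ^ 21) :
    CsOK (cs u v) (3 * (Real.log u - Real.log v)) := by
  have := csR_sound u 21 v hv h1 (h2.trans (Nat.mul_le_mul_left v (by norm_num))) le_rfl
  unfold CsE at this
  unfold CsOK
  refine this.trans ?_
  norm_num

theorem CsOK.cos {x : ℕ × ℕ} {θ : ℝ} (h : CsOK x θ) :
    |(x.1 : ℝ) / 2 ^ 40 - 1 - Real.cos θ| ≤ 1 / 2 ^ 27 := by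
  unfold CsOK at h
  have := (Complex.abs_re_le_norm _).trans h
  simp only [Complex.sub_re, Complex.add_re, Complex.ofReal_re, Complex.mul_re, Complex.I_re,
    Complex.ofReal_im, Complex.I_im, mul_zero, mul_one, sub_zero, add_zero,
    Complex.exp_ofReal_mul_I_re] at this
  refine this.trans ?_
  norm_num

theorem c3_sound {x y : ℕ × ℕ} {θ η : ℝ} (hx : CsOK x θ) (hy : CsOK y η) :
    |(c3 x.1 x.2 y.1 y.2 : ℝ) / 2 ^ 40 - 1 - Real.cos (θ + η)| ≤ 1 / 2 ^ 27 := by
  unfold CsOK at hx hy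
  have m := (Complex.abs_re_le_norm _).trans (mul_err hx hy)
  simp only [Complex.sub_re, Complex.add_re, Complex.ofReal_re, Complex.mul_re, Complex.I_re,
    Complex.ofReal_im, Complex.I_im, Complex.add_im, Complex.mul_im, mul_zero,
    mul_one, sub_zero, add_zero, zero_add, Complex.exp_ofReal_mul_I_re] at m
  have r := trunc2
    (Nat.add (Nat.mul x.1 y.1) (Nat.shiftLeft (Nat.add 1099511627776 (Nat.add x.2 y.2)) 40))
    (Nat.add (Nat.mul x.2 y.2) (Nat.shiftLeft (Nat.add x.1 y.1) 40)) (Real.neg_one_le_cos (θ + η))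
  refine r.trans ?_
  have e : (((Nat.add (Nat.mul x.1 y.1)
        (Nat.shiftLeft (Nat.add 1099511627776 (Nat.add x.2 y.2)) 40) : ℕ) : ℝ) -
      ((Nat.add (Nat.mul x.2 y.2) (Nat.shiftLeft (Nat.add x.1 y.1) 40) : ℕ) : ℝ)) / 2 ^ 40 / 2 ^ 40 -
        1 = ((x.1 : ℝ) / 2 ^ 40 - 1) * ((y.1 : ℝ) / 2 ^ 40 - 1) -
          ((x.2 : ℝ) / 2 ^ 40 - 1) * ((y.2 : ℝ) / 2 ^ 40 - 1) := by
    simp only [shl_eq, Nat.add_eq, Nat.mul_eq]
    push_cast
    ring
  rw [e]
  refine (add_le_add_left m _).trans ?_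
  norm_num

end Vale.Agent.P154
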