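import Vale.Agent.P154.Exp

/-! TASK Bridge: link between the statement definitions and `Fam.lev`; offspring laws.
Plan for `adv_eq`: build by recursion on `n` an equivalence `e n : Obs q n ≃ (lev hp h n).ι` with
`lik q p lam n o = (lev hp h n).l (e n o)`. For a family `F`, an equivalence `e : A ≃ F.ι` and each
`k` there is an equivalence between `List.Vector A k` (or `{l : List A // l.length = k}`) and
`(F.pow k).ι` (nested products ending in `Unit`) carrying the product of the likelihoods to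
`(F.pow k).l`; `List A ≃ Σ k, List.Vector A k` (`Equiv.sigmaFiberEquiv List.length`).
(Alternatively define a map from the index type to lists and show it is bijective.)
Then `Equiv.tsum_eq` and the pointwise identity
`(∑ h / q) * (1/2 * ∑ |h i / ∑ h - 1/q|) = hom tv h` for `h ≥ 0`.
`off_poi`: `NormedSpace.expSeries_div_hasSum_exp` / `Real.exp_eq_exp_ℝ`, shift indices with
`hasSum_nat_add_iff'`. `tv_le`: Cauchy-Schwarz `tv f ^ 2 ≤ ca f` and `E_sq_le`.
`le_tv`: `|f i - 1| ≤ q` so `ca f ≤ 2 * q * tv f`. -/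

namespace Vale.Agent.P154

variable {q : ℕ} [NeZero q]

/-- the list attached to an index of a power of a family -/
def briL (G : Fam q) {A : Type} (e : G.ι → A) : (k : ℕ) → (G.pow k).ι → List A
  | 0, _ => []
  | k + 1, x => e (show G.ι × (G.pow k).ι from x).1 ::
      briL G e k (show G.ι × (G.pow k).ι from x).2

omit [NeZero q] in
lemma bri_length (G : Fam q) {A : Type} (e : G.ι → A) (k : ℕ) (x : (G.pow k).ι) :
    (briL G e k x).length = k := by
  induction k with
  | zero => rfl
  | succ k ih =>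
    show (briL G e k (show G.ι × (G.pow k).ι from x).2).length + 1 = k + 1
    rw [ih]

omit [NeZero q] in
lemma bri_prod (G : Fam q) {A : Type} (e : G.ι → A) (w : A → ℝ) (i : Fin q)
    (hw : ∀ y, w (e y) = G.l y i) (k : ℕ) (x : (G.pow k).ι) :
    ((briL G e k x).map w).prod = (G.pow k).l x i := by
  induction k with
  | zero => rfl
  | succ k ih =>
    show ((e (show G.ι × (G.pow k).ι from x).1 ::
      briL G e k (show G.ι × (G.pow k).ι from x).2).map w).prod =
        G.l (show G.ι × (G.pow k).ι from x).1 i *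
          (G.pow k).l (show G.ι × (G.pow k).ι from x).2 i
    rw [List.map_cons, List.prod_cons, hw, ih]

omit [NeZero q] in
lemma bri_inj (G : Fam q) {A : Type} {e : G.ι → A} (he : Function.Injective e) (k : ℕ) :
    Function.Injective (briL G e k) := by
  induction k with
  | zero => intro x y _; rfl
  | succ k ih =>
    intro x y hxy
    have h : e (show G.ι × (G.pow k).ι from x).1 ::
        briL G e k (show G.ι × (G.pow k).ι from x).2 =
        e (show G.ι × (G.pow k).ι from y).1 ::
        briL G e k (show G.ι × (G.pow k).ι from y).2 := hxy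
    obtain ⟨h1, h2⟩ := List.cons.inj h
    exact Prod.ext (he h1) (ih h2)

omit [NeZero q] in
lemma bri_surj (G : Fam q) {A : Type} {e : G.ι → A} (he : Function.Surjective e) (l : List A) :
    ∃ (k : ℕ) (x : (G.pow k).ι), briL G e k x = l := by
  induction l with
  | nil => exact ⟨0, (), rfl⟩
  | cons a l ih =>
    obtain ⟨k, x, hx⟩ := ih
    obtain ⟨y, hy⟩ := he a
    refine ⟨k + 1, (y, x), ?_⟩
    show e y :: briL G e k x = a :: l
    rw [hx, hy]

omit [NeZero q] in
lemma bri_bij (G : Fam q) {A : Type} {e : G.ι → A} (he : Function.Bijective e) :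
    Function.Bijective fun o : (Σ k : ℕ, (G.pow k).ι) => briL G e o.1 o.2 := by
  constructor
  · rintro ⟨k, x⟩ ⟨k', y⟩ hxy
    have h : briL G e k x = briL G e k' y := hxy
    have hk : k = k' := by
      rw [← bri_length G e k x, ← bri_length G e k' y, h]
    subst hk
    rw [bri_inj G he.1 k h]
  · intro l
    obtain ⟨k, x, hx⟩ := bri_surj G he.2 l
    exact ⟨⟨k, x⟩, hx⟩

lemma bri_ex {p : ℕ → ℝ} {d s2 : ℝ} (hp : Off p d s2) {lam : ℝ} (h : Adm q lam) (n : ℕ) :
    ∃ g : (Fam.lev hp h n).ι → Obs q n, Function.Bijective g ∧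
      ∀ x i, lik q p lam n (g x) i = (Fam.lev hp h n).l x i := by
  induction n with
  | zero => exact ⟨fun x => x, Function.bijective_id, fun x i => rfl⟩
  | succ n ih =>
    obtain ⟨g, hg, hl⟩ := ih
    refine ⟨fun o : (Σ k : ℕ, (((Fam.lev hp h n).ch h).pow k).ι) =>
      briL ((Fam.lev hp h n).ch h) g o.1 o.2, bri_bij ((Fam.lev hp h n).ch h) hg, ?_⟩
    rintro ⟨k, x⟩ i
    show p (briL ((Fam.lev hp h n).ch h) g k x).length *
      ((briL ((Fam.lev hp h n).ch h) g k x).map
        (fun o => ∑ j, chan q lam i j * lik q p lam n o j)).prod =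
      p k * (((Fam.lev hp h n).ch h).pow k).l x i
    have a1 := bri_length ((Fam.lev hp h n).ch h) g k x
    have a2 := bri_prod ((Fam.lev hp h n).ch h) g
      (fun o => ∑ j, chan q lam i j * lik q p lam n o j) i (fun y => by
        show ∑ j, chan q lam i j * lik q p lam n (g y) j =
          ∑ j, chan q lam i j * (Fam.lev hp h n).l y j
        exact Finset.sum_congr rfl fun j _ => congrArg _ (hl y j)) k x
    exact congrArg₂ (fun a b => p a * b) a1 a2

lemma bri_point (h : Fin q → ℝ) :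
    ((∑ j, h j) / q) * ((1 / 2) * ∑ i, |h i / (∑ j, h j) - 1 / q|) = hom tv h := by
  have hq : (0 : ℝ) < q := by exact_mod_cast Nat.pos_of_ne_zero (NeZero.ne q)
  have h1 : ∀ i, |h i / avg h - 1| = q * |h i / (∑ j, h j) - 1 / q| := by
    intro i
    have : h i / avg h - 1 = q * (h i / (∑ j, h j) - 1 / q) := by
      unfold avg
      rw [div_div_eq_mul_div, mul_sub, mul_one_div_cancel hq.ne']
      ring
    rw [this, abs_mul, abs_of_pos hq]
  unfold hom tv
  simp only [h1]
  unfold avg
  rw [← Finset.mul_sum, mul_div_cancel_left₀ _ hq.ne']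

theorem adv_eq {p : ℕ → ℝ} {d s2 : ℝ} (hp : Off p d s2) {lam : ℝ} (h : Adm q lam) (n : ℕ) :
    adv q p lam n = (Fam.lev hp h n).E tv := by
  obtain ⟨g, hg, hl⟩ := bri_ex hp h n
  unfold adv Fam.E Fam.ex
  rw [← (Equiv.ofBijective g hg).tsum_eq]
  refine tsum_congr fun x => ?_
  rw [bri_point (lik q p lam n (Equiv.ofBijective g hg x))]
  congr 1
  funext i
  exact hl x i

theorem off_reg (d : ℕ) : Off (regOff d) d (d * ((d : ℝ) - 1)) := by
  have key : ∀ f : ℕ → ℝ, HasSum (fun k => regOff d k * f k) (f d) := by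
    intro f
    have := hasSum_single (f := fun k => regOff d k * f k) d
      (fun k hk => by simp [regOff, hk])
    simpa [regOff] using this
  refine ⟨fun k => ?_, ?_, key fun k => (k : ℝ), key fun k => (k : ℝ) * ((k : ℝ) - 1)⟩
  · unfold regOff; split_ifs <;> norm_num
  · simpa using key fun _ => 1

lemma bri_poi_sum (d : ℝ) : HasSum (poiOff d) 1 := by
  have h1 : HasSum (fun k : ℕ => d ^ k / (k.factorial : ℝ)) (Real.exp d) := by
    rw [Real.exp_eq_exp_ℝ]
    exact NormedSpace.expSeries_div_hasSum_exp d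
  have h2 := h1.mul_left (Real.exp (-d))
  rw [← Real.exp_add, neg_add_cancel, Real.exp_zero] at h2
  refine h2.congr_fun ?_
  intro k
  unfold poiOff
  ring

lemma bri_poi_succ (d : ℝ) (k : ℕ) : poiOff d (k + 1) * ((k : ℝ) + 1) = d * poiOff d k := by
  unfold poiOff
  have h1 : ((k : ℝ) + 1) ≠ 0 := by positivity
  have h2 : (k.factorial : ℝ) ≠ 0 := by positivity
  rw [Nat.factorial_succ]
  push_cast
  field_simp
  ring

theorem off_poi {d : ℝ} (hd : 0 ≤ d) : Off (poiOff d) d (d ^ 2) := by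
  refine ⟨fun k => ?_, bri_poi_sum d, ?_, ?_⟩
  · unfold poiOff; positivity
  · rw [← hasSum_nat_add_iff' 1]
    have h1 := (bri_poi_sum d).mul_left d
    have e : (fun n : ℕ => poiOff d (n + 1) * ((n + 1 : ℕ) : ℝ)) = fun n => d * poiOff d n := by
      funext n
      push_cast
      exact bri_poi_succ d n
    rw [e]
    simpa using h1
  · rw [← hasSum_nat_add_iff' 2]
    have h1 := (bri_poi_sum d).mul_left (d ^ 2)
    have e : (fun n : ℕ => poiOff d (n + 2) * (((n + 2 : ℕ) : ℝ) * (((n + 2 : ℕ) : ℝ) - 1))) =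
        fun n => d ^ 2 * poiOff d n := by
      funext n
      have a1 := bri_poi_succ d n
      have a2 := bri_poi_succ d (n + 1)
      push_cast at a2 ⊢
      have a3 : poiOff d (n + 2) = poiOff d (n + 1 + 1) := rfl
      rw [a3]
      linear_combination ((n : ℝ) + 1) * a2 + d * a1
    rw [e]
    simpa [Finset.sum_range_succ] using h1

lemma bri_tv_nonneg (f : Fin q → ℝ) : 0 ≤ tv f :=
  mul_nonneg (by norm_num) (avg_nonneg fun i => abs_nonneg _)

lemma bri_tv_sq (f : Fin q → ℝ) : tv f ^ 2 ≤ ca f := by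
  have hq : (0 : ℝ) < q := by exact_mod_cast Nat.pos_of_ne_zero (NeZero.ne q)
  have h1 := sq_sum_le_card_mul_sum_sq (s := Finset.univ) (f := fun i : Fin q => |f i - 1|)
  simp only [Finset.card_univ, Fintype.card_fin, sq_abs] at h1
  have h0 : 0 ≤ ∑ i, (f i - 1) ^ 2 := Finset.sum_nonneg fun i _ => sq_nonneg _
  unfold tv ca avg
  rw [mul_pow, div_pow (∑ i, |f i - 1|), ← mul_div_assoc, div_le_div_iff₀ (by positivity) hq]
  have h2 := mul_le_mul_of_nonneg_right h1 hq.le
  have h3 : 0 ≤ (∑ i, (f i - 1) ^ 2) * (q : ℝ) ^ 2 := by positivity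
  nlinarith

theorem tv_le (F : Fam q) : 0 ≤ F.E tv ∧ F.E tv ^ 2 ≤ F.E ca :=
  ⟨F.E_nonneg fun f _ => bri_tv_nonneg f,
    (F.E_sq_le bdd_tv).trans (F.E_mono bdd_tv.sq bdd_ca fun f _ => bri_tv_sq f)⟩

lemma bri_ca_le {f : Fin q → ℝ} (hf : f ∈ Simp q) : ca f ≤ 2 * q * tv f := by
  have hq : (1 : ℝ) ≤ q := by exact_mod_cast Nat.pos_of_ne_zero (NeZero.ne q)
  have h1 : ∀ i, (f i - 1) ^ 2 ≤ q * |f i - 1| := by
    intro i
    have a1 := le_of_simp hf i
    have a2 := hf.1 i
    have a3 : |f i - 1| ≤ q := abs_le.2 ⟨by linarith, by linarith⟩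
    rw [← sq_abs, sq]
    exact mul_le_mul_of_nonneg_right a3 (abs_nonneg _)
  have h2 : ∑ i, (f i - 1) ^ 2 ≤ q * ∑ i, |f i - 1| := by
    rw [Finset.mul_sum]
    exact Finset.sum_le_sum fun i _ => h1 i
  unfold ca tv avg
  have h3 : 2 * (q : ℝ) * (1 / 2 * ((∑ i, |f i - 1|) / q)) = (q * ∑ i, |f i - 1|) / q := by
    ring
  rw [h3]
  exact div_le_div_of_nonneg_right h2 (by linarith)

theorem le_tv (F : Fam q) : F.E ca ≤ 2 * q * F.E tv := by
  rw [← F.E_smul]
  exact F.E_mono bdd_ca (bdd_tv.smul _) fun f hf => bri_ca_le hf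

end Vale.Agent.P154
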