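import Vale.Agent.P154.Exp2

/-! TASK Cvx: the convex order between families.
Plan. `Cvx φ` says that the one-homogeneous extension is subadditive on nonnegative vectors.
`hom_le_tsum` (countable subadditivity): for a finite set `s` of indices,
`hom φ h ≤ ∑ o ∈ s, hom φ (h * F.l o) + hom φ (h * r)` with `r i = 1 - ∑ o ∈ s, F.l o i ≥ 0`, and
`|hom φ (h * r)| ≤ C * avg (h * r) → 0` (`abs_hom_le`); pass to the limit along `atTop`.
`le_delta`: `hom φ h ≤ ∑ i, hom φ (h i • e i) = ∑ i, h i / q * φ (vtx i)` (finite subadditivity,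
`hom_smul`), then sum over the family. `Le.ch`: `hom (φ ∘ shr lam) h = hom φ (lam h + (1-lam) avg h)`
for `h ≥ 0` (additive in `h`, nonnegative by `Adm`). `Le.mul`: by `E_mul` and `E_mul_comm` it is
enough to change one factor; `f ↦ G.E (fun g => hom φ (f * g))` is `Bdd` and `Cvx`, because its
`hom` at `h ≥ 0` is `∑' o, hom φ (h * G.l o)`. `le_mul`: `hom_le_tsum`. `ch_le`: `shr m f = m f + (1-m) 1`,
so `φ (shr m f) ≤ m φ f + (1-m) φ 1` and `φ 1 ≤ F.E φ`. `shr (m * l) = shr m ∘ shr l`. -/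

namespace Vale.Agent.P154

variable {q : ℕ} [NeZero q]

def Cvx (φ : (Fin q → ℝ) → ℝ) : Prop :=
  ∀ h k : Fin q → ℝ, (∀ i, 0 ≤ h i) → (∀ i, 0 ≤ k i) → hom φ (h + k) ≤ hom φ h + hom φ k

/-- convex order -/
def Fam.Le (F G : Fam q) : Prop := ∀ φ : (Fin q → ℝ) → ℝ, Bdd φ → Cvx φ → F.E φ ≤ G.E φ

omit [NeZero q] in
lemma avg_add_Cvx (h k : Fin q → ℝ) : avg (h + k) = avg h + avg k := by
  simp only [avg, Pi.add_apply, Finset.sum_add_distrib, add_div]

omit [NeZero q] in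
lemma avg_mul_Cvx (c : ℝ) (h : Fin q → ℝ) : avg (fun i => c * h i) = c * avg h := by
  simp only [avg, ← Finset.mul_sum, mul_div_assoc]

omit [NeZero q] in
lemma avg_mono_Cvx {h k : Fin q → ℝ} (H : ∀ i, h i ≤ k i) : avg h ≤ avg k :=
  div_le_div_of_nonneg_right (Finset.sum_le_sum fun i _ => H i) (Nat.cast_nonneg _)

omit [NeZero q] in
lemma hom_zero_Cvx (φ : (Fin q → ℝ) → ℝ) {h : Fin q → ℝ} (h0 : avg h = 0) : hom φ h = 0 := by
  rw [hom, h0, zero_mul]

lemma hom_tv_Cvx {h : Fin q → ℝ} (hh : ∀ i, 0 ≤ h i) :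
    hom tv h = 1 / 2 * avg fun i => |h i - avg h| := by
  rcases (avg_nonneg hh).eq_or_lt with h0 | h0
  · rw [hom_zero_Cvx _ h0.symm]
    simp only [eq_zero_of_avg hh h0.symm, ← h0, sub_zero, abs_zero, avg_const, mul_zero]
  · rw [hom, tv, mul_left_comm, ← avg_mul_Cvx]
    congr 2
    funext i
    rw [← abs_of_pos h0, ← abs_mul, abs_of_pos h0]
    congr 1
    field_simp

omit [NeZero q] in
lemma hom_sum_le_Cvx {φ : (Fin q → ℝ) → ℝ} (hc : Cvx φ) {ι : Type} (s : Finset ι)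
    (k : ι → Fin q → ℝ) (hk : ∀ o i, 0 ≤ k o i) : hom φ (∑ o ∈ s, k o) ≤ ∑ o ∈ s, hom φ (k o) := by
  classical
  induction s using Finset.induction_on with
  | empty => simp [hom, avg]
  | insert a s ha ih =>
    rw [Finset.sum_insert ha, Finset.sum_insert ha]
    refine (hc _ _ (hk a) fun i => ?_).trans (by linarith)
    rw [Finset.sum_apply]
    exact Finset.sum_nonneg fun o _ => hk o i

lemma hom_hom_Cvx (φ : (Fin q → ℝ) → ℝ) (f : Fin q → ℝ) {k : Fin q → ℝ} (hk : ∀ i, 0 ≤ k i) :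
    hom (fun g => hom φ (f * g)) k = hom φ (f * k) := by
  rcases (avg_nonneg hk).eq_or_lt with h0 | h0
  · rw [hom_zero_Cvx _ h0.symm, hom_zero_Cvx]
    have : f * k = fun _ => 0 := by
      funext i
      rw [Pi.mul_apply, eq_zero_of_avg hk h0.symm, mul_zero]
    rw [this, avg_const]
  · show avg k * hom φ (f * fun i => k i / avg k) = _
    rw [← hom_smul φ h0.le]
    congr 1
    funext i
    simp only [Pi.mul_apply]
    field_simp

lemma hom_shr_Cvx (φ : (Fin q → ℝ) → ℝ) (lam : ℝ) (h : Fin q → ℝ) :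
    hom (fun f => φ (shr lam f)) h = hom φ fun i => lam * h i + (1 - lam) * avg h := by
  have h1 : avg (fun i => lam * h i + (1 - lam) * avg h) = avg h := by
    have := avg_add_Cvx (fun i => lam * h i) fun _ => (1 - lam) * avg h
    rw [avg_mul_Cvx, avg_const] at this
    exact this.trans (by ring)
  by_cases h0 : avg h = 0
  · rw [hom_zero_Cvx _ h0, hom_zero_Cvx _ (h1.trans h0)]
  · unfold hom
    rw [h1]
    refine congrArg (fun t => avg h * φ t) ?_
    funext i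
    simp only [shr]
    field_simp
    ring

lemma cvx_shr_Cvx {φ : (Fin q → ℝ) → ℝ} (hc : Cvx φ) {lam : ℝ} (hl : Adm q lam) :
    Cvx fun f => φ (shr lam f) := by
  have h0 : ∀ h : Fin q → ℝ, (∀ i, 0 ≤ h i) → ∀ i, 0 ≤ lam * h i + (1 - lam) * avg h := by
    intro h hh i
    rw [← chan_apply]
    exact Finset.sum_nonneg fun j _ => mul_nonneg (chan_nonneg hl i j) (hh j)
  intro h k hh hk
  rw [hom_shr_Cvx, hom_shr_Cvx, hom_shr_Cvx]
  refine le_trans (le_of_eq ?_) (hc _ _ (h0 h hh) (h0 k hk))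
  congr 1
  funext i
  simp only [avg_add_Cvx, Pi.add_apply]
  ring

/-- `hom tv h = 1/2 * avg |h i - avg h|` for `h ≥ 0` -/
lemma cvx_tv : Cvx (tv : (Fin q → ℝ) → ℝ) := by
  intro h k hh hk
  rw [hom_tv_Cvx hh, hom_tv_Cvx hk, hom_tv_Cvx (h := h + k) fun i => add_nonneg (hh i) (hk i),
    ← mul_add,
    ← avg_add_Cvx]
  refine mul_le_mul_of_nonneg_left (avg_mono_Cvx fun i => ?_) (by norm_num)
  simp only [avg_add_Cvx, Pi.add_apply]
  refine le_trans (le_of_eq ?_) (abs_add_le _ _)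
  congr 1
  ring

namespace Fam

omit [NeZero q] in
lemma hasSum_avg_mul_Cvx (F : Fam q) (h : Fin q → ℝ) :
    HasSum (fun o => avg (h * F.l o)) (avg h) := by
  have := (hasSum_sum (s := Finset.univ) fun i _ => (F.hasSum i).mul_left (h i)).div_const (q : ℝ)
  simpa only [avg, Pi.mul_apply, mul_one] using this

lemma summable_hom_mul_Cvx (F : Fam q) {φ : (Fin q → ℝ) → ℝ} (hb : Bdd φ) {h : Fin q → ℝ}
    (hh : ∀ i, 0 ≤ h i) : Summable fun o => hom φ (h * F.l o) := by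
  obtain ⟨C, hC⟩ := hb
  exact Summable.of_norm_bounded ((F.hasSum_avg_mul_Cvx h).summable.mul_left C) fun o =>
    abs_hom_le hC fun i => mul_nonneg (hh i) (F.nonneg o i)

lemma E_hom_mul_Cvx (F : Fam q) (φ : (Fin q → ℝ) → ℝ) (f : Fin q → ℝ) :
    F.E (fun g => hom φ (f * g)) = ∑' o, hom φ (f * F.l o) :=
  tsum_congr fun o => hom_hom_Cvx φ f (F.nonneg o)

lemma hom_E_Cvx (F : Fam q) (φ : (Fin q → ℝ) → ℝ) {h : Fin q → ℝ} (hh : ∀ i, 0 ≤ h i) :
    hom (fun f => F.E fun g => hom φ (f * g)) h = ∑' o, hom φ (h * F.l o) := by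
  rw [hom, E_hom_mul_Cvx, ← tsum_mul_left]
  refine tsum_congr fun o => ?_
  rw [mul_comm h, ← hom_hom_Cvx φ (F.l o) hh, mul_comm _ (F.l o)]
  rfl

lemma cvx_E_Cvx (F : Fam q) {φ : (Fin q → ℝ) → ℝ} (hb : Bdd φ) (hc : Cvx φ) :
    Cvx fun f => F.E fun g => hom φ (f * g) := by
  intro h k hh hk
  have hhk : ∀ i, 0 ≤ (h + k) i := fun i => add_nonneg (hh i) (hk i)
  rw [hom_E_Cvx F φ hh, hom_E_Cvx F φ hk, hom_E_Cvx F φ hhk,
    ← (F.summable_hom_mul_Cvx hb hh).tsum_add (F.summable_hom_mul_Cvx hb hk)]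
  refine (F.summable_hom_mul_Cvx hb hhk).tsum_le_tsum (fun o => ?_)
    ((F.summable_hom_mul_Cvx hb hh).add (F.summable_hom_mul_Cvx hb hk))
  rw [add_mul]
  exact hc _ _ (fun i => mul_nonneg (hh i) (F.nonneg o i)) fun i => mul_nonneg (hk i) (F.nonneg o i)

lemma hom_le_tsum (F : Fam q) {φ : (Fin q → ℝ) → ℝ} (hb : Bdd φ) (hc : Cvx φ) {h : Fin q → ℝ}
    (hh : ∀ i, 0 ≤ h i) : hom φ h ≤ ∑' o, hom φ (h * F.l o) := by
  have hs := (F.summable_hom_mul_Cvx hb hh).hasSum
  obtain ⟨C, hC⟩ := hb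
  have ht := hs.add (((F.hasSum_avg_mul_Cvx h).mul_left C).neg)
  have key : ∀ s : Finset F.ι, hom φ h - C * avg h ≤
      ∑ o ∈ s, (hom φ (h * F.l o) + -(C * avg (h * F.l o))) := by
    intro s
    have h1 : ∀ i, 0 ≤ (h - ∑ o ∈ s, h * F.l o) i := by
      intro i
      simp only [Pi.sub_apply, Finset.sum_apply, Pi.mul_apply, ← Finset.mul_sum]
      have := sum_le_hasSum s (fun o _ => F.nonneg o i) (F.hasSum i)
      nlinarith [hh i]
    have h2 : ∀ i, 0 ≤ (∑ o ∈ s, h * F.l o) i := by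
      intro i
      rw [Finset.sum_apply]
      exact Finset.sum_nonneg fun o _ => mul_nonneg (hh i) (F.nonneg o i)
    have h3 := hc _ _ h2 h1
    have h4 := avg_add_Cvx (∑ o ∈ s, h * F.l o) (h - ∑ o ∈ s, h * F.l o)
    rw [add_sub_cancel] at h3 h4
    have h5 := hom_sum_le_Cvx hc s (fun o => h * F.l o)
      fun o i => mul_nonneg (hh i) (F.nonneg o i)
    have h6 := (le_abs_self _).trans (abs_hom_le hC h1)
    have h7 : avg (∑ o ∈ s, h * F.l o) = ∑ o ∈ s, avg (h * F.l o) := by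
      simp only [avg, Finset.sum_apply, ← Finset.sum_div]
      rw [Finset.sum_comm]
    rw [Finset.sum_add_distrib, Finset.sum_neg_distrib, ← Finset.mul_sum, ← h7, h4, mul_add]
    linarith
  have := ge_of_tendsto' ht key
  linarith

lemma Le.refl (F : Fam q) : F.Le F := fun _ _ _ => le_rfl

lemma Le.trans {F G H : Fam q} (a : F.Le G) (b : G.Le H) : F.Le H :=
  fun φ h k => (a φ h k).trans (b φ h k)

lemma le_delta (F : Fam q) : F.Le (delta q) := by
  intro φ hb hc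
  have hq : (0 : ℝ) < q := by exact_mod_cast Nat.pos_of_ne_zero (NeZero.ne q)
  have hb' : ∀ i : Fin q, Bdd fun f : Fin q → ℝ => φ (vtx i) / q * f i := fun i =>
    Bdd.smul _ (Bdd.of_continuous (continuous_apply i))
  have h1 : F.E φ ≤ F.E fun f => ∑ i, φ (vtx i) / q * f i := by
    refine F.E_mono hb (Bdd.sum _ fun i _ => hb' i) fun f hf => ?_
    have h2 := hom_sum_le_Cvx hc Finset.univ (fun i j => f i / q * vtx i j)
      fun i j => mul_nonneg (div_nonneg (hf.1 i) hq.le) ((vtx_mem i).1 j)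
    have h3 : (∑ i, fun j => f i / q * vtx i j) = f := by
      funext j
      simp only [Finset.sum_apply, vtx, mul_ite, mul_zero, Finset.sum_ite_eq', Finset.mem_univ,
        if_true]
      field_simp
    rw [h3, hom_of_simp φ hf] at h2
    refine h2.trans (le_of_eq (Finset.sum_congr rfl fun i _ => ?_))
    rw [hom_smul φ (div_nonneg (hf.1 i) hq.le), hom_of_simp φ (vtx_mem i)]
    ring
  refine h1.trans (le_of_eq ?_)
  rw [F.E_sum _ fun i _ => hb' i, E_delta, avg, Finset.sum_div]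
  refine Finset.sum_congr rfl fun i _ => ?_
  rw [E_smul, E_coord, mul_one]

lemma one_le (F : Fam q) : (one q).Le F := by
  intro φ hb hc
  have h := F.hom_le_tsum hb hc (h := fun _ => 1) fun _ => zero_le_one
  rw [hom_of_simp φ one_mem_simp] at h
  rw [E_one]
  refine h.trans (le_of_eq (tsum_congr fun o => ?_))
  congr 1
  exact one_mul (F.l o)

lemma Le.ch {F G : Fam q} (a : F.Le G) {lam : ℝ} (h : Adm q lam) : (F.ch h).Le (G.ch h) := by
  intro φ hb hc
  rw [E_ch, E_ch]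
  exact a _ (hb.shr h) (cvx_shr_Cvx hc h)

lemma Le.mul {F G F' G' : Fam q} (a : F.Le F') (b : G.Le G') : (F.mul G).Le (F'.mul G') := by
  intro φ hb hc
  have h1 : (F.mul G).E φ ≤ (F'.mul G).E φ := by
    rw [E_mul _ _ hb, E_mul _ _ hb]
    exact a _ (G.bdd_E_mul hb) (G.cvx_E_Cvx hb hc)
  refine h1.trans ?_
  rw [E_mul_comm F' G, E_mul_comm F' G', E_mul _ _ hb, E_mul _ _ hb]
  exact b _ (F'.bdd_E_mul hb) (F'.cvx_E_Cvx hb hc)

lemma Le.pow {F G : Fam q} (a : F.Le G) (k : ℕ) : (F.pow k).Le (G.pow k) := by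
  induction k with
  | zero => exact Le.refl _
  | succ k ih => exact a.mul ih

lemma le_mul (F G : Fam q) : G.Le (F.mul G) := by
  intro φ hb hc
  rw [E_mul_comm, ← E_mul_one G hb]
  exact (Le.refl G).mul (one_le F) φ hb hc

lemma pow_le_pow (F : Fam q) {j k : ℕ} (h : j ≤ k) : (F.pow j).Le (F.pow k) := by
  induction k, h using Nat.le_induction with
  | base => exact Le.refl _
  | succ k _ ih => exact ih.trans (le_mul F _)

lemma mix_le (p : ℕ → ℝ) (hp : ∀ k, 0 ≤ p k) (hs : HasSum p 1) {Fs Gs : ℕ → Fam q}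
    (h : ∀ k, (Fs k).Le (Gs k)) : (mix p hp hs Fs).Le (mix p hp hs Gs) := by
  intro φ hb hc
  exact hasSum_le (fun k => mul_le_mul_of_nonneg_left (h k φ hb hc) (hp k))
    (E_mix p hp hs Fs hb) (E_mix p hp hs Gs hb)

/-- a noisier channel gives a smaller family -/
lemma ch_le (F : Fam q) {lam m : ℝ} (h : Adm q lam) (h' : Adm q (m * lam)) (h0 : 0 ≤ m)
    (h1 : m ≤ 1) : (F.ch h').Le (F.ch h) := by
  intro φ hb hc
  have h2 := one_le (F.ch h) φ hb hc
  rw [E_one] at h2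
  have h3 : (F.ch h').E φ ≤ F.E fun f => m * φ (shr lam f) + (1 - m) * φ fun _ => 1 := by
    rw [E_ch]
    refine F.E_mono (hb.shr h') (((hb.shr h).smul m).add (Bdd.const _)) fun f hf => ?_
    have hg := shr_mem h hf
    have h4 := hc (fun i => m * shr lam f i) (fun i => (1 - m) * (fun _ => (1 : ℝ)) i)
      (fun i => mul_nonneg h0 (hg.1 i)) fun i => mul_nonneg (by linarith) zero_le_one
    rw [hom_smul φ h0, hom_smul φ (by linarith), hom_of_simp φ hg,
      hom_of_simp φ one_mem_simp] at h4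
    refine le_trans (le_of_eq ?_) h4
    rw [← hom_of_simp φ (shr_mem h' hf)]
    congr 1
    funext i
    simp only [shr, Pi.add_apply]
    ring
  rw [F.E_add ((hb.shr h).smul m) (Bdd.const _), E_smul, E_const, ← E_ch F h] at h3
  nlinarith

lemma lev_succ_le {p : ℕ → ℝ} {d s2 : ℝ} (hp : Off p d s2) {lam : ℝ} (h : Adm q lam) (n : ℕ) :
    (lev hp h (n + 1)).Le (lev hp h n) := by
  induction n with
  | zero => exact le_delta _
  | succ n ih => exact mix_le p hp.nonneg hp.sum_one fun k => (ih.ch h).pow k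

lemma antitone_tv {p : ℕ → ℝ} {d s2 : ℝ} (hp : Off p d s2) {lam : ℝ} (h : Adm q lam) :
    Antitone fun n => (lev hp h n).E tv :=
  antitone_nat_of_succ_le fun n => lev_succ_le hp h n tv bdd_tv cvx_tv

end Fam

end Vale.Agent.P154
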