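import Vale.Agent.P154.KrBase

/-! TASK KrPos: soundness of `posChk`.
Plan. `degOK e bs 0` gives `dg i e < bs[i]` for `i < bs.length`; with `toP_dg`, `toP_nv` every
monomial `m` of the support has `m i < bs[i]` for `i < bs.length` and `m i = 0` beyond. The index
`ι m = ∑ i, strd bs i * m i` is injective on such `m` with values below `strd bs bs.length`
(mixed radix; prove by induction on `bs` for functions `ℕ → ℕ`:
`∑ i < (b :: bs).length, strd (b :: bs) i * m i = m 0 + b * ∑ i < bs.length, strd bs i * m (i+1)`).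
Then `kv_toP`, `pack`, `pack_nonneg` (for `Int.toNat`), `mskOK_sound` show that all coefficients
are nonnegative, and `ev_toP` concludes. -/

namespace Vale.Agent.P154

theorem degOK_KrPos (e : Ex) (bs : List ℕ) (k : ℕ) (h : degOK e bs k = true) (i : ℕ)
    (hi : i < bs.length) : e.dg (k + i) < bs.getD i 0 := by
  induction bs generalizing k i with
  | nil => exact absurd hi (Nat.not_lt_zero i)
  | cons b bs ih =>
    have e1 : degOK e (b :: bs) k =
      Bool.rec false (degOK e bs (k + 1)) (Nat.ble (e.dg k + 1) b) := rfl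
    rw [e1] at h
    cases hb : Nat.ble (e.dg k + 1) b with
    | false => rw [hb] at h; exact absurd h Bool.false_ne_true
    | true =>
      rw [hb] at h
      cases i with
      | zero => exact Nat.le_of_ble_eq_true hb
      | succ i =>
        have := ih (k + 1) h i (Nat.lt_of_succ_lt_succ hi)
        rwa [add_assoc, add_comm 1 i] at this

/-- the mixed radix index -/
noncomputable def idx_KrPos (bs : List ℕ) (m : ℕ → ℕ) : ℕ :=
  ∑ i ∈ Finset.range bs.length, strd bs i * m i

theorem idx_cons_KrPos (b : ℕ) (bs : List ℕ) (m : ℕ → ℕ) :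
    idx_KrPos (b :: bs) m = m 0 + b * idx_KrPos bs fun i => m (i + 1) := by
  rw [idx_KrPos, List.length_cons, Finset.sum_range_succ', idx_KrPos, Finset.mul_sum, add_comm]
  congr 1
  · exact one_mul _
  · exact Finset.sum_congr rfl fun i _ => mul_assoc _ _ _

theorem idx_lt_KrPos (bs : List ℕ) (m : ℕ → ℕ) (hm : ∀ i < bs.length, m i < bs.getD i 0) :
    idx_KrPos bs m < strd bs bs.length := by
  induction bs generalizing m with
  | nil => exact Nat.one_pos
  | cons b bs ih =>
    have h1 := ih (fun i => m (i + 1)) fun i hi => hm (i + 1) (Nat.succ_lt_succ hi)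
    have h2 : m 0 < b := hm 0 (Nat.succ_pos _)
    rw [idx_cons_KrPos]
    change _ < b * strd bs bs.length
    nlinarith [Nat.mul_le_mul_left b (Nat.succ_le_of_lt h1)]

theorem idx_inj_KrPos (bs : List ℕ) (m n : ℕ → ℕ) (hm : ∀ i < bs.length, m i < bs.getD i 0)
    (hn : ∀ i < bs.length, n i < bs.getD i 0) (h : idx_KrPos bs m = idx_KrPos bs n) :
    ∀ i < bs.length, m i = n i := by
  induction bs generalizing m n with
  | nil => exact fun i hi => absurd hi (Nat.not_lt_zero i)
  | cons b bs ih =>
    have h1 : m 0 < b := hm 0 (Nat.succ_pos _)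
    have h2 : n 0 < b := hn 0 (Nat.succ_pos _)
    rw [idx_cons_KrPos, idx_cons_KrPos] at h
    have h3 : m 0 = n 0 := by
      have := congrArg (· % b) h
      simpa only [Nat.add_mul_mod_self_left, Nat.mod_eq_of_lt h1, Nat.mod_eq_of_lt h2] using this
    rw [h3, Nat.add_right_inj, Nat.mul_right_inj (Nat.ne_zero_of_lt h1)] at h
    intro i hi
    cases i with
    | zero => exact h3
    | succ i =>
      exact ih (fun i => m (i + 1)) (fun i => n (i + 1))
        (fun i hi => hm (i + 1) (Nat.succ_lt_succ hi))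
        (fun i hi => hn (i + 1) (Nat.succ_lt_succ hi)) h i (Nat.lt_of_succ_lt_succ hi)

theorem posChk_sound {W : ℕ} {bs : List ℕ} {e : Ex} (h : posChk W bs e = true) (x : ℕ → ℝ)
    (hx : ∀ i, 0 ≤ x i) : 0 ≤ e.ev x := by
  simp only [posChk, Bool.and_eq_true, Nat.ble_eq] at h
  obtain ⟨hW, hnv, hdg, hn, hk⟩ := h
  have hW1 : 1 ≤ W := by omega
  have hz : ∀ m ∈ e.toP.support, ∀ i, bs.length ≤ i → m i = 0 := fun m hm i hi =>
    e.toP_nv hm (hnv.trans hi)
  have hb : ∀ m ∈ e.toP.support, ∀ i < bs.length, m i < bs.getD i 0 := fun m hm i hi =>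
    (e.toP_dg hm i).trans_lt (by simpa only [zero_add] using degOK_KrPos e bs 0 hdg i hi)
  obtain ⟨c, hc, hc0, hs⟩ := pack (W := W) (N := strd bs bs.length) e.toP.support
    (fun m => MvPolynomial.coeff m e.toP) (fun m => idx_KrPos bs m)
    (fun m hm n hn h => Finsupp.ext fun i => (Nat.lt_or_ge i bs.length).elim
      (idx_inj_KrPos bs m n (hb m hm) (hb n hn) h i) fun hi => by rw [hz m hm i hi, hz n hn i hi])
    fun m hm => idx_lt_KrPos bs m (hb m hm)
  have hlt : ∀ j, |c j| < 2 ^ (W - 1) := fun j => by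
    by_cases hj : ∀ m ∈ e.toP.support, idx_KrPos bs m ≠ j
    · rw [hc0 j hj, abs_zero]
      positivity
    · push Not at hj
      obtain ⟨m, hm, rfl⟩ := hj
      rw [hc m hm]
      refine (e.abs_coeff_le m).trans_lt ?_
      change e.nrm + 1 ≤ 1 <<< (W - 1) at hn
      rw [Nat.one_shiftLeft] at hn
      exact_mod_cast hn
  have hkv : e.kv (fun i => Nat.mul W (strd bs i)) =
      ∑ j ∈ Finset.range (strd bs bs.length), c j * 2 ^ (W * j) := by
    rw [← hs, e.kv_toP]
    refine Finset.sum_congr rfl fun m hm => ?_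
    congr 2
    rw [idx_KrPos, Finset.mul_sum, Finsupp.sum_of_support_subset (s := Finset.range bs.length) _
      (fun i hi => Finset.mem_range.2 (not_le.1 fun h => Finsupp.mem_support_iff.1 hi (hz m hm i h)))
      _ fun _ _ => mul_zero _]
    exact Finset.sum_congr rfl fun i _ => mul_assoc _ _ _
  rw [hkv] at hk
  rw [e.ev_toP]
  refine Finset.sum_nonneg fun m hm => mul_nonneg (Int.cast_nonneg ?_)
    (Finset.prod_nonneg fun i _ => pow_nonneg (hx i) _)
  rw [← hc m hm]
  exact mskOK_sound hW1 c hlt _ (Int.toNat_of_nonneg (pack_nonneg hW1 c hlt)) hk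
    (idx_lt_KrPos bs m (hb m hm))

end Vale.Agent.P154
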