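import Vale.Agent.P154.Exp2

/-! TASK Pair: from pointwise inequalities averaged over colour permutations to inequalities for
products of families; and two pointwise lower bounds for the chi-square of a product.
Plan. `pair_le`: `E_mul`, then by `G.Sym` (for the bounded function `g ↦ hom φ (f * g)`) and
`E_sum`, `E_smul`: `G.E (fun g => hom φ (f * g)) = G.E (fun g => pavg fun τ => hom φ (f * (g ∘ τ)))`
(`Fintype.card_perm`); `E_mono` twice and induction on `L` for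
`G.E (fun g => (L.map fun p => p.1 f * p.2 g).sum) = (L.map fun p => p.1 f * G.E p.2).sum`.
`pair_ge`: apply `pair_le` to `-φ` or repeat.
`ks1`, `ks2`: for `h ≥ 0` and any `u`, `2 * avg (h * u) - avg h * avg (u^2) - avg h ≤ hom ca h`
(if `Z = avg h > 0`: `hom ca h = avg (h^2) / Z - Z` and `avg ((h / Z - u)^2) ≥ 0`). Averaging over `τ`:
`pavg (fun τ => avg (x * (y ∘ τ))) = avg x * avg y` (`pavg_avg`; for fixed `i` the sum over `τ` of
`y (τ i)` is `(q-1)! * ∑ y`, or: the sum does not depend on `i` by `Equiv.sum_comp` with right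
multiplication by a swap, then sum over `i`). For `ks2` take `u = g ∘ τ`. For `ks1` take
`u = f + g ∘ τ - 1`: with `m = avg (f * (g ∘ τ)) - 1 = avg ((f-1) * (g∘τ-1))` one has
`avg (u^2) = 1 + a + b + 2 m`, `pavg m = 0`, `m^2 ≤ a * b` (Cauchy-Schwarz). -/

namespace Vale.Agent.P154

variable {q : ℕ} [NeZero q]

lemma card_perm_Pair : (Fintype.card (Equiv.Perm (Fin q)) : ℝ) = q.factorial := by
  rw [Fintype.card_perm, Fintype.card_fin]

lemma sum_perm_Pair (y : Fin q → ℝ) (i : Fin q) :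
    (q : ℝ) * ∑ τ : Equiv.Perm (Fin q), y (τ i) = q.factorial * ∑ j, y j := by
  have h1 : ∀ j, ∑ τ : Equiv.Perm (Fin q), y (τ i) = ∑ τ : Equiv.Perm (Fin q), y (τ j) := by
    intro j
    rw [← Equiv.sum_comp (Equiv.mulRight (Equiv.swap j i)) fun τ : Equiv.Perm (Fin q) => y (τ j)]
    refine Finset.sum_congr rfl fun τ _ => ?_
    simp
  have h2 : (q : ℝ) * ∑ τ : Equiv.Perm (Fin q), y (τ i) =
      ∑ j, ∑ τ : Equiv.Perm (Fin q), y (τ j) := by
    rw [← Finset.sum_congr rfl fun j _ => h1 j, Finset.sum_const, Finset.card_univ,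
      Fintype.card_fin, nsmul_eq_mul]
  rw [h2, Finset.sum_comm, Finset.sum_congr rfl fun (τ : Equiv.Perm (Fin q)) _ =>
    Equiv.sum_comp τ y, Finset.sum_const, Finset.card_univ, nsmul_eq_mul, card_perm_Pair]

lemma pavg_avg (x y : Fin q → ℝ) : pavg (fun τ => avg (x * (y ∘ τ))) = avg x * avg y := by
  have hq : (q : ℝ) ≠ 0 := by exact_mod_cast (NeZero.ne q)
  have hf : (q.factorial : ℝ) ≠ 0 := by exact_mod_cast q.factorial_ne_zero
  have h1 : ∀ i, ∑ τ : Equiv.Perm (Fin q), y (τ i) = q.factorial * (∑ j, y j) / q := fun i => by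
    rw [← sum_perm_Pair y i, mul_div_cancel_left₀ _ hq]
  have h2 : ∑ τ : Equiv.Perm (Fin q), ∑ i, x i * y (τ i) =
      (∑ i, x i) * (q.factorial * (∑ j, y j) / q) := by
    rw [Finset.sum_comm, Finset.sum_mul]
    exact Finset.sum_congr rfl fun i _ => by rw [← Finset.mul_sum, h1]
  simp only [pavg, avg, Pi.mul_apply, Function.comp_apply]
  rw [← Finset.sum_div, h2]
  field_simp

lemma pavg_mono_Pair {A B : Equiv.Perm (Fin q) → ℝ} (h : ∀ τ, A τ ≤ B τ) : pavg A ≤ pavg B :=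
  div_le_div_of_nonneg_right (Finset.sum_le_sum fun τ _ => h τ) (Nat.cast_nonneg _)

lemma pavg_lin_Pair (a b c d : ℝ) (A B C : Equiv.Perm (Fin q) → ℝ) :
    pavg (fun τ => a * A τ + b * B τ + c * C τ + d) = a * pavg A + b * pavg B + c * pavg C + d := by
  have hf : (q.factorial : ℝ) ≠ 0 := by exact_mod_cast q.factorial_ne_zero
  simp only [pavg, Finset.sum_add_distrib, ← Finset.mul_sum]
  rw [Finset.sum_const, Finset.card_univ, nsmul_eq_mul, card_perm_Pair]
  field_simp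

lemma bdd_pavg_Pair {ψ : (Fin q → ℝ) → ℝ} (hψ : Bdd ψ) :
    Bdd fun g => pavg fun τ => ψ (g ∘ τ) := by
  have h := (Bdd.sum Finset.univ fun (τ : Equiv.Perm (Fin q)) _ => hψ.perm τ).smul
    (q.factorial : ℝ)⁻¹
  simpa only [pavg, div_eq_inv_mul] using h

lemma E_pavg_Pair {G : Fam q} (hG : G.Sym) {ψ : (Fin q → ℝ) → ℝ} (hψ : Bdd ψ) :
    G.E (fun g => pavg fun τ => ψ (g ∘ τ)) = G.E ψ := by
  have hf : (q.factorial : ℝ) ≠ 0 := by exact_mod_cast q.factorial_ne_zero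
  simp only [pavg, div_eq_inv_mul]
  rw [G.E_smul, G.E_sum Finset.univ fun (τ : Equiv.Perm (Fin q)) _ => hψ.perm τ,
    Finset.sum_congr rfl fun τ _ => hG τ ψ hψ, Finset.sum_const, Finset.card_univ, nsmul_eq_mul,
    card_perm_Pair, inv_mul_cancel_left₀ hf]

lemma list_Pair {α : Type} (G : Fam q) (L : List α) (c : α → ℝ) (ψ : α → (Fin q → ℝ) → ℝ)
    (h : ∀ p ∈ L, Bdd (ψ p)) : Bdd (fun g => (L.map fun p => c p * ψ p g).sum) ∧
      G.E (fun g => (L.map fun p => c p * ψ p g).sum) = (L.map fun p => c p * G.E (ψ p)).sum := by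
  induction L with
  | nil => exact ⟨Bdd.const 0, G.E_const 0⟩
  | cons p L ih =>
    obtain ⟨i1, i2⟩ := ih fun r hr => h r (List.mem_cons_of_mem _ hr)
    have hp := (h p List.mem_cons_self).smul (c p)
    simp only [List.map_cons, List.sum_cons]
    exact ⟨hp.add i1, by rw [G.E_add hp i1, i2, G.E_smul]⟩

lemma both_Pair (F G : Fam q) (L : List (((Fin q → ℝ) → ℝ) × ((Fin q → ℝ) → ℝ)))
    (hL : ∀ p ∈ L, Bdd p.1 ∧ Bdd p.2) :
    Bdd (fun f => (L.map fun p => p.1 f * G.E p.2).sum) ∧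
      F.E (fun f => (L.map fun p => p.1 f * G.E p.2).sum) =
        (L.map fun p => F.E p.1 * G.E p.2).sum := by
  have h := list_Pair F L (fun p => G.E p.2) (fun p => p.1) fun p hp => (hL p hp).1
  simpa only [mul_comm (G.E _)] using h

theorem pair_le (F G : Fam q) (hG : G.Sym) {φ : (Fin q → ℝ) → ℝ} (hφ : Bdd φ)
    (L : List (((Fin q → ℝ) → ℝ) × ((Fin q → ℝ) → ℝ))) (hL : ∀ p ∈ L, Bdd p.1 ∧ Bdd p.2)
    (h : ∀ f ∈ Simp q, ∀ g ∈ Simp q,
      pavg (fun τ => hom φ (f * (g ∘ τ))) ≤ (L.map fun p => p.1 f * p.2 g).sum) :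
    (F.mul G).E φ ≤ (L.map fun p => F.E p.1 * G.E p.2).sum := by
  obtain ⟨b1, b2⟩ := both_Pair F G L hL
  rw [F.E_mul G hφ, ← b2]
  refine F.E_mono (G.bdd_E_mul hφ) b1 fun f hf => ?_
  obtain ⟨c1, c2⟩ := list_Pair G L (fun p => p.1 f) (fun p => p.2) fun p hp => (hL p hp).2
  rw [← c2, ← E_pavg_Pair hG (bdd_hom_mul hφ hf)]
  exact G.E_mono (bdd_pavg_Pair (bdd_hom_mul hφ hf)) c1 (h f hf)

theorem pair_ge (F G : Fam q) (hG : G.Sym) {φ : (Fin q → ℝ) → ℝ} (hφ : Bdd φ)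
    (L : List (((Fin q → ℝ) → ℝ) × ((Fin q → ℝ) → ℝ))) (hL : ∀ p ∈ L, Bdd p.1 ∧ Bdd p.2)
    (h : ∀ f ∈ Simp q, ∀ g ∈ Simp q,
      (L.map fun p => p.1 f * p.2 g).sum ≤ pavg (fun τ => hom φ (f * (g ∘ τ)))) :
    (L.map fun p => F.E p.1 * G.E p.2).sum ≤ (F.mul G).E φ := by
  obtain ⟨b1, b2⟩ := both_Pair F G L hL
  rw [F.E_mul G hφ, ← b2]
  refine F.E_mono b1 (G.bdd_E_mul hφ) fun f hf => ?_
  obtain ⟨c1, c2⟩ := list_Pair G L (fun p => p.1 f) (fun p => p.2) fun p hp => (hL p hp).2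
  rw [← c2, ← E_pavg_Pair hG (bdd_hom_mul hφ hf)]
  exact G.E_mono c1 (bdd_pavg_Pair (bdd_hom_mul hφ hf)) (h f hf)

lemma avg_lin_Pair (a b c d : ℝ) (x y z : Fin q → ℝ) :
    avg (fun i => a * x i + b * y i + c * z i + d) = a * avg x + b * avg y + c * avg z + d := by
  have hq : (q : ℝ) ≠ 0 := by exact_mod_cast (NeZero.ne q)
  simp only [avg, Finset.sum_add_distrib, ← Finset.mul_sum]
  rw [Finset.sum_const, Finset.card_univ, Fintype.card_fin, nsmul_eq_mul]
  field_simp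

lemma avg_sq_Pair {f : Fin q → ℝ} (hf : avg f = 1) : avg (f * f) = 1 + ca f := by
  have h := avg_lin_Pair 1 (-2) 0 1 (f * f) f f
  have e : (fun i => 1 * (f * f) i + -2 * f i + 0 * f i + 1) = fun i => (f i - 1) ^ 2 := by
    funext i
    simp only [Pi.mul_apply]
    ring
  rw [e, hf] at h
  unfold ca
  linarith

lemma tangent_Pair {h : Fin q → ℝ} (hh : ∀ i, 0 ≤ h i) (u : Fin q → ℝ) :
    2 * avg (h * u) - avg h * avg (u * u) - avg h ≤ hom ca h := by
  rcases (avg_nonneg hh).eq_or_lt with h0 | h0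
  · have e : h * u = fun _ => 0 := by
      funext i
      rw [Pi.mul_apply, eq_zero_of_avg hh h0.symm, zero_mul]
    rw [hom, ← h0, e, avg_const]
    simp
  · have a1 := avg_sq_Pair (norm_mem hh h0.ne').2
    obtain ⟨k, hk⟩ : ∃ k : Fin q → ℝ, k = fun i => h i / avg h := ⟨_, rfl⟩
    have a2 := avg_lin_Pair 1 (-2 / avg h) 1 0 (k * k) (h * u) (u * u)
    have e : (fun i => 1 * (k * k) i + -2 / avg h * (h * u) i + 1 * (u * u) i + 0) =
        fun i => (k i - u i) ^ 2 := by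
      funext i
      simp only [Pi.mul_apply, hk]
      ring
    have a3 : 0 ≤ avg fun i => (k i - u i) ^ 2 := avg_nonneg fun i => sq_nonneg _
    rw [e] at a2
    rw [hom, ← hk]
    rw [← hk] at a1
    have a4 : avg h * (-2 / avg h * avg (h * u)) = -2 * avg (h * u) := by field_simp
    have a5 := mul_nonneg h0.le a3
    rw [a2, a1] at a5
    nlinarith

lemma cs_Pair {f g : Fin q → ℝ} (hf : avg f = 1) (hg : avg g = 1) :
    (avg (f * g) - 1) ^ 2 ≤ ca f * ca g := by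
  have hq : (0 : ℝ) < q := by exact_mod_cast Nat.pos_of_ne_zero (NeZero.ne q)
  have h := avg_lin_Pair 1 (-1) (-1) 1 (f * g) f g
  have e : (fun i => 1 * (f * g) i + -1 * f i + -1 * g i + 1) = fun i => (f i - 1) * (g i - 1) := by
    funext i
    simp only [Pi.mul_apply]
    ring
  rw [e, hf, hg] at h
  have e2 : avg (f * g) - 1 = avg fun i => (f i - 1) * (g i - 1) := by linarith
  rw [e2]
  unfold ca avg
  rw [div_pow, div_mul_div_comm, ← sq]
  exact div_le_div_of_nonneg_right (Finset.sum_mul_sq_le_sq_mul_sq _ _ _) (by positivity)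

lemma ks1 {f g : Fin q → ℝ} (hf : f ∈ Simp q) (hg : g ∈ Simp q) :
    ca f + ca g - 2 * (ca f * ca g) ≤ pavg (fun τ => hom ca (f * (g ∘ τ))) := by
  have key : ∀ τ : Equiv.Perm (Fin q), 2 * avg (f * f * (g ∘ τ)) + 2 * avg (f * ((g * g) ∘ τ)) +
      -(6 + ca f + ca g) * avg (f * (g ∘ τ)) + (2 - 2 * (ca f * ca g)) ≤
        hom ca (f * (g ∘ τ)) := by
    intro τ
    have hg' := perm_mem hg τ
    have e0 : (g * g) ∘ τ = (g ∘ τ) * (g ∘ τ) := rfl
    have hb : ca (g ∘ τ) = ca g := ca_perm g τ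
    rw [e0, ← hb]
    generalize g ∘ τ = k at hg' ⊢
    have t := tangent_Pair (h := f * k) (fun i => mul_nonneg (hf.1 i) (hg'.1 i))
      (fun i => f i + k i - 1)
    have a1 := avg_lin_Pair 1 1 (-1) 0 (f * f * k) (f * (k * k)) (f * k)
    have e1 : (fun i => 1 * (f * f * k) i + 1 * (f * (k * k)) i + -1 * (f * k) i + 0) =
        f * k * fun i => f i + k i - 1 := by
      funext i
      simp only [Pi.mul_apply]
      ring
    have a2 := avg_lin_Pair 1 1 2 0 (f * f) (k * k) (f * k)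
    have a3 := avg_lin_Pair 1 (-2) (-2) 1
      (fun i => 1 * (f * f) i + 1 * (k * k) i + 2 * (f * k) i + 0) f k
    have e3 : (fun i => 1 * (1 * (f * f) i + 1 * (k * k) i + 2 * (f * k) i + 0) + -2 * f i +
        -2 * k i + 1) = (fun i => f i + k i - 1) * fun i => f i + k i - 1 := by
      funext i
      simp only [Pi.mul_apply]
      ring
    rw [e1] at a1
    rw [e3, a2, hf.2, hg'.2, avg_sq_Pair hf.2, avg_sq_Pair hg'.2] at a3
    have c := cs_Pair hf.2 hg'.2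
    rw [a1, a3] at t
    nlinarith
  refine le_trans (le_of_eq ?_) (pavg_mono_Pair key)
  rw [pavg_lin_Pair, pavg_avg, pavg_avg, pavg_avg, avg_sq_Pair hf.2, avg_sq_Pair hg.2, hf.2, hg.2]
  ring

lemma ks2 {f g : Fin q → ℝ} (hf : f ∈ Simp q) (hg : g ∈ Simp q) :
    ca g ≤ pavg (fun τ => hom ca (f * (g ∘ τ))) := by
  have key : ∀ τ : Equiv.Perm (Fin q), 2 * avg (f * ((g * g) ∘ τ)) +
      -(2 + ca g) * avg (f * (g ∘ τ)) + 0 * avg (f * (g ∘ τ)) + 0 ≤ hom ca (f * (g ∘ τ)) := by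
    intro τ
    have hg' := perm_mem hg τ
    have e0 : (g * g) ∘ τ = (g ∘ τ) * (g ∘ τ) := rfl
    have hb : ca (g ∘ τ) = ca g := ca_perm g τ
    rw [e0, ← hb]
    generalize g ∘ τ = k at hg' ⊢
    have t := tangent_Pair (h := f * k) (fun i => mul_nonneg (hf.1 i) (hg'.1 i)) k
    rw [avg_sq_Pair hg'.2, mul_assoc] at t
    linarith
  refine le_trans (le_of_eq ?_) (pavg_mono_Pair key)
  rw [pavg_lin_Pair, pavg_avg, pavg_avg, avg_sq_Pair hg.2, hf.2, hg.2]
  ring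

end Vale.Agent.P154
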