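import Vale.Agent.P154.ACen
import Vale.Agent.P154.Bridge
import Vale.Agent.P154.Cvx
import Vale.Agent.P154.Pair
import Vale.Agent.P154.KrPos

/-! Antiferromagnetic case (three colours): mathematical definitions. The index `s` of a character
is a natural number, only `s < 8` is used. -/

namespace Vale.Agent.P154

open Finset Filter Topology

/-- six times the real parts of the exponents -/
def sg : ℕ → Fin 3 → ℕ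
  | 0 => ![2, 2, 2]
  | 1 => ![3, 3, 0]
  | 2 => ![4, 2, 0]
  | 3 => ![5, 1, 0]
  | 4 => ![4, 1, 1]
  | 5 => ![3, 2, 1]
  | 6 => ![2, 2, 2]
  | _ => ![3, 3, 0]
/-- imaginary parts of the exponents -/
noncomputable def ta (s : ℕ) : Fin 3 → ℝ := if s < 6 then 0 else ![1 / 2, -1 / 2, 0]
noncomputable def mon0 (s : ℕ) (f : Fin 3 → ℝ) : ℝ := ∏ i, f i ^ ((sg s i : ℝ) / 6)
noncomputable def mon (s : ℕ) (f : Fin 3 → ℝ) : ℝ :=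
  mon0 s f * Real.cos (∑ i, ta s i * Real.log (f i))
noncomputable def chi (s : ℕ) (f : Fin 3 → ℝ) : ℝ :=
  pavg fun π : Equiv.Perm (Fin 3) => mon s (f ∘ π)
noncomputable def chi0 (s : ℕ) (f : Fin 3 → ℝ) : ℝ :=
  pavg fun π : Equiv.Perm (Fin 3) => mon0 s (f ∘ π)
noncomputable def PP (s : ℕ) (f : Fin 3 → ℝ) : ℝ := 1 - chi s f
noncomputable def RR (s : ℕ) (lam : ℝ) (f : Fin 3 → ℝ) : ℝ := (1 - chi s (shr lam f)) / lam ^ 2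
/-- the channel on vectors that are not normalised -/
noncomputable def chv (lam : ℝ) (h : Fin 3 → ℝ) : Fin 3 → ℝ :=
  fun i => lam * h i + (1 - lam) * avg h
/-- complex exponents and binomial coefficients -/
noncomputable def sx (s : ℕ) (i : Fin 3) : ℂ := ((sg s i : ℝ) / 6 : ℝ) + (ta s i : ℝ) * Complex.I
noncomputable def bn (z : ℂ) (k : ℕ) : ℂ := (∏ j ∈ range k, (z - j)) / (k.factorial : ℂ)

/-! the fixed point -/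

/-- `d = 0` stands for the Poisson law -/
noncomputable def Nf (d : ℕ) (v : ℝ) : ℝ :=
  if d = 0 then 1 - Real.exp (-v) else 1 - (1 - v / d) ^ d
/-- the derivative of `Nf d` -/
noncomputable def Ef (d : ℕ) (v : ℝ) : ℝ := if d = 0 then Real.exp (-v) else (1 - v / d) ^ (d - 1)
noncomputable def sgm (d : ℕ) : ℝ := if d = 0 then 1 else 1 - 1 / d

structure Fix (lam : ℝ) (N : ℝ → ℝ) (U V : ℕ → ℝ) : Prop where
  eq : ∀ s < 8, U s = N (V s)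
  nn : ∀ s < 8, 0 ≤ V s
  le : ∀ s < 6, V s * lam ^ 2 ≤ 1
  lin : ∀ (a b : ℕ → ℝ) (c : ℝ), (∀ f ∈ Simp 3, c ≤ ∑ s ∈ range 8, a s * PP s f -
    ∑ s ∈ range 8, b s * RR s lam f) → c ≤ ∑ s ∈ range 8, a s * U s - ∑ s ∈ range 8, b s * V s

def Compat (N : ℝ → ℝ) (dl du : ℕ) : Prop :=
  ∀ v : ℝ, 0 ≤ v → (du = 0 ∨ v ≤ du) → Nf dl v ≤ N v ∧ N v ≤ Nf du v

def Rho (lam : ℝ) (N : ℝ → ℝ) (σ : ℝ) : Prop :=
  0 < σ ∧ σ ≤ 1 ∧ ∀ v : ℝ, 0 ≤ v → v * lam ^ 2 ≤ 1 → v - N v ≤ σ * v ^ 2 / 2 ∧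
    ∀ t : ℝ, 0 ≤ t → t ≤ 1 → σ * ((1 - t / 2) * t * v - t ^ 2 / 2) ≤ v - N v

noncomputable def lamJ (n : ℕ) : ℝ := n / 1024 - 1 / 2
noncomputable def lamR (n : ℕ) : ℝ := n / 2 ^ 48 - 1 / 2

def JobP (n m dl du : ℕ) : Prop :=
  ∀ lam : ℝ, lamJ n ≤ lam → lam ≤ lamJ m → lam ≠ 0 → ∀ (N : ℝ → ℝ) (σ : ℝ) (U V : ℕ → ℝ),
    Fix lam N U V → Compat N dl du → (1 ≤ dl → 1 ≤ (dl : ℝ) * lam ^ 2) → Rho lam N σ → V 0 = 0

/-! the inequalities attached to the leaves -/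

noncomputable def aR (w : Wt) (l s : ℕ) : ℝ := ((dg (w.ap.at s) l : ℝ) - dg (w.am.at s) l) / 2 ^ 32
noncomputable def bR (w : Wt) (l s : ℕ) : ℝ := ((dg (w.bp.at s) l : ℝ) - dg (w.bm.at s) l) / 2 ^ 32
noncomputable def cR (w : Wt) (l : ℕ) : ℝ := ((dg w.cp l : ℝ) - dg w.cm l) / 2 ^ 32
def LI (w : Wt) (lam : ℝ) (l : ℕ) (f : Fin 3 → ℝ) : Prop :=
  cR w l ≤ ∑ s ∈ range 8, aR w l s * PP s f - ∑ s ∈ range 8, bR w l s * RR s lam f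
noncomputable def XR (w : Wt) (l : ℕ) (h : Fin 3 → ℝ) : ℝ :=
  ∑ s ∈ range 8, aR w l s * (avg h - chi s h) - cR w l * avg h
noncomputable def YR (w : Wt) (lam : ℝ) (l : ℕ) (h : Fin 3 → ℝ) : ℝ :=
  ∑ s ∈ range 8, bR w l s * ((avg h - chi s (chv lam h)) / lam ^ 2)
noncomputable def wR (w : Wt) (s : ℕ) : ℝ := ((wP w s : ℝ) - wM w s) / 2 ^ 32
noncomputable def mR (w : Wt) (s : ℕ) : ℝ := ((mP w s : ℝ) - mM w s) / 2 ^ 32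
/-- the inequality of the small regime -/
def SI (w : Wt) (kap : ℕ) (lam Z : ℝ) (f : Fin 3 → ℝ) : Prop :=
  0 ≤ ∑ s ∈ range 8, wR w s * (PP s f - RR s lam f) - Z * ∑ s ∈ range 8, mR w s * RR s lam f +
    kap / 2 ^ 32 * Z ^ 2

def hx (x p : ℝ) : Fin 3 → ℝ := ![1, x, x * p]
noncomputable def cn (h : Fin 3 → ℝ) : ℝ := ca fun i => h i / avg h
/-- `x` lies in `[Q, Q + w] / 2^20` -/
def InB (Q w : ℕ) (x : ℝ) : Prop := (Q : ℝ) ≤ x * 2 ^ 20 ∧ x * 2 ^ 20 ≤ (Q : ℝ) + w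

def OutAll (w : Wt) (Q wq P wp n m : ℕ) : Prop :=
  ∀ q p lam : ℝ, InB Q wq q → InB P wp p → lamR n ≤ lam → lam ≤ lamR m → lam ≠ 0 → ∀ l < w.L,
    YR w lam l (hx (q ^ 6) (p ^ 6)) ≤ XR w l (hx (q ^ 6) (p ^ 6))
def OutGood (w : Wt) (Q wq P wp n m : ℕ) : Prop :=
  ∀ q p lam : ℝ, InB Q wq q → InB P wp p → lamR n ≤ lam → lam ≤ lamR m → lam ≠ 0 → ∀ l < w.L,
    8 * cn (hx (q ^ 6) (p ^ 6)) < 1 ∨
      YR w lam l (hx (q ^ 6) (p ^ 6)) ≤ XR w l (hx (q ^ 6) (p ^ 6))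
noncomputable def tR (f : Fin 3 → ℝ) : ℝ := Real.sqrt (8 * ca f)
def CenGood (w : Wt) (n m i0 cnt : ℕ) (t1 t2 : ℤ) : Prop :=
  ∀ f ∈ Simp 3, ∀ lam : ℝ, lamJ n ≤ lam → lam ≤ lamJ m → lam ≠ 0 → (t1 : ℝ) ≤ 33 * tR f →
    33 * tR f < t2 → ∀ l, i0 ≤ l → l < i0 + cnt → LI w lam l f
def Good2 (w : Wt) (kap n m : ℕ) (t1 t2 : ℤ) : Prop :=
  ∀ f ∈ Simp 3, ∀ lam : ℝ, lamJ n ≤ lam → lam ≤ lamJ m → lam ≠ 0 → (t1 : ℝ) ≤ 33 * tR f →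
    33 * tR f < t2 → ∀ Z : ℝ, 0 ≤ Z → SI w kap lam Z f
def JobG (w : Wt) (kap n m : ℕ) : Prop :=
  smOK w kap = true ∧ m ≤ 1024 ∧
    ∀ lam : ℝ, lamJ n ≤ lam → lam ≤ lamJ m → lam ≠ 0 → ∀ f ∈ Simp 3,
      (∀ l, l + 3 ≤ w.L → LI w lam l f) ∧ ∀ Z : ℝ, 0 ≤ Z → Z ≤ 1 / 512 → SI w kap lam Z f

/-! interpolation -/

def lc (θ : ℝ) (u v : Fin 3 → ℝ) : Fin 3 → ℝ := fun i => (1 - θ) * u i + θ * v i
def SegOK (u v : Fin 3 → ℝ) (V : ℝ) (i j : Fin 3) : Prop :=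
  ∀ θ : ℝ, 0 ≤ θ → θ ≤ 1 → 0 < lc θ u v i ∧ 0 < lc θ u v j ∧
    (u i * v j - u j * v i) ^ 2 ≤ V * (lc θ u v i * lc θ u v j) ^ 2
/-- upper bounds for `36 * |sx s i * sx s j|`, used for `i < j` -/
def wt (s : ℕ) (i j : Fin 3) : ℕ :=
  if s < 6 then sg s i * sg s j else
    if s = 6 then (if i = 0 ∧ j = 1 then 13 else 8) else if i = 0 ∧ j = 1 then 18 else 0
noncomputable def qf (s : ℕ) (V : Fin 3 → Fin 3 → ℝ) : ℝ :=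
  (wt s 0 1 * V 0 1 + wt s 0 2 * V 0 2 + wt s 1 2 * V 1 2) / 288
noncomputable def cap (s : ℕ) : ℝ := if s < 6 then 1 else 2
noncomputable def errR (s : ℕ) (hi : Fin 3 → ℝ) (V : Fin 3 → Fin 3 → ℝ) : ℝ :=
  pavg fun π : Equiv.Perm (Fin 3) => mon0 s (hi ∘ π) * min (cap s) (qf s fun i j => V (π i) (π j))
def vv (U V W : ℝ) : Fin 3 → Fin 3 → ℝ := ![![0, U, V], ![U, 0, W], ![V, W, 0]]
/-- `y` approximates the interpolated value `I`; from below without error for real exponents -/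
def Near (s : ℕ) (y I E : ℝ) : Prop := y ≤ I + E ∧ I - (if s < 6 then 0 else E) ≤ y
def Bil (s : ℕ) (Ψ : (Fin 3 → ℝ) → Fin 3 → ℝ) (x1 x2 p1 p2 E : ℝ) : Prop :=
  ∀ α β : ℝ, 0 ≤ α → α ≤ 1 → 0 ≤ β → β ≤ 1 →
    Near s (chi s (Ψ (hx ((1 - α) * x1 + α * x2) ((1 - β) * p1 + β * p2))))
      ((1 - α) * ((1 - β) * chi s (Ψ (hx x1 p1)) + β * chi s (Ψ (hx x1 p2))) +
        α * ((1 - β) * chi s (Ψ (hx x2 p1)) + β * chi s (Ψ (hx x2 p2)))) E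
/-- grid points -/
noncomputable def xq (Q h i : ℕ) : ℝ := (((Q + i * h : ℕ) : ℝ) / 2 ^ 20) ^ 6
noncomputable def eaR (w : Wt) (l s : ℕ) : ℝ :=
  (if s < 6 then (dg (w.ap.at s) l : ℝ) else dg (w.ap.at s) l + dg (w.am.at s) l) / 2 ^ 32
noncomputable def ebR (w : Wt) (l s : ℕ) : ℝ :=
  (if s < 6 then (dg (w.bm.at s) l : ℝ) else dg (w.bp.at s) l + dg (w.bm.at s) l) / 2 ^ 32
noncomputable def abR (w : Wt) (l s : ℕ) : ℝ :=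
  ((dg (w.bp.at s) l : ℝ) + dg (w.bm.at s) l) / 2 ^ 32
noncomputable def ER (w : Wt) (l : ℕ) (ep ex et : ℕ → ℝ) : ℝ :=
  (∑ s ∈ range 8, eaR w l s * ep s + ∑ s ∈ range 8, ebR w l s * ex s +
    ∑ s ∈ range 8, abR w l s * et s) / (6 * 2 ^ 26)
noncomputable def V8.r (u : V8) (s : ℕ) : ℝ := u.at s
/-- the inequalities at one grid point -/
def VX (w : Wt) (l t n : ℕ) (ep ex et : V8) (h : Fin 3 → ℝ) : Prop :=
  ER w l ep.r ex.r (fun s => et.r s - dlt w.u (dnR n)) ≤ XR w l h - YR w (lamR n) l h ∧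
    (t ≠ 0 → ER w l ep.r ex.r (fun s => et.r s - dlt w.u (dnR n)) ≤
      (1 - 1 / 2 ^ t) * XR w l h - YR w (lamR n) l h)
/-- `x` encodes an approximation of `exp (i * θ)` -/
def CsOK (x : ℕ × ℕ) (θ : ℝ) : Prop :=
  ‖((((x.1 : ℝ) / 2 ^ 40 - 1 : ℝ) : ℂ) + (((x.2 : ℝ) / 2 ^ 40 - 1 : ℝ) : ℂ) * Complex.I) -
    Complex.exp (θ * Complex.I)‖ ≤ 1 / 2 ^ 29
/-- six times the characters at the point `(a^6, b^6, c^6)` -/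
noncomputable def XX (s : ℕ) (a b c : ℝ) : ℝ :=
  match s with
  | 0 => 6 * (a * b * c) ^ 2
  | 1 => 2 * (a ^ 3 * b ^ 3 + a ^ 3 * c ^ 3 + b ^ 3 * c ^ 3)
  | 2 => a ^ 4 * (b ^ 2 + c ^ 2) + b ^ 4 * (a ^ 2 + c ^ 2) + c ^ 4 * (a ^ 2 + b ^ 2)
  | 3 => a ^ 5 * (b + c) + b ^ 5 * (a + c) + c ^ 5 * (a + b)
  | 4 => 2 * (a * b * c) * (a ^ 3 + b ^ 3 + c ^ 3)
  | 5 => a * b * c * (a ^ 2 * (b + c) + b ^ 2 * (a + c) + c ^ 2 * (a + b))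
  | 6 => 2 * (a * b * c) ^ 2 * (Real.cos (3 * (Real.log a - Real.log b)) +
      Real.cos (3 * (Real.log b - Real.log c)) + Real.cos (3 * (Real.log a - Real.log c)))
  | _ => 2 * (a ^ 3 * b ^ 3 * Real.cos (3 * (Real.log a - Real.log b)) +
      b ^ 3 * c ^ 3 * Real.cos (3 * (Real.log b - Real.log c)) +
      a ^ 3 * c ^ 3 * Real.cos (3 * (Real.log a - Real.log c)))

/-! Taylor expansion at the centre -/

noncomputable def zq (s k j : ℕ) : ℝ := (zc s k j : ℝ) / zD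
noncomputable def zp (s k : ℕ) (τ : ℝ) : ℝ := ∑ j ∈ range 7, zq s k j * τ ^ j
/-- the part of degree at least `sh` (and at least two), divided by `lam^2 * t^sh` -/
noncomputable def gp (s sh : ℕ) (lam t τ : ℝ) : ℝ :=
  ∑ k ∈ Ico (max 2 sh) 19, zp s k τ * lam ^ (k - 2) * t ^ (k - sh)
noncomputable def zNr (s : ℕ) : ℝ := zN.r s / 2 ^ 40
/-- `x` has sum zero and the invariants `r`, `τ` -/
def Par (x : Fin 3 → ℝ) (r τ : ℝ) : Prop :=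
  x 0 + x 1 + x 2 = 0 ∧ x 0 * x 1 + x 0 * x 2 + x 1 * x 2 = -3 * r ^ 2 ∧
    x 0 * x 1 * x 2 = 2 * r ^ 3 * τ ∧ ∀ i, |x i| ≤ 2 * |r|
def Cel.Deg (c : Cel) (e : Ex) : Prop := e.nv ≤ 2 ∧ e.dg 0 ≤ c.n ∧ e.dg 1 ≤ 7
/-- the point `(t, τ)` has the coordinates `x 0`, `x 1` in the cell -/
def Cel.At (c : Cel) (x : ℕ → ℝ) (t τ : ℝ) : Prop :=
  (∀ i, 0 ≤ x i) ∧ (c.t1 : ℝ) + c.t2 * x 0 = (33 + 33 * x 0) * t ∧
    (c.u1 : ℝ) + c.u2 * x 1 = (8 + 8 * x 1) * τ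
noncomputable def Cel.Hs (c : Cel) (x : ℕ → ℝ) : ℝ :=
  (33 + 33 * x 0) ^ (c.n - 1) * (8 + 8 * x 1) ^ 6 * 2 ^ 48
noncomputable def ev8 (x : ℕ → ℝ) (e : Bool → ℕ → Ex) (xp xm : V8) : ℝ :=
  ∑ s ∈ range 8, (xp.r s * (e false s).ev x + xm.r s * (e true s).ev x)

/-! the critical line -/

def CritR (d : ℕ) : Prop :=
  ∀ h : Adm 3 (-1 / Real.sqrt d), Tendsto (fun n => (Fam.lev (off_reg d) h n).E ca) atTop (𝓝 0)
def RegP (d1 d2 : ℕ) : Prop := ∀ d, d1 ≤ d → d ≤ d2 → CritR d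
def RegI (d1 : ℕ) : Prop := ∀ d, d1 ≤ d → CritR d
def PoiP (n m : ℕ) : Prop :=
  ∀ lam : ℝ, lamJ n ≤ lam → lam ≤ lamJ m → lam < 0 → ∀ (h : Adm 3 lam) (hd : 0 ≤ 1 / lam ^ 2),
    Tendsto (fun k => (Fam.lev (off_poi hd) h k).E ca) atTop (𝓝 0)

end Vale.Agent.P154
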