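import Vale.Agent.P154.ABase

/-! TASK AEnc1: the binomial series with a complex exponent.
Plan. `bin_sum`: `Complex.one_add_cpow_hasFPowerSeriesOnBall_zero` (coefficients `Ring.choose z k`,
equal to `bn z k` by `Ring.descPochhammer_eq_factorial_smul_choose` or by the recursion), and
`(1 + x : ℂ) ^ z = exp (log (1 + x) * z)` with `Complex.ofReal_log`. `bn_succ`:
`bn z (k+1) = bn z k * (z - k) / (k + 1)`, so `‖bn z (k+1)‖ ≤ ‖bn z k‖` for `‖z‖ ≤ 1`; the tail is at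
most `‖bn z 19‖ * |x|^19 * ∑ 2^(-k)` (`hasSum_nat_add_iff'`, `tsum_of_norm_bounded`,
`hasSum_geometric_two`). `bn_eq`: induction on `k`. `zb_ge`: square; a Boolean check over `s < 8`,
`i < 3`, `k < 20` of `(g.1^2 + g.2^2) * 2^120 ≤ (zb * 12^k * k!)^2` by `decide +kernel`
(`allLt`, `allLt_iff`; write `sg s i` and `tz s i` with `i : ℕ` through `nth` or `⟨i % 3, _⟩`). -/

namespace Vale.Agent.P154

open Finset

def tz (s : ℕ) : Fin 3 → ℤ := if s < 6 then 0 else ![3, -3, 0]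
/-- the product of the Gaussian integers `a - 6 j + b i`, `j < k` -/
noncomputable def gb (a b : ℤ) (k : ℕ) : ℤ × ℤ :=
  Nat.rec (motive := fun _ => ℤ × ℤ) (1, 0)
    (fun j r => (r.1 * (a - 6 * j) - r.2 * b, r.1 * b + r.2 * (a - 6 * j))) k
noncomputable def zb (s i k : ℕ) : ℕ := nth 0 (nth [] (nth [] zB s) i) k

theorem ae1_ta (s : ℕ) (i : Fin 3) : ta s i = (tz s i : ℝ) / 6 := by
  unfold ta tz
  split_ifs
  · simp
  · fin_cases i <;> norm_num

theorem ae1_sq (s : ℕ) (i : Fin 3) : ((sg s i : ℤ)) ^ 2 + (tz s i) ^ 2 ≤ 36 := by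
  rcases lt_or_ge s 7 with h | h
  · interval_cases s <;> fin_cases i <;> decide
  · obtain ⟨t, rfl⟩ := Nat.exists_eq_add_of_le' h
    have e1 : sg (t + 7) = ![3, 3, 0] := rfl
    have e2 : tz (t + 7) = ![3, -3, 0] := if_neg (by omega)
    rw [e1, e2]
    fin_cases i <;> decide

theorem ae1_sx (s : ℕ) (i : Fin 3) :
    sx s i = (((sg s i : ℤ) : ℂ) + (tz s i : ℂ) * Complex.I) / 6 := by
  unfold sx
  rw [ae1_ta]
  push_cast
  ring

theorem ae1_norm (a b : ℤ) : ‖(a : ℂ) + (b : ℂ) * Complex.I‖ ^ 2 = ((a ^ 2 + b ^ 2 : ℤ) : ℝ) := by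
  rw [Complex.sq_norm, Complex.normSq_apply]
  simp
  ring

theorem norm_sx_le (s : ℕ) (i : Fin 3) : ‖sx s i‖ ≤ 1 := by
  rw [ae1_sx, norm_div]
  have h6 : ‖(6 : ℂ)‖ = 6 := by simp
  rw [h6, div_le_one (by norm_num)]
  refine abs_le_of_sq_le_sq' ?_ (by norm_num) |>.2
  rw [ae1_norm]
  have h := ae1_sq s i
  have h2 : (((sg s i : ℤ) ^ 2 + (tz s i) ^ 2 : ℤ) : ℝ) ≤ ((36 : ℤ) : ℝ) := Int.cast_le.2 h
  refine h2.trans (le_of_eq ?_)
  norm_num

theorem ae1_desc (z : ℂ) (k : ℕ) : (descPochhammer ℤ k).smeval z = ∏ j ∈ range k, (z - j) := by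
  induction k with
  | zero => simp
  | succ k ih =>
    rw [descPochhammer_succ_right, Polynomial.smeval_mul, ih, prod_range_succ,
      Polynomial.smeval_sub, Polynomial.smeval_X, Polynomial.smeval_natCast]
    simp

theorem ae1_choose (z : ℂ) (k : ℕ) : Ring.choose z k = bn z k := by
  have h := Ring.descPochhammer_eq_factorial_smul_choose z k
  rw [ae1_desc, nsmul_eq_mul] at h
  have hk : (k.factorial : ℂ) ≠ 0 := Nat.cast_ne_zero.2 k.factorial_ne_zero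
  rw [bn, h]
  field_simp

theorem bin_sum (z : ℂ) {x : ℝ} (hx : |x| < 1) :
    HasSum (fun k => bn z k * (x : ℂ) ^ k) (Complex.exp (z * (Real.log (1 + x) : ℝ))) := by
  have h1 : (x : ℂ) ∈ Metric.eball (0 : ℂ) 1 := by
    rw [mem_eball_zero_iff, ← ofReal_norm, Complex.norm_real, Real.norm_eq_abs]
    exact ENNReal.ofReal_lt_one.2 hx
  have h := (Complex.one_add_cpow_hasFPowerSeriesOnBall_zero (a := z)).hasSum h1
  have hp : 0 < 1 + x := by linarith [(abs_lt.1 hx).1]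
  have e : (1 + (0 + (x : ℂ))) ^ z = Complex.exp (z * (Real.log (1 + x) : ℝ)) := by
    have e1 : (1 + (0 + (x : ℂ))) = ((1 + x : ℝ) : ℂ) := by push_cast; ring
    rw [e1, Complex.cpow_def_of_ne_zero (Complex.ofReal_ne_zero.2 hp.ne'),
      ← Complex.ofReal_log hp.le, mul_comm]
  rw [e] at h
  have e2 : (fun k => bn z k * (x : ℂ) ^ k) =
      fun k => binomialSeries ℂ z k fun _ => (x : ℂ) := by
    funext k
    rw [binomialSeries_apply, ae1_choose]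
    simp
  rw [e2]
  exact h

theorem ae1_succ (z : ℂ) (k : ℕ) : bn z (k + 1) = bn z k * ((z - k) / (k + 1)) := by
  have hk : (k.factorial : ℂ) ≠ 0 := Nat.cast_ne_zero.2 k.factorial_ne_zero
  have hk1 : (k : ℂ) + 1 ≠ 0 := by exact_mod_cast Nat.succ_ne_zero k
  rw [bn, bn, prod_range_succ, Nat.factorial_succ]
  push_cast
  field_simp

theorem ae1_anti {z : ℂ} (hz : ‖z‖ ≤ 1) (k : ℕ) : ‖bn z (k + 1)‖ ≤ ‖bn z k‖ := by
  rw [ae1_succ, norm_mul]
  refine mul_le_of_le_one_right (norm_nonneg _) ?_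
  have e : ‖(k : ℂ) + 1‖ = (k : ℝ) + 1 := by
    have : (k : ℂ) + 1 = ((k + 1 : ℕ) : ℂ) := by push_cast; ring
    rw [this, Complex.norm_natCast]
    push_cast
    ring
  rw [norm_div, e, div_le_one (by positivity)]
  refine (norm_sub_le _ _).trans ?_
  rw [Complex.norm_natCast]
  linarith

theorem ae1_le {z : ℂ} (hz : ‖z‖ ≤ 1) (m k : ℕ) : ‖bn z (k + m)‖ ≤ ‖bn z m‖ := by
  induction k with
  | zero => simp
  | succ k ih =>
    have e : k + 1 + m = k + m + 1 := by ring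
    rw [e]
    exact (ae1_anti hz _).trans ih

theorem bin_tail {z : ℂ} (hz : ‖z‖ ≤ 1) {x : ℝ} (hx : |x| ≤ 1 / 2) :
    ‖Complex.exp (z * (Real.log (1 + x) : ℝ)) - ∑ k ∈ range 19, bn z k * (x : ℂ) ^ k‖ ≤
      2 * ‖bn z 19‖ * |x| ^ 19 := by
  have h := (hasSum_nat_add_iff' 19).2 (bin_sum z (x := x) (by linarith))
  have hg : HasSum (fun k : ℕ => ‖bn z 19‖ * |x| ^ 19 * (1 / 2 : ℝ) ^ k) (‖bn z 19‖ * |x| ^ 19 * 2) :=
    hasSum_geometric_two.mul_left _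
  have hb : ∀ k : ℕ, ‖bn z (k + 19) * (x : ℂ) ^ (k + 19)‖ ≤ ‖bn z 19‖ * |x| ^ 19 * (1 / 2 : ℝ) ^ k := by
    intro k
    rw [norm_mul, norm_pow, Complex.norm_real, Real.norm_eq_abs, pow_add, mul_assoc, mul_comm (|x| ^ 19)]
    refine mul_le_mul (ae1_le hz 19 k) ?_ (by positivity) (norm_nonneg _)
    exact mul_le_mul_of_nonneg_right (pow_le_pow_left₀ (abs_nonneg x) hx k) (by positivity)
  have h2 := tsum_of_norm_bounded hg hb
  rw [h.tsum_eq] at h2
  linarith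

theorem ae1_gb (a b : ℤ) (k : ℕ) :
    (((gb a b k).1 : ℂ) + (gb a b k).2 * Complex.I) =
      ∏ j ∈ range k, ((a : ℂ) + b * Complex.I - 6 * j) := by
  induction k with
  | zero =>
    have e : gb a b 0 = (1, 0) := rfl
    rw [e]
    simp
  | succ k ih =>
    have e : gb a b (k + 1) = ((gb a b k).1 * (a - 6 * k) - (gb a b k).2 * b,
        (gb a b k).1 * b + (gb a b k).2 * (a - 6 * k)) := rfl
    rw [prod_range_succ, ← ih, e]
    push_cast
    linear_combination (-((gb a b k).2 : ℂ) * b) * Complex.I_mul_I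

theorem bn_eq (s : ℕ) (i : Fin 3) (k : ℕ) :
    bn (sx s i) k = (((gb (sg s i) (tz s i) k).1 : ℂ) + (gb (sg s i) (tz s i) k).2 * Complex.I) /
      (6 ^ k * (k.factorial : ℂ)) := by
  rw [ae1_gb, bn, ae1_sx, ← div_div]
  congr 1
  have e : (6 : ℂ) ^ k = ∏ _j ∈ range k, (6 : ℂ) := by simp
  rw [e, ← prod_div_distrib]
  refine prod_congr rfl fun j _ => ?_
  ring

noncomputable def ae1_chk (s i k : ℕ) : Bool :=
  decide (((gb (sg s ⟨i % 3, Nat.mod_lt _ (by decide)⟩) (tz s ⟨i % 3, Nat.mod_lt _ (by decide)⟩) k).1 ^ 2 +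
    (gb (sg s ⟨i % 3, Nat.mod_lt _ (by decide)⟩) (tz s ⟨i % 3, Nat.mod_lt _ (by decide)⟩) k).2 ^ 2) * 2 ^ 120 ≤
      ((zb s i k * 12 ^ k * k.factorial : ℕ) : ℤ) ^ 2)

theorem ae1_all : allLt 8 (fun s => allLt 3 fun i => allLt 20 fun k => ae1_chk s i k) = true := by
  decide +kernel

theorem ae1_int {s : ℕ} (hs : s < 8) (i : Fin 3) {k : ℕ} (hk : k < 20) :
    ((gb (sg s i) (tz s i) k).1 ^ 2 + (gb (sg s i) (tz s i) k).2 ^ 2) * 2 ^ 120 ≤
      ((zb s i k * 12 ^ k * k.factorial : ℕ) : ℤ) ^ 2 := by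
  have h := (allLt_iff _ _).1 ((allLt_iff _ _).1 ((allLt_iff _ _).1 ae1_all s hs) i i.2) k hk
  have e : (⟨(i : ℕ) % 3, Nat.mod_lt _ (by decide)⟩ : Fin 3) = i := Fin.ext (Nat.mod_eq_of_lt i.2)
  unfold ae1_chk at h
  rw [e] at h
  exact of_decide_eq_true h

theorem zb_ge {s : ℕ} (hs : s < 8) (i : Fin 3) {k : ℕ} (hk : k < 20) :
    ‖bn (sx s i) k‖ / 2 ^ k ≤ (zb s i k : ℝ) / 2 ^ 60 := by
  have h := ae1_int hs i hk
  rw [bn_eq]
  generalize (gb (sg s i) (tz s i) k).1 = a at h ⊢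
  generalize (gb (sg s i) (tz s i) k).2 = b at h ⊢
  have h1 : ‖(a : ℂ) + (b : ℂ) * Complex.I‖ * 2 ^ 60 ≤ (zb s i k : ℝ) * 12 ^ k * k.factorial := by
    refine (abs_le_of_sq_le_sq' ?_ (by positivity)).2
    rw [mul_pow, ae1_norm, ← pow_mul]
    exact_mod_cast h
  have e : ‖(6 : ℂ) ^ k * (k.factorial : ℂ)‖ = 6 ^ k * (k.factorial : ℝ) := by
    rw [norm_mul, norm_pow, Complex.norm_natCast]
    simp
  have hf : (0 : ℝ) < k.factorial := Nat.cast_pos.2 k.factorial_pos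
  rw [norm_div, e, div_div, div_le_div_iff₀ (by positivity) (by positivity)]
  have e2 : (12 : ℝ) ^ k = 6 ^ k * 2 ^ k := by rw [← mul_pow]; norm_num
  rw [e2] at h1
  refine h1.trans (le_of_eq ?_)
  ring

end Vale.Agent.P154
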