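import Vale.Agent.P154.AEnc1
import Vale.Agent.P154.AChr

/-! TASK AEnc2: Taylor expansion of one monomial.
Plan. All `1 + x i` are positive, so `mon s (1 + x) = re (e 0 * e 1 * e 2)` with
`e i = exp (sx s i * log (1 + x i))` (`Real.rpow_def_of_pos`, `Complex.exp_re`). Write
`e i = ∑ k ∈ range 20, c i k` with `c i k = bn (sx s i) k * x i ^ k` for `k < 19` and `c i 19` the
remainder of `bin_tail`; then `‖c i k‖ ≤ m i k * t ^ k` with `m i k = zb s i k / 2^60` for `k < 19`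
and `m i 19 = 2 * zb s i 19 / 2^60` (`zb_ge`). Expand the product as a sum over triples in
`range 20`; the triples with `i + j + l ≤ 18` give `T18` (reindex: a general lemma
`∑ n < 19, ∑ i ≤ n, ∑ j ≤ n - i, F i j (n - i - j) = ∑ i < 20, ∑ j < 20, ∑ l < 20, if i + j + l ≤ 18
then F i j l else 0`); for the others the norm is at most `m 0 i * m 1 j * m 2 l * t ^ 19`. The sum
of these products of the integers (`zb`, doubled at `19`) is at most `zN.at s * 2^140`: Boolean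
check with `sumN`, `allLt` and `decide +kernel` (better: product of the three sums minus the sum
over `i + j + l ≤ 18`). -/

namespace Vale.Agent.P154

open Finset

noncomputable def tco (s i j l : ℕ) : ℝ := (bn (sx s 0) i * bn (sx s 1) j * bn (sx s 2) l).re
noncomputable def T18 (s : ℕ) (x : Fin 3 → ℝ) : ℝ :=
  ∑ n ∈ range 19, ∑ i ∈ range (n + 1), ∑ j ∈ range (n + 1 - i),
    tco s i j (n - i - j) * (x 0 ^ i * x 1 ^ j * x 2 ^ (n - i - j))

theorem reidx_AEnc2 {M : Type} [AddCommMonoid M] (F : ℕ → ℕ → ℕ → M) :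
    ∑ n ∈ range 19, ∑ i ∈ range (n + 1), ∑ j ∈ range (n + 1 - i), F i j (n - i - j) =
      ∑ i ∈ range 20, ∑ j ∈ range 20, ∑ l ∈ range 20, if i + j + l ≤ 18 then F i j l else 0 := by
  have h1 : ∀ i j l, (if i + j + l ≤ 18 then F i j l else 0) =
      ∑ n ∈ range 19, if i + j + l = n then F i j l else 0 := fun i j l => by
    rw [sum_ite_eq]
    exact if_congr (by rw [mem_range]; omega) rfl rfl
  simp only [h1, sum_comm (s := range 20) (t := range 19)]
  refine sum_congr rfl fun n hn => ?_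
  rw [mem_range] at hn
  have h2 : ∀ i j, (∑ l ∈ range 20, if i + j + l = n then F i j l else 0) =
      if i + j ≤ n then F i j (n - i - j) else 0 := fun i j => by
    split_ifs with h
    · rw [sum_eq_single (n - i - j) (fun l _ hl => if_neg (by omega))
        (fun hl => absurd (mem_range.2 (by omega)) hl), if_pos (by omega)]
    · exact sum_eq_zero fun l _ => if_neg (by omega)
  have h3 : ∀ i, (∑ j ∈ range 20, if i + j ≤ n then F i j (n - i - j) else 0) =
      ∑ j ∈ range (n + 1 - i), F i j (n - i - j) := fun i => by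
    rw [← sum_filter]
    refine sum_congr ?_ fun _ _ => rfl
    ext j
    simp only [mem_filter, mem_range]
    omega
  simp only [h2, h3]
  refine sum_subset (range_subset_range.2 (by omega)) fun i _ hi => ?_
  rw [mem_range] at hi
  rw [show n + 1 - i = 0 by omega, sum_range_zero]

noncomputable def zm_AEnc2 (s i k : ℕ) : ℕ := Nat.mul (zb s i k) (Nat.succ (Nat.div k 19))

theorem chk_AEnc2 : (allLt 8 fun s => Nat.ble (sumN 20 fun i => Nat.mul (zm_AEnc2 s 0 i)
    (sumN 20 fun j => Nat.mul (zm_AEnc2 s 1 j) (sumN 20 fun l =>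
      Bool.rec (motive := fun _ => ℕ) (zm_AEnc2 s 2 l) 0 (Nat.ble (Nat.add (Nat.add i j) l) 18))))
        (Nat.mul (zN.at s) (Nat.pow 2 140))) = true := by
  decide +kernel

theorem sum_AEnc2 {s : ℕ} (hs : s < 8) :
    (∑ i ∈ range 20, ∑ j ∈ range 20, ∑ l ∈ range 20, if i + j + l ≤ 18 then 0 else
      zm_AEnc2 s 0 i * zm_AEnc2 s 1 j * zm_AEnc2 s 2 l) ≤ zN.at s * 2 ^ 140 := by
  have h := (allLt_iff _ _).1 chk_AEnc2 s hs
  simp only [Nat.ble_eq, sumN_eq, rec_ite, Nat.mul_eq, Nat.add_eq, Nat.pow_eq, mul_sum, mul_ite,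
    mul_zero, ← mul_assoc] at h
  exact h

/-- the terms of one factor, the last one is the remainder -/
noncomputable def cf_AEnc2 (z : ℂ) (x : ℝ) (k : ℕ) : ℂ :=
  if k < 19 then bn z k * (x : ℂ) ^ k else
    Complex.exp (z * (Real.log (1 + x) : ℝ)) - ∑ k ∈ range 19, bn z k * (x : ℂ) ^ k

theorem cf_sum_AEnc2 (z : ℂ) (x : ℝ) :
    ∑ k ∈ range 20, cf_AEnc2 z x k = Complex.exp (z * (Real.log (1 + x) : ℝ)) := by
  have h : ∑ k ∈ range 19, cf_AEnc2 z x k = ∑ k ∈ range 19, bn z k * (x : ℂ) ^ k :=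
    sum_congr rfl fun k hk => if_pos (mem_range.1 hk)
  rw [sum_range_succ, h, cf_AEnc2, if_neg (lt_irrefl _), add_sub_cancel]

theorem cf_le_AEnc2 {s : ℕ} (hs : s < 8) (i : Fin 3) {x t : ℝ} (h1 : t ≤ 1) (hx : |x| ≤ t / 2)
    {k : ℕ} (hk : k < 20) :
    ‖cf_AEnc2 (sx s i) x k‖ ≤ (zm_AEnc2 s i k : ℝ) / 2 ^ 60 * t ^ k := by
  have h0 : 0 ≤ t := by linarith [abs_nonneg x]
  have h2 : ‖bn (sx s i) k‖ * |x| ^ k ≤ (zb s i k : ℝ) / 2 ^ 60 * t ^ k :=
    calc ‖bn (sx s i) k‖ * |x| ^ k ≤ ‖bn (sx s i) k‖ * (t / 2) ^ k := by gcongr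
      _ = ‖bn (sx s i) k‖ / 2 ^ k * t ^ k := by rw [div_pow]; ring
      _ ≤ _ := mul_le_mul_of_nonneg_right (zb_ge hs i hk) (pow_nonneg h0 k)
  have e : zm_AEnc2 s i k = zb s i k * (k / 19 + 1) := rfl
  rw [e, cf_AEnc2]
  split_ifs with h
  · rw [Nat.div_eq_of_lt h, zero_add, mul_one, norm_mul, norm_pow, Complex.norm_real,
      Real.norm_eq_abs]
    exact h2
  · obtain rfl : k = 19 := by omega
    refine (bin_tail (norm_sx_le s i) (hx.trans (by linarith))).trans ?_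
    push_cast
    linarith

theorem mon_eq_AEnc2 (s : ℕ) {f : Fin 3 → ℝ} (hf : ∀ i, 0 < f i) :
    mon s f = (Complex.exp (sx s 0 * (Real.log (f 0) : ℝ)) *
      Complex.exp (sx s 1 * (Real.log (f 1) : ℝ)) *
        Complex.exp (sx s 2 * (Real.log (f 2) : ℝ))).re := by
  rw [← Complex.exp_add, ← Complex.exp_add, Complex.exp_re, mon, mon0]
  simp only [Fin.prod_univ_three, Fin.sum_univ_three, Real.rpow_def_of_pos (hf _), ← Real.exp_add,
    sx, Complex.add_re, Complex.add_im, Complex.mul_re, Complex.mul_im, Complex.ofReal_re,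
    Complex.ofReal_im, Complex.I_re, Complex.I_im]
  congr 2 <;> ring

theorem mon_tail {s : ℕ} (hs : s < 8) {x : Fin 3 → ℝ} {t : ℝ} (h0 : 0 ≤ t) (h1 : t ≤ 1)
    (hx : ∀ i, |x i| ≤ t / 2) : |mon s (fun i => 1 + x i) - T18 s x| ≤ zNr s * t ^ 19 := by
  have hf : ∀ i, 0 < 1 + x i := fun i => by linarith [(abs_le.1 (hx i)).1]
  have e1 : T18 s x = (∑ i ∈ range 20, ∑ j ∈ range 20, ∑ l ∈ range 20, if i + j + l ≤ 18 then
      cf_AEnc2 (sx s 0) (x 0) i * cf_AEnc2 (sx s 1) (x 1) j * cf_AEnc2 (sx s 2) (x 2) l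
        else 0).re := by
    rw [T18, reidx_AEnc2 fun i j l => tco s i j l * (x 0 ^ i * x 1 ^ j * x 2 ^ l)]
    simp only [Complex.re_sum]
    refine sum_congr rfl fun i _ => sum_congr rfl fun j _ => sum_congr rfl fun l _ => ?_
    split_ifs with h
    · rw [cf_AEnc2, cf_AEnc2, cf_AEnc2, if_pos (by omega), if_pos (by omega), if_pos (by omega),
        tco, ← Complex.re_mul_ofReal]
      congr 1
      push_cast
      ring
    · rfl
  rw [mon_eq_AEnc2 s hf, e1, ← cf_sum_AEnc2, ← cf_sum_AEnc2, ← cf_sum_AEnc2, sum_mul_sum, sum_mul,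
    ← Complex.sub_re]
  refine (Complex.abs_re_le_norm _).trans ?_
  have h2 : zNr s * t ^ 19 = ((zN.at s * 2 ^ 140 : ℕ) : ℝ) * (t ^ 19 / 2 ^ 180) := by
    rw [zNr, V8.r, Nat.cast_mul, Nat.cast_pow, Nat.cast_ofNat]
    ring
  rw [h2]
  refine le_trans ?_ (mul_le_mul_of_nonneg_right (Nat.cast_le.2 (sum_AEnc2 hs)) (by positivity))
  rw [← sum_sub_distrib, Nat.cast_sum, sum_mul]
  refine norm_sum_le_of_le _ fun i hi => ?_
  rw [sum_mul, ← sum_sub_distrib, Nat.cast_sum, sum_mul]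
  refine norm_sum_le_of_le _ fun j hj => ?_
  rw [mul_sum, ← sum_sub_distrib, Nat.cast_sum, sum_mul]
  refine norm_sum_le_of_le _ fun l hl => ?_
  split_ifs with h
  · simp
  · rw [sub_zero, norm_mul, norm_mul]
    have a0 := cf_le_AEnc2 hs 0 h1 (hx 0) (mem_range.1 hi)
    have a1 := cf_le_AEnc2 hs 1 h1 (hx 1) (mem_range.1 hj)
    have a2 := cf_le_AEnc2 hs 2 h1 (hx 2) (mem_range.1 hl)
    have a3 : t ^ (i + j + l) ≤ t ^ 19 := pow_le_pow_of_le_one h0 h1 (by omega)
    refine (mul_le_mul (mul_le_mul a0 a1 (norm_nonneg _) (by positivity)) a2 (norm_nonneg _)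
      (by positivity)).trans ?_
    calc _ = ((zm_AEnc2 s 0 i * zm_AEnc2 s 1 j * zm_AEnc2 s 2 l : ℕ) : ℝ) *
          (t ^ (i + j + l) / 2 ^ 180) := by
          rw [Nat.cast_mul, Nat.cast_mul, pow_add, pow_add]
          simp only [Fin.val_zero, Fin.val_one, Fin.val_two]
          ring
      _ ≤ _ := by gcongr

end Vale.Agent.P154
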