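import Vale.Agent.P154.AEnc2

/-! TASK AEnc3: the symmetrised Taylor polynomial and the table `zT`.
Plan. Power sums `ps k = x 0 ^ k + x 1 ^ k + x 2 ^ k = r ^ k * piR τ k`, where `piR τ` is `3, 0, 6` and
`piR (k+3) = 3 * piR (k+1) + 2 * τ * piR k` (each `x i` is a root of `X^3 - 3 r^2 X - 2 r^3 τ`).
`∑ π, x (π 0)^i * x (π 1)^j * x (π 2)^l = ps i * ps j * ps l - ps (i+j) * ps l - ps (i+l) * ps j -
ps (j+l) * ps i + 2 * ps (i+j+l)` (`sum_perm3`, `pow_add`, `ring`). So the part of degree `n` is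
`r^n / 6 * ∑ tco * S i j l τ`, and one has to check `∑ tco * S / 6 = 4^n * zp s n τ`. By `bn_eq`,
`tco s i j l * (6^n * 18!) = w` is the integer `re (g0 * g1 * g2) * (18! / (i! j! l!))`, and
`zD = 6 * 24^18 * 18!`; the identity is `24^(18-n) * ∑ w * S = ∑ j < 7, zc s n j * τ^j`. Check it with
the kernel: build both sides as `Ex` in the variable `v 0` with `τ = v 0 - 1` (`piE k : Ex` by
`Nat.rec` on a triple; sums by `Nat.rec`), and check `posChk W [19] e` and `posChk W [19] (-e)` for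
the difference `e` (`W = 400` should do; `posChk_sound` with `x 0 = τ + 1 ≥ 0`); one theorem
`by decide +kernel` for each `s` (keep each below 20 seconds; avoid powers of two as factors of
all coefficients, literals whose low 64 bits vanish collide in the kernel caches). `enc`:
average `mon_tail` over the permutations, `t = |4 * r|`. -/

namespace Vale.Agent.P154

open Finset

/-! polynomials in one variable as lists of integers -/

noncomputable def pA_AEnc3 (a : List ℤ) : List ℤ → List ℤ :=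
  List.rec (motive := fun _ => List ℤ → List ℤ) (fun b => b)
    (fun x l r b => List.rec (motive := fun _ => List ℤ) (x :: l)
      (fun y m _ => Int.add x y :: r m) b) a
noncomputable def pS_AEnc3 (c : ℤ) (a : List ℤ) : List ℤ :=
  List.rec (motive := fun _ => List ℤ) [] (fun x _ r => Int.mul c x :: r) a
noncomputable def pM_AEnc3 (a b : List ℤ) : List ℤ :=
  List.rec (motive := fun _ => List ℤ) [] (fun x _ r => pA_AEnc3 (pS_AEnc3 x b) (0 :: r)) a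
noncomputable def pZ_AEnc3 (a : List ℤ) : Bool :=
  List.rec (motive := fun _ => Bool) true
    (fun x _ r => Bool.rec false r (Nat.beq (Int.natAbs x) 0)) a
noncomputable def pSum_AEnc3 (n : ℕ) (f : ℕ → List ℤ) : List ℤ :=
  Nat.rec (motive := fun _ => List ℤ) [] (fun k r => pA_AEnc3 (f k) r) n
noncomputable def frc_AEnc3 (n : ℕ) (k : ℕ → List ℤ) : List ℤ :=
  Nat.rec (motive := fun _ => List ℤ) (k 0) (fun m _ => k (Nat.succ m)) n

theorem frc_eq_AEnc3 (n : ℕ) (k : ℕ → List ℤ) : frc_AEnc3 n k = k n := by cases n <;> rfl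

theorem hA_AEnc3 (τ : ℝ) (a b : List ℤ) :
    Ex.horR τ (pA_AEnc3 a b) = Ex.horR τ a + Ex.horR τ b := by
  induction a generalizing b with
  | nil => change Ex.horR τ b = _; simp [Ex.horR]
  | cons x l ih =>
    cases b with
    | nil => change Ex.horR τ (x :: l) = _; simp [Ex.horR]
    | cons y m =>
      change Ex.horR τ ((x + y) :: pA_AEnc3 l m) = _
      simp only [Ex.horR, ih]
      push_cast
      ring

theorem hS_AEnc3 (τ : ℝ) (c : ℤ) (a : List ℤ) :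
    Ex.horR τ (pS_AEnc3 c a) = c * Ex.horR τ a := by
  induction a with
  | nil => change Ex.horR τ [] = _; simp [Ex.horR]
  | cons x l ih =>
    change Ex.horR τ ((c * x) :: pS_AEnc3 c l) = _
    simp only [Ex.horR, ih]
    push_cast
    ring

theorem hM_AEnc3 (τ : ℝ) (a b : List ℤ) :
    Ex.horR τ (pM_AEnc3 a b) = Ex.horR τ a * Ex.horR τ b := by
  induction a with
  | nil => change Ex.horR τ [] = _; simp [Ex.horR]
  | cons x l ih =>
    change Ex.horR τ (pA_AEnc3 (pS_AEnc3 x b) (0 :: pM_AEnc3 l b)) = _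
    simp only [hA_AEnc3, hS_AEnc3, Ex.horR, ih]
    push_cast
    ring

theorem hZ_AEnc3 (τ : ℝ) (a : List ℤ) (h : pZ_AEnc3 a = true) : Ex.horR τ a = 0 := by
  induction a with
  | nil => rfl
  | cons x l ih =>
    have e : pZ_AEnc3 (x :: l) = Bool.rec false (pZ_AEnc3 l) (Nat.beq (Int.natAbs x) 0) := rfl
    rw [e, rec_ite] at h
    split_ifs at h with h1
    have h2 : x = 0 := Int.natAbs_eq_zero.1 (Nat.eq_of_beq_eq_true h1)
    simp [Ex.horR, ih h, h2]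

theorem hSum_AEnc3 (τ : ℝ) (n : ℕ) (f : ℕ → List ℤ) :
    Ex.horR τ (pSum_AEnc3 n f) = ∑ k ∈ range n, Ex.horR τ (f k) := by
  induction n with
  | zero => rfl
  | succ n ih =>
    change Ex.horR τ (pA_AEnc3 (f n) (pSum_AEnc3 n f)) = _
    rw [hA_AEnc3, ih, sum_range_succ, add_comm]

noncomputable def pi3_AEnc3 (k : ℕ) : List ℤ × List ℤ × List ℤ :=
  Nat.rec (motive := fun _ => List ℤ × List ℤ × List ℤ) ([3], [0], [6])
    (fun _ t => (t.2.1, t.2.2, pA_AEnc3 (pS_AEnc3 3 t.2.1) (0 :: pS_AEnc3 2 t.1))) k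
noncomputable def piL_AEnc3 (k : ℕ) : List ℤ := (pi3_AEnc3 k).1

theorem ps_AEnc3 {x : Fin 3 → ℝ} {r τ : ℝ} (h : Par x r τ) (k : ℕ) :
    x 0 ^ k + x 1 ^ k + x 2 ^ k = r ^ k * Ex.horR τ (piL_AEnc3 k) := by
  obtain ⟨h1, h2, h3, -⟩ := h
  have c0 : x 0 ^ 3 = 3 * r ^ 2 * x 0 + 2 * r ^ 3 * τ := by
    linear_combination x 0 ^ 2 * h1 - x 0 * h2 + h3
  have c1 : x 1 ^ 3 = 3 * r ^ 2 * x 1 + 2 * r ^ 3 * τ := by
    linear_combination x 1 ^ 2 * h1 - x 1 * h2 + h3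
  have c2 : x 2 ^ 3 = 3 * r ^ 2 * x 2 + 2 * r ^ 3 * τ := by
    linear_combination x 2 ^ 2 * h1 - x 2 * h2 + h3
  induction k using Nat.strong_induction_on with
  | _ k ih =>
    match k, ih with
    | 0, _ =>
      change _ = r ^ 0 * Ex.horR τ [3]
      simp [Ex.horR]
      norm_num
    | 1, _ =>
      change _ = r ^ 1 * Ex.horR τ [0]
      simp [Ex.horR, h1]
    | 2, _ =>
      change _ = r ^ 2 * Ex.horR τ [6]
      simp only [Ex.horR]
      push_cast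
      linear_combination (x 0 + x 1 + x 2) * h1 - 2 * h2
    | k + 3, ih =>
      have e : piL_AEnc3 (k + 3) =
          pA_AEnc3 (pS_AEnc3 3 (piL_AEnc3 (k + 1))) (0 :: pS_AEnc3 2 (piL_AEnc3 k)) := rfl
      have i1 := ih (k + 1) (by omega)
      have i0 := ih k (by omega)
      rw [e, hA_AEnc3, hS_AEnc3]
      simp only [Ex.horR, hS_AEnc3]
      push_cast
      linear_combination x 0 ^ k * c0 + x 1 ^ k * c1 + x 2 ^ k * c2 + 3 * r ^ 2 * i1 +
        2 * r ^ 3 * τ * i0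

noncomputable def sL_AEnc3 (i j l : ℕ) : List ℤ :=
  frc_AEnc3 (Nat.add i j) fun a => frc_AEnc3 (Nat.add i l) fun b => frc_AEnc3 (Nat.add j l) fun c =>
    frc_AEnc3 (Nat.add a l) fun n =>
      pA_AEnc3 (pA_AEnc3 (pM_AEnc3 (pA_AEnc3 (pM_AEnc3 (piL_AEnc3 i) (piL_AEnc3 j))
          (pS_AEnc3 (-1) (piL_AEnc3 a))) (piL_AEnc3 l)) (pS_AEnc3 2 (piL_AEnc3 n)))
        (pS_AEnc3 (-1) (pA_AEnc3 (pM_AEnc3 (piL_AEnc3 b) (piL_AEnc3 j))
          (pM_AEnc3 (piL_AEnc3 c) (piL_AEnc3 i))))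

theorem perm_AEnc3 {x : Fin 3 → ℝ} {r τ : ℝ} (h : Par x r τ) (i j l : ℕ) :
    ∑ π : Equiv.Perm (Fin 3), x (π 0) ^ i * x (π 1) ^ j * x (π 2) ^ l =
      r ^ (i + j + l) * Ex.horR τ (sL_AEnc3 i j l) := by
  rw [sum_perm3 fun a b c => x a ^ i * x b ^ j * x c ^ l]
  simp only [sL_AEnc3, frc_eq_AEnc3, hA_AEnc3, hS_AEnc3, hM_AEnc3, Nat.add_eq]
  have a1 := ps_AEnc3 h i
  have a2 := ps_AEnc3 h j
  have a3 := ps_AEnc3 h l
  have a4 := ps_AEnc3 h (i + j)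
  have a5 := ps_AEnc3 h (i + l)
  have a6 := ps_AEnc3 h (j + l)
  have a7 := ps_AEnc3 h (i + j + l)
  have key : ∀ A B C D E F G : ℝ, r ^ (i + j + l) *
      ((A * B + ((-1 : ℤ) : ℝ) * D) * C + ((2 : ℤ) : ℝ) * G + ((-1 : ℤ) : ℝ) * (E * B + F * A)) =
      (r ^ i * A * (r ^ j * B) - r ^ (i + j) * D) * (r ^ l * C) + 2 * (r ^ (i + j + l) * G) -
        (r ^ (i + l) * E * (r ^ j * B) + r ^ (j + l) * F * (r ^ i * A)) := by
    intro A B C D E F G
    push_cast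
    ring
  rw [key, ← a1, ← a2, ← a3, ← a4, ← a5, ← a6, ← a7]
  ring

noncomputable def fq_AEnc3 (k : ℕ) : ℕ := Nat.div (Nat.factorial 18) (Nat.factorial k)
noncomputable def re3_AEnc3 (a b c : ℤ × ℤ) : ℤ :=
  Int.sub (Int.mul (Int.sub (Int.mul a.1 b.1) (Int.mul a.2 b.2)) c.1)
    (Int.mul (Int.add (Int.mul a.1 b.2) (Int.mul a.2 b.1)) c.2)
noncomputable def wI_AEnc3 (s i j l : ℕ) : ℤ :=
  Int.mul (re3_AEnc3 (gb (sg s 0) (tz s 0) i) (gb (sg s 1) (tz s 1) j) (gb (sg s 2) (tz s 2) l))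
    (Int.ofNat (Nat.mul (Nat.mul (fq_AEnc3 i) (fq_AEnc3 j)) (fq_AEnc3 l)))

theorem fq_cast_AEnc3 {k : ℕ} (hk : k ≤ 18) :
    (fq_AEnc3 k : ℝ) = (Nat.factorial 18 : ℝ) / (Nat.factorial k : ℝ) :=
  Nat.cast_div (Nat.factorial_dvd_factorial hk) (Nat.cast_ne_zero.2 (Nat.factorial_ne_zero k))

theorem tco_AEnc3 (s : ℕ) {i j l : ℕ} (hi : i ≤ 18) (hj : j ≤ 18) (hl : l ≤ 18) :
    tco s i j l = (wI_AEnc3 s i j l : ℝ) / (6 ^ (i + j + l) * (Nat.factorial 18 : ℝ) ^ 3) := by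
  have e : (wI_AEnc3 s i j l : ℝ) = (re3_AEnc3 (gb (sg s 0) (tz s 0) i) (gb (sg s 1) (tz s 1) j)
      (gb (sg s 2) (tz s 2) l) : ℝ) * ((fq_AEnc3 i : ℝ) * fq_AEnc3 j * fq_AEnc3 l) := by
    change (((_ * ((fq_AEnc3 i * fq_AEnc3 j * fq_AEnc3 l : ℕ) : ℤ) : ℤ)) : ℝ) = _
    push_cast
    rfl
  rw [e, fq_cast_AEnc3 hi, fq_cast_AEnc3 hj, fq_cast_AEnc3 hl, tco, bn_eq, bn_eq, bn_eq]
  generalize gb (sg s 0) (tz s 0) i = a
  generalize gb (sg s 1) (tz s 1) j = b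
  generalize gb (sg s 2) (tz s 2) l = c
  have e2 : (re3_AEnc3 a b c : ℝ) = ((a.1 : ℝ) * b.1 - a.2 * b.2) * c.1 -
      ((a.1 : ℝ) * b.2 + a.2 * b.1) * c.2 := by
    change (((a.1 * b.1 - a.2 * b.2) * c.1 - (a.1 * b.2 + a.2 * b.1) * c.2 : ℤ) : ℝ) = _
    push_cast
    rfl
  rw [e2, div_mul_div_comm, div_mul_div_comm]
  have e3 : (6 : ℂ) ^ i * (i.factorial : ℂ) * (6 ^ j * (j.factorial : ℂ)) *
      (6 ^ l * (l.factorial : ℂ)) = ((6 ^ i * (i.factorial : ℝ) * (6 ^ j * (j.factorial : ℝ)) *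
      (6 ^ l * (l.factorial : ℝ)) : ℝ) : ℂ) := by
    push_cast
    rfl
  rw [e3, Complex.div_ofReal_re]
  have f1 : (i.factorial : ℝ) ≠ 0 := Nat.cast_ne_zero.2 (Nat.factorial_ne_zero i)
  have f2 : (j.factorial : ℝ) ≠ 0 := Nat.cast_ne_zero.2 (Nat.factorial_ne_zero j)
  have f3 : (l.factorial : ℝ) ≠ 0 := Nat.cast_ne_zero.2 (Nat.factorial_ne_zero l)
  have f4 : (Nat.factorial 18 : ℝ) ≠ 0 := Nat.cast_ne_zero.2 (Nat.factorial_ne_zero 18)
  generalize (Nat.factorial 18 : ℝ) = F at f4 ⊢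
  simp only [Complex.mul_re, Complex.mul_im, Complex.add_re, Complex.add_im, Complex.intCast_re,
    Complex.intCast_im, Complex.I_re, Complex.I_im, mul_zero, mul_one, sub_zero, add_zero,
    zero_add]
  field_simp
  ring

noncomputable def lhs_AEnc3 (s n : ℕ) : List ℤ :=
  pSum_AEnc3 (Nat.succ n) fun i => pSum_AEnc3 (Nat.sub (Nat.succ n) i) fun j =>
    frc_AEnc3 (Nat.sub (Nat.sub n i) j) fun l => pS_AEnc3 (wI_AEnc3 s i j l) (sL_AEnc3 i j l)
noncomputable def chk_AEnc3 (s : ℕ) : Bool :=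
  allLt 19 fun n => pZ_AEnc3 (pA_AEnc3
    (pS_AEnc3 (Int.ofNat (Nat.pow 24 (Nat.sub 18 n))) (lhs_AEnc3 s n))
    (pS_AEnc3 (Int.neg (Int.ofNat (Nat.mul (Nat.factorial 18) (Nat.factorial 18))))
      [zc s n 0, zc s n 1, zc s n 2, zc s n 3, zc s n 4, zc s n 5, zc s n 6]))

theorem chk0_AEnc3 : chk_AEnc3 0 = true := by decide +kernel
theorem chk1_AEnc3 : chk_AEnc3 1 = true := by decide +kernel
theorem chk2_AEnc3 : chk_AEnc3 2 = true := by decide +kernel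
theorem chk3_AEnc3 : chk_AEnc3 3 = true := by decide +kernel
theorem chk4_AEnc3 : chk_AEnc3 4 = true := by decide +kernel
theorem chk5_AEnc3 : chk_AEnc3 5 = true := by decide +kernel
theorem chk6_AEnc3 : chk_AEnc3 6 = true := by decide +kernel
theorem chk7_AEnc3 : chk_AEnc3 7 = true := by decide +kernel

theorem chk_all_AEnc3 {s : ℕ} (hs : s < 8) : chk_AEnc3 s = true := by
  interval_cases s
  exacts [chk0_AEnc3, chk1_AEnc3, chk2_AEnc3, chk3_AEnc3, chk4_AEnc3, chk5_AEnc3, chk6_AEnc3,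
    chk7_AEnc3]

theorem zD_AEnc3 : (zD : ℝ) = 6 * 24 ^ 18 * (Nat.factorial 18 : ℝ) := by
  have : zD = 6 * 24 ^ 18 * Nat.factorial 18 := by decide +kernel
  rw [this, Nat.cast_mul, Nat.cast_mul, Nat.cast_pow, Nat.cast_ofNat, Nat.cast_ofNat]

theorem deg_AEnc3 {s n : ℕ} (hs : s < 8) (hn : n < 19) (τ : ℝ) :
    ∑ i ∈ range (n + 1), ∑ j ∈ range (n + 1 - i),
      tco s i j (n - i - j) * Ex.horR τ (sL_AEnc3 i j (n - i - j)) = 6 * 4 ^ n * zp s n τ := by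
  have h1 := hZ_AEnc3 τ _ ((allLt_iff _ _).1 (chk_all_AEnc3 hs) n hn)
  rw [hA_AEnc3, hS_AEnc3, hS_AEnc3] at h1
  have e1 : ((Int.ofNat (Nat.pow 24 (Nat.sub 18 n)) : ℤ) : ℝ) = 24 ^ (18 - n) := by
    change (((24 ^ (18 - n) : ℕ) : ℤ) : ℝ) = _
    push_cast
    rfl
  have e2 : ((Int.neg (Int.ofNat (Nat.mul (Nat.factorial 18) (Nat.factorial 18))) : ℤ) : ℝ) =
      -((Nat.factorial 18 : ℝ) * (Nat.factorial 18 : ℝ)) := by
    change ((-((Nat.factorial 18 * Nat.factorial 18 : ℕ) : ℤ) : ℤ) : ℝ) = _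
    rw [Int.cast_neg, Int.cast_natCast, Nat.cast_mul]
  have e3 : Ex.horR τ [zc s n 0, zc s n 1, zc s n 2, zc s n 3, zc s n 4, zc s n 5, zc s n 6] =
      zD * zp s n τ := by
    have hD : (zD : ℝ) ≠ 0 := by
      rw [zD_AEnc3]
      have : (Nat.factorial 18 : ℝ) ≠ 0 := Nat.cast_ne_zero.2 (Nat.factorial_ne_zero 18)
      positivity
    simp only [Ex.horR, zp, zq, sum_range_succ, sum_range_zero]
    generalize (zD : ℝ) = D at hD ⊢
    field_simp
    ring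
  have e4 : Ex.horR τ (lhs_AEnc3 s n) = ∑ i ∈ range (n + 1), ∑ j ∈ range (n + 1 - i),
      (wI_AEnc3 s i j (n - i - j) : ℝ) * Ex.horR τ (sL_AEnc3 i j (n - i - j)) := by
    simp only [lhs_AEnc3, hSum_AEnc3, frc_eq_AEnc3, hS_AEnc3]
    rfl
  rw [e1, e2, e3, e4, zD_AEnc3] at h1
  have f4 : (Nat.factorial 18 : ℝ) ≠ 0 := Nat.cast_ne_zero.2 (Nat.factorial_ne_zero 18)
  have e5 : ∑ i ∈ range (n + 1), ∑ j ∈ range (n + 1 - i),
      tco s i j (n - i - j) * Ex.horR τ (sL_AEnc3 i j (n - i - j)) =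
      (∑ i ∈ range (n + 1), ∑ j ∈ range (n + 1 - i),
        (wI_AEnc3 s i j (n - i - j) : ℝ) * Ex.horR τ (sL_AEnc3 i j (n - i - j))) /
        (6 ^ n * (Nat.factorial 18 : ℝ) ^ 3) := by
    rw [sum_div]
    refine sum_congr rfl fun i hi => ?_
    rw [sum_div]
    refine sum_congr rfl fun j hj => ?_
    rw [mem_range] at hi hj
    rw [tco_AEnc3 s (by omega) (by omega) (by omega), show i + j + (n - i - j) = n by omega]
    ring
  rw [e5]
  generalize (∑ i ∈ range (n + 1), ∑ j ∈ range (n + 1 - i),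
    (wI_AEnc3 s i j (n - i - j) : ℝ) * Ex.horR τ (sL_AEnc3 i j (n - i - j))) = X at h1 ⊢
  generalize (Nat.factorial 18 : ℝ) = F at h1 f4 ⊢
  have e6 : (24 : ℝ) ^ 18 = 24 ^ (18 - n) * (6 ^ n * 4 ^ n) := by
    rw [← mul_pow, show (6 : ℝ) * 4 = 24 by norm_num, ← pow_add, show 18 - n + n = 18 by omega]
  rw [e6] at h1
  have f5 : (24 : ℝ) ^ (18 - n) ≠ 0 := by positivity
  rw [div_eq_iff (by positivity)]
  refine mul_left_cancel₀ f5 ?_
  linear_combination h1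

theorem T18_sym {s : ℕ} (hs : s < 8) {x : Fin 3 → ℝ} {r τ : ℝ} (h : Par x r τ) (hτ : |τ| ≤ 1) :
    pavg (fun π : Equiv.Perm (Fin 3) => T18 s (x ∘ π)) =
      ∑ k ∈ range 19, zp s k τ * (4 * r) ^ k := by
  rw [pavg3]
  simp only [T18, Function.comp_apply]
  rw [sum_comm, sum_div]
  refine sum_congr rfl fun n hn => ?_
  have e : ∑ π : Equiv.Perm (Fin 3), ∑ i ∈ range (n + 1), ∑ j ∈ range (n + 1 - i),
      tco s i j (n - i - j) * (x (π 0) ^ i * x (π 1) ^ j * x (π 2) ^ (n - i - j)) =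
      r ^ n * ∑ i ∈ range (n + 1), ∑ j ∈ range (n + 1 - i),
        tco s i j (n - i - j) * Ex.horR τ (sL_AEnc3 i j (n - i - j)) := by
    rw [sum_comm, mul_sum]
    refine sum_congr rfl fun i hi => ?_
    rw [sum_comm, mul_sum]
    refine sum_congr rfl fun j hj => ?_
    rw [mem_range] at hi hj
    rw [← mul_sum, perm_AEnc3 h, show i + j + (n - i - j) = n by omega]
    ring
  rw [e, deg_AEnc3 hs (mem_range.1 hn), mul_pow]
  ring

theorem enc {s : ℕ} (hs : s < 8) {x : Fin 3 → ℝ} {r τ : ℝ} (h : Par x r τ) (hτ : |τ| ≤ 1)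
    (hr : |4 * r| ≤ 1) : |chi s (fun i => 1 + x i) - ∑ k ∈ range 19, zp s k τ * (4 * r) ^ k| ≤
      zNr s * |4 * r| ^ 19 := by
  rw [← T18_sym hs h hτ, chi, pavg3, pavg3, ← sub_div, ← sum_sub_distrib, abs_div,
    abs_of_pos (by norm_num : (0 : ℝ) < 6), div_le_iff₀ (by norm_num)]
  refine (abs_sum_le_sum_abs _ _).trans ?_
  have hb : ∀ π : Equiv.Perm (Fin 3), |mon s ((fun i => 1 + x i) ∘ π) - T18 s (x ∘ π)| ≤
      zNr s * |4 * r| ^ 19 := fun π =>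
    mon_tail hs (x := x ∘ π) (abs_nonneg _) hr fun i => by
      have := h.2.2.2 (π i)
      rw [abs_mul, abs_of_pos (by norm_num : (0 : ℝ) < 4)]
      simp only [Function.comp_apply]
      linarith
  refine (sum_le_sum fun π _ => hb π).trans (le_of_eq ?_)
  rw [sum_const, card_univ, Fintype.card_perm, Fintype.card_fin, nsmul_eq_mul]
  norm_num [Nat.factorial]
  ring

end Vale.Agent.P154
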