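import Vale.Agent.P154.ACon

/-! TASK ASeg1: interpolation errors of the characters on segments and bilinear patches.
Plan. `seg_mon`: every `i` with `sg s i ≠ 0` lies in a pair with `wt ≠ 0`, so `mon_deriv` applies;
`dw θ u v i j ^ 2 = (u i * v j - u j * v i)^2 / (lc i * lc j)^2 ≤ V i j` for pairs with `wt ≠ 0`
(for the other pairs `sx s i * sx s j = 0` by `norm_sx`); `interp_abs` with `K = M * 8 * qf s V`.
`seg2`: work with one permutation `π` (`lc` commutes with `∘ π`; `SegOK (u ∘ π) (v ∘ π) V i j` is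
`SegOK u v V (π i) (π j)`), `M = mon0 s (hi ∘ π)` (`mon0_mono`; all convex combinations of the
corners are below `hi`). The trivial bound: all five values of `mon` lie in `[0, M]` for `s < 6`
and in `[-M, M]` otherwise, so `mon - I ≤ cap s * M` and for `s ≥ 6` also `I - mon ≤ cap s * M`.
If a pair with `wt ≠ 0` has `1024 ≤ V1 + V2` then `cap s ≤ qf` and we are done; otherwise use
`seg_mon` once in `α` and twice in `β`, `qf s (V1 + V2) = qf s V1 + qf s V2`. The lower bound for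
`s < 6` is `conc_real` (three times). `seg1`: `seg2` with `g01 = g00`, `g11 = g10`, `V2 = 0`. -/

namespace Vale.Agent.P154

theorem as1_wt (s : ℕ) : wt s 0 1 ≠ 0 ∧ (sg s 2 ≠ 0 → wt s 0 2 ≠ 0) := by
  match s with
  | 0 | 1 | 2 | 3 | 4 | 5 | 6 => decide
  | n + 7 => exact ⟨by simp [wt, show ¬n + 7 < 6 by omega], fun h => absurd rfl h⟩

theorem as1_dw {u v : Fin 3 → ℝ} {V θ : ℝ} {i j : Fin 3} (h : SegOK u v V i j) (a : 0 ≤ θ)
    (b : θ ≤ 1) : dw θ u v i j ^ 2 ≤ V := by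
  obtain ⟨h1, h2, h3⟩ := h θ a b
  rw [dw, div_sub_div _ _ h1.ne' h2.ne', div_pow, div_le_iff₀ (by positivity)]
  refine le_of_eq_of_le ?_ h3
  unfold lc
  ring

theorem as1_term {z : ℂ} {w : ℕ} {d V : ℝ} (hz : 36 * ‖z‖ ≤ w)
    (h : w ≠ 0 → d ^ 2 ≤ V) : ‖z * (d ^ 2 : ℝ)‖ ≤ w * V / 36 := by
  rw [norm_mul, Complex.norm_real, Real.norm_of_nonneg (sq_nonneg d)]
  rcases eq_or_ne w 0 with rfl | hw
  · have := norm_nonneg z
    rw [show ‖z‖ = 0 by push_cast at hz; linarith]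
    simp
  · have := mul_le_mul hz (h hw) (sq_nonneg d) (Nat.cast_nonneg w)
    linarith

theorem seg_mon (s : ℕ) {u v : Fin 3 → ℝ} {V : Fin 3 → Fin 3 → ℝ} {M : ℝ}
    (hV : ∀ i j, 0 ≤ V i j) (H : ∀ i j, i < j → wt s i j ≠ 0 → SegOK u v (V i j) i j)
    (hM : ∀ θ, 0 ≤ θ → θ ≤ 1 → mon0 s (lc θ u v) ≤ M) {θ : ℝ} (a : 0 ≤ θ) (b : θ ≤ 1) :
    |mon s (lc θ u v) - ((1 - θ) * mon s u + θ * mon s v)| ≤ M * qf s V := by
  obtain ⟨G, g1, hG⟩ := mon_deriv s (u := u) (v := v) fun θ a b i hi => by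
    have h := H 0 1 (by decide) (as1_wt s).1 θ a b
    fin_cases i
    exacts [h.1, h.2.1, (H 0 2 (by decide) ((as1_wt s).2 hi) θ a b).2.1]
  have h := interp_abs (K := M * (8 * qf s V)) (fun θ a b => (hG θ a b).2.2.1)
    (fun θ a b => (hG θ a b).2.2.2) (fun θ a b => by
      rw [abs_neg]
      refine (Complex.abs_re_le_norm _).trans ?_
      rw [norm_mul, (hG θ a b).2.1]
      have h1 := as1_term (norm_sx s).1 fun h => as1_dw (H 0 1 (by decide) h) a b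
      have h2 := as1_term (norm_sx s).2.1 fun h => as1_dw (H 0 2 (by decide) h) a b
      have h3 := as1_term (norm_sx s).2.2 fun h => as1_dw (H 1 2 (by decide) h) a b
      have h4 := hM θ a b
      refine mul_le_mul h4 (norm_add₃_le.trans ?_) (norm_nonneg _)
        (le_trans ((hG θ a b).2.1 ▸ norm_nonneg _) h4)
      unfold qf
      linarith) a b
  rw [← (hG θ a b).1, ← (hG 0 le_rfl zero_le_one).1, ← (hG 1 zero_le_one le_rfl).1,
    show lc 0 u v = u from funext fun i => by simp [lc],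
    show lc 1 u v = v from funext fun i => by simp [lc]] at h
  linarith

theorem as1_lc {u v hi : Fin 3 → ℝ} (hu : ∀ i, 0 ≤ u i ∧ u i ≤ hi i)
    (hv : ∀ i, 0 ≤ v i ∧ v i ≤ hi i) {θ : ℝ} (a : 0 ≤ θ) (b : θ ≤ 1) (i : Fin 3) :
    0 ≤ lc θ u v i ∧ lc θ u v i ≤ hi i := by
  have h1 := mul_le_mul_of_nonneg_left (hu i).2 (sub_nonneg.2 b)
  have h2 := mul_le_mul_of_nonneg_left (hv i).2 a
  exact ⟨add_nonneg (mul_nonneg (sub_nonneg.2 b) (hu i).1) (mul_nonneg a (hv i).1),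
    by unfold lc; linarith⟩

theorem as1_cc {x y L U θ : ℝ} (hx : L ≤ x ∧ x ≤ U) (hy : L ≤ y ∧ y ≤ U) (a : 0 ≤ θ) (b : θ ≤ 1) :
    L ≤ (1 - θ) * x + θ * y ∧ (1 - θ) * x + θ * y ≤ U := by
  have h1 := mul_le_mul_of_nonneg_left hx.1 (sub_nonneg.2 b)
  have h2 := mul_le_mul_of_nonneg_left hy.1 a
  have h3 := mul_le_mul_of_nonneg_left hx.2 (sub_nonneg.2 b)
  have h4 := mul_le_mul_of_nonneg_left hy.2 a
  exact ⟨by linarith, by linarith⟩

theorem as1_qf (s : ℕ) {V : Fin 3 → Fin 3 → ℝ} (hV : ∀ i j, 0 ≤ V i j) {i j : Fin 3} (hij : i < j)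
    (hw : wt s i j ≠ 0) : V i j ≤ 288 * qf s V := by
  have h0 : V i j ≤ wt s i j * V i j :=
    le_mul_of_one_le_left (hV i j) (by exact_mod_cast Nat.one_le_iff_ne_zero.2 hw)
  have h1 := mul_nonneg (Nat.cast_nonneg (wt s 0 1)) (hV 0 1)
  have h2 := mul_nonneg (Nat.cast_nonneg (wt s 0 2)) (hV 0 2)
  have h3 := mul_nonneg (Nat.cast_nonneg (wt s 1 2)) (hV 1 2)
  have h4 : (i = 0 ∧ j = 1) ∨ (i = 0 ∧ j = 2) ∨ (i = 1 ∧ j = 2) := by
    clear h0 hw
    revert i j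
    decide
  unfold qf
  rcases h4 with ⟨rfl, rfl⟩ | ⟨rfl, rfl⟩ | ⟨rfl, rfl⟩ <;> linarith

theorem as1_one (s : ℕ) {g00 g01 g10 g11 hi : Fin 3 → ℝ} {V1 V2 : Fin 3 → Fin 3 → ℝ}
    (h00 : ∀ i, 0 ≤ g00 i ∧ g00 i ≤ hi i) (h01 : ∀ i, 0 ≤ g01 i ∧ g01 i ≤ hi i)
    (h10 : ∀ i, 0 ≤ g10 i ∧ g10 i ≤ hi i) (h11 : ∀ i, 0 ≤ g11 i ∧ g11 i ≤ hi i)
    (hV1 : ∀ i j, 0 ≤ V1 i j) (hV2 : ∀ i j, 0 ≤ V2 i j)
    (H : ∀ i j, i ≠ j → 1024 ≤ V1 i j + V2 i j ∨
      ((∀ β, 0 ≤ β → β ≤ 1 → SegOK (lc β g00 g01) (lc β g10 g11) (V1 i j) i j) ∧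
        SegOK g00 g01 (V2 i j) i j ∧ SegOK g10 g11 (V2 i j) i j))
    {α β : ℝ} (a1 : 0 ≤ α) (a2 : α ≤ 1) (b1 : 0 ≤ β) (b2 : β ≤ 1) :
    |mon s (lc α (lc β g00 g01) (lc β g10 g11)) -
      ((1 - α) * ((1 - β) * mon s g00 + β * mon s g01) +
        α * ((1 - β) * mon s g10 + β * mon s g11))| ≤
      mon0 s hi * min (cap s) (qf s fun i j => V1 i j + V2 i j) := by
  have hm : ∀ {g : Fin 3 → ℝ}, (∀ i, 0 ≤ g i ∧ g i ≤ hi i) → mon0 s g ≤ mon0 s hi := fun h =>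
    mon0_mono s (fun i => (h i).1) fun i => (h i).2
  have hM := mon0_nonneg s fun i => (h00 i).1.trans (h00 i).2
  have hb : ∀ {g : Fin 3 → ℝ}, (∀ i, 0 ≤ g i ∧ g i ≤ hi i) →
      (1 - cap s) * mon0 s hi ≤ mon s g ∧ mon s g ≤ mon0 s hi := fun {g} h => by
    have h1 := abs_le.1 ((abs_mon_le s fun i => (h i).1).trans (hm h))
    refine ⟨?_, h1.2⟩
    unfold cap
    split_ifs with hs
    · rw [mon_real hs, sub_self, zero_mul]
      exact mon0_nonneg s fun i => (h i).1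
    · linarith [h1.1]
  have h0 := as1_lc h00 h01 b1 b2
  have h1 := as1_lc h10 h11 b1 b2
  have h2 := hb (as1_lc h0 h1 a1 a2)
  have h3 := as1_cc (as1_cc (hb h00) (hb h01) b1 b2) (as1_cc (hb h10) (hb h11) b1 b2) a1 a2
  have h4 := abs_le.2 (⟨by linarith [h2.1, h3.2], by linarith [h2.2, h3.1]⟩ :
    -(mon0 s hi * cap s) ≤ mon s (lc α (lc β g00 g01) (lc β g10 g11)) -
      ((1 - α) * ((1 - β) * mon s g00 + β * mon s g01) +
        α * ((1 - β) * mon s g10 + β * mon s g11)) ∧ _ ≤ mon0 s hi * cap s)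
  rw [mul_min_of_nonneg _ _ hM]
  refine le_min h4 ?_
  by_cases hbig : ∃ i j, i < j ∧ wt s i j ≠ 0 ∧ 1024 ≤ V1 i j + V2 i j
  · obtain ⟨i, j, hij, hw, h5⟩ := hbig
    have h6 := h5.trans (as1_qf s (V := fun i j => V1 i j + V2 i j)
      (fun i j => add_nonneg (hV1 i j) (hV2 i j)) hij hw)
    refine h4.trans (mul_le_mul_of_nonneg_left ?_ hM)
    unfold cap
    split_ifs <;> linarith
  · have h5 := fun i j (hij : i < j) (hw : wt s i j ≠ 0) =>
      (H i j hij.ne).resolve_left fun h => hbig ⟨i, j, hij, hw, h⟩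
    have h6 := abs_le.1 (seg_mon s hV1 (fun i j hij hw => (h5 i j hij hw).1 β b1 b2)
      (fun θ a b => hm (as1_lc h0 h1 a b)) a1 a2)
    have h7 := abs_le.1 (seg_mon s hV2 (fun i j hij hw => (h5 i j hij hw).2.1)
      (fun θ a b => hm (as1_lc h00 h01 a b)) b1 b2)
    have h8 := abs_le.1 (seg_mon s hV2 (fun i j hij hw => (h5 i j hij hw).2.2)
      (fun θ a b => hm (as1_lc h10 h11 a b)) b1 b2)
    have h9 := as1_cc h7 h8 a1 a2
    rw [show qf s (fun i j => V1 i j + V2 i j) = qf s V1 + qf s V2 by unfold qf; ring, abs_le]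
    exact ⟨by linarith [h6.1, h9.1], by linarith [h6.2, h9.2]⟩

theorem seg2 (s : ℕ) {g00 g01 g10 g11 hi : Fin 3 → ℝ} {V1 V2 : Fin 3 → Fin 3 → ℝ}
    (h00 : ∀ i, 0 ≤ g00 i ∧ g00 i ≤ hi i) (h01 : ∀ i, 0 ≤ g01 i ∧ g01 i ≤ hi i)
    (h10 : ∀ i, 0 ≤ g10 i ∧ g10 i ≤ hi i) (h11 : ∀ i, 0 ≤ g11 i ∧ g11 i ≤ hi i)
    (hV1 : ∀ i j, 0 ≤ V1 i j) (hV2 : ∀ i j, 0 ≤ V2 i j)
    (H : ∀ i j, i ≠ j → 1024 ≤ V1 i j + V2 i j ∨
      ((∀ β, 0 ≤ β → β ≤ 1 → SegOK (lc β g00 g01) (lc β g10 g11) (V1 i j) i j) ∧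
        SegOK g00 g01 (V2 i j) i j ∧ SegOK g10 g11 (V2 i j) i j))
    {α β : ℝ} (a1 : 0 ≤ α) (a2 : α ≤ 1) (b1 : 0 ≤ β) (b2 : β ≤ 1) :
    Near s (chi s (lc α (lc β g00 g01) (lc β g10 g11)))
      ((1 - α) * ((1 - β) * chi s g00 + β * chi s g01) +
        α * ((1 - β) * chi s g10 + β * chi s g11))
      (errR s hi fun i j => V1 i j + V2 i j) := by
  have key := fun π : Equiv.Perm (Fin 3) => as1_one s (g00 := g00 ∘ π) (g01 := g01 ∘ π)
    (g10 := g10 ∘ π) (g11 := g11 ∘ π) (hi := hi ∘ π) (V1 := fun i j => V1 (π i) (π j))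
    (V2 := fun i j => V2 (π i) (π j)) (fun i => h00 _) (fun i => h01 _) (fun i => h10 _)
    (fun i => h11 _) (fun i j => hV1 _ _) (fun i j => hV2 _ _)
    (fun i j hij => H _ _ (π.injective.ne hij)) a1 a2 b1 b2
  have h1 : |chi s (lc α (lc β g00 g01) (lc β g10 g11)) -
      ((1 - α) * ((1 - β) * chi s g00 + β * chi s g01) +
        α * ((1 - β) * chi s g10 + β * chi s g11))| ≤ errR s hi fun i j => V1 i j + V2 i j := by
    have h2 := (Finset.abs_sum_le_sum_abs _ _).trans (Finset.sum_le_sum fun π (_ : π ∈ Finset.univ)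
      => key π)
    simp only [Finset.sum_sub_distrib, Finset.sum_add_distrib, ← Finset.mul_sum] at h2
    simp only [chi, errR, pavg3]
    rw [le_div_iff₀ (by norm_num), ← abs_of_pos (show (0 : ℝ) < 6 by norm_num), ← abs_mul]
    refine le_of_eq_of_le (congrArg _ ?_) h2
    rw [abs_of_pos (show (0 : ℝ) < 6 by norm_num)]
    change (_ / 6 - _) * 6 = ∑ π : Equiv.Perm (Fin 3),
      mon s (lc α (lc β g00 g01) (lc β g10 g11) ∘ π) - _
    ring
  rw [abs_le] at h1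
  refine ⟨by linarith [h1.2], ?_⟩
  split_ifs with hs
  · have h2 := conc_real hs (fun i => (h00 i).1) (fun i => (h01 i).1) b1 b2
    have h3 := conc_real hs (fun i => (h10 i).1) (fun i => (h11 i).1) b1 b2
    have h4 := conc_real hs (fun i => (as1_lc h00 h01 b1 b2 i).1)
      (fun i => (as1_lc h10 h11 b1 b2 i).1) a1 a2
    have h5 := mul_le_mul_of_nonneg_left h2 (sub_nonneg.2 a2)
    have h6 := mul_le_mul_of_nonneg_left h3 a1
    linarith
  · linarith [h1.1]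

theorem seg1 (s : ℕ) {u v hi : Fin 3 → ℝ} {V : Fin 3 → Fin 3 → ℝ}
    (hu : ∀ i, 0 ≤ u i ∧ u i ≤ hi i) (hv : ∀ i, 0 ≤ v i ∧ v i ≤ hi i) (hV : ∀ i j, 0 ≤ V i j)
    (H : ∀ i j, i ≠ j → 1024 ≤ V i j ∨ SegOK u v (V i j) i j) {θ : ℝ} (a : 0 ≤ θ) (b : θ ≤ 1) :
    Near s (chi s (lc θ u v)) ((1 - θ) * chi s u + θ * chi s v) (errR s hi V) := by
  have h0 : ∀ w : Fin 3 → ℝ, ∀ β, lc β w w = w := fun w β => funext fun i => by unfold lc; ring
  have h := seg2 s hu hu hv hv hV (V2 := fun _ _ => 0) (fun _ _ => le_rfl) (fun i j hij =>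
    (H i j hij).imp (fun h => by rwa [add_zero]) fun h => ⟨fun β _ _ => by rwa [h0, h0],
      fun β _ _ => ?_, fun β _ _ => ?_⟩) a b le_rfl zero_le_one
  · simpa [h0] using h
  · have := h 0 le_rfl zero_le_one
    rw [show lc 0 u v = u from funext fun i => by simp [lc]] at this
    rw [h0]
    exact ⟨this.1, this.2.1, le_of_eq (by ring)⟩
  · have := h 1 zero_le_one le_rfl
    rw [show lc 1 u v = v from funext fun i => by simp [lc]] at this
    rw [h0]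
    exact ⟨this.1, this.2.1, le_of_eq (by ring)⟩

theorem SegOK.symm {u v : Fin 3 → ℝ} {V : ℝ} {i j : Fin 3} (h : SegOK u v V i j) :
    SegOK u v V j i := by
  intro θ a b
  obtain ⟨h1, h2, h3⟩ := h θ a b
  exact ⟨h2, h1, by linarith⟩

theorem Near.mono {s : ℕ} {y I E E' : ℝ} (h : Near s y I E) (hE : E ≤ E') : Near s y I E' := by
  refine ⟨h.1.trans (by linarith), le_trans ?_ h.2⟩
  split_ifs <;> linarith

theorem errR_smul (s : ℕ) {c : ℝ} (hc : 0 ≤ c) {hi : Fin 3 → ℝ} (h : ∀ i, 0 ≤ hi i)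
    (V : Fin 3 → Fin 3 → ℝ) : errR s (fun i => c * hi i) V = c * errR s hi V := by
  have h1 : ∀ g : Fin 3 → ℝ, (∀ i, 0 ≤ g i) → mon0 s (fun i => c * g i) = c * mon0 s g :=
    fun g hg => by
    simp only [mon0, Real.mul_rpow hc (hg _), Finset.prod_mul_distrib]
    rw [Fin.prod_univ_three, ← Real.rpow_add_of_nonneg hc (by positivity) (by positivity),
      ← Real.rpow_add_of_nonneg hc (by positivity) (by positivity), ← add_div, ← add_div,
      ← Nat.cast_add, ← Nat.cast_add, sg_sum]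
    norm_num
  simp only [errR, pavg3]
  rw [← mul_div_assoc, Finset.mul_sum]
  refine congrArg (· / 6) (Finset.sum_congr rfl fun π _ => ?_)
  rw [← mul_assoc, ← h1 (hi ∘ π) fun i => h (π i)]
  rfl

theorem errR_mono (s : ℕ) {hi hi' : Fin 3 → ℝ} (h : ∀ i, 0 ≤ hi i ∧ hi i ≤ hi' i)
    {V V' : Fin 3 → Fin 3 → ℝ} (hV : ∀ i j, i ≠ j → 0 ≤ V i j ∧ V i j ≤ V' i j) :
    errR s hi V ≤ errR s hi' V' := by
  simp only [errR, pavg3]
  refine div_le_div_of_nonneg_right (Finset.sum_le_sum fun π _ => ?_) (by norm_num)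
  have h1 := hV (π 0) (π 1) (π.injective.ne (by decide))
  have h2 := hV (π 0) (π 2) (π.injective.ne (by decide))
  have h3 := hV (π 1) (π 2) (π.injective.ne (by decide))
  refine mul_le_mul (mon0_mono s (fun i => (h _).1) fun i => (h _).2) (min_le_min le_rfl ?_)
    (le_min ?_ ?_) (mon0_nonneg s fun i => (h _).1.trans (h _).2)
  · unfold qf
    gcongr
    exacts [h1.2, h2.2, h3.2]
  · unfold cap
    split_ifs <;> norm_num
  · have := h1.1
    have := h2.1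
    have := h3.1
    unfold qf
    positivity

end Vale.Agent.P154
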