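import Vale.Agent.P154.ABase
import Vale.Agent.P154.ASeg1

/-! TASK AErr: the computed interpolation errors, and the errors before the channel.
Plan. `errs_sound`: unfold `errR` with `pavg3`, `sum_perm3` (or list the six permutations),
`mon0_pow6`; `min (cap s) (q / 2^40 / 288) = (min q (cap s * 288 * 2^40)) / (288 * 2^40)` is `m1` or
`m2` (`316659348799488 = 288 * 2^40`); `cd_ge`; eight cases, in each the sum over the permutations
equals the numerator in `err1`. `errP_sound`: `seg2` with the corners `hx x p`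
(`lc α (lc β (hx x1 p1) (hx x1 p2)) (lc β (hx x2 p1) (hx x2 p2)) = hx x p`),
`hi = (1, X, X * Pm)` with the upper ends `X = xq Q hq 4`, `Pm = xq P hp 4`,
`V1 = vv da da 0`, `V2 = vv 0 db (db + vq 0 Q)` (divided by `2^40`); if `Q = 0` or `P = 0` the
corresponding `vq` is `2^50` (`vq_zero`). In the direction of `x` the cross terms are
`x2 - x1`, `(x2 - x1) * p`, `0`, and `(x2 - x1) / x ≤ ((Q + hq)^6 - Q^6) / Q^6` for `x ≥ x1`, because
`(1 + hq / (Q + i * hq))^6` decreases in `i`; the same in the direction of `p`. Finally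
`errR_smul` with `c = 2^240` connects `hi` with the integers in `errP1`. -/

namespace Vale.Agent.P154

theorem aerr_m1 (q : ℕ) : (m1 q : ℝ) = 316659348799488 * min 1 ((q : ℝ) / 316659348799488) := by
  rw [m1, nmin_eq, Nat.cast_min, mul_min_of_nonneg _ _ (by norm_num), min_comm]
  congr 1
  · norm_num
  · field_simp

theorem aerr_m2 (q : ℕ) : (m2 q : ℝ) = 316659348799488 * min 2 ((q : ℝ) / 316659348799488) := by
  rw [m2, nmin_eq, Nat.cast_min, mul_min_of_nonneg _ _ (by norm_num), min_comm]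
  congr 1
  · norm_num
  · field_simp

theorem aerr_six (s : ℕ) {y : Fin 3 → ℝ} (hy : ∀ i, 0 ≤ y i) (V : Fin 3 → Fin 3 → ℝ)
    (G : Fin 3 → Fin 3 → Fin 3 → ℝ) (hG : G = fun i j k => y i ^ sg s 0 * y j ^ sg s 1 * y k ^ sg s 2 *
      min (cap s) ((wt s 0 1 * V i j + wt s 0 2 * V i k + wt s 1 2 * V j k) / 288)) :
    6 * errR s (fun i => y i ^ 6) V =
      G 0 1 2 + G 0 2 1 + G 1 0 2 + G 1 2 0 + G 2 0 1 + G 2 1 0 := by
  rw [← sum_perm3, errR, pavg3, mul_div_cancel₀ _ (by norm_num)]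
  refine Finset.sum_congr rfl fun π _ => ?_
  have h := mon0_pow6 s (y := y ∘ π) fun i => hy _
  rw [Fin.prod_univ_three] at h
  rw [hG]
  exact congrArg (· * _) h

theorem errs_sound (u : Bool) {dn : ℕ} (hdn : 0 < dn) (a b c U V W : ℕ) {s : ℕ} (hs : s < 8)
    (hu : s < 6 ∨ u = true) :
    6 * errR s ![(a : ℝ) ^ 6, (b : ℝ) ^ 6, (c : ℝ) ^ 6]
      (vv (U / 2 ^ 40) (V / 2 ^ 40) (W / 2 ^ 40)) / dn ≤ (errs u dn a b c U V W).r s := by
  have h0 : (![(a : ℝ) ^ 6, (b : ℝ) ^ 6, (c : ℝ) ^ 6] : Fin 3 → ℝ) =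
      fun i => (![(a : ℝ), b, c] : Fin 3 → ℝ) i ^ 6 := by
    funext i; fin_cases i <;> rfl
  have hK : 0 < Nat.mul dn 316659348799488 := Nat.mul_pos hdn (by norm_num)
  have hd : (dn : ℝ) ≠ 0 := by positivity
  rw [h0, aerr_six s (fun i => by fin_cases i <;> simp) _ _ rfl]
  have hu' : ¬ s < 6 → u = true := fun h => hu.resolve_left h
  interval_cases s
  on_goal 7 => obtain rfl := hu' (by decide)
  on_goal 8 => obtain rfl := hu' (by decide)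
  all_goals
    refine le_of_eq_of_le ?_ (cd_ge _ hK)
    simp only [Nat.mul_eq, Nat.add_eq, Nat.pow_eq, s3, mm, l3]
    push_cast [aerr_m1, aerr_m2]
    simp [sg, wt, cap, vv]
    field_simp
    ring_nf

theorem lc_hx (x1 x2 p1 p2 α β : ℝ) :
    lc α (lc β (hx x1 p1) (hx x1 p2)) (lc β (hx x2 p1) (hx x2 p2)) =
      hx ((1 - α) * x1 + α * x2) ((1 - β) * p1 + β * p2) := by
  funext i
  fin_cases i <;> simp [lc, hx] <;> ring

theorem xq_mono (Q h : ℕ) {i j : ℕ} (hij : i ≤ j) : 0 ≤ xq Q h i ∧ xq Q h i ≤ xq Q h j := by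
  unfold xq
  refine ⟨by positivity, ?_⟩
  gcongr

theorem xq_step (Q h : ℕ) {i : ℕ} (hi : i < 4) :
    xq Q h (i + 1) - xq Q h i ≤ xq Q h 4 - xq Q h 3 := by
  have key : ∀ a b d : ℝ, 0 ≤ a → a ≤ b → 0 ≤ d → (a + d) ^ 6 - a ^ 6 ≤ (b + d) ^ 6 - b ^ 6 := by
    intro a b d ha hab hd
    have e : ∀ t : ℝ, (t + d) ^ 6 - t ^ 6 = 6 * t ^ 5 * d + 15 * t ^ 4 * d ^ 2 +
        20 * t ^ 3 * d ^ 3 + 15 * t ^ 2 * d ^ 4 + 6 * t * d ^ 5 + d ^ 6 := fun t => by ring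
    rw [e, e]
    gcongr
  have h1 := key (((Q + i * h : ℕ) : ℝ) / 2 ^ 20) (((Q + 3 * h : ℕ) : ℝ) / 2 ^ 20) (h / 2 ^ 20)
    (by positivity) (by gcongr; omega) (by positivity)
  unfold xq
  refine le_of_eq_of_le ?_ (h1.trans_eq ?_) <;> push_cast <;> ring

theorem aerr_rel {Q : ℕ} (hQ : 0 < Q) (h i : ℕ) {x : ℝ} (hx : xq Q h i ≤ x) :
    0 < x ∧ (xq Q h (i + 1) - xq Q h i) ^ 2 ≤
      vq (Nat.sub (p6 (Nat.add Q h)) (p6 Q)) (p6 Q) / 2 ^ 40 * x ^ 2 := by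
  have hq : (0 : ℝ) < Q := by exact_mod_cast hQ
  have h0 : 0 < xq Q h i := by
    unfold xq
    positivity
  refine ⟨h0.trans_le hx, ?_⟩
  have h1 := vq_ge (Nat.sub (p6 (Nat.add Q h)) (p6 Q)) (d := p6 Q) (Nat.pow_pos hQ)
  have h2 : ((Nat.sub (p6 (Nat.add Q h)) (p6 Q) : ℕ) : ℝ) = ((Q : ℝ) + h) ^ 6 - Q ^ 6 := by
    change (((Q + h) ^ 6 - Q ^ 6 : ℕ) : ℝ) = _
    rw [Nat.cast_sub (Nat.pow_le_pow_left (Nat.le_add_right _ _) 6)]
    push_cast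
    ring
  have h3 : ((p6 Q : ℕ) : ℝ) = (Q : ℝ) ^ 6 := by
    change ((Q ^ 6 : ℕ) : ℝ) = _
    push_cast
    ring
  rw [h2, h3] at h1
  have h4 : (((Q : ℝ) + (i + 1) * h) * Q) ^ 6 ≤ ((Q + h) * (Q + i * h)) ^ 6 := by
    have : (0 : ℝ) ≤ i * h * h := by positivity
    exact pow_le_pow_left₀ (by positivity) (by nlinarith) 6
  have h5 : xq Q h (i + 1) - xq Q h i ≤ (((Q : ℝ) + h) ^ 6 - Q ^ 6) / Q ^ 6 * xq Q h i := by
    rw [div_mul_eq_mul_div, le_div_iff₀ (by positivity)]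
    unfold xq
    push_cast
    rw [div_pow, div_pow]
    have h6 : (0 : ℝ) < (2 ^ 20) ^ 6 := by positivity
    have h7 := div_le_div_of_nonneg_right h4 h6.le
    rw [mul_pow, mul_pow] at h7
    generalize ((Q : ℝ) + (i + 1) * h) ^ 6 = A at *
    generalize ((Q : ℝ) + i * h) ^ 6 = B at *
    generalize ((Q : ℝ) + h) ^ 6 = C at *
    generalize (Q : ℝ) ^ 6 = D at *
    generalize ((2 : ℝ) ^ 20) ^ 6 = K at *
    have e1 : (A / K - B / K) * D = A * D / K - B * D / K := by ring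
    have e2 : (C - D) * (B / K) = C * B / K - B * D / K := by ring
    linarith
  have h6 : 0 ≤ xq Q h (i + 1) - xq Q h i := sub_nonneg.2 (xq_mono Q h (Nat.le_succ i)).2
  have h7 : 0 ≤ (((Q : ℝ) + h) ^ 6 - Q ^ 6) / Q ^ 6 := by
    rw [← h2]
    positivity
  calc _ ≤ ((((Q : ℝ) + h) ^ 6 - Q ^ 6) / Q ^ 6 * x) ^ 2 :=
        pow_le_pow_left₀ h6 (h5.trans (mul_le_mul_of_nonneg_left hx h7)) 2
    _ ≤ _ := by
        rw [mul_pow]
        exact mul_le_mul_of_nonneg_right h1 (sq_nonneg x)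

theorem aerr_lc {x y θ : ℝ} (h : x ≤ y) (a : 0 ≤ θ) : x ≤ (1 - θ) * x + θ * y := by
  nlinarith [mul_nonneg a (sub_nonneg.2 h)]

theorem aerr_hi {x p X Y : ℝ} (h1 : 0 ≤ x ∧ x ≤ X) (h2 : 0 ≤ p ∧ p ≤ Y) (i : Fin 3) :
    0 ≤ hx x p i ∧ hx x p i ≤ hx X Y i := by
  fin_cases i
  · exact ⟨zero_le_one, le_rfl⟩
  · exact h1
  · exact ⟨mul_nonneg h1.1 h2.1, mul_le_mul h1.2 h2.2 h2.1 (h1.1.trans h1.2)⟩

theorem aerr_x {x1 x2 p D : ℝ} (h : ∀ x, x1 ≤ x → 0 < x ∧ (x2 - x1) ^ 2 ≤ D * x ^ 2)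
    (h12 : x1 ≤ x2) :
    SegOK (hx x1 p) (hx x2 p) D 0 1 ∧ (0 < p → SegOK (hx x1 p) (hx x2 p) D 0 2 ∧
      SegOK (hx x1 p) (hx x2 p) 0 1 2) := by
  refine ⟨fun θ a _ => ?_, fun hp => ⟨fun θ a _ => ?_, fun θ a _ => ?_⟩⟩
  all_goals
    obtain ⟨h1, h2⟩ := h _ (aerr_lc h12 a)
    have e0 : lc θ (hx x1 p) (hx x2 p) 0 = 1 := by simp [lc, hx]
    have e1 : lc θ (hx x1 p) (hx x2 p) 1 = (1 - θ) * x1 + θ * x2 := by simp [lc, hx]
    have e2 : lc θ (hx x1 p) (hx x2 p) 2 = ((1 - θ) * x1 + θ * x2) * p := by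
      simp [lc, hx]; ring
    simp only [e0, e1, e2]
  · refine ⟨one_pos, h1, ?_⟩
    simpa [hx] using h2
  · refine ⟨one_pos, mul_pos h1 hp, ?_⟩
    have h3 := mul_le_mul_of_nonneg_right h2 (sq_nonneg p)
    refine le_of_eq_of_le ?_ (h3.trans_eq (by ring))
    simp [hx]; ring
  · refine ⟨h1, mul_pos h1 hp, le_of_eq ?_⟩
    simp [hx]; ring

theorem aerr_p {x p1 p2 D E : ℝ} (hx0 : 0 < x) (hE : 0 ≤ E) :
    SegOK (hx x p1) (hx x p2) 0 0 1 ∧ ((∀ p, p1 ≤ p → 0 < p ∧ (p2 - p1) ^ 2 ≤ D * p ^ 2) →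
      p1 ≤ p2 → SegOK (hx x p1) (hx x p2) D 0 2 ∧ SegOK (hx x p1) (hx x p2) (D + E) 1 2) := by
  refine ⟨fun θ a _ => ?_, fun h h12 => ⟨fun θ a _ => ?_, fun θ a _ => ?_⟩⟩
  all_goals
    have e0 : lc θ (hx x p1) (hx x p2) 0 = 1 := by simp [lc, hx]
    have e1 : lc θ (hx x p1) (hx x p2) 1 = x := by simp [lc, hx]; ring
    have e2 : lc θ (hx x p1) (hx x p2) 2 = x * ((1 - θ) * p1 + θ * p2) := by
      simp [lc, hx]; ring
    simp only [e0, e1, e2]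
  · refine ⟨one_pos, hx0, le_of_eq ?_⟩
    simp [hx]
  · obtain ⟨h1, h2⟩ := h _ (aerr_lc h12 a)
    refine ⟨one_pos, mul_pos hx0 h1, ?_⟩
    have h3 := mul_le_mul_of_nonneg_right h2 (sq_nonneg x)
    refine le_of_eq_of_le ?_ (h3.trans_eq (by ring))
    simp [hx]; ring
  · obtain ⟨h1, h2⟩ := h _ (aerr_lc h12 a)
    refine ⟨hx0, mul_pos hx0 h1, ?_⟩
    have h3 := mul_le_mul_of_nonneg_right h2 (sq_nonneg (x * x))
    have h4 := mul_nonneg hE (sq_nonneg (x * (x * ((1 - θ) * p1 + θ * p2))))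
    have h5 : (hx x p1 1 * hx x p2 2 - hx x p1 2 * hx x p2 1) ^ 2 =
        (p2 - p1) ^ 2 * (x * x) ^ 2 := by simp [hx]; ring
    rw [h5]
    nlinarith

theorem aerr_pw (Q P : ℕ) : (![((1099511627776 : ℕ) : ℝ) ^ 6, ((Nat.shiftLeft Q 20 : ℕ) : ℝ) ^ 6,
    ((Nat.mul Q P : ℕ) : ℝ) ^ 6] : Fin 3 → ℝ) =
      fun k => 2 ^ 240 * hx (((Q : ℝ) / 2 ^ 20) ^ 6) (((P : ℝ) / 2 ^ 20) ^ 6) k := by
  rw [shl_eq, Nat.mul_eq]
  push_cast
  funext k
  fin_cases k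
  · change (1099511627776 : ℝ) ^ 6 = 2 ^ 240 * 1
    norm_num
  · change ((Q : ℝ) * 1048576) ^ 6 = 2 ^ 240 * ((Q : ℝ) / 2 ^ 20) ^ 6
    ring
  · change ((Q : ℝ) * P) ^ 6 = 2 ^ 240 * (((Q : ℝ) / 2 ^ 20) ^ 6 * ((P : ℝ) / 2 ^ 20) ^ 6)
    ring

theorem errP_sound (u : Bool) (Q hq P hp : ℕ) {i j : ℕ} (hi : i < 4) (hj : j < 4) {s : ℕ}
    (hs : s < 8) (hu : s < 6 ∨ u = true) :
    Bil s id (xq Q hq i) (xq Q hq (i + 1)) (xq P hp j) (xq P hp (j + 1))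
      ((errP u Q hq P hp).r s / (6 * 2 ^ 26)) := by
  intro α β a1 a2 b1 b2
  obtain ⟨da, hda⟩ : ∃ d, d = vq (Nat.sub (p6 (Nat.add Q hq)) (p6 Q)) (p6 Q) := ⟨_, rfl⟩
  obtain ⟨db, hdb⟩ : ∃ d, d = vq (Nat.sub (p6 (Nat.add P hp)) (p6 P)) (p6 P) := ⟨_, rfl⟩
  obtain ⟨dc, hdc⟩ : ∃ d, d = vq 0 Q := ⟨_, rfl⟩
  have x1 := xq_mono Q hq (i := i) (j := 4) hi.le
  have x2 := xq_mono Q hq (i := i + 1) (j := 4) hi
  have p1 := xq_mono P hp (i := j) (j := 4) hj.le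
  have p2 := xq_mono P hp (i := j + 1) (j := 4) hj
  have x12 := (xq_mono Q hq (Nat.le_succ i)).2
  have p12 := (xq_mono P hp (Nat.le_succ j)).2
  have hl : ∀ x p q β : ℝ, lc β (hx x p) (hx x q) = hx x ((1 - β) * p + β * q) := fun x p q β => by
    funext k
    fin_cases k <;> simp [lc, hx] <;> ring
  have hA : (0 : ℝ) ≤ da / 2 ^ 40 := by positivity
  have hB : (0 : ℝ) ≤ db / 2 ^ 40 := by positivity
  have hC : (0 : ℝ) ≤ dc / 2 ^ 40 := by positivity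
  have hQ : Q = 0 → (da : ℝ) / 2 ^ 40 = 1024 ∧ (dc : ℝ) / 2 ^ 40 = 1024 := by
    rintro rfl
    rw [hda, hdc, show p6 0 = 0 from rfl, vq_zero, vq_zero]
    norm_num
  have hP : P = 0 → (db : ℝ) / 2 ^ 40 = 1024 := by
    rintro rfl
    rw [hdb, show p6 0 = 0 from rfl, vq_zero]
    norm_num
  have rQ : Q ≠ 0 → ∀ x, xq Q hq i ≤ x → 0 < x ∧
      (xq Q hq (i + 1) - xq Q hq i) ^ 2 ≤ da / 2 ^ 40 * x ^ 2 := fun h x h1 =>
    hda ▸ aerr_rel (Nat.pos_of_ne_zero h) hq i h1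
  have rP : P ≠ 0 → ∀ x, xq P hp j ≤ x → 0 < x ∧
      (xq P hp (j + 1) - xq P hp j) ^ 2 ≤ db / 2 ^ 40 * x ^ 2 := fun h x h1 =>
    hdb ▸ aerr_rel (Nat.pos_of_ne_zero h) hp j h1
  have key := seg2 s (aerr_hi x1 p1) (aerr_hi x1 p2) (aerr_hi x2 p1) (aerr_hi x2 p2)
    (V1 := vv (da / 2 ^ 40) (da / 2 ^ 40) 0)
    (V2 := vv 0 (db / 2 ^ 40) (db / 2 ^ 40 + dc / 2 ^ 40))
    (fun k l => by fin_cases k <;> fin_cases l <;> first | exact le_rfl | exact hA)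
    (fun k l => by
      fin_cases k <;> fin_cases l <;> first | exact le_rfl | exact hB | exact add_nonneg hB hC)
    ?_ a1 a2 b1 b2
  · rw [lc_hx] at key
    refine key.mono ?_
    have h1 := errs_sound u (dn := Nat.shiftLeft 1 214) (by decide) 1099511627776
      (Nat.shiftLeft (Nat.add Q (Nat.mul 4 hq)) 20)
      (Nat.mul (Nat.add Q (Nat.mul 4 hq)) (Nat.add P (Nat.mul 4 hp))) da (Nat.add da db)
      (Nat.add db dc) hs hu
    have h2 := errR_smul s (c := 2 ^ 240) (by positivity) (hi := hx (xq Q hq 4) (xq P hp 4))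
      (fun k => (aerr_hi x1 p1 k).1.trans (aerr_hi x1 p1 k).2)
      (vv (da / 2 ^ 40) ((Nat.add da db : ℕ) / 2 ^ 40) ((Nat.add db dc : ℕ) / 2 ^ 40))
    have h3 := aerr_pw (Nat.add Q (Nat.mul 4 hq)) (Nat.add P (Nat.mul 4 hp))
    have h4 : (fun k l => vv ((da : ℝ) / 2 ^ 40) (da / 2 ^ 40) 0 k l +
        vv 0 (db / 2 ^ 40) (db / 2 ^ 40 + dc / 2 ^ 40) k l) =
        vv (da / 2 ^ 40) ((Nat.add da db : ℕ) / 2 ^ 40) ((Nat.add db dc : ℕ) / 2 ^ 40) := by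
      funext k l
      fin_cases k <;> fin_cases l <;> simp [vv] <;> ring
    rw [h3] at h1
    change 6 * errR s (fun k => 2 ^ 240 * hx (xq Q hq 4) (xq P hp 4) k) _ / _ ≤ _ at h1
    rw [h2, shl_eq] at h1
    rw [h4, le_div_iff₀ (by norm_num)]
    subst hda hdb hdc
    refine le_of_eq_of_le ?_ h1
    push_cast
    ring
  · have H01 : 1024 ≤ (da : ℝ) / 2 ^ 40 + 0 ∨ (∀ β, 0 ≤ β → β ≤ 1 → SegOK
        (lc β (hx (xq Q hq i) (xq P hp j)) (hx (xq Q hq i) (xq P hp (j + 1))))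
        (lc β (hx (xq Q hq (i + 1)) (xq P hp j)) (hx (xq Q hq (i + 1)) (xq P hp (j + 1))))
          (da / 2 ^ 40) 0 1) ∧
        SegOK (hx (xq Q hq i) (xq P hp j)) (hx (xq Q hq i) (xq P hp (j + 1))) 0 0 1 ∧
        SegOK (hx (xq Q hq (i + 1)) (xq P hp j)) (hx (xq Q hq (i + 1)) (xq P hp (j + 1))) 0 0 1 := by
      rcases eq_or_ne Q 0 with h | h
      · exact Or.inl (by linarith [(hQ h).1])
      refine Or.inr ⟨fun β _ _ => ?_, (aerr_p (D := 0) (rQ h _ le_rfl).1 le_rfl).1,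
        (aerr_p (D := 0) (rQ h _ x12).1 le_rfl).1⟩
      rw [hl, hl]
      exact (aerr_x (rQ h) x12).1
    have H2 : (Q = 0 ∨ P = 0) ∨ ((∀ β, 0 ≤ β → β ≤ 1 → SegOK
        (lc β (hx (xq Q hq i) (xq P hp j)) (hx (xq Q hq i) (xq P hp (j + 1))))
        (lc β (hx (xq Q hq (i + 1)) (xq P hp j)) (hx (xq Q hq (i + 1)) (xq P hp (j + 1))))
          (da / 2 ^ 40) 0 2) ∧
        SegOK (hx (xq Q hq i) (xq P hp j)) (hx (xq Q hq i) (xq P hp (j + 1))) (db / 2 ^ 40) 0 2 ∧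
        SegOK (hx (xq Q hq (i + 1)) (xq P hp j)) (hx (xq Q hq (i + 1)) (xq P hp (j + 1)))
          (db / 2 ^ 40) 0 2) ∧ ((∀ β, 0 ≤ β → β ≤ 1 → SegOK
        (lc β (hx (xq Q hq i) (xq P hp j)) (hx (xq Q hq i) (xq P hp (j + 1))))
        (lc β (hx (xq Q hq (i + 1)) (xq P hp j)) (hx (xq Q hq (i + 1)) (xq P hp (j + 1))))
          0 1 2) ∧
        SegOK (hx (xq Q hq i) (xq P hp j)) (hx (xq Q hq i) (xq P hp (j + 1)))
          (db / 2 ^ 40 + dc / 2 ^ 40) 1 2 ∧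
        SegOK (hx (xq Q hq (i + 1)) (xq P hp j)) (hx (xq Q hq (i + 1)) (xq P hp (j + 1)))
          (db / 2 ^ 40 + dc / 2 ^ 40) 1 2) := by
      rcases eq_or_ne Q 0 with h | h
      · exact Or.inl (Or.inl h)
      rcases eq_or_ne P 0 with h' | h'
      · exact Or.inl (Or.inr h')
      have k1 := (aerr_p (rQ h _ le_rfl).1 hC).2 (rP h') p12
      have k2 := (aerr_p (rQ h _ x12).1 hC).2 (rP h') p12
      refine Or.inr ⟨⟨fun β b _ => ?_, k1.1, k2.1⟩, fun β b _ => ?_, k1.2, k2.2⟩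
      all_goals
        rw [hl, hl]
        have k3 := (aerr_x (rQ h) x12).2 (rP h' _ (aerr_lc p12 b)).1
      exacts [k3.1, k3.2]
    have H02 := H2.imp (c := 1024 ≤ (da : ℝ) / 2 ^ 40 + db / 2 ^ 40)
      (fun h => Or.elim h (fun h => by linarith [(hQ h).1]) fun h => by linarith [hP h]) And.left
    have H12 := H2.imp (c := 1024 ≤ 0 + ((db : ℝ) / 2 ^ 40 + dc / 2 ^ 40))
      (fun h => Or.elim h (fun h => by linarith [(hQ h).2]) fun h => by linarith [hP h]) And.right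
    intro k l hkl
    fin_cases k <;> fin_cases l
    · exact absurd rfl hkl
    · exact H01
    · exact H02
    · exact H01.imp_right fun h => ⟨fun β a b => (h.1 β a b).symm, h.2.1.symm, h.2.2.symm⟩
    · exact absurd rfl hkl
    · exact H12
    · exact H02.imp_right fun h => ⟨fun β a b => (h.1 β a b).symm, h.2.1.symm, h.2.2.symm⟩
    · exact H12.imp_right fun h => ⟨fun β a b => (h.1 β a b).symm, h.2.1.symm, h.2.2.symm⟩
    · exact absurd rfl hkl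

end Vale.Agent.P154
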