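import Vale.Agent.P154.ACon

/-! TASK AFix: the limits of the expectations of the characters form a fixed point.
Plan. `E_chi_mul`: `pair_le` and `pair_ge` with the list `[(chi s, chi s)]`, `hom_chi`, `chi_mul`.
`E_chi_pow`: induction (`Fam.E_one`, `chi_one`, `Fam.Sym.pow`). Let `F n = lev hp h n`,
`x s n = (F n).E (chi s)`, `y s n = ((F n).ch h).E (chi s) = (F n).E (chi s ∘ shr lam)` (`E_ch`).
`lev_succ_le` and `Fam.Le.ch` with `cvx_real` make `x s`, `y s` monotone for `s < 6`; they are bounded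
(`abs_chi_le`, `E_abs_le`), so they converge (`tendsto_atTop_ciSup`); for `s = 6, 7` the sequences
`4 * x (s - 6) + x s` are monotone by `cvx_cx`, so `x s`, `y s` converge too. Put `U s = 1 - lim x s`,
`V s = (1 - lim y s) / lam^2`. By `E_mix` and `E_chi_pow`, `x s (n + 1) = ∑ p k * y s n ^ k =
1 - N ((1 - y s n) / lam^2)`; pass to the limit with continuity of `N`. `lin`: take `(F n).E` of the
pointwise inequality (`E_mono`, `E_sum`, `E_sub`, `E_smul`, `E_const`) and pass to the limit.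
The last claim: `lam^2 * ca f = ca (shr lam f) ≤ 4 * (1 - chi 0 (shr lam f))` (`ca_shr`,
`ca_le_chi`), so `0 ≤ (F n).E ca ≤ 4 * (1 - y 0 n) / lam^2 → 4 * V 0`. -/

namespace Vale.Agent.P154

open Filter Topology

theorem E_chi_mul (s : ℕ) (F : Fam 3) {G : Fam 3} (hG : G.Sym) :
    (F.mul G).E (chi s) = F.E (chi s) * G.E (chi s) := by
  have hL : ∀ p ∈ [(chi s, chi s)], Bdd p.1 ∧ Bdd p.2 := fun p hp => by
    rw [List.mem_singleton.1 hp]
    exact ⟨bdd_chi s, bdd_chi s⟩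
  have he : ∀ f ∈ Simp 3, ∀ g ∈ Simp 3, pavg (fun τ => hom (chi s) (f * (g ∘ τ))) =
      (([(chi s, chi s)] : List (((Fin 3 → ℝ) → ℝ) × ((Fin 3 → ℝ) → ℝ))).map
        fun p => p.1 f * p.2 g).sum := fun f hf g hg => by
    rw [List.map_singleton, List.sum_singleton, ← chi_mul s hf.1 hg.1]
    exact congrArg pavg (funext fun τ => hom_chi s fun i => mul_nonneg (hf.1 i) (hg.1 _))
  have h1 := pair_le F G hG (bdd_chi s) _ hL fun f hf g hg => (he f hf g hg).le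
  have h2 := pair_ge F G hG (bdd_chi s) _ hL fun f hf g hg => (he f hf g hg).ge
  rw [List.map_singleton, List.sum_singleton] at h1 h2
  exact le_antisymm h1 h2

theorem E_chi_pow (s : ℕ) {F : Fam 3} (hF : F.Sym) (k : ℕ) :
    (F.pow k).E (chi s) = F.E (chi s) ^ k := by
  induction k with
  | zero => rw [Fam.pow, Fam.E_one, chi_one, pow_zero]
  | succ k ih => rw [Fam.pow, E_chi_mul s F (hF.pow k), ih, pow_succ']

lemma mono_AFix {G : ℕ → Fam 3} (hG : ∀ n, (G (n + 1)).Le (G n)) {φ : (Fin 3 → ℝ) → ℝ}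
    (hφ : Bdd φ) (hc : Cvx fun f => -φ f) :
    ∃ L, Tendsto (fun n => (G n).E φ) atTop (𝓝 L) := by
  obtain ⟨C, hC⟩ := id hφ
  refine ⟨_, tendsto_atTop_ciSup (monotone_nat_of_le_succ fun n => ?_) ⟨C, ?_⟩⟩
  · have h := hG n _ hφ.neg hc
    rwa [Fam.E_neg, Fam.E_neg, neg_le_neg_iff] at h
  · rintro _ ⟨n, rfl⟩
    exact (le_abs_self _).trans ((G n).E_abs_le hC)

lemma conv_AFix {G : ℕ → Fam 3} (hG : ∀ n, (G (n + 1)).Le (G n)) (s : ℕ) :
    ∃ L, s < 8 → Tendsto (fun n => (G n).E (chi s)) atTop (𝓝 L) := by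
  by_cases hs : s < 6
  · obtain ⟨L, hL⟩ := mono_AFix hG (bdd_chi s) (cvx_real hs)
    exact ⟨L, fun _ => hL⟩
  by_cases h8 : s < 8
  · obtain ⟨L, hL⟩ := mono_AFix hG (bdd_chi (s - 6)) (cvx_real (by omega))
    obtain ⟨M, hM⟩ := mono_AFix hG (((bdd_chi (s - 6)).smul 4).add (bdd_chi s))
      (cvx_cx (by omega))
    refine ⟨M - 4 * L, fun _ => (hM.sub (hL.const_mul 4)).congr fun n => ?_⟩
    rw [Fam.E_add _ ((bdd_chi (s - 6)).smul 4) (bdd_chi s), Fam.E_smul, add_sub_cancel_left]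
  · exact ⟨0, fun h => absurd h h8⟩

lemma abs_AFix (F : Fam 3) (s : ℕ) : |F.E (chi s)| ≤ 1 :=
  F.E_abs_le fun _ hf => (abs_chi_le s hf.1).trans_eq hf.2

lemma bdd_PP_AFix (s : ℕ) : Bdd (PP s) := (Bdd.const 1).sub (bdd_chi s)

lemma RR_AFix (s : ℕ) (lam : ℝ) :
    RR s lam = fun f => (lam ^ 2)⁻¹ * (1 - chi s (shr lam f)) :=
  funext fun _ => div_eq_inv_mul _ _

lemma bdd_RR_AFix (s : ℕ) {lam : ℝ} (h : Adm 3 lam) : Bdd (RR s lam) := by
  rw [RR_AFix]
  exact ((Bdd.const 1).sub ((bdd_chi s).shr h)).smul _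

lemma E_PP_AFix (F : Fam 3) (s : ℕ) : F.E (PP s) = 1 - F.E (chi s) := by
  rw [← F.E_const 1, ← F.E_sub (Bdd.const 1) (bdd_chi s)]
  rfl

lemma E_RR_AFix (F : Fam 3) (s : ℕ) {lam : ℝ} (h : Adm 3 lam) :
    F.E (RR s lam) = (1 - (F.ch h).E (chi s)) / lam ^ 2 := by
  rw [RR_AFix, F.E_smul, F.E_sub (Bdd.const 1) ((bdd_chi s).shr h), F.E_const, F.E_ch,
    div_eq_inv_mul]

theorem fix_exists {p : ℕ → ℝ} {d s2 : ℝ} (hp : Off p d s2) {lam : ℝ} (h : Adm 3 lam)
    (h0 : lam ≠ 0) {N : ℝ → ℝ} (hN : Continuous N)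
    (hg : ∀ v : ℝ, HasSum (fun k : ℕ => p k * (1 - lam ^ 2 * v) ^ k) (1 - N v)) :
    ∃ U V, Fix lam N U V ∧
      (V 0 = 0 → Tendsto (fun n => (Fam.lev hp h n).E ca) atTop (𝓝 0)) := by
  have h2 : 0 < lam ^ 2 := by positivity
  choose X hX using conv_AFix (Fam.lev_succ_le hp h)
  choose Y hY using conv_AFix (G := fun n => (Fam.lev hp h n).ch h)
    fun n => (Fam.lev_succ_le hp h n).ch h
  have hU : ∀ s < 8, Tendsto (fun n => (Fam.lev hp h n).E (PP s)) atTop (𝓝 (1 - X s)) :=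
    fun s hs => ((hX s hs).const_sub 1).congr fun n => (E_PP_AFix _ s).symm
  have hV : ∀ s < 8, Tendsto (fun n => (Fam.lev hp h n).E (RR s lam)) atTop
      (𝓝 ((1 - Y s) / lam ^ 2)) :=
    fun s hs => (((hY s hs).const_sub 1).div_const _).congr fun n => (E_RR_AFix _ s h).symm
  refine ⟨fun s => 1 - X s, fun s => (1 - Y s) / lam ^ 2, ⟨fun s hs => ?_, fun s hs => ?_,
    fun s hs => ?_, fun a b c hc => ?_⟩, fun h1 => ?_⟩
  · refine tendsto_nhds_unique ((hU s hs).comp (tendsto_add_atTop_nat 1))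
      (((hN.tendsto _).comp (hV s hs)).congr fun n => ?_)
    have e1 := Fam.E_mix p hp.nonneg hp.sum_one (fun k => ((Fam.lev hp h n).ch h).pow k)
      (bdd_chi s)
    have e2 := hg ((Fam.lev hp h n).E (RR s lam))
    simp only [E_chi_pow s ((Fam.sym_lev hp h n).ch h)] at e1
    rw [E_RR_AFix _ s h, mul_div_cancel₀ _ h2.ne', sub_sub_cancel, ← E_RR_AFix _ s h] at e2
    simp only [Function.comp_apply, E_PP_AFix]
    rw [Fam.lev, Fam.step, e1.unique e2, sub_sub_cancel]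
  · exact div_nonneg (sub_nonneg.2 (le_of_tendsto' (hY s hs) fun n =>
      (le_abs_self _).trans (abs_AFix _ s))) h2.le
  · rw [div_mul_cancel₀ _ h2.ne']
    exact sub_le_self _ (ge_of_tendsto' (hY s (by omega)) fun n =>
      Fam.E_nonneg _ fun f hf => chi_nonneg hs hf.1)
  · have ba : ∀ s ∈ Finset.range 8, Bdd fun f => a s * PP s f := fun s _ =>
      (bdd_PP_AFix s).smul _
    have bb : ∀ s ∈ Finset.range 8, Bdd fun f => b s * RR s lam f := fun s _ =>
      (bdd_RR_AFix s h).smul _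
    refine ge_of_tendsto' ((tendsto_finsetSum _ fun s hs =>
      (hU s (Finset.mem_range.1 hs)).const_mul (a s)).sub (tendsto_finsetSum _ fun s hs =>
      (hV s (Finset.mem_range.1 hs)).const_mul (b s))) fun n => ?_
    have e := (Fam.lev hp h n).E_mono (Bdd.const c) ((Bdd.sum _ ba).sub (Bdd.sum _ bb)) hc
    rw [Fam.E_const, Fam.E_sub _ (Bdd.sum _ ba) (Bdd.sum _ bb), Fam.E_sum _ _ ba,
      Fam.E_sum _ _ bb] at e
    simpa only [Fam.E_smul] using e
  · have h3 := (hV 0 (by norm_num)).const_mul 4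
    rw [show (1 - Y 0) / lam ^ 2 = 0 from h1, mul_zero] at h3
    refine squeeze_zero (fun n => Fam.E_nonneg _ fun f _ => ca_nonneg f) (fun n => ?_) h3
    rw [← Fam.E_smul]
    refine Fam.E_mono _ bdd_ca ((bdd_RR_AFix 0 h).smul 4) fun f hf => ?_
    have h4 := ca_le_chi (shr_mem h hf)
    rw [ca_shr] at h4
    rw [RR, ← mul_div_assoc, le_div_iff₀' h2]
    exact h4

end Vale.Agent.P154
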