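import Vale.Agent.P154.AErr

/-! TASK AGeo: interpolation errors after the channel.
Plan. Put `al = alN n / 2^48 = 1 + 2 lam`, `be = beN n / 2^48 = 1 - lam` (`lam = lamR n`); then
`3 * chv lam h i = al * h i + be * (h j + h k)` (`chv_gg`), monotone in `h`. With `g = mkGeo Q hq P hp`:
`g.q1 = xq Q hq 0 * 2^120`, `g.q2 = xq Q hq 4 * 2^120`, `g.dq = (xq Q hq 4 - xq Q hq 3) * 2^120`, the
same for `p`; the numbers `gg ..` have the scale `3 * 2^288`. `errX_sound`: `seg2` for the corners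
`chv lam (hx x p)` (`chv` commutes with `lc`, `lc_hx`), `hi = up^6 / (3 * 2^288)` (`okX`),
`V1 = vv` of the first and `V2 = vv` of the second summands of `vxy`. The cross terms of
`3 * chv` in the direction of `x` are `(x2 - x1) * (al - be)` times `al + be + be p`, `be + (al + be) p`,
`- be (1 - p)` for the pairs `01`, `02`, `12`; in the direction of `p` they are
`x * (p2 - p1) * (al - be)` times `be (1 - x)`, `al + be + be x`, `be + (al + be) x` up to sign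
(`ring`). If the product `l i * l j` of the lower bounds is positive, the coordinates are positive
and `cross^2 ≤ (na / (l i * l j))^2 * (G i * G j)^2` (`vq_ge`); otherwise `vq_zero`. A general lemma
`SegOK` from `0 < lo i ≤ u i, v i`, `|cross| ≤ N`, `(N / (lo i * lo j))^2 ≤ V` is useful.
`errG_sound`: `seg1` for `u = chv (lamR n) h`, `v = chv (lamR m) h`; the cross terms are
`(lamR m - lamR n) * avg h * (h j - h i)`; bounds `lo2`, `hi2`. Finish with `errs_sound`,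
`errR_smul`, `dnR_cast`, `Near.mono`. -/

namespace Vale.Agent.P154

theorem alN_AGeo (n : ℕ) : (alN n : ℝ) = 2 * n := by
  change ((2 * n : ℕ) : ℝ) = _
  push_cast
  rfl

theorem beN_AGeo {n : ℕ} (hn : n ≤ 2 ^ 48) : (beN n : ℝ) = 3 * 2 ^ 47 - n := by
  change ((422212465065984 - n : ℕ) : ℝ) = _
  rw [Nat.cast_sub (hn.trans (by norm_num))]
  norm_num

theorem chv_gg {n : ℕ} (hn : n ≤ 2 ^ 48) (h : Fin 3 → ℝ) :
    3 * 2 ^ 48 * chv (lamR n) h 0 = alN n * h 0 + beN n * (h 1 + h 2) ∧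
    3 * 2 ^ 48 * chv (lamR n) h 1 = alN n * h 1 + beN n * (h 0 + h 2) ∧
    3 * 2 ^ 48 * chv (lamR n) h 2 = alN n * h 2 + beN n * (h 0 + h 1) := by
  simp only [alN_AGeo, beN_AGeo hn, chv, avg, lamR, Fin.sum_univ_three, Nat.cast_ofNat]
  refine ⟨?_, ?_, ?_⟩ <;> ring

theorem chv_lc (lam θ : ℝ) (u v : Fin 3 → ℝ) :
    chv lam (lc θ u v) = lc θ (chv lam u) (chv lam v) := by
  funext i
  simp only [chv, avg, lc, Fin.sum_univ_three]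
  ring

/-- the scale of the sixth powers -/
noncomputable def TT_AGeo : ℝ := 2 ^ 120
/-- the scale of the channel coordinates -/
noncomputable def KK_AGeo : ℝ := 3 * 2 ^ 48 * TT_AGeo ^ 2
noncomputable def gv_AGeo (A B x p : ℝ) : Fin 3 → ℝ :=
  ![TT_AGeo ^ 2 * (A + B * (x + x * p)), TT_AGeo ^ 2 * (A * x + B * (1 + x * p)),
    TT_AGeo ^ 2 * (A * (x * p) + B * (1 + x))]

theorem TT_pos_AGeo : 0 < TT_AGeo := by unfold TT_AGeo; positivity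
theorem KK_pos_AGeo : 0 < KK_AGeo := by
  have := TT_pos_AGeo
  unfold KK_AGeo
  positivity

theorem s120_AGeo (x : ℕ) : (Nat.shiftLeft x 120 : ℝ) = x * TT_AGeo := by
  rw [shl_eq, Nat.cast_mul, Nat.cast_pow, Nat.cast_ofNat, TT_AGeo]
theorem s240_AGeo (x : ℕ) : (Nat.shiftLeft x 240 : ℝ) = x * TT_AGeo ^ 2 := by
  rw [shl_eq, Nat.cast_mul, Nat.cast_pow, Nat.cast_ofNat, TT_AGeo, ← pow_mul]
theorem f1c_AGeo : (f1c : ℝ) = TT_AGeo ^ 2 := (s240_AGeo 1).trans (by rw [Nat.cast_one, one_mul])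
theorem gg_AGeo (a b x y z : ℕ) : (gg a b x y z : ℝ) = a * x + b * (y + z) := by
  simp only [gg, Nat.add_eq, Nat.mul_eq, Nat.cast_add, Nat.cast_mul]
theorem ln2_AGeo (x y z : ℕ) : (ln2 x y z : ℝ) = x * TT_AGeo + y * z := by
  simp only [ln2, Nat.add_eq, Nat.mul_eq, Nat.cast_add, Nat.cast_mul, s120_AGeo]
theorem le_sub_AGeo (a b : ℕ) : (a : ℝ) - b ≤ (Nat.sub a b : ℝ) := by
  change _ ≤ ((a - b : ℕ) : ℝ)
  rcases le_total a b with h1 | h1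
  · rw [Nat.sub_eq_zero_of_le h1, Nat.cast_zero]
    exact sub_nonpos.2 (Nat.cast_le.2 h1)
  · rw [Nat.cast_sub h1]
theorem p6_AGeo (Q h i : ℕ) : (p6 (Q + i * h) : ℝ) = xq Q h i * TT_AGeo := by
  change (((Q + i * h) ^ 6 : ℕ) : ℝ) = _
  rw [xq, TT_AGeo, Nat.cast_pow]
  ring
theorem xq_le_AGeo {Q h : ℕ} (hQ : Q + 4 * h ≤ 2 ^ 20) : xq Q h 4 ≤ 1 :=
  pow_le_one₀ (by positivity) ((div_le_one (by positivity)).2 (by exact_mod_cast hQ))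

theorem chv_gv_AGeo {n : ℕ} (hn : n ≤ 2 ^ 48) (x p : ℝ) (i : Fin 3) :
    KK_AGeo * chv (lamR n) (hx x p) i = gv_AGeo (alN n) (beN n) x p i := by
  obtain ⟨h0, h1, h2⟩ := chv_gg hn (hx x p)
  have e : ∀ y : ℝ, KK_AGeo * y = TT_AGeo ^ 2 * (3 * 2 ^ 48 * y) := fun y => by
    rw [KK_AGeo]
    ring
  rw [e]
  fin_cases i
  · exact congrArg _ (h0.trans (by rw [show hx x p 0 = 1 from rfl, mul_one]; rfl))
  · exact congrArg _ h1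
  · exact congrArg _ h2

theorem gv_mono_AGeo {A B x p x' p' : ℝ} (hA : 0 ≤ A) (hB : 0 ≤ B) (hx0 : 0 ≤ x) (hp0 : 0 ≤ p)
    (hxx : x ≤ x') (hpp : p ≤ p') (i : Fin 3) :
    0 ≤ gv_AGeo A B x p i ∧ gv_AGeo A B x p i ≤ gv_AGeo A B x' p' i := by
  have h1 : 0 ≤ x' := hx0.trans hxx
  fin_cases i
  · change 0 ≤ TT_AGeo ^ 2 * _ ∧ TT_AGeo ^ 2 * _ ≤ TT_AGeo ^ 2 * _
    exact ⟨by positivity, by gcongr⟩
  · change 0 ≤ TT_AGeo ^ 2 * _ ∧ TT_AGeo ^ 2 * _ ≤ TT_AGeo ^ 2 * _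
    exact ⟨by positivity, by gcongr⟩
  · change 0 ≤ TT_AGeo ^ 2 * _ ∧ TT_AGeo ^ 2 * _ ≤ TT_AGeo ^ 2 * _
    exact ⟨by positivity, by gcongr⟩

theorem gg_gv_AGeo (a b : ℕ) {f y z : ℕ} {x p : ℝ} (hf : (f : ℝ) = TT_AGeo ^ 2)
    (hy : (y : ℝ) = x * TT_AGeo ^ 2) (hz : (z : ℝ) = x * p * TT_AGeo ^ 2) (i : Fin 3) :
    ((![gg a b f y z, gg a b y f z, gg a b z f y] i : ℕ) : ℝ) = gv_AGeo a b x p i := by
  fin_cases i
  · change ((gg a b f y z : ℕ) : ℝ) = TT_AGeo ^ 2 * _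
    rw [gg_AGeo, hf, hy, hz]
    ring
  · change ((gg a b y f z : ℕ) : ℝ) = TT_AGeo ^ 2 * _
    rw [gg_AGeo, hf, hy, hz]
    ring
  · change ((gg a b z f y : ℕ) : ℝ) = TT_AGeo ^ 2 * _
    rw [gg_AGeo, hf, hy, hz]
    ring

theorem lo2_AGeo (n m f y z : ℕ) (k : Fin 3) :
    ![lo2 n m f y z, lo2 n m y f z, lo2 n m z f y] k ≤
      ![gg (alN n) (beN n) f y z, gg (alN n) (beN n) y f z, gg (alN n) (beN n) z f y] k ∧
    ![lo2 n m f y z, lo2 n m y f z, lo2 n m z f y] k ≤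
      ![gg (alN m) (beN m) f y z, gg (alN m) (beN m) y f z, gg (alN m) (beN m) z f y] k := by
  have h : ∀ x y z, lo2 n m x y z ≤ gg (alN n) (beN n) x y z ∧
      lo2 n m x y z ≤ gg (alN m) (beN m) x y z := fun x y z => le_min_iff.1 (nmin_eq _ _).le
  fin_cases k
  exacts [h f y z, h y f z, h z f y]

theorem hi2_AGeo (n m f y z : ℕ) (k : Fin 3) :
    ![gg (alN n) (beN n) f y z, gg (alN n) (beN n) y f z, gg (alN n) (beN n) z f y] k ≤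
      ![hi2 n m f y z, hi2 n m y f z, hi2 n m z f y] k ∧
    ![gg (alN m) (beN m) f y z, gg (alN m) (beN m) y f z, gg (alN m) (beN m) z f y] k ≤
      ![hi2 n m f y z, hi2 n m y f z, hi2 n m z f y] k := by
  have h : ∀ x y z, gg (alN n) (beN n) x y z ≤ hi2 n m x y z ∧
      gg (alN m) (beN m) x y z ≤ hi2 n m x y z := fun x y z => max_le_iff.1 (nmax_eq _ _).ge
  fin_cases k
  exacts [h f y z, h y f z, h z f y]

theorem cast_AGeo {g : Geo} {X0 X4 P0 P4 : ℝ} (q1 : (g.q1 : ℝ) = X0 * TT_AGeo)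
    (q2 : (g.q2 : ℝ) = X4 * TT_AGeo) (p1 : (g.p1 : ℝ) = P0 * TT_AGeo)
    (p2 : (g.p2 : ℝ) = P4 * TT_AGeo) :
    ((g.l2 : ℝ) = X0 * TT_AGeo ^ 2 ∧ (g.l3 : ℝ) = X0 * P0 * TT_AGeo ^ 2) ∧
      (g.h2 : ℝ) = X4 * TT_AGeo ^ 2 ∧ (g.h3 : ℝ) = X4 * P4 * TT_AGeo ^ 2 := by
  refine ⟨⟨(s120_AGeo g.q1).trans ?_, (Nat.cast_mul g.q1 g.p1).trans ?_⟩,
    (s120_AGeo g.q2).trans ?_, (Nat.cast_mul g.q2 g.p2).trans ?_⟩
  · rw [q1]; ring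
  · rw [q1, p1]; ring
  · rw [q2]; ring
  · rw [q2, p2]; ring

theorem segOK_AGeo {u v U W : Fin 3 → ℝ} (hu : ∀ i, KK_AGeo * u i = U i)
    (hv : ∀ i, KK_AGeo * v i = W i) {l : Fin 3 → ℕ} (h1 : ∀ i, (l i : ℝ) ≤ U i)
    (h2 : ∀ i, (l i : ℝ) ≤ W i) {i j : Fin 3} {N : ℕ} (h0 : l i * l j ≠ 0)
    (hN : |U i * W j - U j * W i| ≤ N) : SegOK u v (vq N (l i * l j) / 2 ^ 40) i j := by
  intro θ a b
  have hK := KK_pos_AGeo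
  have h3 : ∀ i, (l i : ℝ) ≤ KK_AGeo * lc θ u v i := fun i => by
    have e : KK_AGeo * lc θ u v i = (1 - θ) * U i + θ * W i := by
      rw [← hu, ← hv, lc]
      ring
    rw [e]
    nlinarith [mul_le_mul_of_nonneg_left (h1 i) (sub_nonneg.2 b), mul_le_mul_of_nonneg_left (h2 i) a]
  have hi : (0 : ℝ) < l i := Nat.cast_pos.2 (Nat.pos_of_ne_zero (left_ne_zero_of_mul h0))
  have hj : (0 : ℝ) < l j := Nat.cast_pos.2 (Nat.pos_of_ne_zero (right_ne_zero_of_mul h0))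
  refine ⟨pos_of_mul_pos_right (hi.trans_le (h3 i)) hK.le,
    pos_of_mul_pos_right (hj.trans_le (h3 j)) hK.le, ?_⟩
  have h4 := vq_ge N (Nat.pos_of_ne_zero h0)
  rw [div_pow, div_le_iff₀ (by positivity), Nat.cast_mul] at h4
  have h5 : ((l i : ℝ) * l j) ^ 2 ≤ (KK_AGeo * lc θ u v i * (KK_AGeo * lc θ u v j)) ^ 2 :=
    pow_le_pow_left₀ (by positivity) (mul_le_mul (h3 i) (h3 j) hj.le (hi.le.trans (h3 i))) 2
  have h6 := pow_le_pow_left₀ (abs_nonneg _) hN 2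
  rw [sq_abs, ← hu, ← hu, ← hv, ← hv] at h6
  have h7 := h6.trans (h4.trans (mul_le_mul_of_nonneg_left h5 (by positivity)))
  refine le_of_mul_le_mul_left (le_of_eq_of_le ?_ (h7.trans_eq ?_)) (pow_pos hK 4) <;> ring

theorem vq0_AGeo (N : ℕ) {d : ℕ} (h : d = 0) : (1024 : ℝ) ≤ vq N d / 2 ^ 40 := by
  rw [h, vq_zero]
  norm_num

theorem cr_AGeo {a a' c c' d x : ℝ} {N : ℕ} (h : x = a * d * c ∨ x = -(a * d * c)) (h0 : 0 ≤ a)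
    (h1 : a ≤ a') (h2 : 0 ≤ c) (h3 : c ≤ c') (hN : a' * |d| * c' = N) : |x| ≤ N := by
  have e : |x| = a * |d| * c := by
    rcases h with h | h
    · rw [h, abs_mul, abs_mul, abs_of_nonneg h0, abs_of_nonneg h2]
    · rw [h, abs_neg, abs_mul, abs_mul, abs_of_nonneg h0, abs_of_nonneg h2]
  have h4 := h0.trans h1
  rw [e, ← hN]
  gcongr

theorem pairs_AGeo {R : Fin 3 → Fin 3 → Prop} (hs : ∀ i j, R i j → R j i) (h01 : R 0 1)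
    (h02 : R 0 2) (h12 : R 1 2) (i j : Fin 3) (h : i ≠ j) : R i j := by
  fin_cases i <;> fin_cases j
  exacts [absurd rfl h, h01, h02, hs _ _ h01, absurd rfl h, h12, hs _ _ h02, hs _ _ h12,
    absurd rfl h]

theorem vv_symm_AGeo (a b c : ℝ) (i j : Fin 3) : vv a b c i j = vv a b c j i := by
  fin_cases i <;> fin_cases j <;> rfl

theorem vv_nn_AGeo {a b c : ℝ} (ha : 0 ≤ a) (hb : 0 ≤ b) (hc : 0 ≤ c) (i j : Fin 3) :
    0 ≤ vv a b c i j := by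
  have h : (0 : ℝ) ≤ 0 := le_rfl
  fin_cases i <;> fin_cases j
  exacts [h, ha, hb, ha, h, hc, hb, hc, h]

theorem vv_nonneg_AGeo (a b c : ℕ) (i j : Fin 3) :
    0 ≤ vv (a / 2 ^ 40) (b / 2 ^ 40) (c / 2 ^ 40) i j :=
  vv_nn_AGeo (by positivity) (by positivity) (by positivity) i j

theorem vv_ad_AGeo (a b c a' b' c' : ℝ) :
    (fun i j => vv a b c i j + vv a' b' c' i j) = vv (a + a') (b + b') (c + c') := by
  have h : (0 : ℝ) + 0 = 0 := add_zero 0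
  funext i j
  fin_cases i <;> fin_cases j
  exacts [h, rfl, rfl, rfl, h, rfl, rfl, rfl, h]

theorem vv_add_AGeo (a b c a' b' c' : ℕ) :
    (fun i j => vv (a / 2 ^ 40) (b / 2 ^ 40) (c / 2 ^ 40) i j +
      vv (a' / 2 ^ 40) (b' / 2 ^ 40) (c' / 2 ^ 40) i j) =
      vv ((Nat.add a a' : ℕ) / 2 ^ 40) ((Nat.add b b' : ℕ) / 2 ^ 40)
        ((Nat.add c c' : ℕ) / 2 ^ 40) := by
  have h : ∀ x y : ℕ, (x : ℝ) / 2 ^ 40 + y / 2 ^ 40 = (Nat.add x y : ℕ) / 2 ^ 40 := fun x y => by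
    rw [Nat.add_eq, Nat.cast_add, add_div]
  rw [vv_ad_AGeo, h, h, h]

/-- the bounds for the three pairs give the hypothesis of `seg1` -/
theorem one_AGeo {u v U W : Fin 3 → ℝ} (hu : ∀ i, KK_AGeo * u i = U i)
    (hv : ∀ i, KK_AGeo * v i = W i) {l0 l1 l2 N1 N2 N3 : ℕ}
    (h1 : ∀ i, ((![l0, l1, l2] i : ℕ) : ℝ) ≤ U i) (h2 : ∀ i, ((![l0, l1, l2] i : ℕ) : ℝ) ≤ W i)
    (h : |U 0 * W 1 - U 1 * W 0| ≤ N1 ∧ |U 0 * W 2 - U 2 * W 0| ≤ N2 ∧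
      |U 1 * W 2 - U 2 * W 1| ≤ N3) (i j : Fin 3) (hij : i ≠ j)
    (h0 : ![l0, l1, l2] i * ![l0, l1, l2] j ≠ 0) :
    SegOK u v (vv (vq N1 (Nat.mul l0 l1) / 2 ^ 40) (vq N2 (Nat.mul l0 l2) / 2 ^ 40)
      (vq N3 (Nat.mul l1 l2) / 2 ^ 40) i j) i j := by
  revert h0
  refine pairs_AGeo (R := fun i j => ![l0, l1, l2] i * ![l0, l1, l2] j ≠ 0 → SegOK u v
    (vv (vq N1 (Nat.mul l0 l1) / 2 ^ 40) (vq N2 (Nat.mul l0 l2) / 2 ^ 40)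
      (vq N3 (Nat.mul l1 l2) / 2 ^ 40) i j) i j) (fun k r h h0 => ?_)
    (fun h0 => segOK_AGeo hu hv h1 h2 h0 h.1) (fun h0 => segOK_AGeo hu hv h1 h2 h0 h.2.1)
    (fun h0 => segOK_AGeo hu hv h1 h2 h0 h.2.2) i j hij
  rw [vv_symm_AGeo _ _ _ r k]
  exact (h fun e => h0 ((Nat.mul_comm _ _).trans e)).symm

theorem zero_AGeo (l0 l1 l2 N1 N2 N3 : ℕ) (i j : Fin 3) (hij : i ≠ j)
    (h0 : ![l0, l1, l2] i * ![l0, l1, l2] j = 0) :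
    1024 ≤ vv (vq N1 (Nat.mul l0 l1) / 2 ^ 40) (vq N2 (Nat.mul l0 l2) / 2 ^ 40)
      (vq N3 (Nat.mul l1 l2) / 2 ^ 40) i j := by
  revert h0
  refine pairs_AGeo (R := fun i j => ![l0, l1, l2] i * ![l0, l1, l2] j = 0 → 1024 ≤
    (vv (vq N1 (Nat.mul l0 l1) / 2 ^ 40) (vq N2 (Nat.mul l0 l2) / 2 ^ 40)
      (vq N3 (Nat.mul l1 l2) / 2 ^ 40) i j)) (fun k r h h0 => ?_)
    (fun h0 => vq0_AGeo N1 h0) (fun h0 => vq0_AGeo N2 h0) (fun h0 => vq0_AGeo N3 h0) i j hij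
  rw [vv_symm_AGeo _ _ _ r k]
  exact h ((Nat.mul_comm _ _).trans h0)

theorem up_AGeo {H0 H1 H2 : ℕ} (h : upOK H0 H1 H2 = true) {g G : Fin 3 → ℝ}
    (hg : ∀ i, KK_AGeo * g i = G i) (hG : ∀ i, 0 ≤ G i ∧ G i ≤ (![H0, H1, H2] i : ℕ)) (i : Fin 3) :
    0 ≤ g i ∧ g i ≤ KK_AGeo⁻¹ * ![(up H0 : ℝ) ^ 6, (up H1 : ℝ) ^ 6, (up H2 : ℝ) ^ 6] i := by
  simp only [upOK, band_iff, Nat.ble_eq] at h
  have h1 : ∀ X : ℕ, X ≤ p6 (up X) → (X : ℝ) ≤ (up X : ℝ) ^ 6 := fun X hX =>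
    (Nat.cast_le.2 hX).trans_eq (Nat.cast_pow _ 6)
  have h2 : ((![H0, H1, H2] i : ℕ) : ℝ) ≤
      ![(up H0 : ℝ) ^ 6, (up H1 : ℝ) ^ 6, (up H2 : ℝ) ^ 6] i := by
    fin_cases i
    exacts [h1 _ h.1, h1 _ h.2.1, h1 _ h.2.2]
  refine ⟨nonneg_of_mul_nonneg_right ((hg i).symm ▸ (hG i).1) KK_pos_AGeo, ?_⟩
  rw [le_inv_mul_iff₀ KK_pos_AGeo, hg]
  exact (hG i).2.trans h2

theorem fin_AGeo (u : Bool) {n : ℕ} (h1 : 1 ≤ lsq n) (a b c U V W : ℕ) {s : ℕ} (hs : s < 8)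
    (hu : s < 6 ∨ u = true) :
    errR s (fun i => KK_AGeo⁻¹ * ![(a : ℝ) ^ 6, (b : ℝ) ^ 6, (c : ℝ) ^ 6] i)
      (vv (U / 2 ^ 40) (V / 2 ^ 40) (W / 2 ^ 40)) ≤
      (errs u (dnR n) a b c U V W).r s * lamR n ^ 2 / (6 * 2 ^ 26) := by
  have h2 : 0 < dnR n := by
    have e : dnR n = 3 * lsq n * 2 ^ 166 := shl_eq (3 * lsq n) 166
    rw [e]
    positivity
  have h3 := errs_sound u h2 a b c U V W hs hu
  have e : (2 : ℝ) ^ 262 = 2 ^ 22 * TT_AGeo ^ 2 := by rw [TT_AGeo, ← pow_mul, ← pow_add]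
  rw [div_le_iff₀ (Nat.cast_pos.2 h2), dnR_cast, e] at h3
  rw [errR_smul s (inv_nonneg.2 KK_pos_AGeo.le) fun i => by
    fin_cases i
    exacts [pow_nonneg (Nat.cast_nonneg a) 6, pow_nonneg (Nat.cast_nonneg b) 6,
      pow_nonneg (Nat.cast_nonneg c) 6], inv_mul_le_iff₀ KK_pos_AGeo, KK_AGeo]
  linear_combination (1 / 6) * h3

theorem geo_AGeo (Q hq P hp : ℕ) :
    (((mkGeo Q hq P hp).q1 : ℝ) = xq Q hq 0 * TT_AGeo ∧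
      ((mkGeo Q hq P hp).q2 : ℝ) = xq Q hq 4 * TT_AGeo) ∧
    (((mkGeo Q hq P hp).p1 : ℝ) = xq P hp 0 * TT_AGeo ∧
      ((mkGeo Q hq P hp).p2 : ℝ) = xq P hp 4 * TT_AGeo) ∧
    (xq Q hq 4 - xq Q hq 3) * TT_AGeo ≤ (mkGeo Q hq P hp).dq ∧
    (xq P hp 4 - xq P hp 3) * TT_AGeo ≤ (mkGeo Q hq P hp).dp := by
  have h0 : ∀ Q h : ℕ, (p6 Q : ℝ) = xq Q h 0 * TT_AGeo := fun Q h => by
    rw [← p6_AGeo, Nat.zero_mul, Nat.add_zero]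
  refine ⟨⟨h0 Q hq, p6_AGeo Q hq 4⟩, ⟨h0 P hp, p6_AGeo P hp 4⟩, ?_, ?_⟩
  · rw [sub_mul, ← p6_AGeo, ← p6_AGeo]
    exact le_sub_AGeo _ _
  · rw [sub_mul, ← p6_AGeo, ← p6_AGeo]
    exact le_sub_AGeo _ _

theorem one_sub_AGeo (b : ℕ) {q : ℕ} {x0 x : ℝ} (hq : (q : ℝ) = x0 * TT_AGeo) (h : x0 ≤ x) :
    b * (1 - x) * TT_AGeo ≤ (Nat.mul b (Nat.sub (Nat.shiftLeft 1 120) q) : ℕ) := by
  have h1 := le_sub_AGeo (Nat.shiftLeft 1 120) q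
  rw [s120_AGeo, hq, Nat.cast_one] at h1
  rw [Nat.mul_eq, Nat.cast_mul, mul_assoc]
  refine mul_le_mul_of_nonneg_left (le_trans ?_ h1) (Nat.cast_nonneg _)
  rw [← sub_mul]
  exact mul_le_mul_of_nonneg_right (sub_le_sub_left h 1) TT_pos_AGeo.le

theorem ln2_le_AGeo (a b : ℕ) {q : ℕ} {x1 x : ℝ} (hq : (q : ℝ) = x1 * TT_AGeo) (h : x ≤ x1) :
    (a + b * x) * TT_AGeo ≤ ln2 a b q := by
  have := TT_pos_AGeo
  rw [ln2_AGeo, hq, ← mul_assoc, ← add_mul]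
  gcongr

/-- cross terms in the direction of `x` -/
theorem crX_AGeo (a b : ℕ) {g : Geo} {x1 x2 p P0 P4 : ℝ} (h1 : (g.p1 : ℝ) = P0 * TT_AGeo)
    (h2 : (g.p2 : ℝ) = P4 * TT_AGeo) (h3 : x1 ≤ x2) (h4 : (x2 - x1) * TT_AGeo ≤ g.dq) (h5 : 0 ≤ p)
    (h6 : P0 ≤ p) (h7 : p ≤ P4) (h8 : P4 ≤ 1) {na : ℕ}
    (hna : na = Nat.shiftLeft (Nat.mul g.dq (nabs a b)) 240) {U W : Fin 3 → ℝ}
    (hU : U = gv_AGeo a b x1 p) (hW : W = gv_AGeo a b x2 p) :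
    |U 0 * W 1 - U 1 * W 0| ≤ (Nat.mul na (ln2 (Nat.add a b) b g.p2) : ℕ) ∧
    |U 0 * W 2 - U 2 * W 0| ≤ (Nat.mul na (ln2 b (Nat.add a b) g.p2) : ℕ) ∧
    |U 1 * W 2 - U 2 * W 1| ≤ (Nat.mul na (Nat.mul b (Nat.sub (Nat.shiftLeft 1 120) g.p1)) : ℕ) := by
  have hT := TT_pos_AGeo
  have a0 : 0 ≤ (x2 - x1) * TT_AGeo * TT_AGeo ^ 2 := by
    have := sub_nonneg.2 h3
    positivity
  have a1 := mul_le_mul_of_nonneg_right h4 (sq_nonneg TT_AGeo)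
  have a2 : ∀ c : ℕ, (g.dq : ℝ) * TT_AGeo ^ 2 * |(a : ℝ) - b| * c = (Nat.mul na c : ℕ) :=
    fun c => by
      rw [hna, Nat.mul_eq, Nat.cast_mul, s240_AGeo, Nat.mul_eq, Nat.cast_mul, nabs_cast]
      ring
  have a3 : 0 ≤ b * (1 - p) * TT_AGeo :=
    mul_nonneg (mul_nonneg (Nat.cast_nonneg _) (sub_nonneg.2 (h7.trans h8))) hT.le
  have a5 : ∀ c d : ℕ, 0 ≤ (c + d * p) * TT_AGeo := fun c d =>
    mul_nonneg (add_nonneg (Nat.cast_nonneg _) (mul_nonneg (Nat.cast_nonneg _) h5)) hT.le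
  subst hU hW
  refine ⟨cr_AGeo (Or.inl ?_) a0 a1 (a5 _ _) (ln2_le_AGeo _ _ h2 h7) (a2 _),
    cr_AGeo (Or.inl ?_) a0 a1 (a5 _ _) (ln2_le_AGeo _ _ h2 h7) (a2 _),
    cr_AGeo (Or.inr ?_) a0 a1 a3 (one_sub_AGeo _ h1 h6) (a2 _)⟩ <;>
  · simp only [gv_AGeo, Matrix.cons_val_zero, Matrix.cons_val_one, Matrix.cons_val, Nat.add_eq,
      Nat.cast_add]
    ring

/-- cross terms in the direction of `p` -/
theorem crP_AGeo (a b : ℕ) {g : Geo} {p1 p2 x X0 X4 : ℝ} (h1 : (g.q1 : ℝ) = X0 * TT_AGeo)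
    (h2 : (g.q2 : ℝ) = X4 * TT_AGeo) (h3 : p1 ≤ p2) (h4 : (p2 - p1) * TT_AGeo ≤ g.dp) (h5 : 0 ≤ x)
    (h6 : X0 ≤ x) (h7 : x ≤ X4) (h8 : X4 ≤ 1) {nb : ℕ}
    (hnb : nb = Nat.shiftLeft (Nat.mul (Nat.mul g.q2 g.dp) (nabs a b)) 120) {U W : Fin 3 → ℝ}
    (hU : U = gv_AGeo a b x p1) (hW : W = gv_AGeo a b x p2) :
    |U 0 * W 1 - U 1 * W 0| ≤ (Nat.mul nb (Nat.mul b (Nat.sub (Nat.shiftLeft 1 120) g.q1)) : ℕ) ∧
    |U 0 * W 2 - U 2 * W 0| ≤ (Nat.mul nb (ln2 (Nat.add a b) b g.q2) : ℕ) ∧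
    |U 1 * W 2 - U 2 * W 1| ≤ (Nat.mul nb (ln2 b (Nat.add a b) g.q2) : ℕ) := by
  have hT := TT_pos_AGeo
  have a4 := sub_nonneg.2 h3
  have a0 : 0 ≤ x * ((p2 - p1) * TT_AGeo) * TT_AGeo ^ 2 := by positivity
  have a1 := mul_le_mul_of_nonneg_right (mul_le_mul h7 h4 (by positivity) (h5.trans h7))
    (sq_nonneg TT_AGeo)
  have a2 : ∀ c : ℕ, X4 * (g.dp : ℝ) * TT_AGeo ^ 2 * |(a : ℝ) - b| * c = (Nat.mul nb c : ℕ) :=
    fun c => by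
      rw [hnb, Nat.mul_eq, Nat.cast_mul, s120_AGeo, Nat.mul_eq, Nat.cast_mul, nabs_cast,
        Nat.mul_eq, Nat.cast_mul, h2]
      ring
  have a3 : 0 ≤ b * (1 - x) * TT_AGeo :=
    mul_nonneg (mul_nonneg (Nat.cast_nonneg _) (sub_nonneg.2 (h7.trans h8))) hT.le
  have a5 : ∀ c d : ℕ, 0 ≤ (c + d * x) * TT_AGeo := fun c d =>
    mul_nonneg (add_nonneg (Nat.cast_nonneg _) (mul_nonneg (Nat.cast_nonneg _) h5)) hT.le
  subst hU hW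
  refine ⟨cr_AGeo (Or.inl ?_) a0 a1 a3 (one_sub_AGeo _ h1 h6) (a2 _),
    cr_AGeo (Or.inl ?_) a0 a1 (a5 _ _) (ln2_le_AGeo _ _ h2 h7) (a2 _),
    cr_AGeo (Or.inl ?_) a0 a1 (a5 _ _) (ln2_le_AGeo _ _ h2 h7) (a2 _)⟩ <;>
  · simp only [gv_AGeo, Matrix.cons_val_zero, Matrix.cons_val_one, Matrix.cons_val, Nat.add_eq,
      Nat.cast_add]
    ring

theorem errX_sound (u : Bool) {Q hq P hp n : ℕ} (hQ : Q + 4 * hq ≤ 2 ^ 20)
    (hP : P + 4 * hp ≤ 2 ^ 20) (hn : n ≤ 2 ^ 48) (h1 : 1 ≤ lsq n)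
    (hok : okX (mkGeo Q hq P hp) (alN n) (beN n) = true) {i j : ℕ} (hi : i < 4) (hj : j < 4)
    {s : ℕ} (hs : s < 8) (hu : s < 6 ∨ u = true) :
    Bil s (chv (lamR n)) (xq Q hq i) (xq Q hq (i + 1)) (xq P hp j) (xq P hp (j + 1))
      ((errX u (mkGeo Q hq P hp) (alN n) (beN n) (dnR n)).r s * lamR n ^ 2 / (6 * 2 ^ 26)) := by
  intro α β a1 a2 b1 b2
  obtain ⟨⟨q1, q2⟩, ⟨p1, p2⟩, dq, dp⟩ := geo_AGeo Q hq P hp
  generalize mkGeo Q hq P hp = g at hok q1 q2 p1 p2 dq dp ⊢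
  have hT := TT_pos_AGeo
  have hA : (0 : ℝ) ≤ alN n := Nat.cast_nonneg _
  have hB : (0 : ℝ) ≤ beN n := Nat.cast_nonneg _
  have x0 := (xq_mono Q hq le_rfl (i := 0)).1
  have y0 := (xq_mono P hp le_rfl (i := 0)).1
  have x1 : xq Q hq 0 ≤ xq Q hq i ∧ xq Q hq i ≤ xq Q hq 4 :=
    ⟨(xq_mono Q hq (by omega)).2, (xq_mono Q hq (by omega)).2⟩
  have x2 : xq Q hq 0 ≤ xq Q hq (i + 1) ∧ xq Q hq (i + 1) ≤ xq Q hq 4 :=
    ⟨(xq_mono Q hq (by omega)).2, (xq_mono Q hq (by omega)).2⟩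
  have y1 : xq P hp 0 ≤ xq P hp j ∧ xq P hp j ≤ xq P hp 4 :=
    ⟨(xq_mono P hp (by omega)).2, (xq_mono P hp (by omega)).2⟩
  have y2 : xq P hp 0 ≤ xq P hp (j + 1) ∧ xq P hp (j + 1) ≤ xq P hp 4 :=
    ⟨(xq_mono P hp (by omega)).2, (xq_mono P hp (by omega)).2⟩
  have x3 := (xq_mono Q hq (Nat.le_succ i)).2
  have y3 := (xq_mono P hp (Nat.le_succ j)).2
  have x4 := (mul_le_mul_of_nonneg_right (xq_step Q hq hi) hT.le).trans dq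
  have y4 := (mul_le_mul_of_nonneg_right (xq_step P hp hj) hT.le).trans dp
  obtain ⟨⟨l2, l3⟩, h2, h3⟩ := cast_AGeo q1 q2 p1 p2
  have hf := f1c_AGeo
  unfold okX at hok
  unfold errX errX1
  generalize f1c = f at hok hf ⊢
  generalize g.l2 = L2 at l2 ⊢
  generalize g.l3 = L3 at l3 ⊢
  generalize g.h2 = H2 at hok h2 ⊢
  generalize g.h3 = H3 at hok h3 ⊢
  have lo := fun {x p : ℝ} (hx' : xq Q hq 0 ≤ x) (hp' : xq P hp 0 ≤ p) k =>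
    (gg_gv_AGeo _ _ hf l2 l3 k).trans_le (gv_mono_AGeo hA hB x0 y0 hx' hp' k).2
  have up' := fun {x p : ℝ} (hx' : xq Q hq 0 ≤ x ∧ x ≤ xq Q hq 4)
      (hp' : xq P hp 0 ≤ p ∧ p ≤ xq P hp 4) => up_AGeo hok (chv_gv_AGeo hn x p) fun k =>
    (gv_mono_AGeo hA hB (x0.trans hx'.1) (y0.trans hp'.1) hx'.2 hp'.2 k).imp id
      fun h => h.trans_eq (gg_gv_AGeo _ _ hf h2 h3 k).symm
  have e1 : ∀ x γ : ℝ, lc γ (chv (lamR n) (hx x (xq P hp j))) (chv (lamR n) (hx x (xq P hp (j + 1))))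
      = chv (lamR n) (hx x ((1 - γ) * xq P hp j + γ * xq P hp (j + 1))) := fun x γ => by
    rw [← chv_lc]
    congr 1
    funext k
    fin_cases k <;> simp only [lc, hx, Fin.zero_eta, Fin.mk_one, Fin.reduceFinMk,
      Matrix.cons_val_zero, Matrix.cons_val_one, Matrix.cons_val] <;> ring
  have cX := fun (γ : ℝ) (c1 : 0 ≤ γ) (c2 : γ ≤ 1) => crX_AGeo (alN n) (beN n) p1 p2 x3 x4
    (y0.trans (as1_cc y1 y2 c1 c2).1) (as1_cc y1 y2 c1 c2).1 (as1_cc y1 y2 c1 c2).2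
    (xq_le_AGeo hP) rfl rfl rfl
  have cP1 := crP_AGeo (alN n) (beN n) q1 q2 y3 y4 (x0.trans x1.1) x1.1 x1.2 (xq_le_AGeo hQ)
    rfl rfl rfl
  have cP2 := crP_AGeo (alN n) (beN n) q1 q2 y3 y4 (x0.trans x2.1) x2.1 x2.2 (xq_le_AGeo hQ)
    rfl rfl rfl
  have main := seg2 s (up' x1 y1) (up' x1 y2) (up' x2 y1) (up' x2 y2) (vv_nonneg_AGeo _ _ _)
    (vv_nonneg_AGeo _ _ _) (fun k m hkm => (em _).imp
      (fun h0 => (zero_AGeo _ _ _ _ _ _ k m hkm h0).trans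
        (le_add_of_nonneg_right (vv_nonneg_AGeo _ _ _ k m)))
      fun h0 => ⟨fun γ d1 d2 => (e1 _ γ).symm ▸ (e1 _ γ).symm ▸ one_AGeo (chv_gv_AGeo hn _ _)
          (chv_gv_AGeo hn _ _) (lo x1.1 (as1_cc y1 y2 d1 d2).1) (lo x2.1 (as1_cc y1 y2 d1 d2).1)
          (cX γ d1 d2) k m hkm h0,
        one_AGeo (chv_gv_AGeo hn _ _) (chv_gv_AGeo hn _ _) (lo x1.1 y1.1) (lo x1.1 y2.1) cP1 k m
          hkm h0,
        one_AGeo (chv_gv_AGeo hn _ _) (chv_gv_AGeo hn _ _) (lo x2.1 y1.1) (lo x2.1 y2.1) cP2 k m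
          hkm h0⟩) a1 a2 b1 b2
  rw [← chv_lc, ← chv_lc, ← chv_lc, lc_hx, vv_add_AGeo] at main
  unfold vxy
  exact main.mono (fin_AGeo u h1 _ _ _ _ _ _ hs hu)

theorem errG_sound (u : Bool) {Q hq P hp n m : ℕ} (hQ : Q + 4 * hq ≤ 2 ^ 20)
    (hP : P + 4 * hp ≤ 2 ^ 20) (hnm : n ≤ m) (hm : m ≤ 2 ^ 48) (h1 : 1 ≤ lsq m) {g : Geo}
    (hg : g = mkGeo Q hq P hp)
    (hok : upOK (hi2 n m f1c g.h2 g.h3) (hi2 n m g.h2 f1c g.h3) (hi2 n m g.h3 f1c g.h2) = true)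
    {x p θ : ℝ} (hx1 : xq Q hq 0 ≤ x) (hx2 : x ≤ xq Q hq 4) (hp1 : xq P hp 0 ≤ p)
    (hp2 : p ≤ xq P hp 4) (a : 0 ≤ θ) (b : θ ≤ 1) {s : ℕ} (hs : s < 8) (hu : s < 6 ∨ u = true) :
    Near s (chi s (chv ((1 - θ) * lamR n + θ * lamR m) (hx x p)))
      ((1 - θ) * chi s (chv (lamR n) (hx x p)) + θ * chi s (chv (lamR m) (hx x p)))
      ((errG u g n m).r s * lamR m ^ 2 / (6 * 2 ^ 26)) := by
  obtain ⟨⟨q1, q2⟩, ⟨p1, p2⟩, -, -⟩ := geo_AGeo Q hq P hp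
  rw [← hg] at q1 q2 p1 p2
  have hn := hnm.trans hm
  have hT := TT_pos_AGeo
  have x0 := (xq_mono Q hq le_rfl (i := 0)).1
  have y0 := (xq_mono P hp le_rfl (i := 0)).1
  have x1 := x0.trans hx1
  have y1 := y0.trans hp1
  have x2 := hx2.trans (xq_le_AGeo hQ)
  have y2 := hp2.trans (xq_le_AGeo hP)
  obtain ⟨⟨l2, l3⟩, h2, h3⟩ := cast_AGeo q1 q2 p1 p2
  have hf := f1c_AGeo
  have e0 : (g.sh : ℝ) = (1 + xq Q hq 4 + xq Q hq 4 * xq P hp 4) * TT_AGeo ^ 2 := by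
    refine (Nat.cast_add (f1c + g.h2) g.h3).trans ?_
    rw [Nat.cast_add, hf, h2, h3]
    ring
  clear hg
  unfold errG errG1
  generalize f1c = f at hok hf ⊢
  generalize g.l2 = L2 at l2 ⊢
  generalize g.l3 = L3 at l3 ⊢
  generalize g.h2 = H2 at hok h2 ⊢
  generalize g.h3 = H3 at hok h3 ⊢
  generalize g.sh = sh at e0 ⊢
  have c0 := fun r k => (gg_gv_AGeo (alN r) (beN r) hf l2 l3 k).trans_le
    (gv_mono_AGeo (Nat.cast_nonneg _) (Nat.cast_nonneg _) x0 y0 hx1 hp1 k).2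
  have v1 := fun k => le_trans (Nat.cast_le.2 (lo2_AGeo n m f L2 L3 k).1) (c0 n k)
  have v2 := fun k => le_trans (Nat.cast_le.2 (lo2_AGeo n m f L2 L3 k).2) (c0 m k)
  have c := fun r k => (gv_mono_AGeo (Nat.cast_nonneg (alN r)) (Nat.cast_nonneg (beN r)) x1 y1 hx2
    hp2 k).imp id fun h => h.trans_eq (gg_gv_AGeo _ _ hf h2 h3 k).symm
  have u1 := up_AGeo hok (chv_gv_AGeo hn x p) fun k =>
    ⟨(c n k).1, (c n k).2.trans (Nat.cast_le.2 (hi2_AGeo n m f H2 H3 k).1)⟩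
  have u2 := up_AGeo hok (chv_gv_AGeo hm x p) fun k =>
    ⟨(c m k).1, (c m k).2.trans (Nat.cast_le.2 (hi2_AGeo n m f H2 H3 k).2)⟩
  have a0 : 0 ≤ 3 * 2 ^ 48 * ((1 + x + x * p) * TT_AGeo ^ 2) := by positivity
  have a1 : 3 * 2 ^ 48 * ((1 + x + x * p) * TT_AGeo ^ 2) ≤ 3 * 2 ^ 48 * (sh : ℝ) := by
    have := x1.trans hx2
    rw [e0]
    gcongr
  have a2 : ∀ c : ℕ, 3 * 2 ^ 48 * (sh : ℝ) * |(m : ℝ) - n| * c =
      (Nat.mul (Nat.shiftLeft (Nat.mul (Nat.mul 3 (Nat.sub m n)) sh) 48) c : ℕ) := fun c => by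
    simp only [Nat.mul_eq, Nat.sub_eq, shl_eq, Nat.cast_mul, Nat.cast_sub hnm, Nat.cast_pow,
      Nat.cast_ofNat]
    rw [abs_of_nonneg (sub_nonneg.2 (Nat.cast_le.2 hnm))]
    ring
  have a3 := sub_nonneg.2 x2
  have a4 := sub_nonneg.2 y2
  have a5 := sub_nonneg.2 (mul_le_one₀ x2 y1 y2)
  have c1 : (1 - x) * TT_AGeo ^ 2 ≤ (Nat.sub f L2 : ℕ) := by
    refine le_trans ?_ (le_sub_AGeo _ _)
    rw [hf, l2, ← one_sub_mul]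
    gcongr
  have c2 : (1 - x * p) * TT_AGeo ^ 2 ≤ (Nat.sub f L3 : ℕ) := by
    refine le_trans ?_ (le_sub_AGeo _ _)
    rw [hf, l3, ← one_sub_mul]
    gcongr
  have c3 : x * (1 - p) * TT_AGeo ^ 2 ≤ (Nat.sub H2 (Nat.mul g.q2 g.p1) : ℕ) := by
    refine le_trans ?_ (le_sub_AGeo _ _)
    have e : (H2 : ℝ) - (Nat.mul g.q2 g.p1 : ℕ) = xq Q hq 4 * (1 - xq P hp 0) * TT_AGeo ^ 2 := by
      rw [h2, Nat.mul_eq, Nat.cast_mul, q2, p1]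
      ring
    have := x1.trans hx2
    rw [e]
    gcongr
  have main := seg1 s u1 u2 (vv_nonneg_AGeo _ _ _) (fun k r hkr => (em _).imp
    (zero_AGeo _ _ _ _ _ _ k r hkr) (one_AGeo (chv_gv_AGeo hn x p) (chv_gv_AGeo hm x p) v1 v2
      ⟨cr_AGeo (Or.inr ?_) a0 a1 (mul_nonneg a3 (sq_nonneg _)) c1 (a2 _),
        cr_AGeo (Or.inr ?_) a0 a1 (mul_nonneg a5 (sq_nonneg _)) c2 (a2 _),
        cr_AGeo (Or.inr ?_) a0 a1 (mul_nonneg (mul_nonneg x1 a4) (sq_nonneg _)) c3 (a2 _)⟩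
      k r hkr)) a b
  · have e : chv ((1 - θ) * lamR n + θ * lamR m) (hx x p) =
        lc θ (chv (lamR n) (hx x p)) (chv (lamR m) (hx x p)) := by
      funext k
      simp only [chv, lc]
      ring
    rw [e]
    exact main.mono (fin_AGeo u h1 _ _ _ _ _ _ hs hu)
  all_goals
    simp only [gv_AGeo, Matrix.cons_val_zero, Matrix.cons_val_one, Matrix.cons_val, alN_AGeo,
      beN_AGeo hn, beN_AGeo hm]
    ring

end Vale.Agent.P154
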