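import Vale.Agent.P154.AVtx

/-! TASK AInt: from the grid points to the whole patch.
Plan. `cell_exists`: `x = q^6` lies between `xq Q h 0` and `xq Q h 4`, so in some
`[xq Q h i, xq Q h (i+1)]`, and is a convex combination of the ends (if they coincide take `α = 0`).
`patch_interp`: `avg (hx x p)` is exactly the bilinear interpolation of the corner values. For each
`s < 8`, `errP_sound` gives `aR * (avg - chi) ≥` interpolation `- eaR * errP / (6 * 2^26)` (write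
`aR = ap - am`; use the upper bound of `Near` for `ap` and the lower bound for `am`), `errX_sound`
gives the same for `- bR * (avg - chi (chv ..)) / lam^2` with `ebR`; if `w.u = false` and `s ≥ 6` all
weights vanish (`wOK_sound`). Use `θ ≤ 1` for the first error. `amx_sound`: `1 + cn h =
3 * ∑ h i ^ 2 / (∑ h i)^2`; with `A = amx g / 2^20` every corner satisfies
`3 * ∑ h i ^ 2 ≤ A * (∑ h i)^2` (`cd_ge`), and this condition is preserved by `lc`
(Cauchy-Schwarz: `3 * ∑ u i * v i ≤ A * (∑ u i) * (∑ v i)`), `lc_hx`. `patZ_sound`: `grid_sound` with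
`two = false`, `et = cst (dlt ..)` so that the third error vanishes, `patch_interp` with `θ = 1`. -/

namespace Vale.Agent.P154

open Finset

theorem between_AInt {a b x : ℝ} (h1 : a ≤ x) (h2 : x ≤ b) :
    ∃ α : ℝ, 0 ≤ α ∧ α ≤ 1 ∧ x = (1 - α) * a + α * b := by
  rcases (h1.trans h2).eq_or_lt with h | h
  · exact ⟨0, le_rfl, zero_le_one, by linarith⟩
  · have h3 : 0 < b - a := sub_pos.2 h
    refine ⟨(x - a) / (b - a), div_nonneg (sub_nonneg.2 h1) h3.le,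
      (div_le_one h3).2 (by linarith), ?_⟩
    field_simp
    ring

theorem inB_AInt {Q h : ℕ} {q : ℝ} (hq : InB Q (4 * h) q) :
    xq Q h 0 ≤ q ^ 6 ∧ q ^ 6 ≤ xq Q h 4 := by
  obtain ⟨h1, h2⟩ := hq
  have h0 : (0 : ℝ) ≤ Q := Nat.cast_nonneg Q
  have h3 : ((Q + 0 * h : ℕ) : ℝ) / 2 ^ 20 ≤ q := by
    rw [div_le_iff₀ (by positivity), zero_mul, add_zero]
    exact h1
  have h4 : q ≤ ((Q + 4 * h : ℕ) : ℝ) / 2 ^ 20 := by
    rw [le_div_iff₀ (by positivity), Nat.cast_add]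
    exact h2
  have h5 : (0 : ℝ) ≤ ((Q + 0 * h : ℕ) : ℝ) / 2 ^ 20 := by positivity
  exact ⟨pow_le_pow_left₀ h5 h3 6, pow_le_pow_left₀ (h5.trans h3) h4 6⟩

theorem cell_exists {Q h : ℕ} {q : ℝ} (hq : InB Q (4 * h) q) :
    ∃ i < 4, ∃ α : ℝ, 0 ≤ α ∧ α ≤ 1 ∧ q ^ 6 = (1 - α) * xq Q h i + α * xq Q h (i + 1) := by
  obtain ⟨h0, h4⟩ := inB_AInt hq
  rcases le_total (q ^ 6) (xq Q h 1) with h1 | h1
  · exact ⟨0, by norm_num, between_AInt h0 h1⟩
  rcases le_total (q ^ 6) (xq Q h 2) with h2 | h2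
  · exact ⟨1, by norm_num, between_AInt h1 h2⟩
  rcases le_total (q ^ 6) (xq Q h 3) with h3 | h3
  · exact ⟨2, by norm_num, between_AInt h2 h3⟩
  · exact ⟨3, by norm_num, between_AInt h3 h4⟩

theorem inB_xq {Q h : ℕ} {q : ℝ} (hq : InB Q (4 * h) q) :
    xq Q h 0 ≤ q ^ 6 ∧ q ^ 6 ≤ xq Q h 4 := inB_AInt hq

theorem avg_hx_AInt (x p : ℝ) : avg (hx x p) = (1 + x + x * p) / 3 := by
  rw [avg3]
  rfl

theorem near1_AInt {s : ℕ} {y I e a b : ℝ} (ha : 0 ≤ a) (hb : 0 ≤ b) (h : Near s y I e) :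
    -((if s < 6 then a else a + b) / 2 ^ 32 * e) ≤ (a - b) / 2 ^ 32 * (I - y) := by
  obtain ⟨h1, h2⟩ := h
  have h3 : -((if s < 6 then a else a + b) * e) ≤ (a - b) * (I - y) := by
    have k1 := mul_le_mul_of_nonneg_left h1 ha
    have k2 := mul_le_mul_of_nonneg_left h2 hb
    split_ifs at k2 ⊢ <;> linarith
  linarith

theorem near2_AInt {s : ℕ} {y I e a b : ℝ} (ha : 0 ≤ a) (hb : 0 ≤ b) (h : Near s y I e) :
    -((if s < 6 then b else a + b) / 2 ^ 32 * e) ≤ (a - b) / 2 ^ 32 * (y - I) := by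
  obtain ⟨h1, h2⟩ := h
  have h3 : -((if s < 6 then b else a + b) * e) ≤ (a - b) * (y - I) := by
    have k1 := mul_le_mul_of_nonneg_left h1 hb
    have k2 := mul_le_mul_of_nonneg_left h2 ha
    split_ifs at k2 ⊢ <;> linarith
  linarith

theorem case_AInt (w : Wt) (s : ℕ) : (s < 6 ∨ w.u = true) ∨ (6 ≤ s ∧ w.u = false) := by
  rcases lt_or_ge s 6 with h | h
  · exact Or.inl (Or.inl h)
  · cases hu : w.u
    · exact Or.inr ⟨h, rfl⟩
    · exact Or.inl (Or.inr rfl)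

theorem termA_AInt {w : Wt} (hw : wOK w = true) (l : ℕ) {s : ℕ} (hs : s < 8) {y I e : ℝ}
    (h : s < 6 ∨ w.u = true → Near s y I e) : -(eaR w l s * e) ≤ aR w l s * (I - y) := by
  rcases case_AInt w s with h1 | ⟨h1, h2⟩
  · exact near1_AInt (Nat.cast_nonneg _) (Nat.cast_nonneg _) (h h1)
  · obtain ⟨a, b, -, -⟩ := (wOK_sound hw).2.2.2 h2 s h1 hs l
    simp [eaR, aR, a, b]

theorem termB_AInt {w : Wt} (hw : wOK w = true) (l : ℕ) {s : ℕ} (hs : s < 8) {y I e : ℝ}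
    (h : s < 6 ∨ w.u = true → Near s y I e) : -(ebR w l s * e) ≤ bR w l s * (y - I) := by
  rcases case_AInt w s with h1 | ⟨h1, h2⟩
  · exact near2_AInt (Nat.cast_nonneg _) (Nat.cast_nonneg _) (h h1)
  · obtain ⟨-, -, a, b⟩ := (wOK_sound hw).2.2.2 h2 s h1 hs l
    simp [ebR, bR, a, b]

theorem eaR_nonneg_AInt (w : Wt) (l s : ℕ) : 0 ≤ eaR w l s := by
  unfold eaR
  split_ifs <;> positivity

theorem ebR_nonneg_AInt (w : Wt) (l s : ℕ) : 0 ≤ ebR w l s := by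
  unfold ebR
  split_ifs <;> positivity

theorem lam_ne_AInt {n : ℕ} (h1 : 1 ≤ lsq n) : lamR n ≠ 0 := by
  intro h
  have h2 := lsq_cast n
  have h3 : (1 : ℝ) ≤ lsq n := by exact_mod_cast h1
  rw [h2, h] at h3
  norm_num at h3

theorem XR_comb_AInt (w : Wt) (l : ℕ) (c1 c2 c3 c4 : ℝ) (h h1 h2 h3 h4 : Fin 3 → ℝ)
    (e : avg h = c1 * avg h1 + c2 * avg h2 + c3 * avg h3 + c4 * avg h4) :
    XR w l h - (c1 * XR w l h1 + c2 * XR w l h2 + c3 * XR w l h3 + c4 * XR w l h4) =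
      ∑ s ∈ range 8, aR w l s *
        (c1 * chi s h1 + c2 * chi s h2 + c3 * chi s h3 + c4 * chi s h4 - chi s h) := by
  simp only [XR, sum_range_succ, sum_range_zero, e]
  ring

theorem YR_comb_AInt (w : Wt) (lam : ℝ) (l : ℕ) (c1 c2 c3 c4 : ℝ) (h h1 h2 h3 h4 : Fin 3 → ℝ)
    (e : avg h = c1 * avg h1 + c2 * avg h2 + c3 * avg h3 + c4 * avg h4) :
    c1 * YR w lam l h1 + c2 * YR w lam l h2 + c3 * YR w lam l h3 + c4 * YR w lam l h4 -
      YR w lam l h = (∑ s ∈ range 8, bR w l s * (chi s (chv lam h) -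
        (c1 * chi s (chv lam h1) + c2 * chi s (chv lam h2) + c3 * chi s (chv lam h3) +
          c4 * chi s (chv lam h4)))) / lam ^ 2 := by
  simp only [YR, sum_range_succ, sum_range_zero, e]
  ring

theorem patch_interp {w : Wt} (hw : wOK w = true) {Q hq P hp n : ℕ} (hQ : Q + 4 * hq ≤ 2 ^ 20)
    (hP : P + 4 * hp ≤ 2 ^ 20) (hn : n ≤ 2 ^ 48) (h1 : 1 ≤ lsq n)
    (hok : okX (mkGeo Q hq P hp) (alN n) (beN n) = true) {l : ℕ} {θ E : ℝ} (a : 0 ≤ θ) (b : θ ≤ 1)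
    (H : ∀ i ≤ 4, ∀ j ≤ 4, ER w l (errP w.u Q hq P hp).r
      (errX w.u (mkGeo Q hq P hp) (alN n) (beN n) (dnR n)).r (fun _ => 0) + E ≤
        θ * XR w l (hx (xq Q hq i) (xq P hp j)) - YR w (lamR n) l (hx (xq Q hq i) (xq P hp j)))
    {q p : ℝ} (h2 : InB Q (4 * hq) q) (h3 : InB P (4 * hp) p) :
    E ≤ θ * XR w l (hx (q ^ 6) (p ^ 6)) - YR w (lamR n) l (hx (q ^ 6) (p ^ 6)) := by
  obtain ⟨i, hi, α, a0, a1, ea⟩ := cell_exists h2
  obtain ⟨j, hj, β, b0, b1, eb⟩ := cell_exists h3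
  have hl := lam_ne_AInt h1
  have hl2 : 0 < lamR n ^ 2 := by positivity
  have H1 := H i (by omega) j (by omega)
  have H2 := H i (by omega) (j + 1) (by omega)
  have H3 := H (i + 1) (by omega) j (by omega)
  have H4 := H (i + 1) (by omega) (j + 1) (by omega)
  have HP := fun s (hs : s < 8) hu => errP_sound w.u Q hq P hp hi hj hs hu α β a0 a1 b0 b1
  have HX := fun s (hs : s < 8) hu => errX_sound w.u hQ hP hn h1 hok hi hj hs hu α β a0 a1 b0 b1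
  have hep : ∀ s, 0 ≤ (errP w.u Q hq P hp).r s := fun s => Nat.cast_nonneg _
  rw [ea, eb]
  generalize (errP w.u Q hq P hp).r = ep at H1 H2 H3 H4 HP hep
  generalize (errX w.u (mkGeo Q hq P hp) (alN n) (beN n) (dnR n)).r = ex at H1 H2 H3 H4 HX
  generalize xq Q hq i = x1 at H1 H2 HP HX
  generalize xq Q hq (i + 1) = x2 at H3 H4 HP HX
  generalize xq P hp j = p1 at H1 H3 HP HX
  generalize xq P hp (j + 1) = p2 at H2 H4 HP HX
  have e : avg (hx ((1 - α) * x1 + α * x2) ((1 - β) * p1 + β * p2)) =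
      (1 - α) * (1 - β) * avg (hx x1 p1) + (1 - α) * β * avg (hx x1 p2) +
        α * (1 - β) * avg (hx x2 p1) + α * β * avg (hx x2 p2) := by
    simp only [avg_hx_AInt]
    ring
  have eX := XR_comb_AInt w l _ _ _ _ _ _ _ _ _ e
  have eY := YR_comb_AInt w (lamR n) l _ _ _ _ _ _ _ _ _ e
  generalize hx ((1 - α) * x1 + α * x2) ((1 - β) * p1 + β * p2) = h at eX eY HP HX ⊢
  have kX : -(∑ s ∈ range 8, eaR w l s * ep s) / (6 * 2 ^ 26) ≤ ∑ s ∈ range 8, aR w l s *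
      ((1 - α) * (1 - β) * chi s (hx x1 p1) + (1 - α) * β * chi s (hx x1 p2) +
        α * (1 - β) * chi s (hx x2 p1) + α * β * chi s (hx x2 p2) - chi s h) := by
    rw [← sum_neg_distrib, sum_div]
    refine sum_le_sum fun s hs => ?_
    have k := termA_AInt hw l (mem_range.1 hs) (HP s (mem_range.1 hs))
    simp only [id] at k
    refine le_trans (le_of_eq (by ring)) (k.trans (le_of_eq (by ring)))
  have kY : -(∑ s ∈ range 8, ebR w l s * ex s) / (6 * 2 ^ 26) * lamR n ^ 2 ≤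
      ∑ s ∈ range 8, bR w l s * (chi s (chv (lamR n) h) -
      ((1 - α) * (1 - β) * chi s (chv (lamR n) (hx x1 p1)) +
        (1 - α) * β * chi s (chv (lamR n) (hx x1 p2)) +
        α * (1 - β) * chi s (chv (lamR n) (hx x2 p1)) +
        α * β * chi s (chv (lamR n) (hx x2 p2)))) := by
    rw [← sum_neg_distrib, sum_div, sum_mul]
    refine sum_le_sum fun s hs => ?_
    have k := termB_AInt hw l (mem_range.1 hs) (HX s (mem_range.1 hs))
    refine le_trans (le_of_eq (by ring)) (k.trans (le_of_eq (by ring)))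
  rw [← le_div_iff₀ hl2, ← eY] at kY
  rw [← eX] at kX
  have hs : 0 ≤ (∑ s ∈ range 8, eaR w l s * ep s) / (6 * 2 ^ 26) :=
    div_nonneg (sum_nonneg fun s _ => mul_nonneg (eaR_nonneg_AInt w l s) (hep s)) (by positivity)
  have eE : ER w l ep ex (fun _ => 0) = (∑ s ∈ range 8, eaR w l s * ep s) / (6 * 2 ^ 26) +
      (∑ s ∈ range 8, ebR w l s * ex s) / (6 * 2 ^ 26) := by
    simp only [ER, mul_zero, sum_const_zero]
    ring
  rw [eE] at H1 H2 H3 H4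
  rw [neg_div] at kX kY
  generalize (∑ s ∈ range 8, eaR w l s * ep s) / (6 * 2 ^ 26) = A at H1 H2 H3 H4 kX hs
  generalize (∑ s ∈ range 8, ebR w l s * ex s) / (6 * 2 ^ 26) = B at H1 H2 H3 H4 kY
  have a2 : 0 ≤ 1 - α := sub_nonneg.2 a1
  have b2 : 0 ≤ 1 - β := sub_nonneg.2 b1
  have m1 := mul_le_mul_of_nonneg_left H1 (mul_nonneg a2 b2)
  have m2 := mul_le_mul_of_nonneg_left H2 (mul_nonneg a2 b0)
  have m3 := mul_le_mul_of_nonneg_left H3 (mul_nonneg a0 b2)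
  have m4 := mul_le_mul_of_nonneg_left H4 (mul_nonneg a0 b0)
  have m5 := mul_le_mul_of_nonneg_left kX a
  have m6 := mul_le_mul_of_nonneg_right b hs
  linarith

theorem ca1_AInt {X Y : ℕ} {x y : ℝ} (hX : (X : ℝ) = f1c * x) (hY : (Y : ℝ) = f1c * y) :
    3 * (1 + x ^ 2 + y ^ 2) ≤ (ca1 X Y : ℝ) / 2 ^ 20 * (1 + x + y) ^ 2 := by
  have hf : 0 < f1c := by
    rw [f1c, shl_eq, one_mul]
    positivity
  have e : ca1 X Y = cd (Nat.shiftLeft (3 * (f1c * f1c + X * X + Y * Y)) 20)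
      ((f1c + X + Y) ^ 2) := rfl
  rw [e]
  generalize f1c = c at hf hX hY
  have h := cd_ge (Nat.shiftLeft (3 * (c * c + X * X + Y * Y)) 20) (d := (c + X + Y) ^ 2)
    (by positivity)
  generalize (cd (Nat.shiftLeft (3 * (c * c + X * X + Y * Y)) 20) ((c + X + Y) ^ 2) : ℝ) = A at h
  have hc : (0 : ℝ) < c := Nat.cast_pos.2 hf
  rw [shl_eq, div_le_iff₀ (by positivity)] at h
  push_cast at h
  rw [hX, hY] at h
  have h2 : (c : ℝ) ^ 2 * (3 * (1 + x ^ 2 + y ^ 2)) ≤ c ^ 2 * (A / 2 ^ 20 * (1 + x + y) ^ 2) := by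
    linarith
  exact le_of_mul_le_mul_left h2 (by positivity)

theorem cvx_AInt {A θ x y x' y' : ℝ} (hA : 0 ≤ A) (a : 0 ≤ θ) (b : θ ≤ 1) (s1 : 0 ≤ 1 + x + y)
    (s2 : 0 ≤ 1 + x' + y') (h1 : 3 * (1 + x ^ 2 + y ^ 2) ≤ A * (1 + x + y) ^ 2)
    (h2 : 3 * (1 + x' ^ 2 + y' ^ 2) ≤ A * (1 + x' + y') ^ 2) :
    3 * (1 + ((1 - θ) * x + θ * x') ^ 2 + ((1 - θ) * y + θ * y') ^ 2) ≤
      A * (1 + ((1 - θ) * x + θ * x') + ((1 - θ) * y + θ * y')) ^ 2 := by
  have h3 : 3 * (1 + x * x' + y * y') ≤ A * ((1 + x + y) * (1 + x' + y')) := by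
    refine le_of_sq_le_sq ?_ (by positivity)
    have k := mul_le_mul h1 h2 (by positivity) (by positivity)
    nlinarith [sq_nonneg (x - x'), sq_nonneg (y - y'), sq_nonneg (x * y' - y * x')]
  have c : 0 ≤ 1 - θ := sub_nonneg.2 b
  have k1 := mul_le_mul_of_nonneg_left h1 (mul_nonneg c c)
  have k2 := mul_le_mul_of_nonneg_left h2 (mul_nonneg a a)
  have k3 := mul_le_mul_of_nonneg_left h3 (mul_nonneg a c)
  linarith

theorem cn_hx_AInt {x p : ℝ} (h1 : 0 ≤ x) (h2 : 0 ≤ p) :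
    1 + cn (hx x p) = 3 * (1 + x ^ 2 + (x * p) ^ 2) / (1 + x + x * p) ^ 2 := by
  have h3 : 0 < 1 + x + x * p := by positivity
  rw [cn, ca, avg3, avg_hx_AInt]
  change 1 + ((1 / ((1 + x + x * p) / 3) - 1) ^ 2 + (x / ((1 + x + x * p) / 3) - 1) ^ 2 +
    (x * p / ((1 + x + x * p) / 3) - 1) ^ 2) / 3 = _
  field_simp
  ring

theorem p6_AInt (Q h i : ℕ) : (p6 (Q + i * h) : ℝ) = 2 ^ 120 * xq Q h i := by
  change (((Q + i * h) ^ 6 : ℕ) : ℝ) = _
  rw [xq, Nat.cast_pow, div_pow, ← pow_mul]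
  field_simp

theorem corner_AInt {a b : ℕ} {x p : ℝ} (ha : (a : ℝ) = 2 ^ 120 * x) (hb : (b : ℝ) = 2 ^ 120 * p) :
    3 * (1 + x ^ 2 + (x * p) ^ 2) ≤
      (ca1 (Nat.shiftLeft a 120) (Nat.mul a b) : ℝ) / 2 ^ 20 * (1 + x + x * p) ^ 2 := by
  have hf : (f1c : ℝ) = 2 ^ 120 * 2 ^ 120 := by
    rw [f1c, shl_eq, one_mul, Nat.cast_pow, Nat.cast_ofNat, ← pow_add]
  refine ca1_AInt ?_ ?_
  · rw [shl_eq, Nat.cast_mul, Nat.cast_pow, Nat.cast_ofNat, ha, hf]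
    ring
  · rw [Nat.mul_eq, Nat.cast_mul, ha, hb, hf]
    ring

theorem amx_sound {Q hq P hp : ℕ} {q p : ℝ} (h2 : InB Q (4 * hq) q) (h3 : InB P (4 * hp) p) :
    1 + cn (hx (q ^ 6) (p ^ 6)) ≤ (amx (mkGeo Q hq P hp) : ℝ) / 2 ^ 20 := by
  have q0 : 0 ≤ q ^ 6 := by positivity
  have p0 : 0 ≤ p ^ 6 := by positivity
  rw [cn_hx_AInt q0 p0, div_le_iff₀ (by positivity)]
  obtain ⟨α, a0, a1, ea⟩ := between_AInt (inB_xq h2).1 (inB_xq h2).2
  obtain ⟨β, b0, b1, eb⟩ := between_AInt (inB_xq h3).1 (inB_xq h3).2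
  have e1 : (p6 Q : ℝ) = 2 ^ 120 * xq Q hq 0 := by simpa using p6_AInt Q hq 0
  have e2 : (p6 P : ℝ) = 2 ^ 120 * xq P hp 0 := by simpa using p6_AInt P hp 0
  have c1 := corner_AInt e1 e2
  have c2 := corner_AInt e1 (p6_AInt P hp 4)
  have c3 := corner_AInt (p6_AInt Q hq 4) e2
  have c4 := corner_AInt (p6_AInt Q hq 4) (p6_AInt P hp 4)
  have e : amx (mkGeo Q hq P hp) =
      nmax (nmax (ca1 (Nat.shiftLeft (p6 Q) 120) (Nat.mul (p6 Q) (p6 P)))
        (ca1 (Nat.shiftLeft (p6 Q) 120) (Nat.mul (p6 Q) (p6 (P + 4 * hp)))))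
      (nmax (ca1 (Nat.shiftLeft (p6 (Q + 4 * hq)) 120) (Nat.mul (p6 (Q + 4 * hq)) (p6 P)))
        (ca1 (Nat.shiftLeft (p6 (Q + 4 * hq)) 120)
          (Nat.mul (p6 (Q + 4 * hq)) (p6 (P + 4 * hp))))) := rfl
  rw [e]
  generalize ca1 (Nat.shiftLeft (p6 Q) 120) (Nat.mul (p6 Q) (p6 P)) = A1 at c1 ⊢
  generalize ca1 (Nat.shiftLeft (p6 Q) 120) (Nat.mul (p6 Q) (p6 (P + 4 * hp))) = A2 at c2 ⊢
  generalize ca1 (Nat.shiftLeft (p6 (Q + 4 * hq)) 120) (Nat.mul (p6 (Q + 4 * hq)) (p6 P)) = A3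
    at c3 ⊢
  generalize ca1 (Nat.shiftLeft (p6 (Q + 4 * hq)) 120)
    (Nat.mul (p6 (Q + 4 * hq)) (p6 (P + 4 * hp))) = A4 at c4 ⊢
  simp only [nmax_eq]
  have up : ∀ {B : ℕ} {u v : ℝ}, B ≤ max (max A1 A2) (max A3 A4) → u ≤ (B : ℝ) / 2 ^ 20 * v ^ 2 →
      u ≤ ((max (max A1 A2) (max A3 A4) : ℕ) : ℝ) / 2 ^ 20 * v ^ 2 := by
    intro B u v hB h
    refine h.trans (mul_le_mul_of_nonneg_right ?_ (sq_nonneg v))
    exact div_le_div_of_nonneg_right (Nat.cast_le.2 hB) (by positivity)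
  have d1 := up (by omega) c1
  have d2 := up (by omega) c2
  have d3 := up (by omega) c3
  have d4 := up (by omega) c4
  have hA : (0 : ℝ) ≤ ((max (max A1 A2) (max A3 A4) : ℕ) : ℝ) / 2 ^ 20 := by positivity
  generalize ((max (max A1 A2) (max A3 A4) : ℕ) : ℝ) / 2 ^ 20 = A at d1 d2 d3 d4 hA ⊢
  have x1 := (xq_mono Q hq (le_refl 0)).1
  have x2 := (xq_mono Q hq (le_refl 4)).1
  have y1 := (xq_mono P hp (le_refl 0)).1
  have y2 := (xq_mono P hp (le_refl 4)).1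
  rw [eb] at p0
  rw [ea, eb]
  generalize xq Q hq 0 = u1 at *
  generalize xq Q hq 4 = u2 at *
  generalize xq P hp 0 = v1 at *
  generalize xq P hp 4 = v2 at *
  have f1 := cvx_AInt hA b0 b1 (by positivity) (by positivity) d1 d2
  have f2 := cvx_AInt hA b0 b1 (by positivity) (by positivity) d3 d4
  rw [show (1 - β) * u1 + β * u1 = u1 by ring,
    show (1 - β) * (u1 * v1) + β * (u1 * v2) = u1 * ((1 - β) * v1 + β * v2) by ring] at f1
  rw [show (1 - β) * u2 + β * u2 = u2 by ring,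
    show (1 - β) * (u2 * v1) + β * (u2 * v2) = u2 * ((1 - β) * v1 + β * v2) by ring] at f2
  generalize (1 - β) * v1 + β * v2 = v at *
  have f3 := cvx_AInt hA a0 a1 (by positivity) (by positivity) f1 f2
  rwa [show (1 - α) * (u1 * v) + α * (u2 * v) = ((1 - α) * u1 + α * u2) * v by ring] at f3

theorem ER_add (w : Wt) (l : ℕ) (a b c a' b' c' : ℕ → ℝ) :
    ER w l (fun s => a s + a' s) (fun s => b s + b' s) (fun s => c s + c' s) =
      ER w l a b c + ER w l a' b' c' := by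
  simp only [ER, mul_add, sum_add_distrib]
  ring

theorem ER_congr (w : Wt) (l : ℕ) {a b c a' b' c' : ℕ → ℝ}
    (h : ∀ s < 8, a s = a' s ∧ b s = b' s ∧ c s = c' s) : ER w l a b c = ER w l a' b' c' := by
  unfold ER
  rw [sum_congr rfl fun s hs => congrArg (eaR w l s * ·) (h s (mem_range.1 hs)).1,
    sum_congr rfl fun s hs => congrArg (ebR w l s * ·) (h s (mem_range.1 hs)).2.1,
    sum_congr rfl fun s hs => congrArg (abR w l s * ·) (h s (mem_range.1 hs)).2.2]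

theorem patZ_sound {w : Wt} (hw : wOK w = true) {Q hq P hp n : ℕ} (hQ : Q + 4 * hq ≤ 2 ^ 20)
    (hP : P + 4 * hp ≤ 2 ^ 20) (hn : n ≤ 2 ^ 48)
    (h : patZ (mkCtx w) Q hq P hp n (mkGeo Q hq P hp) = true) :
    OutAll w Q (4 * hq) P (4 * hp) n n := by
  obtain ⟨h1, h2⟩ := (band_iff _ _).1 h
  obtain ⟨h2, h3⟩ := (band_iff _ _).1 h2
  have h1' : 1 ≤ lsq n := Nat.le_of_ble_eq_true h1
  intro q p lam hq' hp' l1 l2 _ l hl
  obtain rfl : lam = lamR n := le_antisymm l2 l1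
  have key := patch_interp hw hQ hP hn h1' h2 (l := l) (θ := 1) (E := 0) zero_le_one le_rfl
    (fun i hi j hj => by
      have k := (grid_sound hw hQ hP hn hn h1' h1' h3 hl hi hj).1.1
      rw [add_zero, one_mul]
      refine le_of_eq_of_le (ER_congr w l fun s hs => ⟨rfl, rfl, ?_⟩) k
      change (0 : ℝ) = ((cst (dlt w.u (dnR n))).at s : ℝ) - dlt w.u (dnR n)
      rw [cst_at _ hs, sub_self]) hq' hp'
  linarith

end Vale.Agent.P154
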