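import Vale.Agent.P154.ADef

/-! TASK ANf: the functions `Nf d`.
Plan. `Nf_tangent`: for `d = 0` it is `exp (-v) ≥ exp (-t) * (1 + (t - v))` (`Real.add_one_le_exp`);
for `d ≥ 1` it is `y^d ≥ x^d + d * x^(d-1) * (y - x)` for `x, y ≥ 0` (induction on `d`, or Bernoulli
`one_add_mul_le_pow`, or convexity of powers). `Nf_conc` follows from the tangent inequality at the
middle point. `Nf_anti`: `(1 - v/d)^d` increases in `d` for `0 ≤ v ≤ d` (weighted AM-GM or Bernoulli: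
`(1 - v/d)^d ≤ (1 - v/(d+1))^(d+1)`, then induction) and is at most `exp (-v)`
(`Real.one_sub_le_exp_neg`, `Real.exp_nat_mul`). `rho`: upper bound from
`(1 - x)^n ≤ 1 - n x + n (n - 1) x^2 / 2` on `[0, 1]` (induction); lower bound from the tangent at
`t`: with `E = Ef d t`, `v - Nf d v ≥ v * (1 - E) - (1 - E * (1 + sgm d * t))`,
`1 - E ≥ σ t (1 - t / 2)`, and `(1 - x)^n * (1 + n x) ≥ 1 - (n + 1) n x^2 / 2` (induction). For
Poisson: `exp (-v) ≤ 1 - v + v^2 / 2` and `exp (-t) * (1 + t) ≥ 1 - t^2 / 2` for `v, t ≥ 0`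
(monotonicity via derivatives, or `Real.quadratic_le_exp_of_nonneg`, `Real.sum_le_exp_of_nonneg`).
Generating functions: see `off_reg`, `bri_poi_sum` in `Bridge.lean`. -/

namespace Vale.Agent.P154

theorem exp_neg_le {x : ℝ} (h : 0 ≤ x) : Real.exp (-x) ≤ 1 - x + x ^ 2 / 2 := by
  have h1 := Real.quadratic_le_exp_of_nonneg h
  rw [Real.exp_neg, inv_le_iff_one_le_mul₀ (Real.exp_pos x)]
  have h2 : 0 ≤ 1 - x + x ^ 2 / 2 := by nlinarith [sq_nonneg (x - 1)]
  nlinarith [mul_le_mul_of_nonneg_left h1 h2, sq_nonneg (x ^ 2)]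


theorem le_exp_neg {x : ℝ} (h : 0 ≤ x) : 1 - x + x ^ 2 / 2 - x ^ 3 / 6 ≤ Real.exp (-x) := by
  have hd : ∀ y : ℝ, HasDerivAt (fun y : ℝ => Real.exp (-y) - (1 - y + y ^ 2 / 2 - y ^ 3 / 6))
      (1 - y + y ^ 2 / 2 - Real.exp (-y)) y := fun y =>
    ((hasDerivAt_neg y).exp.sub (((((hasDerivAt_id' y).const_sub 1).add
      ((hasDerivAt_pow 2 y).div_const 2))).sub ((hasDerivAt_pow 3 y).div_const 6))).congr_deriv
      (by push_cast; ring)
  have h1 := monotoneOn_of_deriv_nonneg (convex_Ici (0 : ℝ))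
    (fun y _ => (hd y).continuousAt.continuousWithinAt)
    (fun y _ => (hd y).differentiableAt.differentiableWithinAt)
    (fun y hy => by
      rw [(hd y).deriv]
      exact sub_nonneg.2 (exp_neg_le (interior_subset hy))) Set.self_mem_Ici h h
  simp only [neg_zero, Real.exp_zero] at h1
  linarith


theorem tan_ANf {x y : ℝ} (hx : 0 ≤ x) (hy : 0 ≤ y) (n : ℕ) :
    x ^ (n + 1) + (n + 1) * x ^ n * (y - x) ≤ y ^ (n + 1) := by
  induction n with
  | zero => simp
  | succ n ih =>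
    have h1 := mul_le_mul_of_nonneg_right ih hy
    have h2 : 0 ≤ (n + 1) * x ^ n * (y - x) ^ 2 := by positivity
    rw [pow_succ y (n + 1)]
    refine le_trans ?_ h1
    push_cast
    rw [pow_succ x (n + 1), pow_succ x n]
    nlinarith

theorem up_ANf {x : ℝ} (h0 : 0 ≤ x) (h1 : x ≤ 1) (n : ℕ) :
    (1 - x) ^ n ≤ 1 - n * x + n * (n - 1) * x ^ 2 / 2 := by
  induction n with
  | zero => simp
  | succ n ih =>
    have h2 := mul_le_mul_of_nonneg_right ih (sub_nonneg.2 h1)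
    have h3 : (0 : ℝ) ≤ n * (n - 1) := by
      rcases Nat.eq_zero_or_pos n with rfl | h
      · simp
      · exact mul_nonneg n.cast_nonneg (sub_nonneg.2 (by exact_mod_cast h))
    rw [pow_succ]
    push_cast
    nlinarith [mul_nonneg h3 (pow_nonneg h0 3)]

theorem low_ANf {x : ℝ} (h0 : 0 ≤ x) (h1 : x ≤ 1) (n : ℕ) :
    1 - (n + 1) * n * x ^ 2 / 2 ≤ (1 - x) ^ n * (1 + n * x) := by
  induction n with
  | zero => simp
  | succ n ih =>
    have h2 : (1 - x) ^ n ≤ 1 := pow_le_one₀ (sub_nonneg.2 h1) (by linarith)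
    have h3 : 0 ≤ ((n : ℝ) + 1) * x ^ 2 := by positivity
    rw [pow_succ (1 - x)]
    push_cast
    nlinarith [mul_le_mul_of_nonneg_left h2 h3]

theorem eq_ANf (d : ℕ) (t : ℝ) : Nf d t = 1 - Ef d t * (1 + sgm d * t) + Ef d t * t := by
  cases d with
  | zero =>
    simp only [Nf, Ef, sgm, if_true]
    ring
  | succ n =>
    simp only [Nf, Ef, sgm, if_neg n.succ_ne_zero, Nat.add_sub_cancel]
    ring

theorem Nf_tangent (d : ℕ) {t v : ℝ} (ht : d = 0 ∨ t ≤ d) (hv : d = 0 ∨ v ≤ d) :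
    Nf d v ≤ 1 - Ef d t * (1 + sgm d * t) + Ef d t * v := by
  cases d with
  | zero =>
    simp only [Nf, Ef, sgm, if_true]
    have h1 := mul_le_mul_of_nonneg_left (Real.add_one_le_exp (t - v)) (Real.exp_pos (-t)).le
    rw [← Real.exp_add, show -t + (t - v) = -v by ring] at h1
    linarith
  | succ n =>
    have h0 : (0 : ℝ) < (n + 1 : ℕ) := by positivity
    have h1 := tan_ANf (x := 1 - t / (n + 1 : ℕ)) (y := 1 - v / (n + 1 : ℕ))
      (sub_nonneg.2 ((div_le_one h0).2 (ht.resolve_left n.succ_ne_zero)))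
      (sub_nonneg.2 ((div_le_one h0).2 (hv.resolve_left n.succ_ne_zero))) n
    simp only [Nf, Ef, sgm, if_neg n.succ_ne_zero, Nat.add_sub_cancel]
    refine (sub_le_sub_left h1 1).trans_eq ?_
    rw [pow_succ]
    generalize (1 - t / ((n + 1 : ℕ) : ℝ)) ^ n = E
    push_cast
    field_simp
    ring


theorem Nf_conc (d : ℕ) {x y θ : ℝ} (hx : d = 0 ∨ x ≤ d) (hy : d = 0 ∨ y ≤ d) (a : 0 ≤ θ)
    (b : θ ≤ 1) : (1 - θ) * Nf d x + θ * Nf d y ≤ Nf d ((1 - θ) * x + θ * y) := by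
  have ht : d = 0 ∨ (1 - θ) * x + θ * y ≤ d := by
    rcases hx with hx | hx
    · exact Or.inl hx
    · rcases hy with hy | hy
      · exact Or.inl hy
      · exact Or.inr (by nlinarith)
  have h1 := mul_le_mul_of_nonneg_left (Nf_tangent d ht hx) (sub_nonneg.2 b)
  have h2 := mul_le_mul_of_nonneg_left (Nf_tangent d ht hy) a
  rw [eq_ANf d ((1 - θ) * x + θ * y)]
  linarith


theorem Nf_anti {d e : ℕ} (hd : 1 ≤ d) (he : e = 0 ∨ d ≤ e) {v : ℝ} (h0 : 0 ≤ v) (h1 : v ≤ d) :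
    Nf e v ≤ Nf d v := by
  have hd0 : d ≠ 0 := by omega
  rcases he with rfl | he
  · simp only [Nf, if_true, if_neg hd0]
    exact sub_le_sub_left (Real.one_sub_div_pow_le_exp_neg h1) 1
  · induction e, he using Nat.le_induction with
    | base => exact le_rfl
    | succ e he ih =>
      refine le_trans ?_ ih
      have e0 : (0 : ℝ) < e := by exact_mod_cast (by omega : 0 < e)
      have e1 : (d : ℝ) ≤ e := by exact_mod_cast he
      have h2 := tan_ANf (x := 1 - v / e) (y := 1 - v / (e + 1 : ℕ))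
        (sub_nonneg.2 ((div_le_one e0).2 (h1.trans e1)))
        (sub_nonneg.2 ((div_le_one (by positivity)).2 (by push_cast; linarith))) e
      simp only [Nf, if_neg e.succ_ne_zero, if_neg (show e ≠ 0 by omega)]
      refine sub_le_sub_left (le_of_eq_of_le ?_ h2) 1
      rw [pow_succ]
      generalize (1 - v / (e : ℝ)) ^ e = E
      push_cast
      field_simp
      ring


theorem compat_reg {d dl du : ℕ} (h1 : 1 ≤ du) (h2 : du ≤ d) (h3 : dl = 0 ∨ d ≤ dl) :
    Compat (Nf d) dl du := by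
  intro v h0 hv
  have h4 : v ≤ du := hv.resolve_left (by omega)
  exact ⟨Nf_anti (h1.trans h2) h3 h0 (h4.trans (by exact_mod_cast h2)),
    Nf_anti h1 (Or.inr h2) h0 h4⟩


theorem compat_poi (du : ℕ) : Compat (Nf 0) 0 du := by
  intro v h0 hv
  refine ⟨le_rfl, ?_⟩
  rcases Nat.eq_zero_or_pos du with rfl | h
  · exact le_rfl
  · exact Nf_anti h (Or.inl rfl) h0 (hv.resolve_left h.ne')


theorem rho_reg {d : ℕ} (hd : 2 ≤ d) {lam : ℝ} (h : (d : ℝ) * lam ^ 2 = 1) :
    Rho lam (Nf d) (sgm d) := by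
  obtain ⟨n, rfl⟩ : ∃ n, d = n + 1 := ⟨d - 1, by omega⟩
  have n1 : (1 : ℝ) ≤ n := by exact_mod_cast (by omega : 1 ≤ n)
  have h0 : (0 : ℝ) < (n + 1 : ℕ) := by positivity
  have hs : sgm (n + 1) = n / (n + 1) := by
    rw [sgm, if_neg n.succ_ne_zero]
    push_cast
    field_simp
    ring
  refine ⟨by rw [hs]; positivity, by rw [hs, div_le_one (by positivity)]; linarith,
    fun v v0 v1 => ?_⟩
  have v2 : v ≤ (n + 1 : ℕ) := by nlinarith [mul_le_mul_of_nonneg_left v1 h0.le]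
  refine ⟨?_, fun t t0 t1 => ?_⟩
  · have h1 := up_ANf (div_nonneg v0 h0.le) ((div_le_one h0).2 v2) (n + 1)
    rw [Nf, if_neg n.succ_ne_zero, hs]
    refine (sub_le_sub_left (sub_le_sub_left h1 1) v).trans_eq ?_
    push_cast
    field_simp
    ring
  · have t2 : t ≤ (n + 1 : ℕ) := by push_cast; linarith
    have h1 := Nf_tangent (n + 1) (Or.inr t2) (Or.inr v2)
    have h2 := up_ANf (div_nonneg t0 h0.le) ((div_le_one h0).2 t2) n
    have h3 := low_ANf (div_nonneg t0 h0.le) ((div_le_one h0).2 t2) n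
    rw [Ef, if_neg n.succ_ne_zero, Nat.add_sub_cancel] at h1
    rw [hs] at h1 ⊢
    obtain ⟨x, hx⟩ : ∃ x, x = t / ((n + 1 : ℕ) : ℝ) := ⟨_, rfl⟩
    rw [← hx] at h1 h2 h3
    have x0 : 0 ≤ x := hx ▸ div_nonneg t0 h0.le
    have e1 : t = (n + 1) * x := by rw [hx]; push_cast; field_simp
    have e2 : (n : ℝ) / (n + 1) * t = n * x := by rw [e1]; field_simp
    have e3 : (n : ℝ) / (n + 1) * ((1 - t / 2) * t * v - t ^ 2 / 2) =
        n * x * (1 - (n + 1) * x / 2) * v - (n + 1) * n * x ^ 2 / 2 := by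
      rw [e1]; field_simp
    rw [e2] at h1
    rw [e3]
    have h4 : n * x * (1 - (n + 1) * x / 2) ≤ 1 - (1 - x) ^ n := by
      nlinarith [mul_nonneg (zero_le_one.trans n1) (sq_nonneg x)]
    nlinarith [mul_le_mul_of_nonneg_right h4 v0]


theorem rho_poi (lam : ℝ) : Rho lam (Nf 0) 1 := by
  refine ⟨one_pos, le_rfl, fun v v0 _ => ⟨?_, fun t t0 t1 => ?_⟩⟩
  · simp only [Nf, if_true]
    linarith [exp_neg_le v0]
  · have h1 := Nf_tangent 0 (t := t) (v := v) (Or.inl rfl) (Or.inl rfl)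
    simp only [Ef, sgm, if_true] at h1
    have h2 := mul_le_mul_of_nonneg_right (exp_neg_le t0) v0
    have h3 := mul_le_mul_of_nonneg_right (le_exp_neg t0) (add_nonneg zero_le_one t0)
    nlinarith [mul_nonneg (pow_nonneg t0 3) (sub_nonneg.2 t1), pow_nonneg t0 3]


theorem continuous_Nf (d : ℕ) : Continuous (Nf d) := by
  unfold Nf
  split_ifs <;> fun_prop


theorem gen_reg {d : ℕ} (hd : 1 ≤ d) {lam : ℝ} (h : (d : ℝ) * lam ^ 2 = 1) (v : ℝ) :
    HasSum (fun k : ℕ => regOff d k * (1 - lam ^ 2 * v) ^ k) (1 - Nf d v) := by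
  have h0 : (d : ℝ) ≠ 0 := by exact_mod_cast (by omega : d ≠ 0)
  have h1 := hasSum_single (f := fun k => regOff d k * (1 - lam ^ 2 * v) ^ k) d
    fun k hk => by simp [regOff, hk]
  have e : lam ^ 2 * v = v / d := by
    rw [eq_div_iff h0]
    linear_combination v * h
  rw [Nf, if_neg (by omega), sub_sub_cancel, ← e]
  simpa only [regOff, if_true, one_mul] using h1


theorem gen_poi {lam : ℝ} (h : lam ≠ 0) (v : ℝ) :
    HasSum (fun k : ℕ => poiOff (1 / lam ^ 2) k * (1 - lam ^ 2 * v) ^ k) (1 - Nf 0 v) := by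
  have h1 : HasSum (fun k : ℕ => (1 / lam ^ 2 * (1 - lam ^ 2 * v)) ^ k / (k.factorial : ℝ))
      (Real.exp (1 / lam ^ 2 * (1 - lam ^ 2 * v))) := by
    rw [Real.exp_eq_exp_ℝ]
    exact NormedSpace.expSeries_div_hasSum_exp _
  have h2 := h1.mul_left (Real.exp (-(1 / lam ^ 2)))
  rw [← Real.exp_add, show -(1 / lam ^ 2) + 1 / lam ^ 2 * (1 - lam ^ 2 * v) = -v by
    field_simp; ring] at h2
  rw [Nf, if_pos rfl, sub_sub_cancel]
  refine h2.congr_fun fun k => ?_
  rw [poiOff, mul_pow]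
  ring


end Vale.Agent.P154
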