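import Vale.Agent.P154.ABase
import Vale.Agent.P154.ANf

/-! TASK ATree: soundness of the search tree.
Plan. `pwr_le`, `le_pwr`: induction on the fuel `k` (generalising `n`), `n = 2 * (n / 2) + n % 2`,
`shr_le`, `lt_shr`; `o7 = 2^128`. For `d = 0` the base approximates `exp (-v / 2^44)`
(`exp_neg_le`, `le_exp_neg`; `ex2 v = 2^128 * (1 - x + x^2 / 2)` exactly for `x = v / 2^44 ≤ 1`) and
`exp (-x) ^ 4096 = exp (-v / 2^32)`; for `d ≥ 1` the base is `1 - v / 2^32 / d ≥ 0`. Truncated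
subtraction: `(a - b : ℕ) ≥ a - b` always, and `(a - b : ℕ) ≤ y` if `a - b ≤ y` and `0 ≤ y`.
`hS_sound`: with `T`, `E` as in `hS`, `Nf du x * 2^128 ≤ T + E * x` by `Nf_tangent` (needed only if
`ap ≠ 0`); the function `x ↦ ap * (T + E x) + bm * x - am * Nf dl x - bp * x` lies below its chord
on `[lo, hi]` by `Nf_conc` (needed only if `am ≠ 0`; then `hi ≤ du ≤ dl` or `dl = 0`), so below the
larger end value, and `nL_le` bounds the end values by `hV - big`. `lf_sound`: sum over `s`, use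
`Fix.lin` with `aR`, `bR`, `cR` and `Compat`; contradiction with the last test of `lfOK`.
`go_sound`: induction on the tree, `V s * 2^32 ≤ m` or `m ≤ V s * 2^32` (if `s ≥ 8` nothing
changes), keep `lo, hi ≤ 2^37`. -/

namespace Vale.Agent.P154

open Finset

theorem o7_ATree : (o7 : ℝ) = 2 ^ 128 := by norm_num [o7]

theorem sub_le_ATree {a b : ℕ} {y : ℝ} (h0 : 0 ≤ y) (h : (a : ℝ) - b ≤ y) :
    (Nat.sub a b : ℝ) ≤ y := by
  change ((a - b : ℕ) : ℝ) ≤ y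
  rcases le_total a b with h1 | h1
  · rwa [Nat.sub_eq_zero_of_le h1, Nat.cast_zero]
  · rwa [Nat.cast_sub h1]

theorem le_sub_ATree (a b : ℕ) : (a : ℝ) - b ≤ (Nat.sub a b : ℝ) := by
  change _ ≤ ((a - b : ℕ) : ℝ)
  rcases le_total a b with h1 | h1
  · rw [Nat.sub_eq_zero_of_le h1, Nat.cast_zero]
    exact sub_nonpos.2 (Nat.cast_le.2 h1)
  · rw [Nat.cast_sub h1]

theorem sh7_le_ATree {a b : ℕ} {y z : ℝ} (ha : (a : ℝ) ≤ y * 2 ^ 128) (hb : (b : ℝ) ≤ z * 2 ^ 128) :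
    (sh7 0 (Nat.mul a b) : ℝ) ≤ y * z * 2 ^ 128 := by
  refine (shr_le (a * b) 128).trans ?_
  rw [div_le_iff₀ (by positivity), Nat.cast_mul]
  refine (mul_le_mul ha hb (Nat.cast_nonneg _) ((Nat.cast_nonneg _).trans ha)).trans_eq ?_
  ring

theorem le_sh7_ATree {a b : ℕ} {y z : ℝ} (hz : 0 ≤ z) (ha : y * 2 ^ 128 ≤ a)
    (hb : z * 2 ^ 128 ≤ b) : y * z * 2 ^ 128 ≤ sh7 1 (Nat.mul a b) := by
  have h := lt_shr (a * b) 128
  have e : (sh7 1 (Nat.mul a b) : ℝ) = Nat.shiftRight (a * b) 128 + 1 := Nat.cast_succ _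
  rw [e]
  refine le_trans ?_ h.le
  rw [le_div_iff₀ (by positivity), Nat.cast_mul]
  refine le_of_eq_of_le ?_ (mul_le_mul ha hb (by positivity) (Nat.cast_nonneg _))
  ring

theorem pwr_succ_ATree (r x k n : ℕ) : pwr r x (k + 1) n = if n = 0 then o7 else
    if n % 2 = 0 then sq7 r (pwr r x k (n / 2)) else
      sh7 r (Nat.mul (sq7 r (pwr r x k (n / 2))) x) := by
  change Bool.rec (motive := fun _ => ℕ) (pw2 r x n (sq7 r (pwr r x k (n / 2)))) o7 (Nat.beq n 0) = _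
  simp only [pw2, rec_ite, Nat.beq_eq]
  rfl

theorem pwr_le {x k n : ℕ} (hn : n < 2 ^ k) {y : ℝ} (hy : (x : ℝ) ≤ y * 2 ^ 128) :
    (pwr 0 x k n : ℝ) ≤ y ^ n * 2 ^ 128 := by
  induction k generalizing n with
  | zero =>
    obtain rfl : n = 0 := by omega
    rw [pow_zero, one_mul]
    exact o7_ATree.le
  | succ k ih =>
    have h1 := ih (n := n / 2) (by omega)
    have h2 := sh7_le_ATree h1 h1
    rw [pwr_succ_ATree]
    split_ifs with h3 h4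
    · rw [h3, pow_zero, one_mul]
      exact o7_ATree.le
    · rwa [← pow_add, show n / 2 + n / 2 = n by omega] at h2
    · have h5 := sh7_le_ATree h2 hy
      rwa [← pow_add, ← pow_succ, show n / 2 + n / 2 + 1 = n by omega] at h5

theorem le_pwr {x k n : ℕ} (hn : n < 2 ^ k) {y : ℝ} (h0 : 0 ≤ y) (hy : y * 2 ^ 128 ≤ x) :
    y ^ n * 2 ^ 128 ≤ pwr 1 x k n := by
  induction k generalizing n with
  | zero =>
    obtain rfl : n = 0 := by omega
    rw [pow_zero, one_mul]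
    exact o7_ATree.ge
  | succ k ih =>
    have h1 := ih (n := n / 2) (by omega)
    have h2 := le_sh7_ATree (pow_nonneg h0 _) h1 h1
    rw [pwr_succ_ATree]
    split_ifs with h3 h4
    · rw [h3, pow_zero, one_mul]
      exact o7_ATree.ge
    · rwa [← pow_add, show n / 2 + n / 2 = n by omega] at h2
    · have h5 := le_sh7_ATree h0 h2 hy
      rwa [← pow_add, ← pow_succ, show n / 2 + n / 2 + 1 = n by omega] at h5

/-- the base of the powers -/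
noncomputable def bas_ATree (d v : ℕ) : ℝ :=
  if d = 0 then Real.exp (-(v / 2 ^ 44)) else 1 - v / 2 ^ 32 / d

theorem bas_mem_ATree {d v : ℕ} (h : d = 0 ∨ v ≤ d * 2 ^ 32) :
    0 ≤ bas_ATree d v ∧ bas_ATree d v ≤ 1 := by
  unfold bas_ATree
  split_ifs with hd
  · exact ⟨(Real.exp_pos _).le, Real.exp_le_one_iff.2 (neg_nonpos.2 (by positivity))⟩
  · have h1 : (0 : ℝ) < d := Nat.cast_pos.2 (Nat.pos_of_ne_zero hd)
    have h2 : (v : ℝ) ≤ d * 2 ^ 32 := by exact_mod_cast h.resolve_left hd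
    refine ⟨sub_nonneg.2 ?_, sub_le_self _ (by positivity)⟩
    rwa [div_le_one h1, div_le_iff₀ (by positivity)]

theorem ex2_ATree {v : ℕ} (hv : v ≤ 2 ^ 38) :
    (ex2 v : ℝ) = (1 - v / 2 ^ 44 + (v / 2 ^ 44) ^ 2 / 2) * 2 ^ 128 := by
  have e : ex2 v = o7 - v * 2 ^ 84 + v * v * 2 ^ 39 := by
    rw [← shl_eq, ← shl_eq]
    rfl
  have h : v * 2 ^ 84 ≤ o7 := (Nat.mul_le_mul_right _ hv).trans (by norm_num [o7])
  rw [e, Nat.cast_add, Nat.cast_sub h, o7_ATree]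
  push_cast
  ring

theorem bsL_ATree {d v : ℕ} (hv : v ≤ 2 ^ 38) (h : d = 0 ∨ v ≤ d * 2 ^ 32) :
    (bsL d v : ℝ) ≤ bas_ATree d v * 2 ^ 128 := by
  have h0 : 0 ≤ bas_ATree d v * 2 ^ 128 := mul_nonneg (bas_mem_ATree h).1 (by positivity)
  simp only [bsL, rec_ite, Nat.beq_eq]
  split_ifs with hd
  · refine sub_le_ATree h0 ?_
    have h1 := cd_ge (Nat.pow v 3) (d := 96) (by norm_num)
    have h2 := le_exp_neg (x := (v : ℝ) / 2 ^ 44) (by positivity)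
    have h3 : ((Nat.pow v 3 : ℕ) : ℝ) = v ^ 3 := Nat.cast_pow v 3
    rw [h3] at h1
    rw [ex2_ATree hv, bas_ATree, if_pos hd]
    refine le_trans ?_ (mul_le_mul_of_nonneg_right h2 (by positivity))
    have h4 : (1 - (v : ℝ) / 2 ^ 44 + (v / 2 ^ 44) ^ 2 / 2 - (v / 2 ^ 44) ^ 3 / 6) * 2 ^ 128 =
        (1 - v / 2 ^ 44 + (v / 2 ^ 44) ^ 2 / 2) * 2 ^ 128 - v ^ 3 / (96 : ℕ) := by
      push_cast
      ring
    rw [h4]
    exact sub_le_sub_left h1 _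
  · refine sub_le_ATree h0 ?_
    have h1 := cd_ge (Nat.shiftLeft v 96) (Nat.pos_of_ne_zero hd)
    rw [bas_ATree, if_neg hd, o7_ATree]
    refine (sub_le_sub_left h1 _).trans_eq ?_
    rw [shl_eq]
    push_cast
    ring

theorem bsH_ATree {d v : ℕ} (hv : v ≤ 2 ^ 38) : bas_ATree d v * 2 ^ 128 ≤ bsH d v := by
  simp only [bsH, rec_ite, Nat.beq_eq, bas_ATree]
  split_ifs with hd
  · rw [ex2_ATree hv]
    exact mul_le_mul_of_nonneg_right (exp_neg_le (by positivity)) (by positivity)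
  · refine le_trans ?_ (le_sub_ATree _ _)
    have h1 : ((Nat.div (Nat.shiftLeft v 96) d : ℕ) : ℝ) ≤ (Nat.shiftLeft v 96 : ℕ) / d :=
      Nat.cast_div_le
    rw [o7_ATree]
    refine le_of_eq_of_le ?_ (sub_le_sub_left h1 _)
    rw [shl_eq]
    push_cast
    ring

theorem exN_lt_ATree {d : ℕ} (hd : d ≤ 1000000) (j : ℕ) : exN d j < 2 ^ 21 := by
  simp only [exN, rec_ite, Nat.beq_eq, Nat.sub_eq]
  split_ifs <;> omega

theorem exp_ATree (v : ℕ) : Real.exp (-((v : ℝ) / 2 ^ 44)) ^ 4096 = Real.exp (-(v / 2 ^ 32)) := by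
  rw [← Real.exp_nat_mul]
  congr 1
  push_cast
  ring

theorem Ef_ATree (d v : ℕ) : Ef d (v / 2 ^ 32) = bas_ATree d v ^ exN d 1 := by
  simp only [exN, rec_ite, Nat.beq_eq, Nat.sub_eq, Ef, bas_ATree]
  split_ifs
  · exact (exp_ATree v).symm
  · rfl

theorem Nf_ATree (d v : ℕ) : Nf d (v / 2 ^ 32) = 1 - bas_ATree d v ^ exN d 0 := by
  simp only [exN, rec_ite, Nat.beq_eq, Nat.sub_eq, Nf, bas_ATree]
  split_ifs
  · rw [exp_ATree]
  · rfl

theorem eL_le {d v : ℕ} (hd : d ≤ 1000000) (hv : v ≤ 2 ^ 38) (h : d = 0 ∨ v ≤ d * 2 ^ 32) :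
    (eL d v : ℝ) ≤ Ef d (v / 2 ^ 32) * 2 ^ 128 := by
  rw [Ef_ATree]
  exact pwr_le (exN_lt_ATree hd 1) (bsL_ATree hv h)

theorem le_eH {d v : ℕ} (hd : d ≤ 1000000) (hv : v ≤ 2 ^ 38) (h : d = 0 ∨ v ≤ d * 2 ^ 32) :
    Ef d (v / 2 ^ 32) * 2 ^ 128 ≤ eH d v := by
  rw [Ef_ATree]
  exact le_pwr (exN_lt_ATree hd 1) (bas_mem_ATree h).1 (bsH_ATree hv)

theorem nL_le {d v : ℕ} (hd : d ≤ 1000000) (hv : v ≤ 2 ^ 38) (h : d = 0 ∨ v ≤ d * 2 ^ 32) :
    (nL d v : ℝ) ≤ Nf d (v / 2 ^ 32) * 2 ^ 128 := by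
  have h1 := le_pwr (exN_lt_ATree hd 0) (bas_mem_ATree h).1 (bsH_ATree (d := d) hv)
  have h2 := pow_le_one₀ (n := exN d 0) (bas_mem_ATree h).1 (bas_mem_ATree h).2
  rw [Nf_ATree]
  refine sub_le_ATree (mul_nonneg (sub_nonneg.2 h2) (by positivity)) ?_
  rw [o7_ATree, sub_mul, one_mul]
  exact sub_le_sub_left h1 _

theorem sgT_ATree (d t : ℕ) :
    (sgT d (Nat.shiftLeft t 96) : ℝ) ≤ sgm d * (t / 2 ^ 32) * 2 ^ 128 := by
  simp only [sgT, rec_ite, Nat.beq_eq, sgm]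
  split_ifs with hd
  · refine sub_le_ATree (by positivity) (le_of_eq ?_)
    rw [shl_eq]
    push_cast
    ring
  · have h1 : (1 : ℝ) ≤ d := Nat.one_le_cast.2 (Nat.pos_of_ne_zero hd)
    have h2 : (0 : ℝ) ≤ 1 - 1 / d := sub_nonneg.2 ((div_le_one (by linarith)).2 h1)
    refine sub_le_ATree (by positivity) ?_
    refine (sub_le_sub_left (cd_ge _ (Nat.pos_of_ne_zero hd)) _).trans_eq ?_
    rw [shl_eq]
    push_cast
    ring

theorem tan_ATree {du t : ℕ} (h2 : du ≤ 1000000) (ht : t ≤ 2 ^ 38) (h : du = 0 ∨ t ≤ du * 2 ^ 32)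
    {x : ℝ} (h0 : 0 ≤ x) (hx : du = 0 ∨ x ≤ du) : Nf du x * 2 ^ 128 ≤
      (Nat.sub o7 (Nat.shiftRight (Nat.mul (eL du t)
        (Nat.add o7 (sgT du (Nat.shiftLeft t 96)))) 128) : ℕ) + eH du t * x := by
  have a1 := Nf_tangent du (t := t / 2 ^ 32) (h.imp id fun h => by
    rw [div_le_iff₀ (by positivity)]
    exact_mod_cast h) hx
  have a2 : ((Nat.add o7 (sgT du (Nat.shiftLeft t 96)) : ℕ) : ℝ) ≤
      (1 + sgm du * (t / 2 ^ 32)) * 2 ^ 128 := by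
    rw [Nat.add_eq, Nat.cast_add, o7_ATree, add_mul, one_mul]
    exact add_le_add le_rfl (sgT_ATree du t)
  have a3 : ((Nat.shiftRight (Nat.mul (eL du t) (Nat.add o7 (sgT du (Nat.shiftLeft t 96)))) 128 :
      ℕ) : ℝ) ≤ _ := sh7_le_ATree (eL_le h2 ht h) a2
  have a4 := mul_le_mul_of_nonneg_right (le_eH h2 ht h) h0
  have a5 := le_sub_ATree o7 (Nat.shiftRight (Nat.mul (eL du t)
    (Nat.add o7 (sgT du (Nat.shiftLeft t 96)))) 128)
  rw [o7_ATree] at a5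
  have a6 := mul_le_mul_of_nonneg_right a1 (show (0 : ℝ) ≤ 2 ^ 128 by positivity)
  generalize (2 : ℝ) ^ 128 = S at a3 a4 a5 a6 ⊢
  nlinarith

theorem hV_ATree (dl ap am bp bm T E v : ℕ) :
    (big : ℝ) + ap * (T + E * (v / 2 ^ 32)) + bm * (v / 2 ^ 32 * 2 ^ 128) - am * nL dl v -
      bp * (v / 2 ^ 32 * 2 ^ 128) ≤ hV dl ap am bp bm T E v := by
  refine le_trans ?_ (le_sub_ATree _ _)
  have h1 := mul_le_mul_of_nonneg_left (lt_shr (E * v) 32).le (Nat.cast_nonneg (α := ℝ) ap)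
  have h2 : (v : ℝ) / 2 ^ 32 * 2 ^ 128 = v * 2 ^ 96 := by ring
  simp only [s3, mz_eq, shl_eq, Nat.add_eq, Nat.mul_eq, Nat.succ_eq_add_one, Nat.cast_add,
    Nat.cast_mul, Nat.cast_pow, Nat.cast_ofNat, Nat.cast_one] at h1 ⊢
  rw [h2, ← mul_div_assoc]
  linarith

theorem hS_sound {dl du ap am bp bm t lo hi : ℕ} (h1 : dl ≤ 1000000) (h2 : du ≤ 1000000)
    (h3 : dl = 0 ∨ (1 ≤ du ∧ du ≤ dl)) (ht : t ≤ 2 ^ 38) (hlo : lo ≤ 2 ^ 38) (hhi : hi ≤ 2 ^ 38)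
    (h4 : du = 0 ∨ ap + am = 0 ∨ (hi ≤ du * 2 ^ 32 ∧ t ≤ du * 2 ^ 32)) {x y : ℝ}
    (a : (lo : ℝ) ≤ x * 2 ^ 32) (b : x * 2 ^ 32 ≤ hi)
    (hy : (du = 0 ∨ x ≤ du) → Nf dl x ≤ y ∧ y ≤ Nf du x) :
    (((ap : ℝ) - am) * y - ((bp : ℝ) - bm) * x) * 2 ^ 128 + big ≤ hS dl du ap am bp bm t lo hi := by
  have hS0 : (0 : ℝ) ≤ 2 ^ 128 := by positivity
  have a' : (lo : ℝ) / 2 ^ 32 ≤ x := (div_le_iff₀ (by positivity)).2 a
  have b' : x ≤ (hi : ℝ) / 2 ^ 32 := (le_div_iff₀ (by positivity)).2 b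
  have hx0 : 0 ≤ x := le_trans (by positivity) a'
  have hlh : lo ≤ hi := by exact_mod_cast a.trans b
  have hr : ∀ {v d : ℕ}, v ≤ d * 2 ^ 32 → (v : ℝ) / 2 ^ 32 ≤ d := fun h => by
    rw [div_le_iff₀ (by positivity)]
    exact_mod_cast h
  obtain ⟨p, θ, hp, hθ, hs, hx⟩ := (Convex.mem_Icc (a'.trans b')).1 ⟨a', b'⟩
  obtain rfl : p = 1 - θ := by linarith
  have hxd : ap + am ≠ 0 → du = 0 ∨ x ≤ du := fun h =>
    h4.imp id fun h5 => b'.trans (hr (h5.resolve_left h).1)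
  unfold hS hT
  generalize hT : Nat.sub o7 (Nat.shiftRight (Nat.mul (eL du t)
    (Nat.add o7 (sgT du (Nat.shiftLeft t 96)))) 128) = T
  have c1 : (ap : ℝ) * (y * 2 ^ 128) ≤ ap * (T + eH du t * x) := by
    rcases Nat.eq_zero_or_pos ap with h | h
    · rw [h, Nat.cast_zero, zero_mul, zero_mul]
    · have h5 := hxd (by omega)
      have h6 := tan_ATree h2 ht (h4.imp id fun h6 => (h6.resolve_left (by omega)).2) hx0 h5
      rw [hT] at h6
      exact mul_le_mul_of_nonneg_left ((mul_le_mul_of_nonneg_right (hy h5).2 hS0).trans h6)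
        (Nat.cast_nonneg _)
  have c2 : (am : ℝ) * ((1 - θ) * nL dl lo + θ * nL dl hi) ≤ am * (y * 2 ^ 128) := by
    rcases Nat.eq_zero_or_pos am with h | h
    · rw [h, Nat.cast_zero, zero_mul, zero_mul]
    · have h5 := hxd (by omega)
      have h6 : dl = 0 ∨ hi ≤ dl * 2 ^ 32 := h3.imp id fun h6 =>
        ((h4.resolve_left (by omega)).resolve_left (by omega)).1.trans
          (Nat.mul_le_mul_right _ h6.2)
      have h7 : dl = 0 ∨ lo ≤ dl * 2 ^ 32 := h6.imp id hlh.trans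
      have h8 := Nf_conc dl (h7.imp id hr) (h6.imp id hr) hθ (by linarith)
      rw [hx] at h8
      refine mul_le_mul_of_nonneg_left (le_trans ?_
        (mul_le_mul_of_nonneg_right (h8.trans (hy h5).1) hS0)) (Nat.cast_nonneg _)
      rw [add_mul, mul_assoc, mul_assoc]
      exact add_le_add (mul_le_mul_of_nonneg_left (nL_le h1 hlo h7) hp)
        (mul_le_mul_of_nonneg_left (nL_le h1 hhi h6) hθ)
  have c3 := mul_le_mul_of_nonneg_left ((hV_ATree dl ap am bp bm T (eH du t) lo).trans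
    (Nat.cast_le.2 (le_max_left _ (hV dl ap am bp bm T (eH du t) hi)))) hp
  have c4 := mul_le_mul_of_nonneg_left ((hV_ATree dl ap am bp bm T (eH du t) hi).trans
    (Nat.cast_le.2 (le_max_right (hV dl ap am bp bm T (eH du t) lo) _))) hθ
  rw [nmax_eq]
  subst hx
  generalize (2 : ℝ) ^ 128 = S at c1 c2 c3 c4 ⊢
  generalize (lo : ℝ) / 2 ^ 32 = l at c1 c3 ⊢
  generalize (hi : ℝ) / 2 ^ 32 = u at c1 c4 ⊢
  linear_combination c1 + c2 + c3 + c4

theorem lf_ATree {w : Wt} {dl du : ℕ} (h1 : dl ≤ 1000000) (h2 : du ≤ 1000000)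
    (h3 : dl = 0 ∨ (1 ≤ du ∧ du ≤ dl)) {lam : ℝ} {N : ℝ → ℝ} {U V : ℕ → ℝ} (hF : Fix lam N U V)
    (hC : Compat N dl du) (hL : ∀ l, l + 3 ≤ w.L → ∀ f ∈ Simp 3, LI w lam l f) {l t : ℕ}
    {lo hi : ℕ → ℕ} (hb : ∀ s < 8, (lo s ≤ 2 ^ 37 ∧ hi s ≤ 2 ^ 37) ∧
      (lo s : ℝ) ≤ V s * 2 ^ 32 ∧ V s * 2 ^ 32 ≤ hi s) (h : lfOK w dl du l t lo hi = true) :
    False := by
  simp only [lfOK, band_iff, bor_iff, allLt_iff, Nat.ble_eq, Nat.beq_eq, Nat.add_eq, Nat.mul_eq,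
    sumN_eq, shl_eq, Nat.succ_eq_add_one] at h
  obtain ⟨a1, a2, a3⟩ := h
  have a4 := hF.lin (aR w l) (bR w l) (cR w l) (hL l a1)
  have a5 := sum_le_sum (s := range 8) fun s hs => hS_sound h1 h2 h3
    (ap := dg (w.ap.at s) l) (am := dg (w.am.at s) l) (bp := dg (w.bp.at s) l)
    (bm := dg (w.bm.at s) l) (t := tg t s) (x := V s) (y := U s)
    (Nat.and_le_right.trans (by norm_num)) ((hb s (mem_range.1 hs)).1.1.trans (by norm_num))
    ((hb s (mem_range.1 hs)).1.2.trans (by norm_num)) (or_assoc.1 (a2 s (mem_range.1 hs)))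
    (hb s (mem_range.1 hs)).2.1 (hb s (mem_range.1 hs)).2.2 fun h => by
      rw [hF.eq s (mem_range.1 hs)]
      exact hC _ (hF.nn s (mem_range.1 hs)) h
  have a6 := (Nat.cast_le (α := ℝ)).2 a3
  simp only [Nat.cast_add, Nat.cast_mul, Nat.cast_pow, Nat.cast_ofNat, Nat.cast_one,
    Nat.cast_sum] at a6
  rw [sum_add_distrib, ← sum_mul, sum_const, card_range, nsmul_eq_mul, Nat.cast_ofNat] at a5
  have a7 : ∑ s ∈ range 8, aR w l s * U s - ∑ s ∈ range 8, bR w l s * V s =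
      (∑ s ∈ range 8, (((dg (w.ap.at s) l : ℝ) - dg (w.am.at s) l) * U s -
        ((dg (w.bp.at s) l : ℝ) - dg (w.bm.at s) l) * V s)) / 2 ^ 32 := by
    rw [← sum_sub_distrib, sum_div]
    exact sum_congr rfl fun s _ => by rw [aR, bR]; ring
  rw [a7, cR, div_le_div_iff_of_pos_right (by positivity)] at a4
  have a8 := mul_le_mul_of_nonneg_right a4 (show (0 : ℝ) ≤ 2 ^ 128 by positivity)
  rw [sub_mul] at a8
  linarith

theorem go_ATree {w : Wt} {dl du : ℕ} (h1 : dl ≤ 1000000) (h2 : du ≤ 1000000)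
    (h3 : dl = 0 ∨ (1 ≤ du ∧ du ≤ dl)) {lam : ℝ} {N : ℝ → ℝ} {U V : ℕ → ℝ} (hF : Fix lam N U V)
    (hC : Compat N dl du) (hL : ∀ l, l + 3 ≤ w.L → ∀ f ∈ Simp 3, LI w lam l f) (T : BTr)
    {lo hi : ℕ → ℕ} (hb : ∀ s < 8, (lo s ≤ 2 ^ 37 ∧ hi s ≤ 2 ^ 37) ∧
      (lo s : ℝ) ≤ V s * 2 ^ 32 ∧ V s * 2 ^ 32 ≤ hi s) (h : T.go w dl du lo hi = true) :
    False := by
  induction T generalizing lo hi with
  | lf l t => exact lf_ATree h1 h2 h3 hF hC hL hb h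
  | nd s m x y ihx ihy =>
    have h4 : band (Nat.ble m 137438953472) (band (x.go w dl du lo (upd hi s m))
      (y.go w dl du (upd lo s m) hi)) = true := h
    simp only [band_iff, Nat.ble_eq] at h4
    have hm : m ≤ 2 ^ 37 := h4.1
    rcases le_total (V s * 2 ^ 32) (m : ℝ) with h5 | h5
    · refine ihx (fun i hi' => ?_) h4.2.1
      simp only [upd, rec_ite, Nat.beq_eq]
      split_ifs with h6
      · exact ⟨⟨(hb i hi').1.1, hm⟩, (hb i hi').2.1, h6 ▸ h5⟩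
      · exact hb i hi'
    · refine ihy (fun i hi' => ?_) h4.2.2
      simp only [upd, rec_ite, Nat.beq_eq]
      split_ifs with h6
      · exact ⟨⟨hm, (hb i hi').1.2⟩, h6 ▸ h5, (hb i hi').2.2⟩
      · exact hb i hi'

theorem tree_sound {w : Wt} {dl du : ℕ} {T : BTr} (h : treeOK w dl du T = true) {lam : ℝ}
    {N : ℝ → ℝ} {U V : ℕ → ℝ} (hF : Fix lam N U V) (hC : Compat N dl du)
    (hd : 1 ≤ dl → 1 ≤ (dl : ℝ) * lam ^ 2) (h32 : ∀ s < 8, V s ≤ 32)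
    (hL : ∀ l, l + 3 ≤ w.L → ∀ f ∈ Simp 3, LI w lam l f) : V 0 < 1 / 512 := by
  simp only [treeOK, band_iff, bor_iff, Nat.ble_eq, Nat.beq_eq] at h
  obtain ⟨⟨h1, h2⟩, h3, h4⟩ := h
  by_contra h0
  refine go_ATree h1 h2 h3 hF hC hL T (fun s hs => ?_) h4
  have a1 := h32 s hs
  have a2 := hF.nn s hs
  simp only [lo0, hi0, rec_ite, band_iff, Nat.beq_eq, Nat.ble_eq, nmin_eq, shl_eq]
  refine ⟨⟨by split_ifs <;> norm_num, ?_⟩, ?_, ?_⟩
  · split_ifs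
    · exact min_le_left _ _
    · norm_num
  · split_ifs with h5
    · rw [h5]
      push_cast
      linarith
    · rw [Nat.cast_zero]
      positivity
  · split_ifs with h5
    · have a3 := hd h5.1
      have a4 := hF.le s (by omega)
      have a5 : 0 < lam ^ 2 := pos_of_mul_pos_right (one_pos.trans_le a3) (Nat.cast_nonneg _)
      have a6 : V s ≤ dl := le_of_mul_le_mul_right (a4.trans a3) a5
      rw [Nat.cast_min]
      push_cast
      exact le_min (by linarith) (by linarith)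
    · push_cast
      linarith

end Vale.Agent.P154
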