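import Vale.Agent.P154.AKt
import Vale.Agent.P154.ACenT
import Vale.Agent.P154.ATree

/-! TASK AJob: assembly of one job.
Plan. Joining lemmas: case distinctions. `jobG_of`: for `f ∈ Simp 3` distinguish `33 * tR f < T`,
`T ≤ 33 * tR f < 33` and `1 ≤ tR f` (then `1 ≤ 8 * ca f`, `li_of_out`, `lamR_shl`; `Adm 3 lam` follows
from `lamJ n ≤ lam ≤ lamJ m ≤ 1/2`); `si_of_li`, `sm_two`. `jobP_of`: `tree_sound`, `Fix.le32`,
`sm_sound`. -/

namespace Vale.Agent.P154

noncomputable def cenOK (n m : ℕ) (t2 : ℤ) : Bool :=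
  band (band (Nat.ble n m) (Nat.ble m 1024)) (Nat.ble (Int.toNat t2) 33)

theorem adm_AJob {n m : ℕ} (hm : m ≤ 1024) {lam : ℝ} (h1 : lamJ n ≤ lam) (h2 : lam ≤ lamJ m) :
    Adm 3 lam := by
  have a : (0 : ℝ) ≤ n := n.cast_nonneg
  have b : (m : ℝ) ≤ 1024 := by exact_mod_cast hm
  simp only [lamJ] at h1 h2
  constructor
  · push_cast
    linarith
  · linarith

theorem cenI_of {w : Wt} {n m i0 cnt : ℕ} {t1 t2 : ℤ} (us : List ℤ)
    (h : band (cenOK n m t2) (cenI w n m i0 cnt t1 t2 us) = true) : CenGood w n m i0 cnt t1 t2 := by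
  simp only [cenOK, band_iff, Nat.ble_eq] at h
  exact cenI_sound h.1.1.1 h.1.1.2 (by omega) h.2

theorem cenII_of {w : Wt} {kap n m : ℕ} {t1 t2 : ℤ} (hs : smOK w kap = true) (us : List ℤ)
    (h : band (cenOK n m t2) (cenII w kap n m t1 t2 us) = true) : Good2 w kap n m t1 t2 := by
  simp only [cenOK, band_iff, Nat.ble_eq] at h
  exact cenII_sound hs h.1.1.1 h.1.1.2 (by omega) h.2

theorem CenGood.t {w : Wt} {n m i c : ℕ} {t1 t2 t3 : ℤ} (h1 : CenGood w n m i c t1 t2)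
    (h2 : CenGood w n m i c t2 t3) : CenGood w n m i c t1 t3 := by
  intro f hf lam a b c d e
  rcases lt_or_ge (33 * tR f) t2 with h | h
  exacts [h1 f hf lam a b c d h, h2 f hf lam a b c h e]

theorem CenGood.l {w : Wt} {n m i a j b c : ℕ} {t1 t2 : ℤ} (h1 : CenGood w n m i a t1 t2)
    (h2 : CenGood w n m j b t1 t2) (e1 : Nat.beq j (Nat.add i a) = true)
    (e2 : Nat.beq c (Nat.add a b) = true) : CenGood w n m i c t1 t2 := by
  intro f hf lam a1 a2 a3 a4 a5 l l1 l2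
  simp only [Nat.beq_eq, Nat.add_eq] at e1 e2
  rcases lt_or_ge l (i + a) with h | h
  exacts [h1 f hf lam a1 a2 a3 a4 a5 l l1 h, h2 f hf lam a1 a2 a3 a4 a5 l (by omega) (by omega)]

theorem Good2.t {w : Wt} {kap n m : ℕ} {t1 t2 t3 : ℤ} (h1 : Good2 w kap n m t1 t2)
    (h2 : Good2 w kap n m t2 t3) : Good2 w kap n m t1 t3 := by
  intro f hf lam a b c d e
  rcases lt_or_ge (33 * tR f) t2 with h | h
  exacts [h1 f hf lam a b c d h, h2 f hf lam a b c h e]

theorem jobG_of {w : Wt} {kap n m n' m' a b : ℕ} {T : ℤ} (hs : smOK w kap = true)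
    (hO : OutGood w 0 1048576 0 1048576 n' m') (hA : CenGood w n m 0 a (-1) T)
    (hB : CenGood w n m 0 b T 33) (h2 : Good2 w kap n m (-1) T)
    (e : band (band (Nat.beq n' (Nat.shiftLeft n 38)) (Nat.beq m' (Nat.shiftLeft m 38)))
      (band (Nat.ble m 1024) (band (Nat.beq (Nat.add a 2) w.L) (Nat.beq b w.L))) = true) :
    JobG w kap n m := by
  simp only [band_iff, Nat.beq_eq, Nat.ble_eq, Nat.add_eq] at e
  obtain ⟨⟨e3, e4⟩, hm, e1, e2⟩ := e
  rw [e3, e4] at hO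
  refine ⟨hs, hm, fun lam a1 a2 a3 f hf => ?_⟩
  have t0 : ((-1 : ℤ) : ℝ) ≤ 33 * tR f := by
    have : 0 ≤ tR f := Real.sqrt_nonneg _
    push_cast
    linarith
  rcases lt_or_ge (33 * tR f) T with h | h
  · exact ⟨fun l hl => hA f hf lam a1 a2 a3 t0 h l l.zero_le (by omega),
      fun Z hZ _ => h2 f hf lam a1 a2 a3 t0 h Z hZ⟩
  have key : ∀ l < w.L, LI w lam l f := fun l hl => by
    rcases lt_or_ge (tR f) 1 with h' | h'
    · exact hB f hf lam a1 a2 a3 h (by push_cast; linarith) l l.zero_le (by omega)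
    · exact li_of_out hO ((lamR_shl n).trans_le a1) (a2.trans_eq (lamR_shl m).symm) a3
        (adm_AJob hm a1 a2) hf (Real.one_le_sqrt.1 h') hl
  exact ⟨fun l hl => key l (by omega),
    fun Z hZ hZ' => si_of_li hs (key _ (by omega)) (key _ (by omega)) hZ hZ'⟩

theorem jobP_of {w : Wt} {kap n m : ℕ} (h : JobG w kap n m) {dl du : ℕ} (T : BTr)
    (hT : treeOK w dl du T = true) : JobP n m dl du := by
  intro lam a1 a2 a3 N σ U V hF hC hd hR
  obtain ⟨hs, hm, h⟩ := h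
  exact sm_sound hs hF hR (fun Z z1 z2 f hf => (h lam a1 a2 a3 f hf).2 Z z1 z2)
    (tree_sound hT hF hC hd (fun s h8 => hF.le32 (adm_AJob hm a1 a2) a3 h8)
      fun l hl f hf => (h lam a1 a2 a3 f hf).1 l hl).le

end Vale.Agent.P154
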