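import Vale.Agent.P154.AEnc3

/-! TASK APar: facts about the tables, the parameters `t`, `τ`, and the expansion of `RR`.
Plan. Table facts: Boolean checks with `allLt` and `decide +kernel`, in integers
(`zr * zD ≤ zc * 2^60 ≤ (zr + 1) * zD`, `(∑ j < 7, |zc|) * 2^60 ≤ zn * zD`, `zc s 0 j`, `zc s 1 j`,
`1536 * zc s 3 1 = cub s * zD`, `∑ k ∈ Ico 2 19, zn s k + zN.at s * 2^20 ≤ 2^61`; use `decide` of an
integer inequality inside the check). `par_exists`: `x = f - 1` has sum zero, `ca f = ∑ x i ^ 2 / 3`,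
`r = tR f / 4` has `r^2 = ca f / 2`; `27 e3^2 + 4 e2^3 = - discriminant ≤ 0` gives `e3^2 ≤ 4 r^6`;
if `r = 0` then `x = 0`, take `τ = 0`; `x i ^ 2 ≤ 4 r^2`. `rr_enc`: `enc` for `lam * x` with
`lam * r`; `zp s 0 τ = 1`, `zp s 1 τ = 0`; divide by `lam^2`. `RR_le`: for `|lam| ≥ 1/4` use
`abs_chi_le` (`shr_mem`); otherwise `tR f ≤ 4` (`ca_le`), `|lam| * tR f ≤ 1`, and every term of `gp`
is at most `zn s k / 2^60 * t^2`. -/

namespace Vale.Agent.P154

open Finset

noncomputable def c1_APar : Bool :=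
  allLt 8 fun s => allLt 19 fun k => allLt 7 fun j =>
    decide (zr s k j * (zD : ℤ) ≤ zc s k j * 2 ^ 60 ∧ zc s k j * 2 ^ 60 ≤ (zr s k j + 1) * (zD : ℤ))
noncomputable def c2_APar : Bool :=
  allLt 8 fun s => allLt 19 fun k =>
    Nat.ble (Nat.mul (sumN 7 fun j => Int.natAbs (zc s k j)) (2 ^ 60)) (Nat.mul (zn s k) zD)
noncomputable def c3_APar : Bool :=
  allLt 8 fun s => allLt 7 fun j =>
    decide (zc s 0 j = (if j = 0 then (zD : ℤ) else 0) ∧ zc s 1 j = 0)
noncomputable def c4_APar : Bool :=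
  allLt 6 fun s => allLt 7 fun j =>
    decide (1536 * zc s 3 j = if j = 1 then (cub s : ℤ) * (zD : ℤ) else 0)
noncomputable def c5_APar : Bool :=
  allLt 8 fun s => Nat.ble (Nat.add (sumN 17 fun k => zn s (Nat.add 2 k))
    (Nat.mul (zN.at s) (2 ^ 20))) (2 ^ 61)

theorem c1_ok_APar : c1_APar = true := by decide +kernel
theorem c2_ok_APar : c2_APar = true := by decide +kernel
theorem c3_ok_APar : c3_APar = true := by decide +kernel
theorem c4_ok_APar : c4_APar = true := by decide +kernel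
theorem c5_ok_APar : c5_APar = true := by decide +kernel

theorem zD_pos_APar : (0 : ℝ) < zD := by
  have : 0 < zD := by decide +kernel
  exact_mod_cast this

theorem zr_near {s k j : ℕ} (hs : s < 8) (hk : k < 19) (hj : j < 7) :
    |zq s k j - (zr s k j : ℝ) / 2 ^ 60| ≤ 1 / 2 ^ 60 := by
  obtain ⟨h1, h2⟩ := of_decide_eq_true
    ((allLt_iff _ _).1 ((allLt_iff _ _).1 ((allLt_iff _ _).1 c1_ok_APar s hs) k hk) j hj)
  have a1 : (zr s k j : ℝ) * zD ≤ zc s k j * 2 ^ 60 := by exact_mod_cast h1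
  have a2 : (zc s k j : ℝ) * 2 ^ 60 ≤ (zr s k j + 1) * zD := by exact_mod_cast h2
  have hD := zD_pos_APar
  have b1 : (zr s k j : ℝ) / 2 ^ 60 ≤ zq s k j := by
    rw [zq, div_le_div_iff₀ (by positivity) hD]; exact a1
  have b2 : zq s k j ≤ ((zr s k j : ℝ) + 1) / 2 ^ 60 := by
    rw [zq, div_le_div_iff₀ hD (by positivity)]; exact a2
  rw [add_div] at b2
  rw [abs_of_nonneg (sub_nonneg.2 b1)]
  linarith

theorem zn_ge {s k : ℕ} (hs : s < 8) (hk : k < 19) :
    ∑ j ∈ range 7, |zq s k j| ≤ (zn s k : ℝ) / 2 ^ 60 := by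
  have h1 : (sumN 7 fun j => Int.natAbs (zc s k j)) * 2 ^ 60 ≤ zn s k * zD :=
    Nat.le_of_ble_eq_true ((allLt_iff _ _).1 ((allLt_iff _ _).1 c2_ok_APar s hs) k hk)
  rw [sumN_eq] at h1
  have h2 : ((∑ j ∈ range 7, Int.natAbs (zc s k j) : ℕ) : ℝ) * 2 ^ 60 ≤ (zn s k : ℝ) * zD := by
    exact_mod_cast h1
  have hD := zD_pos_APar
  have e : ∑ j ∈ range 7, |zq s k j| = ((∑ j ∈ range 7, Int.natAbs (zc s k j) : ℕ) : ℝ) / zD := by
    rw [Nat.cast_sum, sum_div]
    refine sum_congr rfl fun j _ => ?_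
    rw [zq, abs_div, abs_of_pos hD, Nat.cast_natAbs, Int.cast_abs]
  rw [e, div_le_div_iff₀ hD (by positivity)]
  exact h2

theorem abs_zp_le {s k : ℕ} (hs : s < 8) (hk : k < 19) {τ : ℝ} (hτ : |τ| ≤ 1) :
    |zp s k τ| ≤ (zn s k : ℝ) / 2 ^ 60 := by
  refine le_trans ((abs_sum_le_sum_abs _ _).trans (sum_le_sum fun j _ => ?_)) (zn_ge hs hk)
  rw [abs_mul, abs_pow]
  exact mul_le_of_le_one_right (abs_nonneg _) (pow_le_one₀ (abs_nonneg _) hτ)

theorem zp_three {s : ℕ} (hs : s < 6) (τ : ℝ) : zp s 3 τ = cub s / 1536 * τ := by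
  have h : ∀ j < 7, zq s 3 j = if j = 1 then (cub s : ℝ) / 1536 else 0 := by
    intro j hj
    have h1 := of_decide_eq_true ((allLt_iff _ _).1 ((allLt_iff _ _).1 c4_ok_APar s hs) j hj)
    have hD := zD_pos_APar
    rw [zq, div_eq_iff hD.ne']
    split_ifs at h1 ⊢ with h2
    · have : (1536 : ℝ) * zc s 3 j = cub s * zD := by exact_mod_cast h1
      linarith
    · have : (1536 : ℝ) * zc s 3 j = 0 := by exact_mod_cast h1
      linarith
  rw [zp, sum_congr rfl fun j hj => by rw [h j (mem_range.1 hj)]]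
  simp [sum_range_succ]

theorem zp_zero_APar {s : ℕ} (hs : s < 8) (τ : ℝ) : zp s 0 τ = 1 ∧ zp s 1 τ = 0 := by
  have h : ∀ j < 7, zq s 0 j = (if j = 0 then 1 else 0) ∧ zq s 1 j = 0 := by
    intro j hj
    obtain ⟨h1, h2⟩ :=
      of_decide_eq_true ((allLt_iff _ _).1 ((allLt_iff _ _).1 c3_ok_APar s hs) j hj)
    have hD := zD_pos_APar
    rw [zq, zq, h1, h2]
    refine ⟨?_, by simp⟩
    split_ifs
    · rw [Int.cast_natCast, div_self hD.ne']
    · simp
  constructor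
  · rw [zp, sum_congr rfl fun j hj => by rw [(h j (mem_range.1 hj)).1]]
    simp [sum_range_succ]
  · rw [zp, sum_congr rfl fun j hj => by rw [(h j (mem_range.1 hj)).2]]
    simp

theorem zNr_nonneg (s : ℕ) : 0 ≤ zNr s := by
  unfold zNr V8.r
  positivity

theorem tR_sq_APar (f : Fin 3 → ℝ) : tR f ^ 2 = 8 * ca f :=
  Real.sq_sqrt (mul_nonneg (by norm_num) (ca_nonneg f))

theorem par_exists {f : Fin 3 → ℝ} (hf : f ∈ Simp 3) :
    ∃ τ : ℝ, |τ| ≤ 1 ∧ Par (fun i => f i - 1) (tR f / 4) τ := by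
  have h1 := hf.2
  have h2 := tR_sq_APar f
  have h3 : 0 ≤ tR f := Real.sqrt_nonneg _
  rw [ca, avg3] at h2
  rw [avg3] at h1
  simp only [Par]
  generalize tR f = t at h2 h3 ⊢
  have hb : ∀ i, |f i - 1| ≤ 2 * |t / 4| := by
    intro i
    rw [abs_of_nonneg (by positivity : 0 ≤ t / 4)]
    refine abs_le_of_sq_le_sq' ?_ (by positivity) |> abs_le.2
    have key : ∀ a b c : ℝ, a + b + c = 0 → 3 * a ^ 2 ≤ 2 * (a ^ 2 + b ^ 2 + c ^ 2) := by
      intro a b c h
      obtain rfl : a = -b - c := by linarith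
      nlinarith [sq_nonneg (b - c)]
    fin_cases i
    · simp only [Fin.zero_eta]
      nlinarith [key (f 0 - 1) (f 1 - 1) (f 2 - 1) (by linarith)]
    · simp only [Fin.mk_one]
      nlinarith [key (f 1 - 1) (f 0 - 1) (f 2 - 1) (by linarith)]
    · simp only [Fin.reduceFinMk]
      nlinarith [key (f 2 - 1) (f 0 - 1) (f 1 - 1) (by linarith)]
  generalize ha : f 0 - 1 = a at h2
  generalize hb' : f 1 - 1 = b at h2
  generalize hc : f 2 - 1 = c at h2
  have e1 : a + b + c = 0 := by linarith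
  have e2 : a * b + a * c + b * c = -3 * (t / 4) ^ 2 := by
    linear_combination (a + b + c) / 2 * e1 + 3 / 16 * h2
  rcases h3.eq_or_lt with h0 | h0
  · refine ⟨0, by simp, e1, e2, ?_, hb⟩
    have : a = 0 := by
      have h4 := hb 0
      rw [ha, ← h0] at h4
      simpa using h4
    rw [this]; simp
  · have hr : 0 < (t / 4) ^ 3 := by positivity
    refine ⟨a * b * c / (2 * (t / 4) ^ 3), ?_, e1, e2, by field_simp, hb⟩
    rw [abs_div, abs_of_pos (by positivity : 0 < 2 * (t / 4) ^ 3), div_le_one (by positivity)]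
    refine abs_le.2 (abs_le_of_sq_le_sq' ?_ (by positivity))
    have e3 : c = -a - b := by linarith
    have e4 : (t / 4) ^ 2 = (a ^ 2 + a * b + b ^ 2) / 3 := by
      rw [e3] at e2; linarith
    have e5 : (2 * (t / 4) ^ 3) ^ 2 = 4 * ((t / 4) ^ 2) ^ 3 := by ring
    rw [e5, e4, e3]
    nlinarith [sq_nonneg ((a - b) * (2 * a + b) * (a + 2 * b))]

theorem Par.smul {x : Fin 3 → ℝ} {r τ : ℝ} (h : Par x r τ) (c : ℝ) :
    Par (fun i => c * x i) (c * r) τ := by
  obtain ⟨h1, h2, h3, h4⟩ := h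
  refine ⟨by linear_combination c * h1, by linear_combination c ^ 2 * h2,
    by linear_combination c ^ 3 * h3, fun i => ?_⟩
  rw [abs_mul, abs_mul]
  nlinarith [mul_le_mul_of_nonneg_left (h4 i) (abs_nonneg c)]

theorem rr_enc {s : ℕ} (hs : s < 8) {f : Fin 3 → ℝ} {τ : ℝ} (hτ : |τ| ≤ 1)
    (h : Par (fun i => f i - 1) (tR f / 4) τ) {lam : ℝ} (h0 : lam ≠ 0) (h1 : |lam| * tR f ≤ 1) :
    |RR s lam f + gp s 0 lam (tR f) τ| ≤ zNr s * |lam| ^ 17 * tR f ^ 19 := by
  have h3 : 0 ≤ tR f := Real.sqrt_nonneg _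
  have e0 : 4 * (lam * (tR f / 4)) = lam * tR f := by ring
  have e1 : |lam * tR f| = |lam| * tR f := by rw [abs_mul, abs_of_nonneg h3]
  have h2 := enc hs (h.smul lam) hτ (by rw [e0, e1]; exact h1)
  rw [e0, e1] at h2
  have e2 : ∑ k ∈ range 19, zp s k τ * (lam * tR f) ^ k =
      1 + lam ^ 2 * gp s 0 lam (tR f) τ := by
    rw [range_eq_Ico, sum_eq_sum_Ico_succ_bot (by norm_num), sum_eq_sum_Ico_succ_bot (by norm_num),
      (zp_zero_APar hs τ).1, (zp_zero_APar hs τ).2, gp, mul_sum]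
    simp only [pow_zero, mul_one, zero_mul, zero_add]
    congr 1
    refine sum_congr rfl fun k hk => ?_
    obtain ⟨m, rfl⟩ := Nat.exists_eq_add_of_le (show 2 ≤ k from (mem_Ico.1 hk).1)
    simp only [Nat.add_sub_cancel_left, Nat.sub_zero]
    ring
  rw [e2] at h2
  have hl : 0 < lam ^ 2 := by positivity
  have e3 : RR s lam f + gp s 0 lam (tR f) τ =
      -(chi s (fun i => 1 + lam * (f i - 1)) - (1 + lam ^ 2 * gp s 0 lam (tR f) τ)) / lam ^ 2 := by
    change (1 - chi s (fun i => 1 + lam * (f i - 1))) / lam ^ 2 + _ = _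
    field_simp
    ring
  rw [e3, abs_div, abs_neg, abs_of_pos hl, div_le_iff₀ hl]
  refine h2.trans (le_of_eq ?_)
  rw [← sq_abs lam]
  ring

theorem PP_eq (s : ℕ) (f : Fin 3 → ℝ) : PP s f = RR s 1 f := by
  have : shr 1 f = f := by
    funext i
    simp [shr]
  rw [PP, RR, this]
  simp

theorem gp_two (s : ℕ) (lam t τ : ℝ) : gp s 0 lam t τ = t ^ 2 * gp s 2 lam t τ := by
  rw [gp, gp, mul_sum]
  refine sum_congr rfl fun k hk => ?_
  obtain ⟨m, rfl⟩ := Nat.exists_eq_add_of_le (show 2 ≤ k from (mem_Ico.1 hk).1)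
  simp only [Nat.add_sub_cancel_left, Nat.sub_zero]
  ring

theorem gp_four (s : ℕ) (lam t τ : ℝ) :
    gp s 0 lam t τ = zp s 2 τ * t ^ 2 + zp s 3 τ * lam * t ^ 3 + t ^ 4 * gp s 4 lam t τ := by
  rw [gp, gp, mul_sum, show max 2 0 = 2 from rfl, show max 2 4 = 4 from rfl,
    sum_eq_sum_Ico_succ_bot (by norm_num), sum_eq_sum_Ico_succ_bot (by norm_num), ← add_assoc]
  congr 1
  · norm_num
  refine sum_congr rfl fun k hk => ?_
  obtain ⟨m, rfl⟩ := Nat.exists_eq_add_of_le (show 4 ≤ k from (mem_Ico.1 hk).1)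
  simp only [Nat.add_sub_cancel_left, Nat.sub_zero]
  ring

theorem RR_le {s : ℕ} (hs : s < 8) {lam : ℝ} (h : Adm 3 lam) (h0 : lam ≠ 0) {f : Fin 3 → ℝ}
    (hf : f ∈ Simp 3) : RR s lam f ≤ 32 := by
  have hl : 0 < lam ^ 2 := by positivity
  rcases le_or_gt (1 / 4) |lam| with hc | hc
  · have h1 := abs_chi_le s (shr_mem h hf).1
    rw [(shr_mem h hf).2] at h1
    have h2 : (1 / 4) ^ 2 ≤ lam ^ 2 := by
      rw [← sq_abs lam]
      exact pow_le_pow_left₀ (by norm_num) hc 2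
    rw [RR, div_le_iff₀ hl]
    linarith [(abs_le.1 h1).1]
  · obtain ⟨τ, hτ, hP⟩ := par_exists hf
    have h3 : 0 ≤ tR f := Real.sqrt_nonneg _
    have h4 : tR f ^ 2 ≤ 16 := by
      have := ca_le hf
      rw [tR_sq_APar]
      push_cast at this
      linarith
    have h5 : tR f ≤ 4 := by nlinarith
    have h6 : |lam| * tR f ≤ 1 := by nlinarith [abs_nonneg lam]
    have h7 := rr_enc hs hτ hP h0 h6
    generalize tR f = t at h3 h4 h5 h6 h7
    have hu : 0 ≤ |lam| * t := by positivity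
    have h8 : |gp s 0 lam t τ| ≤ (∑ k ∈ range 17, (zn s (2 + k) : ℝ) / 2 ^ 60) * 16 := by
      rw [gp, show max 2 0 = 2 from rfl, sum_Ico_eq_sum_range, sum_mul]
      refine (abs_sum_le_sum_abs _ _).trans (sum_le_sum fun k hk => ?_)
      have a1 := abs_zp_le hs (k := 2 + k) (by have := mem_range.1 hk; omega) hτ
      have a2 : (|lam| * t) ^ k ≤ 1 := pow_le_one₀ hu h6
      have e : |zp s (2 + k) τ * lam ^ (2 + k - 2) * t ^ (2 + k - 0)| =
          |zp s (2 + k) τ| * ((|lam| * t) ^ k * t ^ 2) := by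
        rw [abs_mul, abs_mul, abs_pow, abs_pow, abs_of_nonneg h3, Nat.add_sub_cancel_left,
          Nat.sub_zero]
        ring
      rw [e]
      exact mul_le_mul a1 ((mul_le_mul a2 h4 (by positivity) zero_le_one).trans (by norm_num))
        (by positivity) (by positivity)
    have h9 : zNr s * |lam| ^ 17 * t ^ 19 ≤ zNr s * 16 := by
      have a2 : (|lam| * t) ^ 17 ≤ 1 := pow_le_one₀ hu h6
      have e : zNr s * |lam| ^ 17 * t ^ 19 = zNr s * ((|lam| * t) ^ 17 * t ^ 2) := by ring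
      rw [e]
      exact mul_le_mul_of_nonneg_left
        ((mul_le_mul a2 h4 (by positivity) zero_le_one).trans (by norm_num)) (zNr_nonneg s)
    have h10 : (sumN 17 fun k => zn s (2 + k)) + zN.at s * 2 ^ 20 ≤ 2 ^ 61 :=
      Nat.le_of_ble_eq_true ((allLt_iff _ _).1 c5_ok_APar s hs)
    rw [sumN_eq] at h10
    have h11 : (∑ k ∈ range 17, (zn s (2 + k) : ℝ)) + (zN.at s : ℝ) * 2 ^ 20 ≤ 2 ^ 61 := by
      exact_mod_cast h10
    rw [← sum_div] at h8
    have e : zNr s = (zN.at s : ℝ) / 2 ^ 40 := rfl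
    rw [e] at h9 h7
    generalize (∑ k ∈ range 17, (zn s (2 + k) : ℝ)) = A at h8 h11
    generalize (zN.at s : ℝ) = B at h7 h9 h11
    have h12 : A / 2 ^ 60 * 16 + B / 2 ^ 40 * 16 ≤ 32 := by
      have : A / 2 ^ 60 * 16 + B / 2 ^ 40 * 16 = (A + B * 2 ^ 20) / 2 ^ 56 := by ring
      rw [this, div_le_iff₀ (by positivity)]
      refine h11.trans (le_of_eq (by norm_num))
    linarith [(abs_le.1 h7).2, (abs_le.1 h8).1]

theorem Fix.le32 {lam : ℝ} (h : Adm 3 lam) (h0 : lam ≠ 0) {N : ℝ → ℝ} {U V : ℕ → ℝ}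
    (hF : Fix lam N U V) {s : ℕ} (hs : s < 8) : V s ≤ 32 := by
  have key : ∀ g : ℕ → ℝ, ∑ k ∈ range 8, (if k = s then (1 : ℝ) else 0) * g k = g s := by
    intro g
    simp only [ite_mul, one_mul, zero_mul]
    rw [sum_ite_eq' (range 8) s, if_pos (mem_range.2 hs)]
  have := hF.lin (fun _ => 0) (fun k => if k = s then 1 else 0) (-32) fun f hf => by
    rw [key fun k => RR k lam f]
    simp only [zero_mul, sum_const_zero]
    linarith [RR_le hs h h0 hf]
  rw [key V] at this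
  simp only [zero_mul, sum_const_zero] at this
  linarith

end Vale.Agent.P154
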