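import Vale.Agent.P154.AInt
import Vale.Agent.P154.APar

/-! TASK APatB: patches with interpolation in `lam` by the Taylor expansion.
Plan. `rr_interp`: `rr_enc` at the three values of `lam` (same `τ` from `par_exists`), `interp_pow`
and `abs_zp_le` for each degree `k` (degrees `2, 3` give no error); with `t = tR f`, `L * t ≤ κ`:
`L^(k-4) * t^k ≤ t^4 * κ^(k-4)`, `L^17 * t^19 ≤ L^2 * t^4 * κ^15`, `t^4 = 64 * ca f ^ 2`.
`patB_sound`: for the point `h` of the patch put `f = h / avg h ∈ Simp 3`, `ca f = cn h ≤ a / 2^20`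
(`amx_sound`), `3 * avg h ≤ g.sh / 2^240`, `chv y h = avg h * shr y f`, so
`(avg h - chi s (chv y h)) / y^2 = avg h * RR s y f` (`chi_smul`). Take `κ = k / 16`,
`Lr = sqrt (L / 2^96) = max |lamR n| |lamR m|`; the first test says `Lr^2 * 8 * a / 2^20 ≤ κ^2`.
`(utT k).r s ≥ 2^45 * ∑ ..` and `(wtT k).r s ≥ 2^49 * zNr s * κ^15` (`lt_shr`, `sumN_eq`), so the entry
`et s` is at least `6 * 2^26 * avg h *` (the bound of `rr_interp`). By `grid_sound`,
`patch_interp` (`θ = 1`): `ER w l 0 0 et ≤ X - Y e` at both ends; `|bR| ≤ abR`. -/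

namespace Vale.Agent.P154

open Finset

theorem apb_gp (s : ℕ) (lam t τ : ℝ) :
    gp s 4 lam t τ = ∑ i ∈ range 15, zp s (i + 4) τ * lam ^ (i + 2) * t ^ i := by
  rw [gp, show max 2 4 = 4 from rfl, sum_Ico_eq_sum_range]
  refine sum_congr rfl fun i _ => ?_
  rw [show 4 + i - 2 = i + 2 by omega, show 4 + i - 4 = i by omega, add_comm 4 i]

theorem rr_interp {s : ℕ} (hs : s < 8) {f : Fin 3 → ℝ} (hf : f ∈ Simp 3) {x y θ L κ : ℝ}
    (hx : x ≠ 0) (hy : y ≠ 0) (h0 : (1 - θ) * x + θ * y ≠ 0) (a : 0 ≤ θ) (b : θ ≤ 1)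
    (h1 : |x| ≤ L) (h2 : |y| ≤ L) (h3 : L * tR f ≤ κ) (h4 : κ ≤ 1) :
    |RR s ((1 - θ) * x + θ * y) f - ((1 - θ) * RR s x f + θ * RR s y f)| ≤
      64 * ca f ^ 2 * ((y - x) ^ 2 / 8 *
        ∑ i ∈ range 15, ((i : ℝ) + 2) * (i + 1) * (zn s (i + 4) / 2 ^ 60) * κ ^ i +
        2 * zNr s * L ^ 2 * κ ^ 15) := by
  obtain ⟨τ, hτ, hP⟩ := par_exists hf
  have ht : 0 ≤ tR f := Real.sqrt_nonneg _
  have hL : 0 ≤ L := (abs_nonneg x).trans h1
  have hLt : 0 ≤ L * tR f := mul_nonneg hL ht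
  have h5 : 64 * ca f ^ 2 = tR f ^ 4 := by
    rw [show tR f ^ 4 = (tR f ^ 2) ^ 2 by ring, tR_sq_APar]
    ring
  have hz : |(1 - θ) * x + θ * y| ≤ L := by
    have := as1_cc (abs_le.1 h1) (abs_le.1 h2) a b
    exact abs_le.2 this
  have hN := zNr_nonneg s
  have enc : ∀ z : ℝ, z ≠ 0 → |z| ≤ L → |RR s z f + gp s 0 z (tR f) τ| ≤
      tR f ^ 4 * (zNr s * L ^ 2 * κ ^ 15) := fun z z0 zL => by
    refine (rr_enc hs hτ hP z0 (((mul_le_mul_of_nonneg_right zL ht).trans h3).trans h4)).trans ?_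
    calc zNr s * |z| ^ 17 * tR f ^ 19 ≤ zNr s * L ^ 17 * tR f ^ 19 := by gcongr
      _ = tR f ^ 4 * (zNr s * L ^ 2 * (L * tR f) ^ 15) := by ring
      _ ≤ _ := by gcongr
  have e1 := abs_le.1 (enc _ h0 hz)
  have e2 := as1_cc (abs_le.1 (enc _ hx h1)) (abs_le.1 (enc _ hy h2)) a b
  have e3 : |gp s 4 ((1 - θ) * x + θ * y) (tR f) τ -
      ((1 - θ) * gp s 4 x (tR f) τ + θ * gp s 4 y (tR f) τ)| ≤ (y - x) ^ 2 / 8 *
        ∑ i ∈ range 15, ((i : ℝ) + 2) * (i + 1) * (zn s (i + 4) / 2 ^ 60) * κ ^ i := by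
    simp only [apb_gp, mul_sum, ← sum_add_distrib, ← sum_sub_distrib]
    refine (abs_sum_le_sum_abs _ _).trans (sum_le_sum fun i hi => ?_)
    have k1 := interp_pow (i + 2) h1 h2 a b
    have k2 := abs_zp_le (k := i + 4) hs (by have := mem_range.1 hi; omega) hτ
    rw [show i + 2 - 1 = i + 1 by omega, show i + 2 - 2 = i by omega] at k1
    push_cast at k1
    calc _ = |zp s (i + 4) τ| * |((1 - θ) * x + θ * y) ^ (i + 2) -
          ((1 - θ) * x ^ (i + 2) + θ * y ^ (i + 2))| * tR f ^ i := by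
          rw [← abs_of_nonneg (pow_nonneg ht i), ← abs_mul, ← abs_mul,
            abs_of_nonneg (pow_nonneg ht i)]
          exact congrArg _ (by ring)
      _ ≤ zn s (i + 4) / 2 ^ 60 * (((i : ℝ) + 2) * (i + 1) * L ^ i * (y - x) ^ 2 / 8) *
          tR f ^ i := by gcongr
      _ = (y - x) ^ 2 / 8 * (((i : ℝ) + 2) * (i + 1) * (zn s (i + 4) / 2 ^ 60) *
          (L * tR f) ^ i) := by ring
      _ ≤ _ := by gcongr
  have e4 := abs_le.1 ((abs_mul _ _).trans_le (mul_le_mul (abs_of_nonneg (pow_nonneg ht 4)).le e3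
    (abs_nonneg _) (pow_nonneg ht 4)))
  rw [h5, abs_le]
  simp only [gp_four] at e1 e2
  constructor <;> linarith [e1.1, e1.2, e2.1, e2.2, e4.1, e4.2]

theorem apb_ut (k : ℕ) {s : ℕ} (hs : s < 8) :
    (2 : ℝ) ^ 45 * ∑ i ∈ range 15, ((i : ℝ) + 2) * (i + 1) * (zn s (i + 4) / 2 ^ 60) *
      ((k : ℝ) / 16) ^ i ≤ (((utT k).at s : ℕ) : ℝ) := by
  rw [utT, V8.of_at _ hs, Nat.cast_succ]
  refine le_of_eq_of_le ?_ (lt_shr _ 71).le
  rw [sumN_eq, Nat.cast_sum, mul_sum, sum_div]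
  refine sum_congr rfl fun i hi => ?_
  have h1 : (16 : ℝ) ^ (14 - i) * 16 ^ i = 16 ^ 14 := by
    rw [← pow_add, Nat.sub_add_cancel (by have := mem_range.1 hi; omega)]
  simp only [Nat.mul_eq, Nat.add_eq, Nat.pow_eq, Nat.sub_eq]
  push_cast
  rw [div_pow, eq_div_of_mul_eq (by positivity) h1]
  field_simp
  ring

theorem apb_wt (k : ℕ) {s : ℕ} (hs : s < 8) :
    2 ^ 49 * (zNr s * ((k : ℝ) / 16) ^ 15) ≤ (wtT k).at s := by
  rw [wtT, V8.of_at _ hs, Nat.cast_succ]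
  refine le_of_eq_of_le ?_ (lt_shr _ 51).le
  simp only [Nat.mul_eq, Nat.pow_eq, zNr, V8.r]
  push_cast
  ring

theorem apb_et {D L G a u v : ℕ} {d l g c S T : ℝ} (hd : d ^ 2 * 2 ^ 96 = D) (hl : l * 2 ^ 96 = L)
    (hg : 3 * g * 2 ^ 240 ≤ G) (c0 : 0 ≤ c) (hc : c * 2 ^ 20 ≤ a)
    (S0 : 0 ≤ S) (T0 : 0 ≤ T) (hS : 2 ^ 45 * S ≤ u) (hT : 2 ^ 49 * T ≤ v) :
    g * (64 * c ^ 2 * (d ^ 2 / 8 * S + 2 * l * T)) * (6 * 2 ^ 26) ≤
      (Nat.succ (Nat.shiftRight (Nat.mul (Nat.add (Nat.mul D u) (Nat.mul L v))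
        (Nat.mul G (Nat.mul a a))) 391) : ℕ) := by
  rw [Nat.cast_succ]
  refine le_trans ?_ (lt_shr _ 391).le
  simp only [Nat.mul_eq, Nat.add_eq]
  push_cast
  have h1 : ((D : ℝ) * (2 ^ 45 * S) + L * (2 ^ 49 * T)) *
      (3 * g * 2 ^ 240 * (c * 2 ^ 20 * (c * 2 ^ 20))) ≤ (D * u + L * v) * (G * (a * a)) := by
    refine le_trans (mul_le_mul_of_nonneg_left (mul_le_mul_of_nonneg_right hg (by positivity))
      (by positivity)) ?_
    gcongr
  rw [le_div_iff₀ (by positivity)]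
  refine le_of_eq_of_le ?_ h1
  rw [← hd, ← hl]
  have e : ∀ y : ℝ, y ^ 391 = y ^ 240 * y ^ 151 := fun y => by ring
  rw [e]
  generalize (2 : ℝ) ^ 240 = K
  ring

theorem apb_YR (w : Wt) {y : ℝ} (hy : Adm 3 y) (l : ℕ) {h : Fin 3 → ℝ} (h0 : 0 < avg h)
    (hf : (fun i => h i / avg h) ∈ Simp 3) :
    YR w y l h = ∑ s ∈ range 8, bR w l s * (avg h * RR s y fun i => h i / avg h) := by
  refine sum_congr rfl fun s _ => congrArg _ ?_
  have h1 : chv y h = fun i => avg h * shr y (fun i => h i / avg h) i := by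
    funext i
    simp only [chv, shr]
    field_simp
    ring
  rw [h1, chi_smul s h0.le (shr_mem hy hf).1, RR]
  ring

theorem apb_adm {n : ℕ} (hn : n ≤ 2 ^ 48) : -(1 / 2) ≤ lamR n ∧ lamR n ≤ 1 / 2 := by
  have h1 : (n : ℝ) ≤ 2 ^ 48 := by exact_mod_cast hn
  have h2 : (n : ℝ) / 2 ^ 48 ≤ 1 := (div_le_one (by positivity)).2 h1
  have h3 : (0 : ℝ) ≤ n / 2 ^ 48 := by positivity
  unfold lamR
  exact ⟨by linarith, by linarith⟩

theorem patB_sound {w : Wt} (hw : wOK w = true) {k Q hq P hp n m : ℕ} (hQ : Q + 4 * hq ≤ 2 ^ 20)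
    (hP : P + 4 * hp ≤ 2 ^ 20) (hnm : n ≤ m) (hm : m ≤ 2 ^ 48)
    (h : patB (mkCtx w) utT wtT k Q hq P hp n m (mkGeo Q hq P hp)
      (Nat.sub (amx (mkGeo Q hq P hp)) 1048576) (nmax (lsq n) (lsq m)) = true) :
    OutAll w Q (4 * hq) P (4 * hp) n m := by
  obtain ⟨a, ha⟩ : ∃ a, a = Nat.sub (amx (mkGeo Q hq P hp)) 1048576 := ⟨_, rfl⟩
  obtain ⟨L, hL⟩ : ∃ L, L = nmax (lsq n) (lsq m) := ⟨_, rfl⟩
  rw [← ha, ← hL] at h
  simp only [patB, band_iff] at h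
  obtain ⟨⟨k1, k2⟩, ⟨k3, k4⟩, ⟨k5, k6⟩, k7⟩ := h
  obtain ⟨et, het⟩ : ∃ e, e = V8.map2 (fun x y => Nat.succ (Nat.shiftRight (Nat.mul
    (Nat.add (Nat.mul (Nat.pow (Nat.sub m n) 2) x) (Nat.mul L y))
      (Nat.mul (mkGeo Q hq P hp).sh (Nat.mul a a))) 391)) (utT k) (wtT k) := ⟨_, rfl⟩
  rw [← het] at k7
  have k1' : (k : ℝ) ≤ 16 := by exact_mod_cast Nat.le_of_ble_eq_true k1
  have k2' : (2048 : ℝ) * L * a ≤ k * k * 2 ^ 116 := by
    have := Nat.le_of_ble_eq_true k2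
    rw [shl_eq] at this
    exact_mod_cast this
  have k3' : 1 ≤ lsq n := Nat.le_of_ble_eq_true k3
  have k4' : 1 ≤ lsq m := Nat.le_of_ble_eq_true k4
  have hn : n ≤ 2 ^ 48 := hnm.trans hm
  intro q p lam hq' hp' l1 l2 l0 l hl
  have split : ∀ (e : ℕ) (ep ex : V8), ER w l ep.r ex.r (fun _ => 0) +
      ER w l (fun _ => 0) (fun _ => 0) et.r = ER w l ep.r ex.r
        (fun s => (V8.map2 Nat.add et (cst (dlt w.u (dnR e)))).r s - dlt w.u (dnR e)) :=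
    fun e ep ex => by
    rw [← ER_add]
    refine ER_congr w l fun s hs => ⟨add_zero _, add_zero _, ?_⟩
    simp only [V8.r, V8.map2_at _ _ _ hs, cst_at _ hs, Nat.add_eq, Nat.cast_add]
    ring
  have y1 := patch_interp hw hQ hP hn k3' k5 (l := l) (θ := 1)
    (E := ER w l (fun _ => 0) (fun _ => 0) et.r) zero_le_one le_rfl (fun i hi j hj => by
      rw [one_mul, split n]
      exact (grid_sound hw hQ hP hn hm k3' k4' k7 hl hi hj).1.1) hq' hp'
  have y2 := patch_interp hw hQ hP hm k4' k6 (l := l) (θ := 1)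
    (E := ER w l (fun _ => 0) (fun _ => 0) et.r) zero_le_one le_rfl (fun i hi j hj => by
      rw [one_mul, split m]
      exact ((grid_sound hw hQ hP hn hm k3' k4' k7 hl hi hj).2 rfl).1) hq' hp'
  have am := amx_sound hq' hp'
  obtain ⟨-, x2⟩ := inB_xq hq'
  obtain ⟨-, p2⟩ := inB_xq hp'
  have x0 : 0 ≤ q ^ 6 := by positivity
  have p0 : 0 ≤ p ^ 6 := by positivity
  generalize q ^ 6 = x at *
  generalize p ^ 6 = z at *
  have v0 : 0 < avg (hx x z) := by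
    rw [avg_hx_AInt]
    positivity
  have hf : (fun i => hx x z i / avg (hx x z)) ∈ Simp 3 := by
    refine ⟨fun i => div_nonneg (aerr_hi ⟨x0, le_rfl⟩ ⟨p0, le_rfl⟩ i).1 v0.le, ?_⟩
    rw [avg3, ← add_div, ← add_div, div_right_comm, ← avg3, div_self v0.ne']
  obtain ⟨θ, t0, t1, rfl⟩ := between_AInt l1 l2
  have an := apb_adm hn
  have am' := apb_adm hm
  have az := as1_cc an am' t0 t1
  have adm : ∀ {y : ℝ}, -(1 / 2) ≤ y ∧ y ≤ 1 / 2 → Adm 3 y := fun h =>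
    ⟨by push_cast; linarith [h.1], by linarith [h.2]⟩
  rw [apb_YR w (adm an) l v0 hf] at y1
  rw [apb_YR w (adm am') l v0 hf] at y2
  rw [apb_YR w (adm az) l v0 hf]
  have hc : cn (hx x z) * 2 ^ 20 ≤ a := by
    have h1 : (amx (mkGeo Q hq P hp) : ℝ) ≤ a + 1048576 := by
      rw [ha]
      exact_mod_cast (le_tsub_add : amx (mkGeo Q hq P hp) ≤ _ - 1048576 + 1048576)
    rw [le_div_iff₀ (by positivity)] at am
    linarith
  have hg : 3 * avg (hx x z) * 2 ^ 240 ≤ (mkGeo Q hq P hp).sh := by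
    have h1 : ((mkGeo Q hq P hp).sh : ℝ) =
        2 ^ 240 + p6 (Q + 4 * hq) * 2 ^ 120 + p6 (Q + 4 * hq) * p6 (P + 4 * hp) := by
      change ((Nat.shiftLeft 1 240 + Nat.shiftLeft (p6 (Q + 4 * hq)) 120 +
        p6 (Q + 4 * hq) * p6 (P + 4 * hp) : ℕ) : ℝ) = _
      rw [shl_eq, shl_eq, Nat.cast_add, Nat.cast_add, Nat.cast_mul, Nat.cast_mul, Nat.cast_mul,
        Nat.cast_pow, Nat.cast_pow, Nat.cast_one, one_mul, Nat.cast_ofNat]
    rw [h1, p6_AInt, p6_AInt, avg_hx_AInt, show (2 : ℝ) ^ 240 = 2 ^ 120 * 2 ^ 120 by ring]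
    have h2 := mul_le_mul x2 p2 p0 (x0.trans x2)
    have h3 : (0 : ℝ) ≤ 2 ^ 120 * 2 ^ 120 := by positivity
    have h4 := mul_le_mul_of_nonneg_right (add_le_add x2 h2) h3
    linarith
  rw [cn] at hc
  clear k1 k2 k3 k4 k5 k6 k7 split am ha
  generalize (mkGeo Q hq P hp).sh = G at hg het
  generalize avg (hx x z) = g at *
  generalize (fun i => hx x z i / g) = f at *
  have c0 : 0 ≤ ca f := by
    have := tR_sq_APar f
    nlinarith [sq_nonneg (tR f)]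
  have hLr : ∀ e : ℕ, lsq e ≤ L → |lamR e| ≤ Real.sqrt (L / 2 ^ 96) := fun e he => by
    refine Real.abs_le_sqrt ?_
    rw [le_div_iff₀ (by positivity), ← lsq_cast]
    exact_mod_cast he
  have hsq : Real.sqrt ((L : ℝ) / 2 ^ 96) ^ 2 = L / 2 ^ 96 := Real.sq_sqrt (by positivity)
  have hκ : Real.sqrt ((L : ℝ) / 2 ^ 96) * tR f ≤ k / 16 := by
    have h0 : 0 ≤ tR f := Real.sqrt_nonneg _
    refine (sq_le_sq₀ (mul_nonneg (Real.sqrt_nonneg _) h0) (by positivity)).1 ?_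
    rw [mul_pow, hsq, tR_sq_APar]
    have h1 := mul_le_mul_of_nonneg_left hc (Nat.cast_nonneg L : (0 : ℝ) ≤ L)
    linarith
  have hE : ∑ s ∈ range 8, bR w l s * (g * RR s ((1 - θ) * lamR n + θ * lamR m) f) -
      ((1 - θ) * ∑ s ∈ range 8, bR w l s * (g * RR s (lamR n) f) +
        θ * ∑ s ∈ range 8, bR w l s * (g * RR s (lamR m) f)) ≤
      ER w l (fun _ => 0) (fun _ => 0) et.r := by
    simp only [ER, mul_zero, sum_const_zero, zero_add, mul_sum, sum_div, ← sum_add_distrib,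
      ← sum_sub_distrib]
    refine sum_le_sum fun s hs => ?_
    have hs' := mem_range.1 hs
    have r1 := rr_interp hs' hf (lam_ne_AInt k3') (lam_ne_AInt k4') l0 t0 t1
      (hLr n (by rw [hL, nmax_eq]; exact le_max_left _ _))
      (hLr m (by rw [hL, nmax_eq]; exact le_max_right _ _)) hκ (by linarith)
    have r2 := apb_et (D := Nat.pow (Nat.sub m n) 2) (L := L) (d := lamR m - lamR n)
      (l := L / 2 ^ 96) (by
        simp only [Nat.pow_eq, Nat.sub_eq, lamR]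
        push_cast [hnm]
        ring) (by ring) hg c0 hc (by positivity)
      (mul_nonneg (zNr_nonneg s) (by positivity)) (apb_ut k hs') (apb_wt k hs')
    have r3 : et.r s = (Nat.succ (Nat.shiftRight (Nat.mul
        (Nat.add (Nat.mul (Nat.pow (Nat.sub m n) 2) ((utT k).at s)) (Nat.mul L ((wtT k).at s)))
          (Nat.mul G (Nat.mul a a))) 391) : ℕ) := by
      rw [het, V8.r, V8.map2_at _ _ _ hs']
    rw [← r3, ← le_div_iff₀ (by positivity)] at r2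
    rw [hsq] at r1
    have r4 : |bR w l s| ≤ abR w l s := by
      have u1 : (0 : ℝ) ≤ dg (w.bp.at s) l := Nat.cast_nonneg _
      have u2 : (0 : ℝ) ≤ dg (w.bm.at s) l := Nat.cast_nonneg _
      rw [bR, abR, abs_div, abs_of_pos (by positivity : (0 : ℝ) < 2 ^ 32)]
      exact div_le_div_of_nonneg_right (abs_le.2 ⟨by linarith, by linarith⟩) (by positivity)
    have r5 := (mul_le_mul_of_nonneg_left r1 v0.le).trans (le_of_eq_of_le (by ring) r2)
    have r6 := mul_le_mul r4 r5 (mul_nonneg v0.le (abs_nonneg _)) ((abs_nonneg _).trans r4)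
    rw [← abs_of_pos v0, ← abs_mul, ← abs_mul] at r6
    refine le_of_eq_of_le ?_ ((le_abs_self _).trans (r6.trans_eq (by ring)))
    ring
  have z1 := mul_le_mul_of_nonneg_left y1 (sub_nonneg.2 t1)
  have z2 := mul_le_mul_of_nonneg_left y2 t0
  linarith

end Vale.Agent.P154
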