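import Vale.Agent.P154.APatA
import Vale.Agent.P154.APatB

/-! TASK AKt: the subdivision tree of the outer region.
Plan. The splitting lemmas are case distinctions (`le_total`). `kt_sound`: induction on the tree
(generalising the box); each case of `KT.go` unfolds by `rfl` (state it with `show` or a `have e : .. =
.. := rfl`); `divOK` gives `wq = 4 * (wq / 4)`; `amx_sound` for the leaf `s`
(`8 * (1179000 / 2^20 - 1) < 1`). `li_of_out`: choose a permutation `σ` with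
`f (σ 0) ≥ f (σ 1) ≥ f (σ 2)` (six cases, or `Tuple.sort`), `c = f (σ 0) > 0`, `x = f (σ 1) / c`,
`y = f (σ 2) / f (σ 1)` (if `f (σ 1) = 0` this is `0` and `f (σ 2) = 0`), `q = x^(1/6)`, `p = y^(1/6)`,
so `f ∘ σ = c * hx (q^6) (p^6)`, `avg (hx ..) = 1 / c`, `cn (hx ..) = ca f` (`ca_perm`). `XR` and `YR`
are homogeneous of degree one and symmetric (`chi_smul`, `chi_perm`, `avg_perm`; `chv lam h ≥ 0`
as `chv lam f = shr lam f` on `Simp 3`, `shr_mem`). -/

namespace Vale.Agent.P154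

theorem inB_split_AKt {Q a b : ℕ} {x : ℝ} (h : InB Q (a + b) x) :
    InB Q a x ∨ InB (Q + a) b x := by
  obtain ⟨h1, h2⟩ := h
  rw [Nat.cast_add] at h2
  rcases le_total (x * 2 ^ 20) ((Q : ℝ) + a) with h | h
  · exact Or.inl ⟨h1, h⟩
  · refine Or.inr ⟨?_, ?_⟩
    · rw [Nat.cast_add]
      exact h
    · rw [Nat.cast_add, add_assoc]
      exact h2

theorem OutGood.q {w : Wt} {Q a Q' b c P wp n m : ℕ} (h1 : OutGood w Q a P wp n m)
    (h2 : OutGood w Q' b P wp n m) (e1 : Nat.beq Q' (Nat.add Q a) = true)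
    (e2 : Nat.beq c (Nat.add a b) = true) : OutGood w Q c P wp n m := by
  have e1' : Q' = Q + a := Nat.eq_of_beq_eq_true e1
  have e2' : c = a + b := Nat.eq_of_beq_eq_true e2
  subst e1' e2'
  intro q p lam hq hp a1 a2 a3 l hl
  rcases inB_split_AKt hq with h | h
  · exact h1 q p lam h hp a1 a2 a3 l hl
  · exact h2 q p lam h hp a1 a2 a3 l hl

theorem OutGood.p {w : Wt} {Q wq P a P' b c n m : ℕ} (h1 : OutGood w Q wq P a n m)
    (h2 : OutGood w Q wq P' b n m) (e1 : Nat.beq P' (Nat.add P a) = true)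
    (e2 : Nat.beq c (Nat.add a b) = true) : OutGood w Q wq P c n m := by
  have e1' : P' = P + a := Nat.eq_of_beq_eq_true e1
  have e2' : c = a + b := Nat.eq_of_beq_eq_true e2
  subst e1' e2'
  intro q p lam hq hp a1 a2 a3 l hl
  rcases inB_split_AKt hp with h | h
  · exact h1 q p lam hq h a1 a2 a3 l hl
  · exact h2 q p lam hq h a1 a2 a3 l hl

theorem OutGood.l {w : Wt} {Q wq P wp n k m : ℕ} (h1 : OutGood w Q wq P wp n k)
    (h2 : OutGood w Q wq P wp k m) : OutGood w Q wq P wp n m := by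
  intro q p lam hq hp a1 a2 a3 l hl
  rcases le_total lam (lamR k) with h | h
  · exact h1 q p lam hq hp a1 h a3 l hl
  · exact h2 q p lam hq hp h a2 a3 l hl

noncomputable def boxOK (Q wq P wp n m : ℕ) : Bool :=
  band (band (Nat.ble (Nat.add Q wq) 1048576) (Nat.ble (Nat.add P wp) 1048576))
    (band (Nat.ble n m) (Nat.ble m 281474976710656))

theorem box_iff_AKt (Q wq P wp n m : ℕ) : boxOK Q wq P wp n m = true ↔
    (Q + wq ≤ 2 ^ 20 ∧ P + wp ≤ 2 ^ 20) ∧ n ≤ m ∧ m ≤ 2 ^ 48 := by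
  simp only [boxOK, band_iff, Nat.ble_eq, Nat.add_eq]
  norm_num

theorem div_AKt {wq wp : ℕ} (h : divOK wq wp = true) :
    ∃ a b, wq = 4 * a ∧ wp = 4 * b ∧ Nat.div wq 4 = a ∧ Nat.div wp 4 = b := by
  obtain ⟨h1, h2⟩ := (band_iff _ _).1 h
  have e1 : wq % 4 = 0 := Nat.eq_of_beq_eq_true h1
  have e2 : wp % 4 = 0 := Nat.eq_of_beq_eq_true h2
  exact ⟨wq / 4, wp / 4, by omega, by omega, rfl, rfl⟩

theorem all_good_AKt {w : Wt} {Q wq P wp n m : ℕ} (h : OutAll w Q wq P wp n m) :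
    OutGood w Q wq P wp n m :=
  fun q p lam a b c d e l hl => Or.inr (h q p lam a b c d e l hl)

theorem go_s_AKt (c : Ctx) (ut wt : ℕ → V8) (Q wq P wp n m : ℕ) :
    KT.go c ut wt KT.s Q wq P wp n m = band (divOK wq wp)
      (Nat.ble (amx (mkGeo Q (Nat.div wq 4) P (Nat.div wp 4))) 1179000) := rfl
theorem go_z_AKt (c : Ctx) (ut wt : ℕ → V8) (Q wq P wp n m : ℕ) :
    KT.go c ut wt KT.z Q wq P wp n m = band (divOK wq wp) (band (Nat.beq n m)
      (patZ c Q (Nat.div wq 4) P (Nat.div wp 4) n (mkGeo Q (Nat.div wq 4) P (Nat.div wp 4)))) := rfl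
theorem go_a_AKt (c : Ctx) (ut wt : ℕ → V8) (Q wq P wp n m : ℕ) :
    KT.go c ut wt KT.a Q wq P wp n m = band (divOK wq wp)
      (patA c Q (Nat.div wq 4) P (Nat.div wp 4) n m
        (mkGeo Q (Nat.div wq 4) P (Nat.div wp 4))) := rfl
theorem go_b_AKt (c : Ctx) (ut wt : ℕ → V8) (k Q wq P wp n m : ℕ) :
    KT.go c ut wt (KT.b k) Q wq P wp n m = band (divOK wq wp)
      (patB c ut wt k Q (Nat.div wq 4) P (Nat.div wp 4) n m
        (mkGeo Q (Nat.div wq 4) P (Nat.div wp 4))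
        (Nat.sub (amx (mkGeo Q (Nat.div wq 4) P (Nat.div wp 4))) 1048576)
        (nmax (lsq n) (lsq m))) := rfl
theorem go_q_AKt (c : Ctx) (ut wt : ℕ → V8) (x y : KT) (Q wq P wp n m : ℕ) :
    KT.go c ut wt (KT.q x y) Q wq P wp n m = band (KT.go c ut wt x Q (wq / 2) P wp n m)
      (KT.go c ut wt y (Q + wq / 2) (wq - wq / 2) P wp n m) := rfl
theorem go_p_AKt (c : Ctx) (ut wt : ℕ → V8) (x y : KT) (Q wq P wp n m : ℕ) :
    KT.go c ut wt (KT.p x y) Q wq P wp n m = band (KT.go c ut wt x Q wq P (wp / 2) n m)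
      (KT.go c ut wt y Q wq (P + wp / 2) (wp - wp / 2) n m) := rfl
theorem go_l_AKt (c : Ctx) (ut wt : ℕ → V8) (x y : KT) (Q wq P wp n m : ℕ) :
    KT.go c ut wt (KT.l x y) Q wq P wp n m = band (KT.go c ut wt x Q wq P wp n ((n + m) / 2))
      (KT.go c ut wt y Q wq P wp ((n + m) / 2) m) :=
  frc_eq _ fun k => band (KT.go c ut wt x Q wq P wp n k) (KT.go c ut wt y Q wq P wp k m)

theorem kt_sound {w : Wt} (hw : wOK w = true) (T : KT) {Q wq P wp n m : ℕ}
    (h : band (boxOK Q wq P wp n m) (KT.go (mkCtx w) utT wtT T Q wq P wp n m) = true) :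
    OutGood w Q wq P wp n m := by
  rw [band_iff, box_iff_AKt] at h
  obtain ⟨⟨⟨b1, b2⟩, b3, b4⟩, h⟩ := h
  induction T generalizing Q wq P wp n m with
  | s =>
    rw [go_s_AKt, band_iff] at h
    obtain ⟨a, b, rfl, rfl, e1, e2⟩ := div_AKt h.1
    have h2 := h.2
    rw [e1, e2, Nat.ble_eq] at h2
    intro q p lam hq hp _ _ _ l _
    have h3 := amx_sound hq hp
    have h4 : (amx (mkGeo Q a P b) : ℝ) ≤ 1179000 := by exact_mod_cast h2
    refine Or.inl ?_
    linarith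
  | z =>
    rw [go_z_AKt, band_iff, band_iff] at h
    obtain ⟨a, b, rfl, rfl, e1, e2⟩ := div_AKt h.1
    have h2 := h.2.2
    have e : n = m := Nat.eq_of_beq_eq_true h.2.1
    subst e
    rw [e1, e2] at h2
    exact all_good_AKt (patZ_sound hw b1 b2 b4 h2)
  | a =>
    rw [go_a_AKt, band_iff] at h
    obtain ⟨a, b, rfl, rfl, e1, e2⟩ := div_AKt h.1
    have h2 := h.2
    rw [e1, e2] at h2
    exact all_good_AKt (patA_sound hw b1 b2 b3 h2)
  | b k =>
    rw [go_b_AKt, band_iff] at h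
    obtain ⟨a, b, rfl, rfl, e1, e2⟩ := div_AKt h.1
    have h2 := h.2
    rw [e1, e2] at h2
    exact all_good_AKt (patB_sound hw b1 b2 b3 b4 h2)
  | q x y ihx ihy =>
    rw [go_q_AKt, band_iff] at h
    exact OutGood.q (ihx h.1 (by omega) b2 b3 b4) (ihy h.2 (by omega) b2 b3 b4)
      (Nat.beq_refl _) (Nat.beq_eq.mpr (by rw [Nat.add_eq]; omega))
  | p x y ihx ihy =>
    rw [go_p_AKt, band_iff] at h
    exact OutGood.p (ihx h.1 b1 (by omega) b3 b4) (ihy h.2 b1 (by omega) b3 b4)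
      (Nat.beq_refl _) (Nat.beq_eq.mpr (by rw [Nat.add_eq]; omega))
  | l x y ihx ihy =>
    rw [go_l_AKt, band_iff] at h
    exact OutGood.l (ihx h.1 b1 b2 (by omega) (by omega)) (ihy h.2 b1 b2 (by omega) b4)

theorem root_AKt {x : ℝ} (h0 : 0 ≤ x) (h1 : x ≤ 1) : ∃ q : ℝ, InB 0 1048576 q ∧ q ^ 6 = x := by
  refine ⟨x ^ ((6 : ℕ) : ℝ)⁻¹, ?_, Real.rpow_inv_natCast_pow h0 (by norm_num)⟩
  have a : 0 ≤ x ^ ((6 : ℕ) : ℝ)⁻¹ := Real.rpow_nonneg h0 _
  have b : x ^ ((6 : ℕ) : ℝ)⁻¹ ≤ 1 := Real.rpow_le_one h0 h1 (by positivity)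
  constructor
  · rw [Nat.cast_zero]
    positivity
  · push_cast
    linarith

theorem li_perm_AKt {w : Wt} {lam : ℝ} {l : ℕ} {f : Fin 3 → ℝ} (σ : Equiv.Perm (Fin 3))
    (h : LI w lam l (f ∘ σ)) : LI w lam l f := by
  have e : ∀ s, chi s (shr lam (f ∘ σ)) = chi s (shr lam f) := fun s => chi_perm s (shr lam f) σ
  simpa only [LI, PP, RR, chi_perm, e] using h

theorem li_sorted_AKt {w : Wt} {n m : ℕ} (h : OutGood w 0 1048576 0 1048576 n m) {lam : ℝ}
    (h1 : lamR n ≤ lam) (h2 : lam ≤ lamR m) (h0 : lam ≠ 0) (ha : Adm 3 lam) {f : Fin 3 → ℝ}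
    (hf : f ∈ Simp 3) (ht : 1 ≤ 8 * ca f) {l : ℕ} (hl : l < w.L) (s1 : f 1 ≤ f 0)
    (s2 : f 2 ≤ f 1) : LI w lam l f := by
  have hs := hf.2
  rw [avg3] at hs
  have hc : 0 < f 0 := by linarith
  obtain ⟨q, hq, eq⟩ := root_AKt (div_nonneg (hf.1 1) hc.le) ((div_le_one hc).2 s1)
  obtain ⟨p, hp, ep⟩ := root_AKt (div_nonneg (hf.1 2) (hf.1 1)) (div_le_one_of_le₀ s2 (hf.1 1))
  have key := h q p lam hq hp h1 h2 h0 l hl
  have e : hx (q ^ 6) (p ^ 6) = fun i => (f 0)⁻¹ * f i := by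
    rw [eq, ep]
    funext i
    fin_cases i
    · exact (inv_mul_cancel₀ hc.ne').symm
    · exact div_eq_inv_mul _ _
    · show f 1 / f 0 * (f 2 / f 1) = (f 0)⁻¹ * f 2
      rcases (hf.1 1).eq_or_lt with z | z
      · have z2 : f 2 = 0 := le_antisymm (z ▸ s2) (hf.1 2)
        rw [z2, zero_div, mul_zero, mul_zero]
      · field_simp
  rw [e] at key
  have hi : 0 < (f 0)⁻¹ := inv_pos.2 hc
  have ea : avg (fun i => (f 0)⁻¹ * f i) = (f 0)⁻¹ := by
    rw [avg3]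
    linear_combination (f 0)⁻¹ * hs
  have ec : cn (fun i => (f 0)⁻¹ * f i) = ca f := by
    rw [cn, ea]
    exact congrArg ca (funext fun i => mul_div_cancel_left₀ _ hi.ne')
  have ev : chv lam (fun i => (f 0)⁻¹ * f i) = fun i => (f 0)⁻¹ * shr lam f i := by
    funext i
    rw [chv, ea, shr]
    ring
  rcases key with key | key
  · rw [ec] at key
    exact absurd ht (not_le.2 key)
  · have eX : XR w l (fun i => (f 0)⁻¹ * f i) =
        (f 0)⁻¹ * (∑ s ∈ Finset.range 8, aR w l s * PP s f - cR w l) := by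
      rw [XR, ea, mul_sub, Finset.mul_sum, mul_comm (cR w l)]
      refine congrArg (· - _) (Finset.sum_congr rfl fun s _ => ?_)
      rw [chi_smul s hi.le hf.1, PP]
      ring
    have eY : YR w lam l (fun i => (f 0)⁻¹ * f i) =
        (f 0)⁻¹ * ∑ s ∈ Finset.range 8, bR w l s * RR s lam f := by
      rw [YR, ea, ev, Finset.mul_sum]
      refine Finset.sum_congr rfl fun s _ => ?_
      rw [chi_smul s hi.le (shr_mem ha hf).1, RR]
      ring
    rw [eX, eY] at key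
    have := le_of_mul_le_mul_left key hi
    unfold LI
    linarith

theorem li_of_out {w : Wt} {n m : ℕ} (h : OutGood w 0 1048576 0 1048576 n m) {lam : ℝ}
    (h1 : lamR n ≤ lam) (h2 : lam ≤ lamR m) (h0 : lam ≠ 0) (ha : Adm 3 lam) {f : Fin 3 → ℝ}
    (hf : f ∈ Simp 3) (ht : 1 ≤ 8 * ca f) {l : ℕ} (hl : l < w.L) : LI w lam l f := by
  have key : ∀ σ : Equiv.Perm (Fin 3), f (σ 1) ≤ f (σ 0) → f (σ 2) ≤ f (σ 1) → LI w lam l f :=
    fun σ s1 s2 => li_perm_AKt σ (li_sorted_AKt (f := f ∘ σ) h h1 h2 h0 ha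
      ⟨fun i => hf.1 _, by rw [avg_perm]; exact hf.2⟩ (by rw [ca_perm]; exact ht) hl s1 s2)
  have hm := Tuple.monotone_sort f
  have r0 : Fin.revPerm (0 : Fin 3) = 2 := by decide
  have r1 : Fin.revPerm (1 : Fin 3) = 1 := by decide
  have r2 : Fin.revPerm (2 : Fin 3) = 0 := by decide
  refine key (Tuple.sort f * Fin.revPerm) ?_ ?_
  · rw [Equiv.Perm.mul_apply, Equiv.Perm.mul_apply, r0, r1]
    exact hm (by decide : (1 : Fin 3) ≤ 2)
  · rw [Equiv.Perm.mul_apply, Equiv.Perm.mul_apply, r1, r2]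
    exact hm (by decide : (0 : Fin 3) ≤ 1)

end Vale.Agent.P154
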