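import Vale.Agent.P154.AFix
import Vale.Agent.P154.ANf
import Vale.Agent.P154.ABase

/-! TASK ARed: from the jobs to the critical line, and reduction to the critical line.
Plan. `regP_of`, `regI_of`: for `lam = -1 / √d` we have `d * lam^2 = 1`; `fix_exists` with `gen_reg`,
`continuous_Nf`, `compat_reg`, `rho_reg`; `lamJ n ≤ lam` follows from `2^20 ≤ d * (512 - n)^2`
(so `n < 512`) and `lam ≤ lamJ m` from `d * (512 - m)^2 ≤ 2^20` (truncated subtraction; trivial if
`m ≥ 512`), by comparing squares (`Real.le_sqrt`, `Real.sqrt_le_left`, `abs_le_abs`).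
`poiP_of`: `gen_poi`, `compat_poi`, `rho_poi`. `lev_le`: induction on `n` from a comparison of
the steps. For regular laws `(step ..).E φ = ((F.ch h).pow d).E φ` (`E_mix`, `hasSum_single`,
`HasSum.unique`); use `Fam.ch_le` with `lam = m * lam'` (the statement needs `Adm 3 (m * lam')`;
rewrite with `subst` or `obtain rfl`), `Fam.Le.ch`, `Fam.Le.pow`, `Fam.pow_le_pow`; compare `d`
with `max d 4` and `lam` with `-1 / √(max d 4)`. For Poisson laws with `d ≤ d' = 1 / lam^2`: the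
numbers `a k = (G.pow k).E φ` increase in `k`; let `k0` be the least `k` with
`poiOff d k ≤ poiOff d' k` (exists since both sums are one; the ratio increases in `k`), then
`(poiOff d' k - poiOff d k) * (a k - a k0) ≥ 0` for all `k`; sum it. `tendsto_of_le`:
`F.E ca ≤ 6 * F.E tv ≤ 6 * G.E tv ≤ 6 * √(G.E ca)` (`le_tv`, `cvx_tv`, `bdd_tv`, `tv_le`, see
`assemble` in `Main.lean`). -/

namespace Vale.Agent.P154

open Filter Topology

noncomputable def regOK (n m dl du d1 d2 : ℕ) : Bool :=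
  band (band (Nat.ble 2 du) (Nat.ble du d1)) (band (bor (Nat.beq dl 0) (Nat.ble d2 dl))
    (band (Nat.ble 1048576 (Nat.mul d1 (Nat.pow (Nat.sub 512 n) 2)))
      (Nat.ble (Nat.mul d2 (Nat.pow (Nat.sub 512 m) 2)) 1048576)))

lemma regOK_ARed {n m dl du d1 d2 : ℕ} (e : regOK n m dl du d1 d2 = true) :
    2 ≤ du ∧ du ≤ d1 ∧ (dl = 0 ∨ d2 ≤ dl) ∧ 1048576 ≤ d1 * (512 - n) ^ 2 ∧
      d2 * (512 - m) ^ 2 ≤ 1048576 := by
  simp only [regOK, band_iff, bor_iff, Nat.ble_eq, Nat.beq_eq] at e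
  exact ⟨e.1.1, e.1.2, e.2.1, e.2.2.1, e.2.2.2⟩

lemma low_ARed {n d : ℕ} (h : 1048576 ≤ d * (512 - n) ^ 2) : lamJ n ≤ -1 / Real.sqrt d := by
  have hn : n ≤ 512 := by
    by_contra hn
    rw [Nat.sub_eq_zero_of_le (by omega)] at h
    omega
  have h1 : (1048576 : ℝ) ≤ d * (512 - n) ^ 2 := by
    have h2 : ((1048576 : ℕ) : ℝ) ≤ ((d * (512 - n) ^ 2 : ℕ) : ℝ) := Nat.cast_le.2 h
    rw [Nat.cast_mul, Nat.cast_pow, Nat.cast_sub hn] at h2
    exact_mod_cast h2
  have h2 : (n : ℝ) ≤ 512 := by exact_mod_cast hn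
  have h3 : (1024 : ℝ) ≤ Real.sqrt d * (512 - n) := by
    refine (sq_le_sq₀ (by norm_num) (mul_nonneg (Real.sqrt_nonneg _) (by linarith))).1 ?_
    rw [mul_pow, Real.sq_sqrt (Nat.cast_nonneg d)]
    linarith
  have h4 : 0 < Real.sqrt d := by
    refine (Real.sqrt_nonneg _).lt_of_ne fun h0 => ?_
    rw [← h0] at h3
    linarith
  rw [lamJ, le_div_iff₀ h4]
  linarith

lemma up_ARed {m d : ℕ} (hd : 0 < d) (h : d * (512 - m) ^ 2 ≤ 1048576) :
    -1 / Real.sqrt d ≤ lamJ m := by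
  have h1 : (d : ℝ) * ((512 - m : ℕ) : ℝ) ^ 2 ≤ 1048576 := by exact_mod_cast h
  have h2 : (512 : ℝ) - m ≤ ((512 - m : ℕ) : ℝ) := by
    rw [sub_le_iff_le_add]
    exact_mod_cast (by omega : 512 ≤ 512 - m + m)
  have h4 : 0 < Real.sqrt d := Real.sqrt_pos.2 (by exact_mod_cast hd)
  have h3 : Real.sqrt d * ((512 - m : ℕ) : ℝ) ≤ 1024 := by
    refine (sq_le_sq₀ (by positivity) (by norm_num)).1 ?_
    rw [mul_pow, Real.sq_sqrt (Nat.cast_nonneg d)]
    linarith
  have h5 := mul_le_mul_of_nonneg_left h2 h4.le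
  rw [lamJ, div_le_iff₀ h4]
  linarith

lemma crit_ARed {n m dl du d : ℕ} (h : JobP n m dl du) (h2 : 2 ≤ du) (hd : du ≤ d)
    (hl : dl = 0 ∨ d ≤ dl) (h1 : lamJ n ≤ -1 / Real.sqrt d) (h3 : -1 / Real.sqrt d ≤ lamJ m) :
    CritR d := by
  intro ha
  have d0 : (0 : ℝ) < d := by exact_mod_cast (by omega : 0 < d)
  have h4 : 0 < Real.sqrt d := Real.sqrt_pos.2 d0
  have h0 : -1 / Real.sqrt d ≠ 0 := div_ne_zero (by norm_num) h4.ne'
  have e : (d : ℝ) * (-1 / Real.sqrt d) ^ 2 = 1 := by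
    rw [div_pow, Real.sq_sqrt d0.le]
    field_simp
  obtain ⟨U, V, hF, hV⟩ := fix_exists (off_reg d) ha h0 (continuous_Nf d) (gen_reg (by omega) e)
  refine hV (h _ h1 h3 h0 _ _ U V hF (compat_reg (by omega) hd hl) (fun h5 => ?_)
    (rho_reg (by omega) e))
  have h6 : (d : ℝ) ≤ dl := by exact_mod_cast hl.resolve_left (by omega)
  exact e.ge.trans (mul_le_mul_of_nonneg_right h6 (sq_nonneg _))

theorem regP_of {n m dl du : ℕ} (h : JobP n m dl du) (d1 d2 : ℕ)
    (e : regOK n m dl du d1 d2 = true) : RegP d1 d2 := by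
  obtain ⟨e1, e2, e3, e4, e5⟩ := regOK_ARed e
  intro d a b
  exact crit_ARed h e1 (e2.trans a) (e3.imp id b.trans)
    (low_ARed (e4.trans (Nat.mul_le_mul_right _ a)))
    (up_ARed (by omega) ((Nat.mul_le_mul_right _ b).trans e5))

theorem regI_of {n m du : ℕ} (h : JobP n m 0 du) (d1 : ℕ)
    (e : band (Nat.ble 512 m) (regOK n m 0 du d1 d1) = true) : RegI d1 := by
  rw [band_iff, Nat.ble_eq] at e
  obtain ⟨e1, e2, -, e4, -⟩ := regOK_ARed e.2
  intro d a
  refine crit_ARed h e1 (e2.trans a) (Or.inl rfl)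
    (low_ARed (e4.trans (Nat.mul_le_mul_right _ a))) (up_ARed (by omega) ?_)
  rw [Nat.sub_eq_zero_of_le e.1]
  omega

theorem poiP_of {n m du : ℕ} (h : JobP n m 0 du) : PoiP n m := by
  intro lam h1 h2 h0 ha hd
  obtain ⟨U, V, hF, hV⟩ := fix_exists (off_poi hd) ha h0.ne (continuous_Nf 0) (gen_poi h0.ne)
  exact hV (h _ h1 h2 h0.ne _ _ U V hF (compat_poi du) (fun h5 => absurd h5 (by omega))
    (rho_poi lam))

theorem RegP.join {a b c d : ℕ} (h1 : RegP a b) (h2 : RegP c d)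
    (e : Nat.ble c (Nat.succ b) = true) : RegP a d := by
  rw [Nat.ble_eq] at e
  intro x hx hx'
  rcases le_or_gt x b with h | h
  · exact h1 x hx h
  · exact h2 x (e.trans h) hx'

theorem RegP.joinI {a b c : ℕ} (h1 : RegP a b) (h2 : RegI c)
    (e : Nat.ble c (Nat.succ b) = true) : RegI a := by
  rw [Nat.ble_eq] at e
  intro x hx
  rcases le_or_gt x b with h | h
  · exact h1 x hx h
  · exact h2 x (e.trans h)

theorem PoiP.join {a b c : ℕ} (h1 : PoiP a b) (h2 : PoiP b c) : PoiP a c := by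
  intro lam hx hx'
  rcases le_total lam (lamJ b) with h | h
  · exact h1 lam hx h
  · exact h2 lam h hx'

theorem tendsto_of_le {F G : ℕ → Fam 3} (h : ∀ n, (F n).Le (G n))
    (hG : Tendsto (fun n => (G n).E ca) atTop (𝓝 0)) :
    Tendsto (fun n => (F n).E ca) atTop (𝓝 0) := by
  have h1 := ((Real.continuous_sqrt.tendsto 0).comp hG).const_mul 6
  rw [Real.sqrt_zero, mul_zero] at h1
  refine squeeze_zero (fun n => (F n).E_nonneg fun f _ => ca_nonneg f) (fun n => ?_) h1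
  have h2 := le_tv (F n)
  have h3 := h n tv bdd_tv cvx_tv
  have h4 : (G n).E tv ≤ Real.sqrt ((G n).E ca) := Real.le_sqrt_of_sq_le (tv_le _).2
  simp only [Function.comp_apply]
  push_cast at h2
  linarith

lemma lev_ARed {p p' : ℕ → ℝ} {d s2 d' s2' : ℝ} (hp : Off p d s2) (hp' : Off p' d' s2')
    {lam lam' : ℝ} (h : Adm 3 lam) (h' : Adm 3 lam')
    (H : ∀ F G : Fam 3, F.Le G → (Fam.step hp h F).Le (Fam.step hp' h' G)) (n : ℕ) :
    (Fam.lev hp h n).Le (Fam.lev hp' h' n) := by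
  induction n with
  | zero => exact Fam.Le.refl _
  | succ n ih => exact H _ _ ih

lemma ch_ARed (F : Fam 3) {lam lam' m : ℝ} (h : Adm 3 lam) (h' : Adm 3 lam') (e : lam = m * lam')
    (h0 : 0 ≤ m) (h1 : m ≤ 1) : (F.ch h).Le (F.ch h') := by
  subst e
  exact F.ch_le h' h h0 h1

lemma step_ARed (d : ℕ) {lam : ℝ} (h : Adm 3 lam) (F : Fam 3) {φ : (Fin 3 → ℝ) → ℝ} (hb : Bdd φ) :
    (Fam.step (off_reg d) h F).E φ = ((F.ch h).pow d).E φ := by
  have h1 := Fam.E_mix (regOff d) (off_reg d).nonneg (off_reg d).sum_one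
    (fun k => (F.ch h).pow k) hb
  have h2 := hasSum_single (f := fun k => regOff d k * ((F.ch h).pow k).E φ) d
    fun k hk => by simp [regOff, hk]
  have h3 := h1.unique h2
  rw [regOff, if_pos rfl, one_mul] at h3
  exact h3

theorem anti_reg (H : RegI 4) {d : ℕ} {lam : ℝ} (h : Adm 3 lam) (h0 : lam < 0)
    (hd : (d : ℝ) * lam ^ 2 ≤ 1) :
    Tendsto (fun n => (Fam.lev (off_reg d) h n).E ca) atTop (𝓝 0) := by
  obtain ⟨e, e1, e2, e3⟩ : ∃ e : ℕ, d ≤ e ∧ 4 ≤ e ∧ (e : ℝ) * lam ^ 2 ≤ 1 := by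
    rcases le_total 4 d with h4 | h4
    · exact ⟨d, le_rfl, h4, hd⟩
    · have h5 := h.1
      push_cast at h5
      exact ⟨4, h4, le_rfl, by push_cast; nlinarith⟩
  have e4 : (4 : ℝ) ≤ e := by exact_mod_cast e2
  have e5 : 2 ≤ Real.sqrt e := Real.le_sqrt_of_sq_le (by linarith)
  have e6 : 0 < Real.sqrt e := by linarith
  have h' : Adm 3 (-1 / Real.sqrt e) := by
    constructor
    · rw [div_mul_eq_mul_div, le_div_iff₀ e6]
      push_cast
      linarith
    · rw [div_le_iff₀ e6]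
      linarith
  have m0 : 0 ≤ -lam * Real.sqrt e := mul_nonneg (by linarith) e6.le
  have m1 : -lam * Real.sqrt e ≤ 1 := by
    refine (sq_le_sq₀ m0 zero_le_one).1 ?_
    rw [mul_pow, Real.sq_sqrt (by linarith), neg_sq]
    linarith
  refine tendsto_of_le (lev_ARed (off_reg d) (off_reg e) h h' fun F G a φ hb hc => ?_) (H e e2 h')
  rw [step_ARed d h F hb, step_ARed e h' G hb]
  exact ((((a.ch h).trans (ch_ARed G h h' (by field_simp) m0 m1)).pow d).trans
    (Fam.pow_le_pow _ e1)) φ hb hc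

lemma poi_ARed {d d' : ℝ} (h0 : 0 ≤ d) (h : d ≤ d') {a : ℕ → ℝ} (ha : Monotone a) {x y : ℝ}
    (hx : HasSum (fun k => poiOff d k * a k) x) (hy : HasSum (fun k => poiOff d' k * a k) y) :
    x ≤ y := by
  have s1 := (off_poi h0).sum_one
  have s2 := (off_poi (h0.trans h)).sum_one
  have hex : ∃ k, poiOff d k ≤ poiOff d' k := by
    by_contra hc
    push Not at hc
    exact lt_irrefl _ (hasSum_lt (fun k => (hc k).le) (hc 0) s2 s1)
  have hs : ∀ (d : ℝ) (k : ℕ), poiOff d (k + 1) = poiOff d k * (d / (k + 1)) := fun d k => by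
    simp only [poiOff, pow_succ, Nat.factorial_succ]
    push_cast
    field_simp
  have hup : ∀ k, Nat.find hex ≤ k → poiOff d k ≤ poiOff d' k := fun k hk => by
    induction k, hk using Nat.le_induction with
    | base => exact Nat.find_spec hex
    | succ k _ ih =>
      rw [hs, hs]
      exact mul_le_mul ih (div_le_div_of_nonneg_right h (by positivity)) (by positivity)
        ((off_poi (h0.trans h)).nonneg k)
  have h1 := (hy.sub hx).sub ((s2.sub s1).mul_right (a (Nat.find hex)))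
  have h2 := h1.nonneg fun k => by
    rcases le_or_gt (Nat.find hex) k with hk | hk
    · have := mul_nonneg (sub_nonneg.2 (hup k hk)) (sub_nonneg.2 (ha hk))
      linarith
    · have := mul_nonneg (sub_nonneg.2 (not_le.1 (Nat.find_min hex hk)).le)
        (sub_nonneg.2 (ha hk.le))
      linarith
  linarith

theorem anti_poi {m : ℕ} (H : PoiP 0 m) (hm : 512 ≤ m) {d : ℝ} (hd0 : 0 ≤ d) {lam : ℝ}
    (h : Adm 3 lam) (h0 : lam < 0) (hd : d * lam ^ 2 ≤ 1) :
    Tendsto (fun n => (Fam.lev (off_poi hd0) h n).E ca) atTop (𝓝 0) := by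
  have l2 : 0 < lam ^ 2 := sq_pos_of_neg h0
  have h1 : d ≤ 1 / lam ^ 2 := (le_div_iff₀ l2).2 hd
  have h2 : lamJ 0 ≤ lam := by
    have h5 := h.1
    push_cast at h5
    rw [lamJ]
    push_cast
    linarith
  have h3 : lam ≤ lamJ m := by
    have h5 : (512 : ℝ) ≤ m := by exact_mod_cast hm
    rw [lamJ]
    linarith
  refine tendsto_of_le (lev_ARed (off_poi hd0) (off_poi (hd0.trans h1)) h h
    fun F G a φ hb hc => ?_) (H lam h2 h3 h0 h (hd0.trans h1))
  refine (Fam.mix_le _ _ _ (fun k => (a.ch h).pow k) φ hb hc).trans ?_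
  exact poi_ARed hd0 h1 (fun j k hjk => Fam.pow_le_pow (G.ch h) hjk φ hb hc)
    (Fam.E_mix _ _ _ (fun k => (G.ch h).pow k) hb) (Fam.E_mix _ _ _ (fun k => (G.ch h).pow k) hb)

end Vale.Agent.P154
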