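import Vale.Agent.P154.AJob
import Vale.Agent.P154.ARed

/-! Convenient forms of the soundness theorems. -/

namespace Vale.Agent.P154

theorem kt_of {w : Wt} (hw : wOK w = true) {T : KT} {Q wq P wp n m : ℕ}
    (h : KT.go (mkCtx w) utT wtT T Q wq P wp n m = true) (hb : boxOK Q wq P wp n m = true) :
    OutGood w Q wq P wp n m := kt_sound hw T ((band_iff _ _).2 ⟨hb, h⟩)

theorem cen1_of {w : Wt} {n m i0 cnt : ℕ} {t1 t2 : ℤ} {us : List ℤ}
    (h : cenI w n m i0 cnt t1 t2 us = true) (hb : cenOK n m t2 = true) :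
    CenGood w n m i0 cnt t1 t2 := cenI_of us ((band_iff _ _).2 ⟨hb, h⟩)

theorem cen2_of {w : Wt} {kap n m : ℕ} {t1 t2 : ℤ} (hs : smOK w kap = true) {us : List ℤ}
    (h : cenII w kap n m t1 t2 us = true) (hb : cenOK n m t2 = true) :
    Good2 w kap n m t1 t2 := cenII_of hs us ((band_iff _ _).2 ⟨hb, h⟩)

end Vale.Agent.P154
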