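import Vale.Agent.P154.AInt

/-! TASK APatA: patches with interpolation in `lam` by second derivatives.
Plan. Here `lamR n ≤ lamR m < 0`, so `1 ≤ lsq m ≤ lsq n`. Do not unfold `Nat.log2` (generalise the
value to `t`). By `grid_sound` and `patch_interp` (with `θ = 1` and `θ = 1 - 1 / 2^t`, `ER_add`,
`ER_congr`, `V8.map2_at`, `cst_at`) at the point `h` of the patch, for both ends `e = n, m`:
`G ≤ X - Y e` and `G ≤ (1 - 1 / 2^t) * X - Y e`, where `X = XR w l h`, `Y e = YR w (lamR e) l h` and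
`G = ER w l 0 (errG ..).r 0 ≥ 0`. Write `lam = (1 - θ) * lamR n + θ * lamR m`, `Δ = lamR m - lamR n`,
`T y = y^2 * YR w y l h = ∑ bR * (avg h - chi s (chv y h))`. `errG_sound` gives
`T lam ≤ (1 - θ) * T (lamR n) + θ * T (lamR m) + G * lamR m ^ 2`, and
`lam^2 = (1 - θ) * lamR n ^ 2 + θ * lamR m ^ 2 - θ (1 - θ) Δ^2`, `Δ^2 / 4 ≤ lamR m ^ 2 / 2^t`. If
`X ≤ 0` use the first pair of inequalities, otherwise the second, to get `T lam ≤ lam^2 * X`. -/

namespace Vale.Agent.P154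

open Finset

theorem lsq_pos_APatA {n : ℕ} (h : n + 1 ≤ 140737488355328) : 1 ≤ lsq n := by
  change 1 ≤ (n - 140737488355328 + (140737488355328 - n)) ^ 2
  exact Nat.one_le_pow _ _ (by omega)

theorem lam_neg_APatA {n : ℕ} (h : n + 1 ≤ 140737488355328) : lamR n < 0 := by
  have h1 : (n : ℝ) + 1 ≤ 140737488355328 := by exact_mod_cast h
  unfold lamR
  linarith

theorem split_APatA (w : Wt) (l d : ℕ) (ep ex eg : V8) :
    ER w l ep.r (V8.map2 Nat.add ex eg).r (fun s => (cst d).r s - d) =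
      ER w l ep.r ex.r (fun _ => 0) + ER w l (fun _ => 0) eg.r (fun _ => 0) := by
  rw [← ER_add]
  refine ER_congr w l fun s hs => ⟨(add_zero _).symm, ?_, ?_⟩
  · change (((V8.map2 Nat.add ex eg).at s : ℕ) : ℝ) = (ex.at s : ℝ) + (eg.at s : ℝ)
    rw [V8.map2_at _ _ _ hs, Nat.add_eq, Nat.cast_add]
  · change ((cst d).at s : ℝ) - d = 0 + 0
    rw [cst_at _ hs, sub_self, add_zero]

theorem YR_mul_APatA (w : Wt) (l : ℕ) {y : ℝ} (hy : y ≠ 0) (h : Fin 3 → ℝ) :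
    y ^ 2 * YR w y l h = ∑ s ∈ range 8, bR w l s * (avg h - chi s (chv y h)) := by
  rw [YR, mul_sum]
  refine sum_congr rfl fun s _ => ?_
  field_simp

theorem fin_APatA {a b θ τ X G Ya Yb Y : ℝ} (hab : a ≤ b) (hb : b < 0) (t0 : 0 ≤ θ) (t1 : θ ≤ 1)
    (hτ : 0 ≤ τ) (hG : 0 ≤ G) (hd : (b - a) ^ 2 ≤ 4 * b ^ 2 * τ) (a1 : G ≤ 1 * X - Ya)
    (a2 : G ≤ (1 - τ) * X - Ya) (b1 : G ≤ 1 * X - Yb) (b2 : G ≤ (1 - τ) * X - Yb)
    (H : ((1 - θ) * a + θ * b) ^ 2 * Y ≤ (1 - θ) * (a ^ 2 * Ya) + θ * (b ^ 2 * Yb) + G * b ^ 2) :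
    Y ≤ X := by
  have c : 0 ≤ 1 - θ := sub_nonneg.2 t1
  have hl : (1 - θ) * a + θ * b < 0 := by nlinarith
  have hl2 : 0 < ((1 - θ) * a + θ * b) ^ 2 := sq_pos_of_neg hl
  have hM : b ^ 2 ≤ a ^ 2 := by nlinarith
  have hca : 0 ≤ (1 - θ) * a ^ 2 := by positivity
  have hcb : 0 ≤ θ * b ^ 2 := by positivity
  have g1 : 0 ≤ (1 - θ) * (a ^ 2 - b ^ 2) := mul_nonneg c (sub_nonneg.2 hM)
  have g2 := mul_nonneg hG g1
  have g3 : 0 ≤ θ * (1 - θ) * (b - a) ^ 2 := by positivity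
  refine le_of_mul_le_mul_left ?_ hl2
  rcases le_total X 0 with hX | hX
  · have k1 := mul_le_mul_of_nonneg_left a1 hca
    have k2 := mul_le_mul_of_nonneg_left b1 hcb
    have k3 := mul_nonneg g3 (neg_nonneg.2 hX)
    linarith
  · have k1 := mul_le_mul_of_nonneg_left a2 hca
    have k2 := mul_le_mul_of_nonneg_left b2 hcb
    have k3 : θ * (1 - θ) * (b - a) ^ 2 ≤ τ * ((1 - θ) * a ^ 2 + θ * b ^ 2) := by
      have m1 := mul_nonneg hτ g1
      have m2 := mul_nonneg (sq_nonneg (1 - 2 * θ)) (sq_nonneg (b - a))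
      linarith
    have k4 := mul_le_mul_of_nonneg_right k3 hX
    linarith

theorem patA_sound {w : Wt} (hw : wOK w = true) {Q hq P hp n m : ℕ} (hQ : Q + 4 * hq ≤ 2 ^ 20)
    (hP : P + 4 * hp ≤ 2 ^ 20) (hnm : n ≤ m)
    (h : patA (mkCtx w) Q hq P hp n m (mkGeo Q hq P hp) = true) :
    OutAll w Q (4 * hq) P (4 * hp) n m := by
  unfold patA at h
  generalize Nat.log2 (nmin 2097152 (Nat.div (Nat.mul 4 (lsq m)) (Nat.pow (Nat.sub m n) 2))) = t
    at h
  obtain ⟨h1, h⟩ := (band_iff _ _).1 h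
  obtain ⟨okn, h⟩ := (band_iff _ _).1 h
  obtain ⟨okm, h⟩ := (band_iff _ _).1 h
  obtain ⟨hup, h⟩ := (band_iff _ _).1 h
  obtain ⟨h2, h⟩ := (band_iff _ _).1 h
  obtain ⟨h3, h⟩ := (band_iff _ _).1 h
  have hm1 : m + 1 ≤ 140737488355328 := Nat.le_of_ble_eq_true h1
  have hn1 : n + 1 ≤ 140737488355328 := by omega
  have ht : t ≠ 0 := Nat.one_le_iff_ne_zero.1 (Nat.le_of_ble_eq_true h2)
  have h4 : (m - n) ^ 2 * 2 ^ t ≤ 4 * lsq m := by
    have k := Nat.le_of_ble_eq_true h3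
    rwa [shl_eq] at k
  have hn : n ≤ 2 ^ 48 := by omega
  have hm : m ≤ 2 ^ 48 := by omega
  have ln := lsq_pos_APatA hn1
  have lm := lsq_pos_APatA hm1
  have τ0 : (0 : ℝ) ≤ 1 / 2 ^ t := by positivity
  have τ1 : (1 : ℝ) / 2 ^ t ≤ 1 := by
    rw [div_le_one (by positivity)]
    exact one_le_pow₀ (by norm_num)
  have hd : (lamR m - lamR n) ^ 2 ≤ 4 * lamR m ^ 2 * (1 / 2 ^ t) := by
    have k : ((m : ℝ) - n) ^ 2 * 2 ^ t ≤ 4 * (lamR m ^ 2 * 2 ^ 96) := by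
      rw [← lsq_cast, ← Nat.cast_sub hnm]
      exact_mod_cast h4
    have e : lamR m - lamR n = ((m : ℝ) - n) / 2 ^ 48 := by
      unfold lamR
      ring
    rw [e, mul_one_div, le_div_iff₀ (by positivity)]
    linarith
  intro q p lam hq' hp' l1 l2 l0 l hl
  obtain ⟨θ, t0, t1, rfl⟩ := between_AInt l1 l2
  have GS := fun i (hi : i ≤ 4) j (hj : j ≤ 4) => grid_sound hw hQ hP hn hm ln lm h hl hi hj
  have EG := fun s (hs : s < 8) hu => errG_sound w.u hQ hP hnm hm lm rfl hup (inB_xq hq').1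
    (inB_xq hq').2 (inB_xq hp').1 (inB_xq hp').2 t0 t1 hs hu
  have a1 := patch_interp hw hQ hP hn ln okn (l := l) (θ := 1) zero_le_one le_rfl
    (fun i hi j hj => by
      rw [one_mul, ← split_APatA w l (dlt w.u (dnR n))]
      exact (GS i hi j hj).1.1) hq' hp'
  have a2 := patch_interp hw hQ hP hn ln okn (l := l) (θ := 1 - 1 / 2 ^ t) (by linarith)
    (by linarith) (fun i hi j hj => by
      rw [← split_APatA w l (dlt w.u (dnR n))]
      exact (GS i hi j hj).1.2 ht) hq' hp'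
  have b1 := patch_interp hw hQ hP hm lm okm (l := l) (θ := 1) zero_le_one le_rfl
    (fun i hi j hj => by
      rw [one_mul, ← split_APatA w l (dlt w.u (dnR m))]
      exact ((GS i hi j hj).2 rfl).1) hq' hp'
  have b2 := patch_interp hw hQ hP hm lm okm (l := l) (θ := 1 - 1 / 2 ^ t) (by linarith)
    (by linarith) (fun i hi j hj => by
      rw [← split_APatA w l (dlt w.u (dnR m))]
      exact ((GS i hi j hj).2 rfl).2 ht) hq' hp'
  have hb := lam_neg_APatA hm1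
  have ha := lam_neg_APatA hn1
  have heg : ∀ s, 0 ≤ (errG w.u (mkGeo Q hq P hp) n m).r s := fun s => Nat.cast_nonneg _
  change ER w l (fun _ => 0) (errG w.u (mkGeo Q hq P hp) n m).r (fun _ => 0) ≤ _ at a1 a2 b1 b2
  generalize (errG w.u (mkGeo Q hq P hp) n m).r = eg at a1 a2 b1 b2 EG heg
  have eG : ER w l (fun _ => 0) eg (fun _ => 0) =
      (∑ s ∈ range 8, ebR w l s * eg s) / (6 * 2 ^ 26) := by
    simp only [ER, mul_zero, sum_const_zero, zero_add, add_zero]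
  refine fin_APatA (l1.trans l2) hb t0 t1 τ0 ?_ hd a1 a2 b1 b2 ?_
  · rw [eG]
    exact div_nonneg (sum_nonneg fun s _ => mul_nonneg (ebR_nonneg_AInt w l s) (heg s))
      (by positivity)
  · rw [YR_mul_APatA w l l0, YR_mul_APatA w l ha.ne, YR_mul_APatA w l hb.ne, eG, mul_sum, mul_sum,
      sum_div, sum_mul, ← sum_add_distrib, ← sum_add_distrib]
    refine sum_le_sum fun s hs => ?_
    have k := termB_AInt hw l (mem_range.1 hs) (EG s (mem_range.1 hs))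
    linarith

end Vale.Agent.P154
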