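import Vale.Agent.P154.ABase

/-! TASK ARow: one packed row checks all leaves at once.
Plan. Write `Pk L d = ∑ l ∈ range L, d l * 2^(96 l)` for integer digits `d`. By `wOK_sound`,
`pk_sound`, `ones_eq` all fields of `mkCtx w` are such sums (cast to `ℤ`): `A.at s` has the digits
`2^38 + ap - am`, `B.at s` has `2^38 + bm - bp`, `C` has `2^38 + cm - cp` (the subtractions are not
truncated since `am ≤ om` termwise), `EA`, `EB`, `AB`, `e0` have the obvious digits. `Pk` is linear.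
So `xp - one * (tp <<< 38)` has the digits `X l = ∑ (ap - am) * p - (cp - cm) * mh`, and
`v - one * (tt <<< 38)` has `X l - Y l`; `er` has digits `E l` with `0 ≤ E l ≤ 2^38 * eb` (all weights
are below `2^38`, `e0` has digits at most `66 * 2^38`). The first test gives
`2^t * (tt + eb) + tp < 2^57`, so all digits below are smaller than `2^95` in absolute value;
`er ≤ msk` and `er <<< t ≤ msk` by `mask_eq`. Apply `mskOK_sound` with `W = 96` to the digits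
`X l - Y l - E l` and `2^t * (X l - Y l - E l) - X l` (extend by `0` for `l ≥ L`; `pack_nonneg` shows
that the last subtraction is not truncated). -/

namespace Vale.Agent.P154

open Finset

noncomputable def e0R (w : Wt) (l : ℕ) : ℝ :=
  (4 * ∑ s ∈ range 8, ((dg (w.ap.at s) l : ℝ) + dg (w.am.at s) l) + dg w.cp l + dg w.cm l) / 2 ^ 32

def rwPk (L : ℕ) (d : ℕ → ℤ) : ℤ := ∑ l ∈ range L, d l * 2 ^ (96 * l)

theorem rw_add (L : ℕ) (a b : ℕ → ℤ) : rwPk L a + rwPk L b = rwPk L (fun l => a l + b l) := by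
  unfold rwPk
  rw [← sum_add_distrib]
  exact sum_congr rfl fun l _ => (add_mul _ _ _).symm

theorem rw_sub (L : ℕ) (a b : ℕ → ℤ) : rwPk L a - rwPk L b = rwPk L (fun l => a l - b l) := by
  unfold rwPk
  rw [← sum_sub_distrib]
  exact sum_congr rfl fun l _ => (sub_mul _ _ _).symm

theorem rw_mul (L : ℕ) (a : ℕ → ℤ) (c : ℤ) : rwPk L a * c = rwPk L (fun l => a l * c) := by
  unfold rwPk
  rw [sum_mul]
  exact sum_congr rfl fun l _ => mul_right_comm _ _ _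

theorem rw_sum (L : ℕ) (f : ℕ → ℕ → ℤ) :
    ∑ s ∈ range 8, rwPk L (f s) = rwPk L (fun l => ∑ s ∈ range 8, f s l) := by
  unfold rwPk
  rw [sum_comm]
  exact sum_congr rfl fun l _ => (sum_mul _ _ _).symm

theorem rw_mono {L : ℕ} {a b : ℕ → ℤ} (h : ∀ l, a l ≤ b l) : rwPk L a ≤ rwPk L b :=
  sum_le_sum fun l _ => mul_le_mul_of_nonneg_right (h l) (by positivity)

theorem rw_congr {L : ℕ} {a b : ℕ → ℤ} (h : ∀ l, a l = b l) : rwPk L a = rwPk L b := by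
  rw [funext h]

theorem rw_pk {L x : ℕ} (h : pkOK L x = true) : (x : ℤ) = rwPk L (fun l => dg x l) := by
  have h1 := congrArg (Nat.cast : ℕ → ℤ) (pk_sound h).2
  rw [Nat.cast_sum] at h1
  refine h1.trans (sum_congr rfl fun l _ => ?_)
  rw [Nat.cast_mul, Nat.cast_pow, Nat.cast_ofNat]

theorem rw_lt {L x : ℕ} (h : pkOK L x = true) (l : ℕ) : (dg x l : ℤ) ≤ 2 ^ 38 := by
  exact_mod_cast ((pk_sound h).1 l).le

theorem rw_ones (L : ℕ) : (ones L : ℤ) = rwPk L (fun _ => 1) := by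
  rw [ones_eq, Nat.cast_sum]
  refine sum_congr rfl fun l _ => ?_
  rw [Nat.cast_pow, Nat.cast_ofNat, one_mul]

theorem rw_msk (L : ℕ) : (mask 96 L : ℤ) = rwPk L (fun _ => 2 ^ 95) := by
  rw [mask_eq (by norm_num), Nat.cast_sum]
  refine sum_congr rfl fun l _ => ?_
  rw [Nat.cast_mul, Nat.cast_pow, Nat.cast_pow, Nat.cast_ofNat]

theorem rw_off {L x y : ℕ} (hx : pkOK L x = true) (hy : pkOK L y = true) :
    ((Nat.sub (Nat.add x (Nat.shiftLeft (ones L) 38)) y : ℕ) : ℤ) =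
      rwPk L (fun l => 2 ^ 38 + (dg x l : ℤ) - dg y l) := by
  have e : ((x + ones L * 2 ^ 38 : ℕ) : ℤ) = rwPk L (fun l => 2 ^ 38 + (dg x l : ℤ)) := by
    rw [Nat.cast_add, Nat.cast_mul, Nat.cast_pow, Nat.cast_ofNat, rw_pk hx, rw_ones, rw_mul, rw_add]
    exact rw_congr fun l => by ring
  have hle : y ≤ x + ones L * 2 ^ 38 := by
    refine Int.ofNat_le.1 ?_
    rw [e, rw_pk hy]
    exact rw_mono fun l => (rw_lt hy l).trans (le_add_of_nonneg_right (Nat.cast_nonneg _))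
  rw [shl_eq]
  change ((x + ones L * 2 ^ 38 - y : ℕ) : ℤ) = _
  rw [Nat.cast_sub hle, e, rw_pk hy, rw_sub]

theorem rw_two {L x y : ℕ} (hx : pkOK L x = true) (hy : pkOK L y = true) :
    ((Nat.add x y : ℕ) : ℤ) = rwPk L (fun l => (dg x l : ℤ) + dg y l) := by
  change ((x + y : ℕ) : ℤ) = _
  rw [Nat.cast_add, ← rw_add, ← rw_pk hx, ← rw_pk hy]

theorem rw_dot {L : ℕ} {u : V8} (v : V8) {f : ℕ → ℕ → ℤ}
    (h : ∀ s < 8, (u.at s : ℤ) = rwPk L (f s)) :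
    (u.dot v : ℤ) = rwPk L (fun l => ∑ s ∈ range 8, f s l * v.at s) := by
  rw [V8.dot_eq, Nat.cast_sum, ← rw_sum]
  refine sum_congr rfl fun s hs => ?_
  rw [Nat.cast_mul, h s (mem_range.1 hs), rw_mul]

theorem rw_vsum {L : ℕ} {u : V8} (h : ∀ s < 8, pkOK L (u.at s) = true) :
    (u.sum : ℤ) = rwPk L (fun l => ∑ s ∈ range 8, (dg (u.at s) l : ℤ)) := by
  rw [V8.sum_eq, Nat.cast_sum, ← rw_sum]
  exact sum_congr rfl fun s hs => rw_pk (h s (mem_range.1 hs))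

theorem rw_abs (v : V8) {f : ℕ → ℤ} {M : ℤ} (h : ∀ s < 8, |f s| ≤ M) :
    |∑ s ∈ range 8, f s * v.at s| ≤ M * v.sum := by
  rw [V8.sum_eq, Nat.cast_sum, mul_sum]
  refine (abs_sum_le_sum_abs _ _).trans (sum_le_sum fun s hs => ?_)
  rw [abs_mul, Nat.abs_cast]
  exact mul_le_mul_of_nonneg_right (h s (mem_range.1 hs)) (Nat.cast_nonneg _)

theorem rw_dif {L x y : ℕ} (hx : pkOK L x = true) (hy : pkOK L y = true) (l : ℕ) :
    |(dg x l : ℤ) - dg y l| ≤ 2 ^ 38 := by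
  have h1 := rw_lt hx l
  have h2 := rw_lt hy l
  have h3 : (0 : ℤ) ≤ dg x l := Nat.cast_nonneg _
  have h4 : (0 : ℤ) ≤ dg y l := Nat.cast_nonneg _
  rw [abs_le]
  constructor <;> linarith

theorem rw_fin {L a b : ℕ} (c : ℕ → ℤ) (hc : ∀ l, |c l| < 2 ^ 95)
    (e : (a : ℤ) - b = rwPk L c + mask 96 L) (h : mskOK (Nat.sub a b) (mask 96 L) = true) {l : ℕ}
    (hl : l < L) : 0 ≤ c l := by
  have h0 : 0 ≤ rwPk L c + mask 96 L := pack_nonneg (W := 96) (N := L) (by norm_num) c hc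
  have hle : b ≤ a := Int.ofNat_le.1 (by linarith)
  refine mskOK_sound (W := 96) (N := L) (by norm_num) c hc _ ?_ h hl
  change ((a - b : ℕ) : ℤ) = _
  rw [Nat.cast_sub hle]
  exact e

theorem rw_core {L t tp tt eb xp v er : ℕ} {c : Ctx} (X Z E : ℕ → ℤ)
    (hone : (c.one : ℤ) = rwPk L (fun _ => 1)) (hmsk : c.msk = mask 96 L)
    (hxp : (xp : ℤ) = rwPk L (fun l => X l + 2 ^ 38 * tp))
    (hv : (v : ℤ) = rwPk L (fun l => Z l + 2 ^ 38 * tt)) (her : (er : ℤ) = rwPk L E)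
    (htt : tp ≤ tt) (hX : ∀ l, |X l| ≤ 2 ^ 38 * tp) (hZ : ∀ l, |Z l| ≤ 2 ^ 38 * tt)
    (hE : ∀ l, |E l| ≤ 2 ^ 38 * eb) (h : row2 c (mkEp1 c t er eb) t xp tp v tt = true) {l : ℕ}
    (hl : l < L) : 0 ≤ Z l - E l ∧ (t ≠ 0 → 0 ≤ (Z l - E l) * 2 ^ t - X l) := by
  obtain ⟨h1, h2⟩ := (band_iff _ _).1 h
  obtain ⟨h2, h3⟩ := (band_iff _ _).1 h2
  have h4 : Nat.shiftLeft (tt + eb) t + tp ≤ 144115188075855871 := Nat.le_of_ble_eq_true h1
  rw [shl_eq] at h4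
  have h5 : ((tt : ℤ) + eb) * 2 ^ t + tp ≤ 144115188075855871 := by exact_mod_cast h4
  have hT : (1 : ℤ) ≤ 2 ^ t := one_le_pow₀ (by norm_num)
  have n1 : (0 : ℤ) ≤ tt := Nat.cast_nonneg _
  have n2 : (0 : ℤ) ≤ eb := Nat.cast_nonneg _
  have n3 : (0 : ℤ) ≤ tp := Nat.cast_nonneg _
  have n4 : (tt : ℤ) + eb ≤ ((tt : ℤ) + eb) * 2 ^ t := le_mul_of_one_le_right (by linarith) hT
  have hT0 : (0 : ℤ) ≤ 2 ^ t := zero_le_one.trans hT
  have n5 : (0 : ℤ) ≤ tt * 2 ^ t := mul_nonneg n1 hT0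
  have hZE : ∀ l, |Z l - E l| ≤ 2 ^ 38 * ((tt : ℤ) + eb) := fun l => by
    have := abs_sub (Z l) (E l)
    linarith [hZ l, hE l]
  constructor
  · have hle : er ≤ mask 96 L := by
      refine Int.ofNat_le.1 ?_
      rw [her, rw_msk]
      refine rw_mono fun l => ?_
      linarith [le_abs_self (E l), hE l]
    change mskOK (Nat.sub (v + (c.msk - er)) (c.one * Nat.shiftLeft tt 38)) c.msk = true at h2
    rw [hmsk, shl_eq] at h2
    refine rw_fin (fun l => Z l - E l) (fun l => by linarith [hZE l]) ?_ h2 hl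
    rw [Nat.cast_add, Nat.cast_sub hle, Nat.cast_mul, Nat.cast_mul, Nat.cast_pow, Nat.cast_ofNat,
      hv, her, hone, rw_mul]
    have e : rwPk L (fun l => Z l - E l) = rwPk L (fun l => Z l + 2 ^ 38 * tt) - rwPk L E -
        rwPk L (fun _ => 1 * ((tt : ℤ) * 2 ^ 38)) := by
      rw [rw_sub, rw_sub]
      exact rw_congr fun l => by ring
    rw [e]
    ring
  · intro ht
    have hb : Nat.beq t 0 = false := by
      cases t with
      | zero => exact absurd rfl ht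
      | succ t => rfl
    rw [hb] at h3
    change mskOK (Nat.sub (Nat.shiftLeft v t + (c.msk - Nat.shiftLeft er t))
      (xp + c.one * Nat.shiftLeft (Nat.shiftLeft tt t - tp) 38)) c.msk = true at h3
    rw [hmsk, shl_eq, shl_eq, shl_eq, shl_eq] at h3
    have hle : er * 2 ^ t ≤ mask 96 L := by
      refine Int.ofNat_le.1 ?_
      rw [Nat.cast_mul, Nat.cast_pow, Nat.cast_ofNat, her, rw_msk, rw_mul]
      refine rw_mono fun l => ?_
      have a1 : E l * 2 ^ t ≤ 2 ^ 38 * eb * 2 ^ t :=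
        mul_le_mul_of_nonneg_right ((le_abs_self _).trans (hE l)) hT0
      linarith
    have hle2 : tp ≤ tt * 2 ^ t := htt.trans (Nat.le_mul_of_pos_right _ (Nat.two_pow_pos t))
    refine rw_fin (fun l => (Z l - E l) * 2 ^ t - X l) (fun l => ?_) ?_ h3 hl
    · have a1 := abs_sub ((Z l - E l) * 2 ^ t) (X l)
      rw [abs_mul, abs_of_nonneg hT0] at a1
      have a2 : |Z l - E l| * 2 ^ t ≤ 2 ^ 38 * ((tt : ℤ) + eb) * 2 ^ t :=
        mul_le_mul_of_nonneg_right (hZE l) hT0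
      linarith [hX l]
    · simp only [Nat.cast_add, Nat.cast_sub hle, Nat.cast_sub hle2, Nat.cast_mul, Nat.cast_pow,
        Nat.cast_ofNat]
      rw [hv, her, hone, hxp, rw_mul, rw_mul, rw_mul]
      have e : rwPk L (fun l => (Z l - E l) * 2 ^ t - X l) =
          rwPk L (fun l => (Z l + 2 ^ 38 * tt) * 2 ^ t) - rwPk L (fun l => E l * 2 ^ t) -
          (rwPk L (fun l => X l + 2 ^ 38 * tp) +
            rwPk L (fun _ => 1 * (((tt : ℤ) * 2 ^ t - tp) * 2 ^ 38))) := by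
        rw [rw_add, rw_sub, rw_sub]
        exact rw_congr fun l => by ring
      rw [e]
      ring

noncomputable def rwX (w : Wt) (p : V8) (mh l : ℕ) : ℤ :=
  ∑ s ∈ range 8, ((dg (w.ap.at s) l : ℤ) - dg (w.am.at s) l) * p.at s -
    ((dg w.cp l : ℤ) - dg w.cm l) * mh
noncomputable def rwY (w : Wt) (r : V8) (l : ℕ) : ℤ :=
  ∑ s ∈ range 8, ((dg (w.bp.at s) l : ℤ) - dg (w.bm.at s) l) * r.at s
noncomputable def rwA (w : Wt) (s l : ℕ) : ℤ :=
  if s < 6 then (dg (w.ap.at s) l : ℤ) else dg (w.ap.at s) l + dg (w.am.at s) l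
noncomputable def rwB (w : Wt) (s l : ℕ) : ℤ :=
  if s < 6 then (dg (w.bm.at s) l : ℤ) else dg (w.bp.at s) l + dg (w.bm.at s) l
noncomputable def rwC (w : Wt) (s l : ℕ) : ℤ := (dg (w.bp.at s) l : ℤ) + dg (w.bm.at s) l
noncomputable def rw0 (w : Wt) (l : ℕ) : ℤ :=
  4 * ∑ s ∈ range 8, ((dg (w.ap.at s) l : ℤ) + dg (w.am.at s) l) + dg w.cp l + dg w.cm l
noncomputable def rwE (w : Wt) (ep ex et : V8) (l : ℕ) : ℤ :=
  ∑ s ∈ range 8, rwA w s l * ep.at s + rw0 w l +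
    (∑ s ∈ range 8, rwB w s l * ex.at s + ∑ s ∈ range 8, rwC w s l * et.at s)

theorem rw_hA {w : Wt} (hw : wOK w = true) : ∀ s < 8, ((mkCtx w).A.at s : ℤ) =
    rwPk w.L (fun l => 2 ^ 38 + (dg (w.ap.at s) l : ℤ) - dg (w.am.at s) l) := fun s hs => by
  obtain ⟨h8, -⟩ := wOK_sound hw
  have e : (mkCtx w).A = V8.map2
    (fun x y => Nat.sub (Nat.add x (Nat.shiftLeft (ones w.L) 38)) y) w.ap w.am := rfl
  rw [e, V8.map2_at _ _ _ hs]
  exact rw_off (h8 s hs).1 (h8 s hs).2.1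

theorem rw_hB {w : Wt} (hw : wOK w = true) : ∀ s < 8, ((mkCtx w).B.at s : ℤ) =
    rwPk w.L (fun l => 2 ^ 38 + (dg (w.bm.at s) l : ℤ) - dg (w.bp.at s) l) := fun s hs => by
  obtain ⟨h8, -⟩ := wOK_sound hw
  have e : (mkCtx w).B = V8.map2
    (fun x y => Nat.sub (Nat.add y (Nat.shiftLeft (ones w.L) 38)) x) w.bp w.bm := rfl
  rw [e, V8.map2_at _ _ _ hs]
  exact rw_off (h8 s hs).2.2.2 (h8 s hs).2.2.1

theorem rw_hC {w : Wt} (hw : wOK w = true) :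
    ((mkCtx w).C : ℤ) = rwPk w.L (fun l => 2 ^ 38 + (dg w.cm l : ℤ) - dg w.cp l) := by
  obtain ⟨-, hcp, hcm, -⟩ := wOK_sound hw
  have e : (mkCtx w).C = Nat.sub (Nat.add w.cm (Nat.shiftLeft (ones w.L) 38)) w.cp := rfl
  rw [e]
  exact rw_off hcm hcp

theorem rw_hEA {w : Wt} (hw : wOK w = true) :
    ∀ s < 8, ((mkCtx w).EA.at s : ℤ) = rwPk w.L (rwA w s) := fun s hs => by
  obtain ⟨h8, -⟩ := wOK_sound hw
  have e : (mkCtx w).EA = sel (fun x _ => x) Nat.add w.ap w.am := rfl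
  rw [e, sel_at _ _ _ _ hs]
  unfold rwA
  split_ifs
  · exact rw_pk (h8 s hs).1
  · exact rw_two (h8 s hs).1 (h8 s hs).2.1

theorem rw_hEB {w : Wt} (hw : wOK w = true) :
    ∀ s < 8, ((mkCtx w).EB.at s : ℤ) = rwPk w.L (rwB w s) := fun s hs => by
  obtain ⟨h8, -⟩ := wOK_sound hw
  have e : (mkCtx w).EB = sel (fun _ y => y) Nat.add w.bp w.bm := rfl
  rw [e, sel_at _ _ _ _ hs]
  unfold rwB
  split_ifs
  · exact rw_pk (h8 s hs).2.2.2
  · exact rw_two (h8 s hs).2.2.1 (h8 s hs).2.2.2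

theorem rw_hAB {w : Wt} (hw : wOK w = true) :
    ∀ s < 8, ((mkCtx w).AB.at s : ℤ) = rwPk w.L (rwC w s) := fun s hs => by
  obtain ⟨h8, -⟩ := wOK_sound hw
  have e : (mkCtx w).AB = V8.map2 Nat.add w.bp w.bm := rfl
  rw [e, V8.map2_at _ _ _ hs]
  exact rw_two (h8 s hs).2.2.1 (h8 s hs).2.2.2

theorem rw_he0 {w : Wt} (hw : wOK w = true) : ((mkCtx w).e0 : ℤ) = rwPk w.L (rw0 w) := by
  obtain ⟨h8, hcp, hcm, -⟩ := wOK_sound hw
  have e : (mkCtx w).e0 = 4 * (w.ap.sum + w.am.sum) + (w.cp + w.cm) := rfl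
  rw [e, Nat.cast_add, Nat.cast_add, Nat.cast_mul, Nat.cast_add, Nat.cast_ofNat,
    rw_vsum fun s hs => (h8 s hs).1, rw_vsum fun s hs => (h8 s hs).2.1, rw_pk hcp, rw_pk hcm,
    rw_add, rw_add, mul_comm, rw_mul, rw_add]
  refine rw_congr fun l => ?_
  rw [rw0, sum_add_distrib]
  ring

theorem rw_hxp {w : Wt} (hw : wOK w = true) (p : V8) (mh : ℕ) :
    ((V8.dot (mkCtx w).A p + (mkCtx w).C * mh : ℕ) : ℤ) =
      rwPk w.L (fun l => rwX w p mh l + 2 ^ 38 * ((p.sum + mh : ℕ) : ℤ)) := by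
  rw [Nat.cast_add, Nat.cast_mul, rw_dot p (rw_hA hw), rw_hC hw, rw_mul, rw_add]
  refine rw_congr fun l => ?_
  rw [rwX, Nat.cast_add, V8.sum_eq, Nat.cast_sum]
  simp only [sum_range_succ, sum_range_zero]
  ring

theorem rw_hv {w : Wt} (hw : wOK w = true) (p r : V8) (mh : ℕ) :
    ((V8.dot (mkCtx w).A p + (mkCtx w).C * mh + V8.dot (mkCtx w).B r : ℕ) : ℤ) =
      rwPk w.L (fun l => rwX w p mh l - rwY w r l + 2 ^ 38 * ((p.sum + mh + r.sum : ℕ) : ℤ)) := by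
  rw [Nat.cast_add, rw_hxp hw, rw_dot r (rw_hB hw), rw_add]
  refine rw_congr fun l => ?_
  rw [rwY, Nat.cast_add (p.sum + mh), V8.sum_eq r, Nat.cast_sum]
  simp only [sum_range_succ, sum_range_zero]
  ring

theorem rw_her {w : Wt} (hw : wOK w = true) (ep ex et : V8) :
    ((V8.dot (mkCtx w).EA ep + (mkCtx w).e0 +
      (V8.dot (mkCtx w).EB ex + V8.dot (mkCtx w).AB et) : ℕ) : ℤ) = rwPk w.L (rwE w ep ex et) := by
  rw [Nat.cast_add, Nat.cast_add, Nat.cast_add, rw_dot ep (rw_hEA hw), rw_dot ex (rw_hEB hw),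
    rw_dot et (rw_hAB hw), rw_he0 hw, rw_add, rw_add, rw_add]
  rfl

theorem rw_bX {w : Wt} (hw : wOK w = true) (p : V8) (mh l : ℕ) :
    |rwX w p mh l| ≤ 2 ^ 38 * ((p.sum + mh : ℕ) : ℤ) := by
  obtain ⟨h8, hcp, hcm, -⟩ := wOK_sound hw
  have a1 := rw_abs p fun s hs => rw_dif (h8 s hs).1 (h8 s hs).2.1 l
  have a2 : |((dg w.cp l : ℤ) - dg w.cm l) * mh| ≤ 2 ^ 38 * mh := by
    rw [abs_mul, Nat.abs_cast]
    exact mul_le_mul_of_nonneg_right (rw_dif hcp hcm l) (Nat.cast_nonneg _)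
  rw [Nat.cast_add]
  exact (abs_sub _ _).trans (by linarith)

theorem rw_bZ {w : Wt} (hw : wOK w = true) (p r : V8) (mh l : ℕ) :
    |rwX w p mh l - rwY w r l| ≤ 2 ^ 38 * ((p.sum + mh + r.sum : ℕ) : ℤ) := by
  obtain ⟨h8, -⟩ := wOK_sound hw
  have a1 : |rwY w r l| ≤ 2 ^ 38 * r.sum :=
    rw_abs r fun s hs => rw_dif (h8 s hs).2.2.1 (h8 s hs).2.2.2 l
  rw [Nat.cast_add]
  exact (abs_sub _ _).trans (by linarith [rw_bX hw p mh l])

theorem rw_b2 {L x y : ℕ} (hx : pkOK L x = true) (hy : pkOK L y = true) (l : ℕ) :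
    |(dg x l : ℤ)| ≤ 2 ^ 39 ∧ |(dg x l : ℤ) + dg y l| ≤ 2 ^ 39 := by
  have h1 := rw_lt hx l
  have h2 := rw_lt hy l
  have h3 : (0 : ℤ) ≤ dg x l := Nat.cast_nonneg _
  have h4 : (0 : ℤ) ≤ dg y l := Nat.cast_nonneg _
  rw [abs_of_nonneg h3, abs_of_nonneg (add_nonneg h3 h4)]
  constructor <;> linarith

theorem rw_bE {w : Wt} (hw : wOK w = true) (ep ex et : V8) (l : ℕ) :
    |rwE w ep ex et l| ≤ 2 ^ 38 * ((2 * (ep.sum + 40 + (ex.sum + et.sum)) : ℕ) : ℤ) := by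
  obtain ⟨h8, hcp, hcm, -⟩ := wOK_sound hw
  have a1 : |∑ s ∈ range 8, rwA w s l * ep.at s| ≤ 2 ^ 39 * ep.sum :=
    rw_abs ep fun s hs => by
      unfold rwA
      split_ifs
      · exact (rw_b2 (h8 s hs).1 (h8 s hs).2.1 l).1
      · exact (rw_b2 (h8 s hs).1 (h8 s hs).2.1 l).2
  have a2 : |∑ s ∈ range 8, rwB w s l * ex.at s| ≤ 2 ^ 39 * ex.sum :=
    rw_abs ex fun s hs => by
      unfold rwB
      split_ifs
      · exact (rw_b2 (h8 s hs).2.2.2 (h8 s hs).2.2.1 l).1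
      · exact (rw_b2 (h8 s hs).2.2.1 (h8 s hs).2.2.2 l).2
  have a3 : |∑ s ∈ range 8, rwC w s l * et.at s| ≤ 2 ^ 39 * et.sum :=
    rw_abs et fun s hs => (rw_b2 (h8 s hs).2.2.1 (h8 s hs).2.2.2 l).2
  have c1 : |∑ s ∈ range 8, ((dg (w.ap.at s) l : ℤ) + dg (w.am.at s) l)| ≤ 8 * 2 ^ 39 := by
    refine (abs_sum_le_sum_abs _ _).trans ((sum_le_card_nsmul _ _ _ fun s hs =>
      (rw_b2 (h8 s (mem_range.1 hs)).1 (h8 s (mem_range.1 hs)).2.1 l).2).trans ?_)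
    rw [card_range, nsmul_eq_mul, Nat.cast_ofNat]
  have c2 := (rw_b2 hcp hcm l).2
  clear h8 hcp hcm hw
  simp only [Nat.cast_add, Nat.cast_mul, Nat.cast_ofNat]
  rw [abs_le] at a1 a2 a3 c1 c2 ⊢
  unfold rwE rw0
  constructor <;> linarith [a1.1, a1.2, a2.1, a2.2, a3.1, a3.2, c1.1, c1.2, c2.1, c2.2]

theorem rw_row (c : Ctx) (t mh : ℕ) (p r ep ex et : V8) :
    row1 c (mkEp c t ep ex et) t (Nat.add (V8.dot c.A p) (Nat.mul c.C mh)) (Nat.add p.sum mh) r =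
      row2 c (mkEp1 c t (V8.dot c.EA ep + c.e0 + (V8.dot c.EB ex + V8.dot c.AB et))
        (2 * (ep.sum + 40 + (ex.sum + et.sum)))) t (V8.dot c.A p + c.C * mh) (p.sum + mh)
        (V8.dot c.A p + c.C * mh + V8.dot c.B r) (p.sum + mh + r.sum) := rfl

theorem rw_int {w : Wt} (hw : wOK w = true) {t mh : ℕ} {p r ep ex et : V8}
    (h : row1 (mkCtx w) (mkEp (mkCtx w) t ep ex et) t
      (Nat.add (V8.dot (mkCtx w).A p) (Nat.mul (mkCtx w).C mh)) (Nat.add p.sum mh) r = true)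
    {l : ℕ} (hl : l < w.L) : 0 ≤ rwX w p mh l - rwY w r l - rwE w ep ex et l ∧
      (t ≠ 0 → 0 ≤ (rwX w p mh l - rwY w r l - rwE w ep ex et l) * 2 ^ t - rwX w p mh l) := by
  rw [rw_row] at h
  have e1 : (mkCtx w).one = ones w.L := rfl
  have e2 : (mkCtx w).msk = mask 96 w.L := rfl
  exact rw_core (rwX w p mh) (fun l => rwX w p mh l - rwY w r l) (rwE w ep ex et)
    (by rw [e1, rw_ones]) e2 (rw_hxp hw p mh) (rw_hv hw p r mh) (rw_her hw ep ex et)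
    (Nat.le_add_right _ _) (rw_bX hw p mh) (rw_bZ hw p r mh) (rw_bE hw ep ex et) h hl

theorem row_sound {w : Wt} (hw : wOK w = true) {t mh : ℕ} {p r ep ex et : V8}
    (h : row1 (mkCtx w) (mkEp (mkCtx w) t ep ex et) t
      (Nat.add (V8.dot (mkCtx w).A p) (Nat.mul (mkCtx w).C mh)) (Nat.add p.sum mh) r = true)
    {l : ℕ} (hl : l < w.L) {X Y E : ℝ} (hX : X = ∑ s ∈ range 8, aR w l s * p.r s - cR w l * mh)
    (hY : Y = ∑ s ∈ range 8, bR w l s * r.r s)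
    (hE : E = ER w l ep.r ex.r et.r * (6 * 2 ^ 26) + e0R w l) :
    E ≤ X - Y ∧ (t ≠ 0 → E ≤ (1 - 1 / 2 ^ t) * X - Y) := by
  obtain ⟨h1, h2⟩ := rw_int hw h hl
  have eX : X = (rwX w p mh l : ℝ) / 2 ^ 32 := by
    rw [hX, rwX]
    simp only [aR, cR, V8.r]
    push_cast
    simp only [div_mul_eq_mul_div, ← sum_div]
    ring
  have eY : Y = (rwY w r l : ℝ) / 2 ^ 32 := by
    rw [hY, rwY]
    simp only [bR, V8.r]
    push_cast
    rw [sum_div]
    exact sum_congr rfl fun s _ => by ring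
  have eE : E = (rwE w ep ex et l : ℝ) / 2 ^ 32 := by
    have a1 : ∀ s, eaR w l s = (rwA w s l : ℝ) / 2 ^ 32 := fun s => by
      unfold eaR rwA
      split_ifs <;> push_cast <;> rfl
    have a2 : ∀ s, ebR w l s = (rwB w s l : ℝ) / 2 ^ 32 := fun s => by
      unfold ebR rwB
      split_ifs <;> push_cast <;> rfl
    have a3 : ∀ s, abR w l s = (rwC w s l : ℝ) / 2 ^ 32 := fun s => by
      unfold abR rwC
      push_cast
      rfl
    have a4 : e0R w l = (rw0 w l : ℝ) / 2 ^ 32 := by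
      unfold e0R rw0
      push_cast
      rfl
    rw [hE, ER, div_mul_cancel₀ _ (by positivity), a4, rwE]
    simp only [a1, a2, a3, V8.r, div_mul_eq_mul_div, ← sum_div]
    push_cast
    ring
  rw [eX, eY, eE]
  generalize rwX w p mh l = a at h1 h2 ⊢
  generalize rwY w r l = b at h1 h2 ⊢
  generalize rwE w ep ex et l = c at h1 h2 ⊢
  have h3 : (0 : ℝ) ≤ (a : ℝ) - b - c := by exact_mod_cast h1
  refine ⟨by linarith, fun ht => ?_⟩
  have h4 : (0 : ℝ) ≤ ((a : ℝ) - b - c) * 2 ^ t - a := by exact_mod_cast h2 ht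
  have hT : (0 : ℝ) < 2 ^ t := by positivity
  have h5 : (a : ℝ) / 2 ^ t ≤ a - b - c := by
    rw [div_le_iff₀ hT]
    linarith
  have e : (1 - 1 / 2 ^ t) * ((a : ℝ) / 2 ^ 32) = (a - a / 2 ^ t) / 2 ^ 32 := by ring
  rw [e]
  linarith

end Vale.Agent.P154
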