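import Vale.Agent.P154.ACs2
import Vale.Agent.P154.AChr

/-! TASK AVal: the values of the characters at a grid point.
Plan. `rt_sound`: `y^6 ≤ X ≤ y^6 + 24 y^5 ≤ (y + 4)^6`, `pow_le_pow_left₀`, `pow_le_pow_iff_left₀`.
`XX_lip`: for a monomial `m` of degree six with all variables in `[0, Y]`,
`0 ≤ m (A, B, C) - m (a, b, c) ≤ 6 D Y^5` (change one variable at a time,
`A^k - a^k ≤ k * D * Y^(k-1)`); for a term `m * cos (3 * (log a - log b))` where `m` contains `a` and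
`b`: if `a = 0` or `b = 0` then `m (a, b, c) = 0`; otherwise `|cos x - cos y| ≤ |x - y|`
(`Real.abs_cos_sub_cos_le`), `0 ≤ log A - log a ≤ D / a`, and `m (a, b, c) / a ≤ Y^5`; each of the six
terms moves by at most `12 D Y^5`. `vals_sound`: for each `s` the entry is `(x : ℕ) / dn` (for
`s ≥ 6`: `x >>> 40 / dn = x / (2^40 * dn)`) where `x` is a truncated difference whose real value
is `S - XX s a b c` up to the cosine errors (`CsOK.cos`, `c3_sound`; a factor without a valid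
cosine is multiplied by zero); the true value `S - XX s A B C` is nonnegative (`XX_le`), so
truncation does not increase the distance. The cosine errors are at most `S / 2^27` since
`3 (abc)^2` and `a^3 b^3 + a^3 c^3 + b^3 c^3` are at most `a^6 + b^6 + c^6 ≤ S / 2`. -/

namespace Vale.Agent.P154

def Lp_AVal (D Y : ℝ) (n : ℕ) (x X : ℝ) : Prop :=
  0 ≤ x ∧ x ≤ X ∧ X ≤ Y ^ (n + 1) ∧ X - x ≤ (n + 1) * D * Y ^ n

theorem Lp_one_AVal {a A D Y : ℝ} (ha : 0 ≤ a ∧ a ≤ A ∧ A ≤ a + D ∧ A ≤ Y) :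
    Lp_AVal D Y 0 a A :=
  ⟨ha.1, ha.2.1, by simpa using ha.2.2.2, by simp; linarith [ha.2.2.1]⟩

theorem Lp_mul_AVal {D Y x X z Z : ℝ} {n m : ℕ} (hD : 0 ≤ D) (hY : 0 ≤ Y)
    (h1 : Lp_AVal D Y n x X) (h2 : Lp_AVal D Y m z Z) :
    Lp_AVal D Y (n + m + 1) (x * z) (X * Z) := by
  obtain ⟨a1, a2, a3, a4⟩ := h1
  obtain ⟨b1, b2, b3, b4⟩ := h2
  have hX : 0 ≤ X := a1.trans a2
  have hZ : 0 ≤ Z := b1.trans b2
  refine ⟨mul_nonneg a1 b1, mul_le_mul a2 b2 b1 hX, ?_, ?_⟩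
  · calc X * Z ≤ Y ^ (n + 1) * Y ^ (m + 1) := mul_le_mul a3 b3 hZ (by positivity)
      _ = _ := by ring
  · have e1 : X * (Z - z) ≤ Y ^ (n + 1) * ((m + 1) * D * Y ^ m) :=
      mul_le_mul a3 b4 (sub_nonneg.2 b2) (by positivity)
    have e2 : z * (X - x) ≤ Y ^ (m + 1) * ((n + 1) * D * Y ^ n) :=
      mul_le_mul (b2.trans b3) a4 (sub_nonneg.2 a2) (by positivity)
    calc X * Z - x * z = X * (Z - z) + z * (X - x) := by ring
      _ ≤ _ := add_le_add e1 e2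
      _ = _ := by push_cast; ring

theorem six_AVal {D Y x1 x2 x3 x4 x5 x6 X1 X2 X3 X4 X5 X6 : ℝ}
    (h1 : 0 ≤ x1 ∧ x1 ≤ X1 ∧ X1 ≤ x1 + D ∧ X1 ≤ Y) (h2 : 0 ≤ x2 ∧ x2 ≤ X2 ∧ X2 ≤ x2 + D ∧ X2 ≤ Y)
    (h3 : 0 ≤ x3 ∧ x3 ≤ X3 ∧ X3 ≤ x3 + D ∧ X3 ≤ Y) (h4 : 0 ≤ x4 ∧ x4 ≤ X4 ∧ X4 ≤ x4 + D ∧ X4 ≤ Y)
    (h5 : 0 ≤ x5 ∧ x5 ≤ X5 ∧ X5 ≤ x5 + D ∧ X5 ≤ Y) (h6 : 0 ≤ x6 ∧ x6 ≤ X6 ∧ X6 ≤ x6 + D ∧ X6 ≤ Y) :
    0 ≤ X1 * X2 * X3 * X4 * X5 * X6 - x1 * x2 * x3 * x4 * x5 * x6 ∧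
      X1 * X2 * X3 * X4 * X5 * X6 - x1 * x2 * x3 * x4 * x5 * x6 ≤ 6 * D * Y ^ 5 := by
  have hD : 0 ≤ D := by linarith [h1.2.1, h1.2.2.1]
  have hY : 0 ≤ Y := by linarith [h1.1, h1.2.1, h1.2.2.2]
  have h := Lp_mul_AVal hD hY (Lp_mul_AVal hD hY (Lp_mul_AVal hD hY (Lp_mul_AVal hD hY
    (Lp_mul_AVal hD hY (Lp_one_AVal h1) (Lp_one_AVal h2)) (Lp_one_AVal h3)) (Lp_one_AVal h4))
    (Lp_one_AVal h5)) (Lp_one_AVal h6)
  refine ⟨sub_nonneg.2 h.2.1, h.2.2.2.trans (le_of_eq ?_)⟩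
  norm_num

theorem five_AVal {D Y x1 x2 x3 x4 x5 X1 X2 X3 X4 X5 : ℝ}
    (h1 : 0 ≤ x1 ∧ x1 ≤ X1 ∧ X1 ≤ x1 + D ∧ X1 ≤ Y) (h2 : 0 ≤ x2 ∧ x2 ≤ X2 ∧ X2 ≤ x2 + D ∧ X2 ≤ Y)
    (h3 : 0 ≤ x3 ∧ x3 ≤ X3 ∧ X3 ≤ x3 + D ∧ X3 ≤ Y) (h4 : 0 ≤ x4 ∧ x4 ≤ X4 ∧ X4 ≤ x4 + D ∧ X4 ≤ Y)
    (h5 : 0 ≤ x5 ∧ x5 ≤ X5 ∧ X5 ≤ x5 + D ∧ X5 ≤ Y) :
    0 ≤ x1 * x2 * x3 * x4 * x5 ∧ x1 * x2 * x3 * x4 * x5 ≤ Y ^ 5 := by
  have hD : 0 ≤ D := by linarith [h1.2.1, h1.2.2.1]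
  have hY : 0 ≤ Y := by linarith [h1.1, h1.2.1, h1.2.2.2]
  have h := Lp_mul_AVal hD hY (Lp_mul_AVal hD hY (Lp_mul_AVal hD hY
    (Lp_mul_AVal hD hY (Lp_one_AVal h1) (Lp_one_AVal h2)) (Lp_one_AVal h3)) (Lp_one_AVal h4))
    (Lp_one_AVal h5)
  exact ⟨h.1, h.2.1.trans h.2.2.1⟩

theorem log_AVal {a A D Y : ℝ} (ha : 0 ≤ a ∧ a ≤ A ∧ A ≤ a + D ∧ A ≤ Y) :
    0 ≤ a * (Real.log A - Real.log a) ∧ a * (Real.log A - Real.log a) ≤ D := by
  obtain ⟨h1, h2, h3, -⟩ := ha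
  rcases h1.eq_or_lt with h | h
  · rw [← h, zero_mul]
    exact ⟨le_rfl, by linarith⟩
  · refine ⟨mul_nonneg h1 (sub_nonneg.2 (Real.log_le_log h h2)), ?_⟩
    have hA : 0 < A := h.trans_le h2
    rw [← Real.log_div hA.ne' h.ne']
    have h4 := Real.log_le_sub_one_of_pos (div_pos hA h)
    calc a * Real.log (A / a) ≤ a * (A / a - 1) := mul_le_mul_of_nonneg_left h4 h1
      _ = A - a := by field_simp
      _ ≤ D := by linarith

theorem cos_AVal {D Y x1 x2 x3 x4 x5 x6 X1 X2 X3 X4 X5 X6 : ℝ}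
    (h1 : 0 ≤ x1 ∧ x1 ≤ X1 ∧ X1 ≤ x1 + D ∧ X1 ≤ Y) (h2 : 0 ≤ x2 ∧ x2 ≤ X2 ∧ X2 ≤ x2 + D ∧ X2 ≤ Y)
    (h3 : 0 ≤ x3 ∧ x3 ≤ X3 ∧ X3 ≤ x3 + D ∧ X3 ≤ Y) (h4 : 0 ≤ x4 ∧ x4 ≤ X4 ∧ X4 ≤ x4 + D ∧ X4 ≤ Y)
    (h5 : 0 ≤ x5 ∧ x5 ≤ X5 ∧ X5 ≤ x5 + D ∧ X5 ≤ Y) (h6 : 0 ≤ x6 ∧ x6 ≤ X6 ∧ X6 ≤ x6 + D ∧ X6 ≤ Y) :
    |X1 * X2 * X3 * X4 * X5 * X6 * Real.cos (3 * (Real.log X1 - Real.log X2)) -
      x1 * x2 * x3 * x4 * x5 * x6 * Real.cos (3 * (Real.log x1 - Real.log x2))| ≤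
        12 * D * Y ^ 5 := by
  obtain ⟨m1, m2⟩ := six_AVal h1 h2 h3 h4 h5 h6
  obtain ⟨p1, p2⟩ := five_AVal h2 h3 h4 h5 h6
  obtain ⟨q1, q2⟩ := five_AVal h1 h3 h4 h5 h6
  obtain ⟨l1, l2⟩ := log_AVal h1
  obtain ⟨k1, k2⟩ := log_AVal h2
  have hm : 0 ≤ x1 * x2 * x3 * x4 * x5 * x6 := by
    have := mul_nonneg h1.1 p1
    linarith
  have hc := Real.abs_cos_sub_cos_le (3 * (Real.log X1 - Real.log X2))
    (3 * (Real.log x1 - Real.log x2))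
  have e1 : |(X1 * X2 * X3 * X4 * X5 * X6 - x1 * x2 * x3 * x4 * x5 * x6) *
      Real.cos (3 * (Real.log X1 - Real.log X2))| ≤ 6 * D * Y ^ 5 := by
    rw [abs_mul, abs_of_nonneg m1]
    exact (mul_le_of_le_one_right m1 (Real.abs_cos_le_one _)).trans m2
  have e2 : |x1 * x2 * x3 * x4 * x5 * x6 * (Real.cos (3 * (Real.log X1 - Real.log X2)) -
      Real.cos (3 * (Real.log x1 - Real.log x2)))| ≤ 6 * D * Y ^ 5 := by
    rw [abs_mul, abs_of_nonneg hm]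
    refine (mul_le_mul_of_nonneg_left hc hm).trans ?_
    rw [← abs_of_nonneg hm, ← abs_mul]
    have u1 := mul_le_mul p2 l2 l1 (p1.trans p2)
    have u2 := mul_le_mul q2 k2 k1 (q1.trans q2)
    have v1 := mul_nonneg p1 l1
    have v2 := mul_nonneg q1 k1
    have e : x1 * x2 * x3 * x4 * x5 * x6 * (3 * (Real.log X1 - Real.log X2) -
        3 * (Real.log x1 - Real.log x2)) =
        3 * (x2 * x3 * x4 * x5 * x6 * (x1 * (Real.log X1 - Real.log x1))) -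
          3 * (x1 * x3 * x4 * x5 * x6 * (x2 * (Real.log X2 - Real.log x2))) := by ring
    rw [e, abs_le]
    constructor <;> linarith
  refine le_trans (le_of_eq ?_) ((abs_add_le _ _).trans (add_le_add e1 e2)) |>.trans
    (le_of_eq (by ring))
  congr 1
  ring

theorem trunc_AVal (P Q k : ℕ) (hk : 0 < k) {T E : ℝ} (hT : 0 ≤ T)
    (h : |(P : ℝ) - Q - T| ≤ E) : |(((P - Q) / k : ℕ) : ℝ) - T / k| ≤ E / k + 1 := by
  have hk' : (0 : ℝ) < k := Nat.cast_pos.2 hk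
  have h1 : |((P - Q : ℕ) : ℝ) - T| ≤ E := by
    rcases le_total Q P with hle | hle
    · rwa [Nat.cast_sub hle]
    · have : (P : ℝ) ≤ Q := Nat.cast_le.2 hle
      rw [Nat.sub_eq_zero_of_le hle, abs_le]
      rw [abs_le] at h
      push_cast
      constructor <;> linarith [h.1, h.2]
  generalize P - Q = x at h1 ⊢
  have h2 : ((x / k : ℕ) : ℝ) ≤ x / k := Nat.cast_div_le
  have h3 : (x : ℝ) / k ≤ ((x / k : ℕ) : ℝ) + 1 := by
    rw [div_le_iff₀ hk']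
    exact_mod_cast ((Nat.div_lt_iff_lt_mul hk).1 (Nat.lt_succ_self _)).le
  have h4 : |(x : ℝ) / k - T / k| ≤ E / k := by
    rw [← sub_div, abs_div, abs_of_pos hk']
    exact div_le_div_of_nonneg_right h1 hk'.le
  rw [abs_le] at h4 ⊢
  constructor <;> linarith [h4.1, h4.2]

theorem trunc2_AVal (P Q k : ℕ) (hk : 0 < k) {T E : ℝ} (hT : 0 ≤ T)
    (h : |(P : ℝ) - Q / 2 ^ 40 - T| ≤ E) :
    |((Nat.div (Nat.shiftRight (Nat.sub (Nat.shiftLeft P 40) Q) 40) k : ℕ) : ℝ) - T / k| ≤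
      E / k + 1 := by
  have e : Nat.div (Nat.shiftRight (Nat.sub (Nat.shiftLeft P 40) Q) 40) k =
      (P * 2 ^ 40 - Q) / (2 ^ 40 * k) := by
    rw [shl_eq, ← Nat.div_div_eq_div_mul, ← Nat.shiftRight_eq_div_pow]
    rfl
  have h1 := trunc_AVal (P * 2 ^ 40) Q (2 ^ 40 * k) (by positivity) (T := 2 ^ 40 * T)
    (E := 2 ^ 40 * E) (by positivity) (by
      have e2 : ((P * 2 ^ 40 : ℕ) : ℝ) - Q - 2 ^ 40 * T = 2 ^ 40 * (P - Q / 2 ^ 40 - T) := by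
        rw [Nat.cast_mul, Nat.cast_pow, Nat.cast_ofNat]
        field_simp
      rw [e2, abs_mul, abs_of_pos (by positivity)]
      exact mul_le_mul_of_nonneg_left h (by positivity))
  rw [Nat.cast_mul, Nat.cast_pow, Nat.cast_ofNat, mul_div_mul_left _ _ (by positivity),
    mul_div_mul_left _ _ (by positivity)] at h1
  rw [e]
  exact h1

theorem err_AVal {h x t ε : ℝ} (h0 : 0 ≤ h) (hh : h ≠ 0 → |x - t| ≤ ε) :
    |h * x - h * t| ≤ h * ε := by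
  by_cases e : h = 0
  · simp [e]
  · rw [← mul_sub, abs_mul, abs_of_nonneg h0]
    exact mul_le_mul_of_nonneg_left (hh e) h0

theorem rt_sound {X y : ℕ} (h : rtOK X y = true) {A : ℝ} (hA : 0 ≤ A) (e : A ^ 6 = X) :
    (y : ℝ) ≤ A ∧ A ≤ y + 4 := by
  obtain ⟨h1, h2⟩ := (band_iff _ _).1 h
  have h3 : y ^ 5 * y ≤ X := Nat.le_of_ble_eq_true h1
  have h4 : X ≤ y ^ 5 * y + 24 * y ^ 5 := Nat.le_of_ble_eq_true h2
  have h5 : (y : ℝ) ^ 5 * y ≤ X := by exact_mod_cast h3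
  have h6 : (X : ℝ) ≤ y ^ 5 * y + 24 * y ^ 5 := by exact_mod_cast h4
  have hy : (0 : ℝ) ≤ y := Nat.cast_nonneg y
  constructor
  · rw [← pow_le_pow_iff_left₀ hy hA (by norm_num : 6 ≠ 0), e]
    linarith [pow_succ (y : ℝ) 5]
  · rw [← pow_le_pow_iff_left₀ hA (by positivity) (by norm_num : 6 ≠ 0), e]
    have h7 : 0 ≤ 240 * (y : ℝ) ^ 4 + 1280 * y ^ 3 + 3840 * y ^ 2 + 6144 * y + 4096 := by
      positivity
    calc (X : ℝ) ≤ _ := h6
      _ ≤ _ := le_add_of_nonneg_right h7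
      _ = _ := by ring

theorem XX_le (s : ℕ) {a b c : ℝ} (ha : 0 ≤ a) (hb : 0 ≤ b) (hc : 0 ≤ c) :
    |XX s a b c| ≤ 2 * (a ^ 6 + b ^ 6 + c ^ 6) := by
  have h := abs_chi_le s (f := ![a ^ 6, b ^ 6, c ^ 6]) (by
    intro i
    fin_cases i
    · exact pow_nonneg ha 6
    · exact pow_nonneg hb 6
    · exact pow_nonneg hc 6)
  rw [avg3] at h
  simp only [Matrix.cons_val_zero, Matrix.cons_val_one, Matrix.cons_val_two, Matrix.head_cons,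
    Matrix.tail_cons] at h
  rw [← chi_pow6 s ha hb hc, abs_mul, abs_of_pos (by norm_num : (0 : ℝ) < 6)]
  linarith

theorem XX_lip (s : ℕ) {a b c A B C D Y : ℝ} (ha : 0 ≤ a ∧ a ≤ A ∧ A ≤ a + D ∧ A ≤ Y)
    (hb : 0 ≤ b ∧ b ≤ B ∧ B ≤ b + D ∧ B ≤ Y) (hc : 0 ≤ c ∧ c ≤ C ∧ C ≤ c + D ∧ C ≤ Y) :
    |XX s A B C - XX s a b c| ≤ 72 * D * Y ^ 5 := by
  have hD : 0 ≤ D := by linarith [ha.2.1, ha.2.2.1]
  have hY : 0 ≤ Y := by linarith [ha.1, ha.2.1, ha.2.2.2]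
  have h0 : 0 ≤ D * Y ^ 5 := by positivity
  match s with
  | 0 =>
    have h1 := six_AVal ha ha hb hb hc hc
    simp only [XX]
    rw [abs_le]
    constructor <;> nlinarith [h1.1, h1.2]
  | 1 =>
    have h1 := six_AVal ha ha ha hb hb hb
    have h2 := six_AVal ha ha ha hc hc hc
    have h3 := six_AVal hb hb hb hc hc hc
    simp only [XX]
    rw [abs_le]
    constructor <;> nlinarith [h1.1, h1.2, h2.1, h2.2, h3.1, h3.2]
  | 2 =>
    have h1 := six_AVal ha ha ha ha hb hb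
    have h2 := six_AVal ha ha ha ha hc hc
    have h3 := six_AVal hb hb hb hb ha ha
    have h4 := six_AVal hb hb hb hb hc hc
    have h5 := six_AVal hc hc hc hc ha ha
    have h6 := six_AVal hc hc hc hc hb hb
    simp only [XX]
    rw [abs_le]
    constructor <;>
      linarith [h1.1, h1.2, h2.1, h2.2, h3.1, h3.2, h4.1, h4.2, h5.1, h5.2, h6.1, h6.2]
  | 3 =>
    have h1 := six_AVal ha ha ha ha ha hb
    have h2 := six_AVal ha ha ha ha ha hc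
    have h3 := six_AVal hb hb hb hb hb ha
    have h4 := six_AVal hb hb hb hb hb hc
    have h5 := six_AVal hc hc hc hc hc ha
    have h6 := six_AVal hc hc hc hc hc hb
    simp only [XX]
    rw [abs_le]
    constructor <;>
      linarith [h1.1, h1.2, h2.1, h2.2, h3.1, h3.2, h4.1, h4.2, h5.1, h5.2, h6.1, h6.2]
  | 4 =>
    have h1 := six_AVal ha hb hc ha ha ha
    have h2 := six_AVal ha hb hc hb hb hb
    have h3 := six_AVal ha hb hc hc hc hc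
    simp only [XX]
    rw [abs_le]
    constructor <;> linarith [h1.1, h1.2, h2.1, h2.2, h3.1, h3.2]
  | 5 =>
    have h1 := six_AVal ha hb hc ha ha hb
    have h2 := six_AVal ha hb hc ha ha hc
    have h3 := six_AVal ha hb hc hb hb ha
    have h4 := six_AVal ha hb hc hb hb hc
    have h5 := six_AVal ha hb hc hc hc ha
    have h6 := six_AVal ha hb hc hc hc hb
    simp only [XX]
    rw [abs_le]
    constructor <;>
      linarith [h1.1, h1.2, h2.1, h2.2, h3.1, h3.2, h4.1, h4.2, h5.1, h5.2, h6.1, h6.2]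
  | 6 =>
    have h1 := abs_le.1 (cos_AVal ha hb ha hb hc hc)
    have h2 := abs_le.1 (cos_AVal hb hc ha ha hb hc)
    have h3 := abs_le.1 (cos_AVal ha hc ha hb hb hc)
    simp only [XX]
    rw [abs_le]
    constructor <;> linarith [h1.1, h1.2, h2.1, h2.2, h3.1, h3.2]
  | n + 7 =>
    have h1 := abs_le.1 (cos_AVal ha hb ha hb ha hb)
    have h2 := abs_le.1 (cos_AVal hb hc hb hc hb hc)
    have h3 := abs_le.1 (cos_AVal ha hc ha hc ha hc)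
    simp only [XX]
    rw [abs_le]
    constructor <;> linarith [h1.1, h1.2, h2.1, h2.2, h3.1, h3.2]

theorem vals_sound (u : Bool) {S dn a b c : ℕ} {ca cb : ℕ × ℕ} {A B C D Y : ℝ} (hdn : 0 < dn)
    (ha : (a : ℝ) ≤ A ∧ A ≤ a + D ∧ A ≤ Y) (hb : (b : ℝ) ≤ B ∧ B ≤ b + D ∧ B ≤ Y)
    (hc : (c : ℝ) ≤ C ∧ C ≤ c + D ∧ C ≤ Y) (hS : (S : ℝ) = 2 * (A ^ 6 + B ^ 6 + C ^ 6))
    (hcs : u = true → (b ≠ 0 → CsOK ca (3 * (Real.log a - Real.log b))) ∧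
      (c ≠ 0 → b ≠ 0 ∧ CsOK cb (3 * (Real.log b - Real.log c))))
    {s : ℕ} (hs : s < 8) (hu : s < 6 ∨ u = true) :
    |(vals u S dn a b c ca cb).r s - (S - XX s A B C) / dn| ≤
      (72 * D * Y ^ 5 + if u = true then (S : ℝ) / 2 ^ 27 else 0) / dn + 1 := by
  have a0 : (0 : ℝ) ≤ a := Nat.cast_nonneg a
  have b0 : (0 : ℝ) ≤ b := Nat.cast_nonneg b
  have c0 : (0 : ℝ) ≤ c := Nat.cast_nonneg c
  have hT : 0 ≤ (S : ℝ) - XX s A B C := by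
    have := (abs_le.1 (XX_le s (a0.trans ha.1) (b0.trans hb.1) (c0.trans hc.1))).2
    linarith
  have hL := abs_le.1 (XX_lip s ⟨a0, ha⟩ ⟨b0, hb⟩ ⟨c0, hc⟩)
  have hS2 : 2 * ((a : ℝ) ^ 6 + b ^ 6 + c ^ 6) ≤ S := by
    have h1 := pow_le_pow_left₀ a0 ha.1 6
    have h2 := pow_le_pow_left₀ b0 hb.1 6
    have h3 := pow_le_pow_left₀ c0 hc.1 6
    linarith
  have hI : (0 : ℝ) ≤ if u = true then (S : ℝ) / 2 ^ 27 else 0 := by
    split_ifs <;> positivity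
  have key : ∀ x : ℕ, (x : ℝ) = XX s a b c →
      |(((S - x) / dn : ℕ) : ℝ) - (S - XX s A B C) / dn| ≤
        (72 * D * Y ^ 5 + if u = true then (S : ℝ) / 2 ^ 27 else 0) / dn + 1 := by
    intro x hx
    refine trunc_AVal S x dn hdn hT ?_
    rw [hx, abs_le]
    constructor <;> linarith [hL.1, hL.2]
  have hc3 : u = true → c ≠ 0 → |(c3 ca.1 ca.2 cb.1 cb.2 : ℝ) / 2 ^ 40 - 1 -
      Real.cos (3 * (Real.log a - Real.log c))| ≤ 1 / 2 ^ 27 := by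
    intro h1 h2
    have h3 := (hcs h1).2 h2
    have h4 := c3_sound ((hcs h1).1 h3.1) h3.2
    rwa [show 3 * (Real.log a - Real.log b) + 3 * (Real.log b - Real.log c) =
      3 * (Real.log a - Real.log c) by ring] at h4
  interval_cases s
  · refine key (6 * (a * b * c * (a * b * c))) ?_
    simp only [XX]
    push_cast
    ring
  · refine key (2 * (a * a * a * (b * b * b) + a * a * a * (c * c * c) +
      b * b * b * (c * c * c))) ?_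
    simp only [XX]
    push_cast
    ring
  · refine key (a * a * (a * a) * (b * b + c * c) + b * b * (b * b) * (a * a + c * c) +
      c * c * (c * c) * (a * a + b * b)) ?_
    simp only [XX]
    push_cast
    ring
  · refine key (a * a * (a * a) * a * (b + c) + b * b * (b * b) * b * (a + c) +
      c * c * (c * c) * c * (a + b)) ?_
    simp only [XX]
    push_cast
    ring
  · refine key (2 * (a * b * c) * (a * a * a + b * b * b + c * c * c)) ?_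
    simp only [XX]
    push_cast
    ring
  · refine key (a * b * c * (a * a * (b + c) + b * b * (a + c) + c * c * (a + b))) ?_
    simp only [XX]
    push_cast
    ring
  · obtain rfl : u = true := hu.resolve_left (by norm_num)
    refine trunc2_AVal (S + 6 * (a * b * c * (a * b * c)))
      (2 * (a * b * c * (a * b * c)) * (ca.1 + cb.1 + c3 ca.1 ca.2 cb.1 cb.2)) dn hdn hT ?_
    have h0 : (0 : ℝ) ≤ (a * b * c) ^ 2 := by positivity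
    have nb : ((a : ℝ) * b * c) ^ 2 ≠ 0 → b ≠ 0 := by
      rintro h rfl
      simp at h
    have nc : ((a : ℝ) * b * c) ^ 2 ≠ 0 → c ≠ 0 := by
      rintro h rfl
      simp at h
    have h1 := abs_le.1 (err_AVal h0 fun h => ((hcs rfl).1 (nb h)).cos)
    have h2 := abs_le.1 (err_AVal h0 fun h => ((hcs rfl).2 (nc h)).2.cos)
    have h3 := abs_le.1 (err_AVal h0 fun h => hc3 rfl (nc h))
    have h4 := (abs_le.1 (XX_le 0 a0 b0 c0)).2
    rw [if_pos rfl, abs_le]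
    generalize XX 6 A B C = Z at hL ⊢
    simp only [XX] at hL h4
    push_cast
    constructor <;> linarith [hL.1, hL.2, h1.1, h1.2, h2.1, h2.2, h3.1, h3.2]
  · obtain rfl : u = true := hu.resolve_left (by norm_num)
    refine trunc2_AVal (S + 2 * (a * a * a * (b * b * b) + a * a * a * (c * c * c) +
      b * b * b * (c * c * c))) (2 * (a * a * a * (b * b * b) * ca.1 +
        b * b * b * (c * c * c) * cb.1 + a * a * a * (c * c * c) * c3 ca.1 ca.2 cb.1 cb.2))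
      dn hdn hT ?_
    have nb : (a : ℝ) ^ 3 * b ^ 3 ≠ 0 → b ≠ 0 := by
      rintro h rfl
      simp at h
    have nc : ∀ x : ℝ, x * (c : ℝ) ^ 3 ≠ 0 → c ≠ 0 := by
      rintro x h rfl
      simp at h
    have h1 := abs_le.1 (err_AVal (h := (a : ℝ) ^ 3 * b ^ 3) (by positivity)
      fun h => ((hcs rfl).1 (nb h)).cos)
    have h2 := abs_le.1 (err_AVal (h := (b : ℝ) ^ 3 * c ^ 3) (by positivity)
      fun h => ((hcs rfl).2 (nc _ h)).2.cos)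
    have h3 := abs_le.1 (err_AVal (h := (a : ℝ) ^ 3 * c ^ 3) (by positivity)
      fun h => hc3 rfl (nc _ h))
    have h4 := (abs_le.1 (XX_le 1 a0 b0 c0)).2
    rw [if_pos rfl, abs_le]
    generalize XX 7 A B C = Z at hL ⊢
    simp only [XX] at hL h4
    push_cast
    constructor <;> linarith [hL.1, hL.2, h1.1, h1.2, h2.1, h2.2, h3.1, h3.2]

end Vale.Agent.P154
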