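import Vale.Agent.P154.ARow
import Vale.Agent.P154.AVal
import Vale.Agent.P154.AGeo

/-! TASK AVtx: the checks at the grid points.
Plan. Let `q = Q / 2^20`, `p = P / 2^20`, `h = hx (q^6) (p^6)`; then `f1c, f2, f3 = 2^240 * h`,
`sf = 3 * 2^240 * avg h`. Values before the channel: `vals_sound` with `D = 0`, `A = 2^40`,
`B = Q * 2^20`, `C = Q * P`, `cs_sound` (`log (2^40) - log (Q * 2^20) = log (2^20) - log Q`, and
similarly for `P`), `chi_pow6`, `chi_smul`: each entry is within `4` of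
`6 * 2^26 * (avg h - chi s h)`; `mh` is within `1` of `6 * 2^26 * avg h`. Values after the channel:
`g i = 3 * 2^288 * chv (lamR n) h i ≤ 3 * 2^288` (`chv_gg`), real roots `A = g 2 ^ (1/6)` etc.
(`Real.rpow_inv_natCast_pow`), `rt_sound`, `D = 4`, `Y = 5/4 * 2^48`; the point is listed in the
reversed order (`chi_perm` with `Equiv.swap 0 2`); each entry is within `dlt w.u (dnR n)` of
`6 * 2^26 * (avg h - chi s (chv (lamR n) h)) / lamR n ^ 2` (`72 * 4 * (5/4)^5 ≤ 1024`,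
`18 * 2^288 / 2^27 = 37748736 * 2^240`, `dnR_cast`). If `w.u = false` the weights of `s = 6, 7` vanish
(`wOK_sound`). Combine with `row_sound`: `|aR| ≤ (ap + am) / 2^32`, `|bR| ≤ abR`. Never unfold `rt`,
`cs`; use `show` / `band_iff` to split the Boolean checks (`(mkCtx w).u = w.u` by `rfl`). -/

namespace Vale.Agent.P154

open Finset

theorem csOK_AVtx {u v : ℕ} (h : csOK u v = true) (hv : v ≠ 0) :
    u ≠ 0 ∧ CsOK (cs u v) (3 * (Real.log u - Real.log v)) := by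
  unfold csOK at h
  have e : Nat.beq v 0 = false := by
    cases v with
    | zero => exact absurd rfl hv
    | succ v => rfl
  rw [e] at h
  change band (Nat.ble v u) (Nat.ble u (Nat.shiftLeft v 21)) = true at h
  rw [band_iff, Nat.ble_eq, Nat.ble_eq, shl_eq] at h
  exact ⟨by omega, cs_sound (Nat.pos_of_ne_zero hv) h.1 h.2⟩

theorem XX_AVtx (s : ℕ) {A B C c : ℝ} {h : Fin 3 → ℝ} (hA : 0 ≤ A) (hB : 0 ≤ B) (hC : 0 ≤ C)
    (hc : 0 ≤ c) (hh : ∀ i, 0 ≤ h i) (e0 : A ^ 6 = c * h 0) (e1 : B ^ 6 = c * h 1)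
    (e2 : C ^ 6 = c * h 2) : XX s A B C = 6 * (c * chi s h) := by
  rw [← chi_pow6 s hA hB hC, ← chi_smul s hc hh]
  congr 2
  funext i
  fin_cases i
  · exact e0
  · exact e1
  · exact e2

theorem csa_AVtx {Q : ℕ} (hQ : Q ≤ 2 ^ 20) (hb : Nat.shiftLeft Q 20 ≠ 0) :
    CsOK (cs 1048576 Q)
      (3 * (Real.log ((1099511627776 : ℕ) : ℝ) - Real.log ((Nat.shiftLeft Q 20 : ℕ) : ℝ))) := by
  have c1 : ((Nat.shiftLeft Q 20 : ℕ) : ℝ) = Q * 2 ^ 20 := by rw [shl_eq]; push_cast; ring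
  have hQ0 : Q ≠ 0 := fun h0 => hb (by rw [h0, shl_eq, zero_mul])
  have hq : (0 : ℝ) < Q := Nat.cast_pos.2 (Nat.pos_of_ne_zero hQ0)
  have e : Real.log ((1099511627776 : ℕ) : ℝ) - Real.log ((Nat.shiftLeft Q 20 : ℕ) : ℝ) =
      Real.log ((1048576 : ℕ) : ℝ) - Real.log Q := by
    rw [c1, show ((1099511627776 : ℕ) : ℝ) = 2 ^ 20 * 2 ^ 20 by norm_num,
      show ((1048576 : ℕ) : ℝ) = 2 ^ 20 by norm_num, Real.log_mul (by positivity) (by positivity),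
      Real.log_mul hq.ne' (by positivity)]
    ring
  rw [e]
  exact cs_sound (Nat.pos_of_ne_zero hQ0) (by omega) (by omega)

theorem csb_AVtx {Q P : ℕ} (hP : P ≤ 2 ^ 20) (hc : Nat.mul Q P ≠ 0) :
    Nat.shiftLeft Q 20 ≠ 0 ∧ CsOK (cs 1048576 P)
      (3 * (Real.log ((Nat.shiftLeft Q 20 : ℕ) : ℝ) - Real.log ((Nat.mul Q P : ℕ) : ℝ))) := by
  have c1 : ((Nat.shiftLeft Q 20 : ℕ) : ℝ) = Q * 2 ^ 20 := by rw [shl_eq]; push_cast; ring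
  have c2 : ((Nat.mul Q P : ℕ) : ℝ) = Q * P := Nat.cast_mul Q P
  have hQ0 : Q ≠ 0 := fun h0 => hc (by rw [h0, Nat.mul_eq, zero_mul])
  have hP0 : P ≠ 0 := fun h0 => hc (by rw [h0, Nat.mul_eq, mul_zero])
  have hq : (0 : ℝ) < Q := Nat.cast_pos.2 (Nat.pos_of_ne_zero hQ0)
  have hp : (0 : ℝ) < P := Nat.cast_pos.2 (Nat.pos_of_ne_zero hP0)
  refine ⟨by rw [shl_eq]; exact mul_ne_zero hQ0 (by norm_num), ?_⟩
  have e : Real.log ((Nat.shiftLeft Q 20 : ℕ) : ℝ) - Real.log ((Nat.mul Q P : ℕ) : ℝ) =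
      Real.log ((1048576 : ℕ) : ℝ) - Real.log P := by
    rw [c1, c2, show ((1048576 : ℕ) : ℝ) = 2 ^ 20 by norm_num,
      Real.log_mul hq.ne' (by positivity), Real.log_mul hq.ne' hp.ne']
    ring
  rw [e]
  exact cs_sound (Nat.pos_of_ne_zero hP0) (by omega) (by omega)

theorem pre0_AVtx (u : Bool) {a b c S dn : ℕ} {ca cb : ℕ × ℕ} {h : Fin 3 → ℝ}
    (hh : ∀ i, 0 ≤ h i ∧ h i ≤ 1) (d1 : (a : ℝ) ^ 6 = 2 ^ 240 * h 0)
    (d2 : (b : ℝ) ^ 6 = 2 ^ 240 * h 1) (d3 : (c : ℝ) ^ 6 = 2 ^ 240 * h 2)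
    (hS : (S : ℝ) = 2 * (2 ^ 240 * (h 0 + h 1 + h 2))) (hdn : (dn : ℝ) = 2 ^ 214)
    (hcs : (b ≠ 0 → CsOK ca (3 * (Real.log a - Real.log b))) ∧
      (c ≠ 0 → b ≠ 0 ∧ CsOK cb (3 * (Real.log b - Real.log c))))
    {s : ℕ} (hs : s < 8) (hu : s < 6 ∨ u = true) :
    |(vals u S dn a b c ca cb).r s - 6 * 2 ^ 26 * (avg h - chi s h)| ≤ 4 := by
  have a0 := Nat.cast_nonneg (α := ℝ) a
  have b0 := Nat.cast_nonneg (α := ℝ) b
  have c0 := Nat.cast_nonneg (α := ℝ) c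
  have v := vals_sound u (S := S) (dn := dn) (a := a) (b := b) (c := c) (ca := ca) (cb := cb)
    (D := 0) (Y := a + b + c) (by rw [← Nat.cast_pos (α := ℝ), hdn]; positivity)
    ⟨le_rfl, by rw [add_zero], by linarith⟩ ⟨le_rfl, by rw [add_zero], by linarith⟩
    ⟨le_rfl, by rw [add_zero], by linarith⟩ (by rw [hS, d1, d2, d3]; ring) (fun _ => hcs) hs hu
  rw [XX_AVtx s a0 b0 c0 (by positivity) (fun i => (hh i).1) d1 d2 d3, hS, hdn] at v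
  have e : (2 * (2 ^ 240 * (h 0 + h 1 + h 2)) - 6 * (2 ^ 240 * chi s h)) / 2 ^ 214 =
      6 * 2 ^ 26 * (avg h - chi s h) := by
    rw [avg3]; ring
  rw [e, mul_zero, zero_mul, zero_add] at v
  refine v.trans ?_
  split_ifs
  · have e' : (2 * (2 ^ 240 * (h 0 + h 1 + h 2)) / 2 ^ 27) / 2 ^ 214 = h 0 + h 1 + h 2 := by ring
    rw [e']
    linarith [(hh 0).2, (hh 1).2, (hh 2).2]
  · norm_num

theorem pre_AVtx (u : Bool) {Q P : ℕ} (hQ : Q ≤ 2 ^ 20) (hP : P ≤ 2 ^ 20) {h : Fin 3 → ℝ}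
    (hh : ∀ i, 0 ≤ h i ∧ h i ≤ 1) (e1 : (f1c : ℝ) = 2 ^ 240 * h 0)
    (e2 : (p6 (Nat.shiftLeft Q 20) : ℝ) = 2 ^ 240 * h 1) (e3 : (p6 (Nat.mul Q P) : ℝ) = 2 ^ 240 * h 2)
    {sf : ℕ} (hsf : (sf : ℝ) = 2 ^ 240 * (h 0 + h 1 + h 2)) {s : ℕ} (hs : s < 8)
    (hu : s < 6 ∨ u = true) :
    |(vals u (Nat.mul 2 sf) (Nat.shiftLeft 1 214) 1099511627776 (Nat.shiftLeft Q 20) (Nat.mul Q P)
      (cs 1048576 Q) (cs 1048576 P)).r s - 6 * 2 ^ 26 * (avg h - chi s h)| ≤ 4 := by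
  refine pre0_AVtx u hh ?_ ?_ ?_ ?_ ?_ ⟨csa_AVtx hQ, csb_AVtx hP⟩ hs hu
  · rw [← e1, f1c, shl_eq]; norm_num
  · rw [← e2, p6, Nat.pow_eq, Nat.cast_pow]
  · rw [← e3, p6, Nat.pow_eq, Nat.cast_pow]
  · rw [Nat.mul_eq, Nat.cast_mul, hsf, Nat.cast_ofNat]
  · rw [shl_eq]; norm_num

theorem root_AVtx {g y : ℕ} (h : rtOK g y = true) (hg : (g : ℝ) ≤ 3 * (2 ^ 240 * 2 ^ 48)) :
    ∃ A : ℝ, 0 ≤ A ∧ A ^ 6 = g ∧ (y : ℝ) ≤ A ∧ A ≤ y + 4 ∧ A ≤ 5 / 4 * 2 ^ 48 := by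
  have h0 : (0 : ℝ) ≤ (g : ℝ) ^ (((6 : ℕ) : ℝ)⁻¹) := by positivity
  have e := Real.rpow_inv_natCast_pow (Nat.cast_nonneg (α := ℝ) g) (n := 6) (by norm_num)
  obtain ⟨a, b⟩ := rt_sound h h0 e
  refine ⟨_, h0, e, a, b, ?_⟩
  refine (pow_le_pow_iff_left₀ h0 (by positivity) (n := 6) (by norm_num)).1 ?_
  rw [e]
  refine hg.trans ?_
  norm_num

theorem dlt_AVtx (u : Bool) {dn : ℕ} (hdn : 0 < dn) {S : ℝ} (hS : S ≤ 18 * (2 ^ 240 * 2 ^ 48)) :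
    (72 * 4 * (5 / 4 * 2 ^ 48) ^ 5 + if u = true then S / 2 ^ 27 else 0) / dn + 1 ≤ (dlt u dn : ℝ) := by
  have key : ∀ (K : ℕ) (x : ℝ), x ≤ K * 2 ^ 240 →
      x / dn + 1 ≤ ((Nat.add (Nat.div (Nat.shiftLeft K 240) dn) 2 : ℕ) : ℝ) := by
    intro K x hx
    have a := cd_ge (Nat.shiftLeft K 240) hdn
    have b : x / dn ≤ ((Nat.shiftLeft K 240 : ℕ) : ℝ) / dn := by
      rw [shl_eq, Nat.cast_mul, Nat.cast_pow, Nat.cast_ofNat]
      gcongr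
    have c : ((Nat.add (Nat.div (Nat.shiftLeft K 240) dn) 2 : ℕ) : ℝ) =
        cd (Nat.shiftLeft K 240) dn + 1 := by
      unfold cd
      generalize Nat.div (Nat.shiftLeft K 240) dn = z
      rw [Nat.add_eq, Nat.succ_eq_add_one]
      push_cast
      ring
    linarith
  cases u
  · refine key 1024 _ ?_
    norm_num
  · refine key 37749760 _ ?_
    rw [if_pos rfl]
    have : S / 2 ^ 27 ≤ 18 * (2 ^ 240 * 2 ^ 48) / 2 ^ 27 := by gcongr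
    refine (add_le_add_right this _).trans ?_
    norm_num

theorem post_AVtx {c : Ctx} {e : Ep} {n t xp tp f2 f3 sf : ℕ} (hn : n ≤ 2 ^ 48) (h1 : 1 ≤ lsq n)
    {h : Fin 3 → ℝ} (hh : ∀ i, 0 ≤ h i ∧ h i ≤ 1) (e1 : (f1c : ℝ) = 2 ^ 240 * h 0)
    (e2 : (f2 : ℝ) = 2 ^ 240 * h 1) (e3 : (f3 : ℝ) = 2 ^ 240 * h 2)
    (hsf : (sf : ℝ) = 2 ^ 240 * (h 0 + h 1 + h 2)) (H : rowE c n e t xp tp f2 f3 sf = true) :
    ∃ r : V8, row1 c e t xp tp r = true ∧ ∀ s < 8, s < 6 ∨ c.u = true →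
      |r.r s - 6 * 2 ^ 26 * ((avg h - chi s (chv (lamR n) h)) / lamR n ^ 2)| ≤
        (dlt c.u (dnR n) : ℝ) := by
  unfold rowE rowG at H
  obtain ⟨k0, k1, k2⟩ := chv_gg hn h
  have hab : (alN n : ℝ) + 2 * beN n = 3 * 2 ^ 48 := by
    have : alN n + 2 * beN n = 3 * 2 ^ 48 := by
      change 2 * n + 2 * (422212465065984 - n) = _
      omega
    exact_mod_cast this
  have cg : ∀ x y z : ℕ, (gg (alN n) (beN n) x y z : ℝ) = alN n * x + beN n * (y + z) := by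
    intro x y z
    unfold gg
    simp only [Nat.add_eq, Nat.mul_eq]
    push_cast
    ring
  have g0 : (gg (alN n) (beN n) f1c f2 f3 : ℝ) = 3 * (2 ^ 240 * 2 ^ 48) * chv (lamR n) h 0 := by
    rw [cg, e1, e2, e3]; linear_combination (-2 ^ 240) * k0
  have g1 : (gg (alN n) (beN n) f2 f1c f3 : ℝ) = 3 * (2 ^ 240 * 2 ^ 48) * chv (lamR n) h 1 := by
    rw [cg, e1, e2, e3]; linear_combination (-2 ^ 240) * k1
  have g2 : (gg (alN n) (beN n) f3 f1c f2 : ℝ) = 3 * (2 ^ 240 * 2 ^ 48) * chv (lamR n) h 2 := by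
    rw [cg, e1, e2, e3]; linear_combination (-2 ^ 240) * k2
  have al0 : (0 : ℝ) ≤ alN n := Nat.cast_nonneg _
  have be0 : (0 : ℝ) ≤ beN n := Nat.cast_nonneg _
  have bd : ∀ x y z v : ℝ, 0 ≤ x ∧ x ≤ 1 → 0 ≤ y ∧ y ≤ 1 → 0 ≤ z ∧ z ≤ 1 →
      3 * 2 ^ 48 * v = alN n * x + beN n * (y + z) → 0 ≤ v ∧ v ≤ 1 := by
    intro x y z v hx hy hz hv
    have a1 := mul_nonneg al0 hx.1
    have a2 := mul_nonneg be0 (add_nonneg hy.1 hz.1)
    have a3 := mul_le_mul_of_nonneg_left hx.2 al0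
    have a4 := mul_le_mul_of_nonneg_left (add_le_add hy.2 hz.2) be0
    constructor <;> linarith
  have b0 := bd _ _ _ _ (hh 0) (hh 1) (hh 2) k0
  have b1 := bd _ _ _ _ (hh 1) (hh 0) (hh 2) k1
  have b2 := bd _ _ _ _ (hh 2) (hh 0) (hh 1) k2
  have ksum : chv (lamR n) h 0 + chv (lamR n) h 1 + chv (lamR n) h 2 = h 0 + h 1 + h 2 := by
    simp only [chv, avg3]
    ring
  generalize gg (alN n) (beN n) f1c f2 f3 = G0 at H g0
  generalize gg (alN n) (beN n) f2 f1c f3 = G1 at H g1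
  generalize gg (alN n) (beN n) f3 f1c f2 = G2 at H g2
  generalize rt G0 = y0 at H
  generalize rt G1 = y1 at H
  generalize rt G2 = y2 at H
  unfold rowY at H
  rw [band_iff, band_iff, band_iff, band_iff] at H
  obtain ⟨⟨r0, r1, r2⟩, hc, hr⟩ := H
  refine ⟨_, hr, fun s hs hu => ?_⟩
  obtain ⟨A0, p0, q0, s0⟩ := root_AVtx r0 (by rw [g0]; linarith [b0.2])
  obtain ⟨A1, p1, q1, s1⟩ := root_AVtx r1 (by rw [g1]; linarith [b1.2])
  obtain ⟨A2, p2, q2, s2⟩ := root_AVtx r2 (by rw [g2]; linarith [b2.2])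
  have cS : ((Nat.shiftLeft (Nat.mul 6 sf) 48 : ℕ) : ℝ) = 6 * (2 ^ 240 * 2 ^ 48) * (h 0 + h 1 + h 2) := by
    rw [shl_eq, Nat.mul_eq, Nat.cast_mul, Nat.cast_mul, hsf]
    push_cast
    ring
  have hl : (1 : ℝ) ≤ lamR n ^ 2 * 2 ^ 96 := by rw [← lsq_cast]; exact_mod_cast h1
  have hl0 : 0 < lamR n ^ 2 := by
    by_contra h0
    have := mul_le_mul_of_nonneg_right (not_lt.1 h0) (show (0 : ℝ) ≤ 2 ^ 96 by positivity)
    linarith
  have hdn : 0 < dnR n := by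
    rw [← Nat.cast_pos (α := ℝ), dnR_cast]
    positivity
  have v := vals_sound c.u (S := Nat.shiftLeft (Nat.mul 6 sf) 48) (dn := dnR n) (a := y2)
    (b := y1) (c := y0) (ca := cs y2 y1) (cb := cs y1 y0) hdn s2 s1 s0
    (by rw [cS, q0, q1, q2, g0, g1, g2, ← ksum]; ring) (fun hu' => by
      rw [hu'] at hc
      change band (csOK y2 y1) (csOK y1 y0) = true at hc
      rw [band_iff] at hc
      exact ⟨fun hb => (csOK_AVtx hc.1 hb).2, fun hb => csOK_AVtx hc.2 hb⟩) hs hu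
  have hX := XX_AVtx s (c := 3 * (2 ^ 240 * 2 ^ 48)) (h := chv (lamR n) h ∘ Equiv.swap (0 : Fin 3) 2) p2 p1 p0
    (by positivity) (fun i => by
      fin_cases i
      · exact b2.1
      · exact b1.1
      · exact b0.1) (q2.trans g2) (q1.trans g1) (q0.trans g0)
  rw [chi_perm] at hX
  have e : (((Nat.shiftLeft (Nat.mul 6 sf) 48 : ℕ) : ℝ) - XX s A2 A1 A0) / dnR n =
      6 * 2 ^ 26 * ((avg h - chi s (chv (lamR n) h)) / lamR n ^ 2) := by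
    rw [cS, hX, dnR_cast, avg3, show (2 : ℝ) ^ 262 = 2 ^ 240 * 2 ^ 22 from pow_add 2 240 22]
    field_simp
  rw [e] at v
  refine v.trans (dlt_AVtx c.u hdn ?_)
  rw [cS]
  linarith [(hh 0).2, (hh 1).2, (hh 2).2]

theorem wsum_AVtx {u : Bool} {a b x y : ℕ → ℝ} {δ : ℝ} (ha : ∀ s, 0 ≤ a s) (hb : ∀ s, 0 ≤ b s)
    (hz : u = false → ∀ s, 6 ≤ s → s < 8 → a s = 0 ∧ b s = 0)
    (hxy : ∀ s < 8, s < 6 ∨ u = true → |x s - y s| ≤ δ) :
    |∑ s ∈ range 8, (a s - b s) / 2 ^ 32 * x s - ∑ s ∈ range 8, (a s - b s) / 2 ^ 32 * y s| ≤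
      ∑ s ∈ range 8, (a s + b s) / 2 ^ 32 * δ := by
  rw [← sum_sub_distrib]
  refine (abs_sum_le_sum_abs _ _).trans (sum_le_sum fun s hs => ?_)
  rw [mem_range] at hs
  by_cases hu : s < 6 ∨ u = true
  · rw [← mul_sub, abs_mul, abs_div, abs_of_pos (show (0 : ℝ) < 2 ^ 32 by positivity)]
    have h1 : |a s - b s| ≤ a s + b s := by
      rw [abs_le]
      constructor <;> linarith [ha s, hb s]
    have := ha s
    have := hb s
    gcongr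
    exact hxy s hs hu
  · rw [not_or, not_lt, Bool.not_eq_true] at hu
    obtain ⟨e1, e2⟩ := hz hu.2 s hu.1 hs
    simp [e1, e2]

theorem comb_AVtx {w : Wt} (hw : wOK w = true) {t mh n : ℕ} {p r ep ex et : V8} {h : Fin 3 → ℝ}
    (H : row1 (mkCtx w) (mkEp (mkCtx w) t ep ex et) t
      (Nat.add (V8.dot (mkCtx w).A p) (Nat.mul (mkCtx w).C mh)) (Nat.add p.sum mh) r = true)
    (hp : ∀ s < 8, s < 6 ∨ w.u = true → |p.r s - 6 * 2 ^ 26 * (avg h - chi s h)| ≤ 4)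
    (hm : |(mh : ℝ) - 6 * 2 ^ 26 * avg h| ≤ 1)
    (hr : ∀ s < 8, s < 6 ∨ w.u = true →
      |r.r s - 6 * 2 ^ 26 * ((avg h - chi s (chv (lamR n) h)) / lamR n ^ 2)| ≤
        (dlt w.u (dnR n) : ℝ))
    {l : ℕ} (hl : l < w.L) : VX w l t n ep ex et h := by
  obtain ⟨R1, R2⟩ := row_sound hw H hl rfl rfl rfl
  obtain ⟨-, -, -, hz⟩ := wOK_sound hw
  have a1 := wsum_AVtx (u := w.u) (a := fun s => (dg (w.ap.at s) l : ℝ))
    (b := fun s => (dg (w.am.at s) l : ℝ)) (fun _ => Nat.cast_nonneg _) (fun _ => Nat.cast_nonneg _)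
    (fun hu s h6 h8 => by
      obtain ⟨z1, z2, -, -⟩ := hz hu s h6 h8 l
      simp [z1, z2]) hp
  have a2 := wsum_AVtx (u := w.u) (a := fun s => (dg (w.bp.at s) l : ℝ))
    (b := fun s => (dg (w.bm.at s) l : ℝ)) (fun _ => Nat.cast_nonneg _) (fun _ => Nat.cast_nonneg _)
    (fun hu s h6 h8 => by
      obtain ⟨-, -, z1, z2⟩ := hz hu s h6 h8 l
      simp [z1, z2]) hr
  have a3 : |cR w l * mh - cR w l * (6 * 2 ^ 26 * avg h)| ≤
      ((dg w.cp l : ℝ) + dg w.cm l) / 2 ^ 32 := by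
    rw [← mul_sub, abs_mul, cR, abs_div, abs_of_pos (show (0 : ℝ) < 2 ^ 32 by positivity)]
    have c1 := Nat.cast_nonneg (α := ℝ) (dg w.cp l)
    have c2 := Nat.cast_nonneg (α := ℝ) (dg w.cm l)
    have h1 : |(dg w.cp l : ℝ) - dg w.cm l| ≤ dg w.cp l + dg w.cm l := by
      rw [abs_le]
      constructor <;> linarith
    calc _ ≤ ((dg w.cp l : ℝ) + dg w.cm l) / 2 ^ 32 * 1 := by gcongr
      _ = _ := mul_one _
  have eX : 6 * 2 ^ 26 * XR w l h = ∑ s ∈ range 8, aR w l s * (6 * 2 ^ 26 * (avg h - chi s h)) -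
      cR w l * (6 * 2 ^ 26 * avg h) := by
    rw [XR, mul_sub, mul_sum]
    congr 1
    · exact sum_congr rfl fun _ _ => by ring
    · ring
  have eY : 6 * 2 ^ 26 * YR w (lamR n) l h = ∑ s ∈ range 8, bR w l s *
      (6 * 2 ^ 26 * ((avg h - chi s (chv (lamR n) h)) / lamR n ^ 2)) := by
    rw [YR, mul_sum]
    exact sum_congr rfl fun _ _ => by ring
  have eE : 6 * 2 ^ 26 * ER w l ep.r ex.r (fun s => et.r s - dlt w.u (dnR n)) =
      ER w l ep.r ex.r et.r * (6 * 2 ^ 26) - ∑ s ∈ range 8, abR w l s * dlt w.u (dnR n) := by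
    simp only [ER, mul_sub, sum_sub_distrib]
    ring
  have e0 : e0R w l = ∑ s ∈ range 8, ((dg (w.ap.at s) l : ℝ) + dg (w.am.at s) l) / 2 ^ 32 * 4 +
      ((dg w.cp l : ℝ) + dg w.cm l) / 2 ^ 32 := by
    rw [e0R, ← sum_mul, ← sum_div]
    ring
  change |∑ s ∈ range 8, aR w l s * p.r s -
    ∑ s ∈ range 8, aR w l s * (6 * 2 ^ 26 * (avg h - chi s h))| ≤ _ at a1
  change |∑ s ∈ range 8, bR w l s * r.r s - ∑ s ∈ range 8, bR w l s *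
    (6 * 2 ^ 26 * ((avg h - chi s (chv (lamR n) h)) / lamR n ^ 2))| ≤
      ∑ s ∈ range 8, abR w l s * dlt w.u (dnR n) at a2
  rw [← eY] at a2
  have b1 : |∑ s ∈ range 8, aR w l s * p.r s - cR w l * mh - 6 * 2 ^ 26 * XR w l h| ≤ e0R w l := by
    rw [eX, e0]
    rw [abs_le] at a1 a3 ⊢
    constructor <;> linarith [a1.1, a1.2, a3.1, a3.2]
  have b0 : 0 ≤ e0R w l := (abs_nonneg _).trans b1
  rw [abs_le] at b1 a2
  generalize ∑ s ∈ range 8, aR w l s * p.r s - cR w l * mh = X at R1 R2 b1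
  generalize ∑ s ∈ range 8, bR w l s * r.r s = Y at R1 R2 a2
  refine ⟨by linarith [b1.2, a2.1], fun ht => ?_⟩
  have R3 := R2 ht
  have τ0 : (0 : ℝ) ≤ 1 / 2 ^ t := by positivity
  have τ1 : (1 : ℝ) / 2 ^ t ≤ 1 := by
    rw [div_le_one (by positivity)]
    exact one_le_pow₀ one_le_two
  generalize (1 : ℝ) / 2 ^ t = τ at R3 τ0 τ1 ⊢
  have c1 := mul_le_mul_of_nonneg_left b1.2 (sub_nonneg.2 τ1)
  have c2 := mul_nonneg τ0 b0
  linarith [a2.1]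

theorem vtx_sound {w : Wt} (hw : wOK w = true) {two : Bool} {n m t Q P : ℕ} {ep x1 t1 x2 t2 : V8}
    (hQ : Q ≤ 2 ^ 20) (hP : P ≤ 2 ^ 20) (hn : n ≤ 2 ^ 48) (hm : m ≤ 2 ^ 48) (h1 : 1 ≤ lsq n)
    (h2 : 1 ≤ lsq m)
    (h : vtx1 (mkCtx w) two n m (mkEp (mkCtx w) t ep x1 t1) (mkEp (mkCtx w) t ep x2 t2) t Q P =
      true) {l : ℕ} (hl : l < w.L) :
    VX w l t n ep x1 t1 (hx (((Q : ℝ) / 2 ^ 20) ^ 6) (((P : ℝ) / 2 ^ 20) ^ 6)) ∧
      (two = true →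
        VX w l t m ep x2 t2 (hx (((Q : ℝ) / 2 ^ 20) ^ 6) (((P : ℝ) / 2 ^ 20) ^ 6))) := by
  set g := hx (((Q : ℝ) / 2 ^ 20) ^ 6) (((P : ℝ) / 2 ^ 20) ^ 6) with hg
  have bq : ∀ Q : ℕ, Q ≤ 2 ^ 20 → 0 ≤ ((Q : ℝ) / 2 ^ 20) ^ 6 ∧ ((Q : ℝ) / 2 ^ 20) ^ 6 ≤ 1 := by
    intro Q hQ
    refine ⟨by positivity, pow_le_one₀ (by positivity) ?_⟩
    rw [div_le_one (by positivity)]
    exact_mod_cast hQ
  have hh : ∀ i, 0 ≤ g i ∧ g i ≤ 1 := by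
    intro i
    fin_cases i
    · exact ⟨zero_le_one, le_rfl⟩
    · exact bq Q hQ
    · exact ⟨mul_nonneg (bq Q hQ).1 (bq P hP).1, mul_le_one₀ (bq Q hQ).2 (bq P hP).1 (bq P hP).2⟩
  have e1 : (f1c : ℝ) = 2 ^ 240 * g 0 := by
    change _ = 2 ^ 240 * (1 : ℝ)
    rw [f1c, shl_eq]
    norm_num
  have e2 : (p6 (Nat.shiftLeft Q 20) : ℝ) = 2 ^ 240 * g 1 := by
    change _ = 2 ^ 240 * ((Q : ℝ) / 2 ^ 20) ^ 6
    rw [p6, Nat.pow_eq, shl_eq]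
    push_cast
    ring
  have e3 : (p6 (Nat.mul Q P) : ℝ) = 2 ^ 240 * g 2 := by
    change _ = 2 ^ 240 * (((Q : ℝ) / 2 ^ 20) ^ 6 * ((P : ℝ) / 2 ^ 20) ^ 6)
    rw [p6, Nat.pow_eq, Nat.mul_eq]
    push_cast
    ring
  unfold vtx1 vtxY vtxF at h
  have hsf : ((Nat.add (Nat.add f1c (p6 (Nat.shiftLeft Q 20))) (p6 (Nat.mul Q P)) : ℕ) : ℝ) =
      2 ^ 240 * (g 0 + g 1 + g 2) := by
    rw [Nat.add_eq, Nat.add_eq, Nat.cast_add, Nat.cast_add, e1, e2, e3]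
    ring
  generalize Nat.add (Nat.add f1c (p6 (Nat.shiftLeft Q 20))) (p6 (Nat.mul Q P)) = sf at h hsf
  unfold vtxS vtxP vtxX at h
  rw [band_iff] at h
  have hp := fun s hs hu => pre_AVtx w.u hQ hP hh e1 e2 e3 hsf (s := s) hs hu
  have hmh : |((Nat.shiftRight sf 213 : ℕ) : ℝ) - 6 * 2 ^ 26 * avg g| ≤ 1 := by
    have a1 := shr_le sf 213
    have a2 := lt_shr sf 213
    have e : (sf : ℝ) / 2 ^ 213 = 6 * 2 ^ 26 * avg g := by
      rw [hsf, avg3]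
      ring
    rw [e] at a1 a2
    rw [abs_le]
    constructor <;> linarith
  refine ⟨?_, fun h2' => ?_⟩
  · obtain ⟨r, r1, r2⟩ := post_AVtx hn h1 hh e1 e2 e3 hsf h.1
    exact comb_AVtx hw r1 hp hmh r2 hl
  · subst h2'
    obtain ⟨r, r1, r2⟩ := post_AVtx hm h2 hh e1 e2 e3 hsf h.2
    exact comb_AVtx hw r1 hp hmh r2 hl

theorem grid_sound {w : Wt} (hw : wOK w = true) {two : Bool} {n m t Q hq P hp : ℕ}
    {ep x1 t1 x2 t2 : V8} (hQ : Q + 4 * hq ≤ 2 ^ 20) (hP : P + 4 * hp ≤ 2 ^ 20) (hn : n ≤ 2 ^ 48)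
    (hm : m ≤ 2 ^ 48) (h1 : 1 ≤ lsq n) (h2 : 1 ≤ lsq m)
    (h : grid (mkCtx w) two n m (mkEp (mkCtx w) t ep x1 t1) (mkEp (mkCtx w) t ep x2 t2) t
      Q hq P hp = true) {l : ℕ} (hl : l < w.L) {i j : ℕ} (hi : i ≤ 4) (hj : j ≤ 4) :
    VX w l t n ep x1 t1 (hx (xq Q hq i) (xq P hp j)) ∧
      (two = true → VX w l t m ep x2 t2 (hx (xq Q hq i) (xq P hp j))) := by
  unfold grid at h
  rw [allLt_iff] at h
  have a := h i (by omega)
  rw [frc_eq, allLt_iff] at a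
  have b := a j (by omega)
  rw [frc_eq] at b
  have c1 : i * hq ≤ 4 * hq := Nat.mul_le_mul_right _ hi
  have c2 : j * hp ≤ 4 * hp := Nat.mul_le_mul_right _ hj
  exact vtx_sound hw (Q := Q + i * hq) (P := P + j * hp) (by omega) (by omega) hn hm h1 h2 b hl

end Vale.Agent.P154
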