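import Vale.Agent.P154.KrDef

/-! The polynomial expressions whose coefficients are checked (definitions only). -/

namespace Vale.Agent.P154

open Ex

/-! ### validity of the polynomial bounds on a box of a boundary curve -/

/-- numerator of `t`; `t = vT / vS` runs over a neighbourhood of `[n0/den, n1/den]` -/
def vT (n0 n1 : ℤ) : Ex := add (c (31 * n0)) (sm (32 * n1 - n0) (v 0))
def vS (den : ℤ) : Ex := sm (31 * den) (add (c 1) (v 0))
/-- `z = vZ / vO` runs over a neighbourhood of `[k/nz, (k+1)/nz]` -/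
def vZ (k : ℤ) : Ex := add (c (31 * k)) (sm (31 * k + 32) (v 1))
def vO (nz : ℤ) : Ex := sm (31 * nz) (add (c 1) (v 1))

structure Crv where
  a1 : ℤ
  a2 : ℤ
  c0 : ℤ
  c1 : ℤ
  c2 : ℤ
  c3 : ℤ

structure TD where
  k2 : ℤ
  k3 : ℤ
  k4 : ℤ
  N : ℤ
  ka : ℤ
  D : ℕ
  Q0 : List ℤ
  Q1 : List ℤ
  Q2 : List ℤ
  Q3 : List ℤ
  Q4 : List ℤ

structure SD where
  N : ℤ
  ka : ℤ
  D : ℕ
  Q0 : List ℤ
  Q1 : List ℤ

noncomputable def valT' (d : TD) (s A C H Z m : Ex) : Ex :=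
  add (add (add (add (sm (-1) (mul (hor (sm d.ka m) H d.Q0) (pw s 5)))
    (sm (-1) (mul (mul (hor (sm d.ka m) H d.Q1) (pw Z 2)) (mul A (pw s 3)))))
    (mul (sub (mul (sm (d.N * d.k2) (mul Z (add (sm 3 H) (sm 2 m)))) (pw H (d.D - 2)))
      (mul (hor (sm d.ka m) H d.Q2) (pw Z 3))) (mul C (pw s 2))))
    (mul (sub (mul (sm (-(d.N * d.k3)) (mul Z (add (add (sm 6 (mul H H)) (sm 8 (mul m H)))
        (sm 3 (mul m m))))) (pw H (d.D - 3)))
      (mul (hor (sm d.ka m) H d.Q3) (pw Z 4))) (mul (mul A A) s)))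
    (mul (sub (mul (sm (d.N * d.k4) (mul Z (add (add (add (sm 10 (pw H 3))
        (sm 20 (mul m (pw H 2)))) (sm 15 (mul (pw m 2) H))) (sm 4 (pw m 3))))) (pw H (d.D - 4)))
      (mul (hor (sm d.ka m) H d.Q4) (pw Z 5))) (mul A C))

def cA (w : Crv) (T s : Ex) : Ex := add (sm w.a1 (mul T s)) (sm w.a2 (mul T T))
def cC (w : Crv) (T s : Ex) : Ex :=
  add (add (add (sm w.c0 (mul s (mul s s))) (sm w.c1 (mul T (mul s s))))
    (sm w.c2 (mul T (mul T s)))) (sm w.c3 (mul T (mul T T)))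
def cH (s o : Ex) : Ex := mul (mul s s) o
def cZ (z s A : Ex) : Ex := mul z (add (mul s s) A)

noncomputable def valT (d : TD) (w : Crv) (n0 n1 den k nz : ℤ) : Ex :=
  valT' d (vS den) (cA w (vT n0 n1) (vS den)) (cC w (vT n0 n1) (vS den)) (cH (vS den) (vO nz))
    (cZ (vZ k) (vS den) (cA w (vT n0 n1) (vS den)))
    (sub (cZ (vZ k) (vS den) (cA w (vT n0 n1) (vS den))) (cH (vS den) (vO nz)))

noncomputable def valS' (d : SD) (s A H Z m : Ex) : Ex :=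
  add (mul (hor (sm d.ka m) H d.Q0) (pw s 5))
    (mul (mul A (pw s 3)) (sub (mul (hor (sm d.ka m) H d.Q1) (pw Z 2))
      (sm d.N (mul Z (pw H (d.D - 1))))))

noncomputable def valS (d : SD) (n0 n1 den k nz : ℤ) : Ex :=
  valS' d (vS den) (mul (vT n0 n1) (vS den)) (cH (vS den) (vO nz))
    (cZ (vZ k) (vS den) (mul (vT n0 n1) (vS den)))
    (sub (cZ (vZ k) (vS den) (mul (vT n0 n1) (vS den))) (cH (vS den) (vO nz)))

/-! ### four colours -/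

/-- window of four consecutive power sums in terms of the elementary symmetric functions -/
noncomputable def ns (e1 e2 e3 e4 : Ex) (k : ℕ) : Ex × Ex × Ex × Ex :=
  Nat.rec (motive := fun _ => Ex × Ex × Ex × Ex)
    (c 4, e1, sub (mul e1 e1) (sm 2 e2), add (sub (pw e1 3) (sm 3 (mul e1 e2))) (sm 3 e3))
    (fun _ w => (w.2.1, w.2.2.1, w.2.2.2,
      sub (add (sub (mul e1 w.2.2.2) (mul e2 w.2.2.1)) (mul e3 w.2.1)) (mul e4 w.1))) k
noncomputable def psE (e1 e2 e3 e4 : Ex) (k : ℕ) : Ex := (ns e1 e2 e3 e4 k).1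

/-- the permanent of the matrix `(f j ^ μ i)` in terms of power sums -/
def perm4 (p : ℕ → Ex) (μ : ℕ × ℕ × ℕ × ℕ) : Ex :=
  add (add (add (sub (mul (mul (p μ.1) (p μ.2.1)) (mul (p μ.2.2.1) (p μ.2.2.2)))
    (add (add (add (mul (p (μ.1 + μ.2.1)) (mul (p μ.2.2.1) (p μ.2.2.2)))
      (mul (p (μ.1 + μ.2.2.1)) (mul (p μ.2.1) (p μ.2.2.2))))
      (add (mul (p (μ.1 + μ.2.2.2)) (mul (p μ.2.1) (p μ.2.2.1)))
      (mul (p (μ.2.1 + μ.2.2.1)) (mul (p μ.1) (p μ.2.2.2)))))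
      (add (mul (p (μ.2.1 + μ.2.2.2)) (mul (p μ.1) (p μ.2.2.1)))
      (mul (p (μ.2.2.1 + μ.2.2.2)) (mul (p μ.1) (p μ.2.1))))))
    (add (add (mul (p (μ.1 + μ.2.1)) (p (μ.2.2.1 + μ.2.2.2)))
      (mul (p (μ.1 + μ.2.2.1)) (p (μ.2.1 + μ.2.2.2))))
      (mul (p (μ.1 + μ.2.2.2)) (p (μ.2.1 + μ.2.2.1)))))
    (sm 2 (add (add (mul (p (μ.1 + μ.2.1 + μ.2.2.1)) (p μ.2.2.2))
      (mul (p (μ.1 + μ.2.1 + μ.2.2.2)) (p μ.2.2.1)))
      (add (mul (p (μ.1 + μ.2.2.1 + μ.2.2.2)) (p μ.2.1))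
      (mul (p (μ.2.1 + μ.2.2.1 + μ.2.2.2)) (p μ.1))))))
    (sm (-6) (p (μ.1 + μ.2.1 + μ.2.2.1 + μ.2.2.2)))

/-- `4 m`, `16 M`, `32 C` in terms of `e1, e2, e3` -/
def m4 (e1 : Ex) : Ex := sub e1 (c 4)
def M4 (e1 e2 : Ex) : Ex := sub (sm 3 (mul e1 e1)) (sm 8 e2)
def C4 (e1 e2 e3 : Ex) : Ex :=
  add (sub (sm 3 (mul e1 (mul e1 e1))) (sm 12 (mul e1 e2))) (sm 24 e3)
/-- `1024 ψ`, homogeneous of degree five -/
def psi4E (e1 e2 e3 : Ex) : Ex :=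
  add (sub (sm 200 (mul (C4 e1 e2 e3) (mul e1 e1))) (sm 75 (mul (mul (M4 e1 e2) (M4 e1 e2)) e1)))
    (sm 22 (mul (M4 e1 e2) (C4 e1 e2 e3)))

/-- `2^13` times the lower polynomial bound -/
noncomputable def polT4 (d : TD) (m M C : Ex) : Ex :=
  add (mul (mul m m) (add (add (add (add (sm 512 (hor m (c 1) d.Q0))
      (sm 32 (mul (hor m (c 1) d.Q1) M))) (sm 16 (mul (hor m (c 1) d.Q2) C)))
      (sm 2 (mul (hor m (c 1) d.Q3) (mul M M)))) (mul (hor m (c 1) d.Q4) (mul M C))))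
    (sm d.N (add (sub (sm 12800 (mul (sub (c 2) m) C))
      (sm 600 (mul (sub (c 4) (sm 3 m)) (mul M M)))) (sm 176 (mul (sub (c 1) m) (mul M C)))))
/-- `2^12` times the upper polynomial bound -/
noncomputable def polS4 (d : SD) (m M : Ex) : Ex :=
  add (mul (pw m 4) (add (sm 16 (hor m (c 1) d.Q0)) (mul (hor m (c 1) d.Q1) M)))
    (sm (4 * d.N) (mul (hor m (c 1) [64, -16, 4, -1]) M))

noncomputable def mapL {α β : Type} (f : α → β) (l : List α) : List β :=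
  List.rec (motive := fun _ => List β) [] (fun a _ r => f a :: r) l
theorem mapL_eq {α β : Type} (f : α → β) (l : List α) : mapL f l = l.map f := by
  induction l with
  | nil => rfl
  | cons a l ih => show f a :: mapL f l = _; rw [ih]; rfl

noncomputable def zipL {α β : Type} (l : List α) : List β → List (α × β) :=
  List.rec (motive := fun _ => List β → List (α × β)) (fun _ => [])
    (fun a _ r m => List.rec (motive := fun _ => List (α × β)) [] (fun b m _ => (a, b) :: r m) m) l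
theorem zipL_eq {α β : Type} (l : List α) (m : List β) : zipL l m = l.zip m := by
  induction l generalizing m with
  | nil => rfl
  | cons a l ih => cases m with
    | nil => rfl
    | cons b m => show (a, b) :: zipL l m = _; rw [ih]; rfl

/-- features `e1^a e2^i e3^j e4^k` -/
noncomputable def feat (e1 e2 e3 e4 : Ex) (F : List (ℕ × ℕ × ℕ × ℕ)) : List Ex :=
  mapL (fun μ : ℕ × ℕ × ℕ × ℕ =>
    mul (mul (pw e1 μ.1) (pw e2 μ.2.1)) (mul (pw e3 μ.2.2.1) (pw e4 μ.2.2.2))) F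

noncomputable def cT (cm : List ℤ) (pa : List (ℕ × ℕ × ℕ × ℕ)) : Ex :=
  dot cm (mapL (perm4 (psE (v 0) (v 1) (v 2) (v 3))) pa)
noncomputable def id1T (d : TD) (cm : List ℤ) (pa : List (ℕ × ℕ × ℕ × ℕ)) : Ex :=
  sub (sm 24 (polT4 d (m4 (v 0)) (M4 (v 0) (v 1)) (C4 (v 0) (v 1) (v 2)))) (cT cm pa)
noncomputable def id1S (d : SD) (cm : List ℤ) (pa : List (ℕ × ℕ × ℕ × ℕ)) : Ex :=
  sub (cT cm pa) (sm 24 (polS4 d (m4 (v 0)) (M4 (v 0) (v 1))))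

noncomputable def cTT (cm : List ℤ) (pa : List (ℕ × ℕ × ℕ × ℕ)) : Ex :=
  dot cm (mapL (fun μ => mul (perm4 (psE (c 4) (v 0) (v 1) (v 2)) μ)
    (perm4 (psE (c 4) (v 3) (v 4) (v 5)) μ)) pa)
/-- `∑ j, (B j · X) * Y j` as a list of pairs -/
noncomputable def bil (B : List (List ℤ)) (X Y : List Ex) : List (Ex × Ex) :=
  zipL (mapL (fun r => dot r X) B) Y
noncomputable def bilE (B : List (List ℤ)) (X Y : List Ex) : Ex :=
  sum (mapL (fun p : Ex × Ex => mul p.1 p.2) (bil B X Y))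
noncomputable def crossE (b : List ℤ) (F : List (ℕ × ℕ × ℕ × ℕ)) : Ex :=
  add (mul (dot b (feat (c 4) (v 3) (v 4) (v 5) F)) (psi4E (c 4) (v 0) (v 1)))
    (mul (dot b (feat (c 4) (v 0) (v 1) (v 2) F)) (psi4E (c 4) (v 3) (v 4)))
noncomputable def id2T (den : ℤ) (cm : List ℤ) (pa : List (ℕ × ℕ × ℕ × ℕ)) (b : List ℤ)
    (F : List (ℕ × ℕ × ℕ × ℕ)) (B : List (List ℤ)) : Ex :=
  sub (sm den (sub (cTT cm pa) (crossE b F)))
    (bilE B (feat (c 4) (v 0) (v 1) (v 2) F) (feat (c 4) (v 3) (v 4) (v 5) F))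
noncomputable def id2S (den sc t : ℤ) (cm : List ℤ) (pa : List (ℕ × ℕ × ℕ × ℕ)) (b : List ℤ)
    (F : List (ℕ × ℕ × ℕ × ℕ)) (B : List (List ℤ)) : Ex :=
  sub (sm den (sub (sub (sub (sm sc (add (M4 (c 4) (v 0)) (M4 (c 4) (v 3)))) (crossE b F))
      (sm t (mul (mul (M4 (c 4) (v 0)) (M4 (c 4) (v 3)))
        (add (M4 (c 4) (v 0)) (M4 (c 4) (v 3)))))) (cTT cm pa)))
    (bilE B (feat (c 4) (v 0) (v 1) (v 2) F) (feat (c 4) (v 3) (v 4) (v 5) F))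

/-- a coordinate of the point of a cell with parameters `v 0, v 1, v 2` -/
def lin4 (a : ℤ × ℤ × ℤ × ℤ) : Ex :=
  add (add (c a.1) (sm a.2.1 (v 0))) (add (sm a.2.2.1 (v 1)) (sm a.2.2.2 (v 2)))
def el1 (a b c d : Ex) : Ex := add (add a b) (add c d)
def el2 (a b c d : Ex) : Ex := add (add (mul a b) (mul c d)) (mul (add a b) (add c d))
def el3 (a b c d : Ex) : Ex := add (mul (mul a b) (add c d)) (mul (mul c d) (add a b))
def el4 (a b c d : Ex) : Ex := mul (mul a b) (mul c d)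

structure Cell4 where
  x0 : ℤ × ℤ × ℤ × ℤ
  x1 : ℤ × ℤ × ℤ × ℤ
  x2 : ℤ × ℤ × ℤ × ℤ
  x3 : ℤ × ℤ × ℤ × ℤ

noncomputable def featC (U : Cell4) (F : List (ℕ × ℕ × ℕ × ℕ)) : List Ex :=
  feat (el1 (lin4 U.x0) (lin4 U.x1) (lin4 U.x2) (lin4 U.x3))
    (el2 (lin4 U.x0) (lin4 U.x1) (lin4 U.x2) (lin4 U.x3))
    (el3 (lin4 U.x0) (lin4 U.x1) (lin4 U.x2) (lin4 U.x3))
    (el4 (lin4 U.x0) (lin4 U.x1) (lin4 U.x2) (lin4 U.x3)) F

def cellA : Cell4 := ⟨(465, 369, 497, 241), (93, 381, 125, 253), (93, -3, 125, 253), (93, -3, -3, -3)⟩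
def cellB : Cell4 := ⟨(465, 369, 753, 497), (93, 381, -3, 125), (93, -3, -3, 125), (93, -3, -3, -3)⟩
def cellC : Cell4 := ⟨(186, 378, 474, 250), (186, 378, 90, 250), (186, -6, 90, 250), (186, -6, 90, -6)⟩

/-! ### three colours -/

def lin3 (i : ℕ) (a : ℤ × ℤ × ℤ) : Ex := add (c a.1) (add (sm a.2.1 (v i)) (sm a.2.2 (v (i + 1))))
structure Cell3 where
  x0 : ℤ × ℤ × ℤ
  x1 : ℤ × ℤ × ℤ
  x2 : ℤ × ℤ × ℤ
def p31 (a b c : Ex) : Ex := add (add a b) c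
def p32 (a b c : Ex) : Ex := add (add (mul a a) (mul b b)) (mul c c)
def p33 (a b c : Ex) : Ex := add (add (mul a (mul a a)) (mul b (mul b b))) (mul c (mul c c))
def A3 (a b c : Ex) : Ex := sub (sm 3 (p32 a b c)) (mul (p31 a b c) (p31 a b c))
def C3 (a b c : Ex) : Ex :=
  add (sub (sm 9 (p33 a b c)) (sm 9 (mul (p31 a b c) (p32 a b c))))
    (sm 2 (mul (p31 a b c) (mul (p31 a b c) (p31 a b c))))
noncomputable def polT3' (d : TD) (H m M C : Ex) : Ex :=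
  add (mul (mul m m) (add (add (add (hor m H d.Q0) (mul (hor m H d.Q1) M))
      (mul (hor m H d.Q2) C)) (mul (hor m H d.Q3) (mul M M))))
    (sm d.N (sub (sm 4 (mul (mul (sub H (sm 2 m)) C) (mul H H)))
      (mul (mul (sub H (sm 3 m)) (mul M M)) H)))
noncomputable def polT3 (d : TD) (H a b c : Ex) : Ex :=
  polT3' d H (sub (sm 3 (p31 a b c)) H) (sm 9 (A3 a b c)) (sm 27 (C3 a b c))
noncomputable def polS3' (d : SD) (H m M : Ex) : Ex :=
  add (mul (mul m m) (add (hor m H d.Q0) (mul (hor m H d.Q1) M)))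
    (sm d.N (mul (mul (sub H m) M) (mul H H)))
noncomputable def polS3 (d : SD) (H a b c : Ex) : Ex :=
  polS3' d H (sub (sm 3 (p31 a b c)) H) (sm 9 (A3 a b c))
def sym3 (P : Ex → Ex → Ex → Ex) (a b c x y z : Ex) : Ex :=
  add (add (add (P (mul a x) (mul b y) (mul c z)) (P (mul a x) (mul b z) (mul c y)))
    (add (P (mul a y) (mul b x) (mul c z)) (P (mul a y) (mul b z) (mul c x))))
    (add (P (mul a z) (mul b x) (mul c y)) (P (mul a z) (mul b y) (mul c x)))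
def psi3E (a b c : Ex) : Ex :=
  sub (sm 4 (mul (C3 a b c) (p31 a b c))) (mul (A3 a b c) (A3 a b c))
noncomputable def mul3E (z : ℤ × ℤ × ℤ × ℤ) (a b c : Ex) : Ex :=
  add (add (sm z.1 (pw (p31 a b c) 4)) (sm z.2.1 (mul (A3 a b c) (pw (p31 a b c) 2))))
    (add (sm z.2.2.1 (mul (C3 a b c) (p31 a b c))) (sm z.2.2.2 (mul (A3 a b c) (A3 a b c))))
noncomputable def cross3 (w : ℤ × ℤ × ℤ × ℤ) (a b c x y z : Ex) : Ex :=
  add (mul (mul3E w x y z) (psi3E a b c)) (mul (mul3E w a b c) (psi3E x y z))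
noncomputable def chkT3' (d : TD) (w : ℤ × ℤ × ℤ × ℤ) (a b c x y z : Ex) : Ex :=
  sub (sym3 (polT3 d (mul (p31 a b c) (p31 x y z))) a b c x y z)
    (sm 6 (mul (pw (mul (p31 a b c) (p31 x y z)) 2) (cross3 w a b c x y z)))
noncomputable def chkS3' (d : SD) (w : ℤ × ℤ × ℤ × ℤ) (t : ℤ) (a b c x y z : Ex) : Ex :=
  sub (sm 6 (mul (mul (p31 a b c) (p31 x y z))
      (sub (sub (sm d.N (add (mul (mul (A3 a b c) (pw (p31 a b c) 2)) (pw (p31 x y z) 4))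
        (mul (mul (A3 x y z) (pw (p31 x y z) 2)) (pw (p31 a b c) 4)))) (cross3 w a b c x y z))
        (sm t (mul (mul (A3 a b c) (pw (p31 a b c) 2)) (mul (A3 x y z) (A3 x y z)))))))
    (sym3 (polS3 d (mul (p31 a b c) (p31 x y z))) a b c x y z)
noncomputable def chkT3 (d : TD) (w : ℤ × ℤ × ℤ × ℤ) (U V : Cell3) : Ex :=
  chkT3' d w (lin3 0 U.x0) (lin3 0 U.x1) (lin3 0 U.x2) (lin3 2 V.x0) (lin3 2 V.x1) (lin3 2 V.x2)
noncomputable def chkS3 (d : SD) (w : ℤ × ℤ × ℤ × ℤ) (t : ℤ) (U V : Cell3) : Ex :=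
  chkS3' d w t (lin3 0 U.x0) (lin3 0 U.x1) (lin3 0 U.x2) (lin3 2 V.x0) (lin3 2 V.x1) (lin3 2 V.x2)
noncomputable def chkM3 (w : ℤ × ℤ × ℤ × ℤ) (U : Cell3) : Ex :=
  mul (mul3E w (lin3 0 U.x0) (lin3 0 U.x1) (lin3 0 U.x2))
    (pw (p31 (lin3 0 U.x0) (lin3 0 U.x1) (lin3 0 U.x2)) 2)

def cellP : Cell3 := ⟨(248, 280, 184), (62, 94, 190), (62, -2, -2)⟩
def cellQ : Cell3 := ⟨(248, 376, 280), (62, -2, 94), (62, -2, -2)⟩
def cellR : Cell3 := ⟨(124, 252, 188), (124, 60, 188), (124, 60, -4)⟩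

end Vale.Agent.P154
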