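import Vale.Agent.P154.Exp
import Vale.Agent.P154.ChkDef

/-! Real counterparts of the checked expressions (definitions only). -/

namespace Vale.Agent.P154

open Ex

/-- the third order potential -/
noncomputable def psiR {q : ℕ} (k2 k3 k4 : ℝ) (f : Fin q → ℝ) : ℝ :=
  k2 * cc f - k3 * ca f ^ 2 + k4 * (ca f * cc f)

/-- central moments of an unnormalised vector -/
noncomputable def Mh {q : ℕ} (h : Fin q → ℝ) : ℝ := avg fun i => (h i - avg h) ^ 2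
noncomputable def Ch {q : ℕ} (h : Fin q → ℝ) : ℝ := avg fun i => (h i - avg h) ^ 3

/-- polynomial lower bound for `N * hom psi` -/
noncomputable def TD.pol (d : TD) (m M C : ℝ) : ℝ :=
  m ^ 2 * (horR (d.ka * m) d.Q0 + horR (d.ka * m) d.Q1 * M + horR (d.ka * m) d.Q2 * C
      + horR (d.ka * m) d.Q3 * M ^ 2 + horR (d.ka * m) d.Q4 * (M * C))
    + d.N * (d.k2 * (1 - 2 * m) * C - d.k3 * (1 - 3 * m) * M ^ 2 + d.k4 * (1 - 4 * m) * (M * C))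

noncomputable def TD.V (d : TD) (m a c : ℝ) : ℝ :=
  - horR (d.ka * m) d.Q0 - horR (d.ka * m) d.Q1 * (1 + m) ^ 2 * a
    + (d.N * d.k2 * ((1 + m) * (3 + 2 * m)) - horR (d.ka * m) d.Q2 * (1 + m) ^ 3) * c
    + (-(d.N * d.k3) * ((1 + m) * (6 + 8 * m + 3 * m ^ 2))
        - horR (d.ka * m) d.Q3 * (1 + m) ^ 4) * a ^ 2
    + (d.N * d.k4 * ((1 + m) * (10 + 20 * m + 15 * m ^ 2 + 4 * m ^ 3))
        - horR (d.ka * m) d.Q4 * (1 + m) ^ 5) * (a * c)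

def TD.Ok (d : TD) : Prop :=
  4 ≤ d.D ∧ d.Q0.length = d.D + 1 ∧ d.Q1.length = d.D - 1 ∧ d.Q2.length = d.D - 2 ∧
    d.Q3.length = d.D - 3 ∧ d.Q4.length = d.D - 4

/-- polynomial upper bound for `N * hom ca` -/
noncomputable def SD.pol (d : SD) (e : ℕ) (tay m M : ℝ) : ℝ :=
  m ^ e * (horR (d.ka * m) d.Q0 + horR (d.ka * m) d.Q1 * M) + d.N * (tay * M)

noncomputable def SD.V (d : SD) (m a : ℝ) : ℝ :=
  horR (d.ka * m) d.Q0 + a * (horR (d.ka * m) d.Q1 * (1 + m) ^ 2 - d.N * (1 + m))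

def SD.Ok (d : SD) : Prop := 2 ≤ d.D ∧ d.Q0.length = d.D + 1 ∧ d.Q1.length = d.D - 1

noncomputable def Crv.a (w : Crv) (t : ℝ) : ℝ := w.a1 * t + w.a2 * t ^ 2
noncomputable def Crv.c (w : Crv) (t : ℝ) : ℝ := w.c0 + w.c1 * t + w.c2 * t ^ 2 + w.c3 * t ^ 3

/-- all boxes of a grid -/
noncomputable def valChkT (d : TD) (w : Crv) (n0 st den nt nz W : ℕ) (bs : List ℕ) : Bool :=
  allLt nt fun i => allLt nz fun k =>
    posChk W bs (valT d w (Int.ofNat (n0 + i * st)) (Int.ofNat (n0 + (i + 1) * st))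
      (Int.ofNat den) (Int.ofNat k) (Int.ofNat nz))
noncomputable def valChkS (d : SD) (st den nt nz W : ℕ) (bs : List ℕ) : Bool :=
  allLt nt fun i => allLt nz fun k =>
    posChk W bs (valS d (Int.ofNat (i * st)) (Int.ofNat ((i + 1) * st))
      (Int.ofNat den) (Int.ofNat k) (Int.ofNat nz))

/-! four colours -/

noncomputable def Mmu (μ : ℕ × ℕ × ℕ × ℕ) (f : Fin 4 → ℝ) : ℝ :=
  ∑ σ : Equiv.Perm (Fin 4),
    f (σ 0) ^ μ.1 * f (σ 1) ^ μ.2.1 * f (σ 2) ^ μ.2.2.1 * f (σ 3) ^ μ.2.2.2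
def e1R (f : Fin 4 → ℝ) : ℝ := (f 0 + f 1) + (f 2 + f 3)
def e2R (f : Fin 4 → ℝ) : ℝ := (f 0 * f 1 + f 2 * f 3) + (f 0 + f 1) * (f 2 + f 3)
def e3R (f : Fin 4 → ℝ) : ℝ := f 0 * f 1 * (f 2 + f 3) + f 2 * f 3 * (f 0 + f 1)
def e4R (f : Fin 4 → ℝ) : ℝ := f 0 * f 1 * (f 2 * f 3)
noncomputable def featR (F : List (ℕ × ℕ × ℕ × ℕ)) (f : Fin 4 → ℝ) : List ℝ :=
  F.map fun μ => e1R f ^ μ.1 * e2R f ^ μ.2.1 * (e3R f ^ μ.2.2.1 * e4R f ^ μ.2.2.2)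
noncomputable def bilR (B : List (List ℤ)) (F : List (ℕ × ℕ × ℕ × ℕ)) (f g : Fin 4 → ℝ) : ℝ :=
  (((B.map fun r => dotR r (featR F f)).zip (featR F g)).map fun p => p.1 * p.2).sum
noncomputable def mul4 (b : List ℤ) (F : List (ℕ × ℕ × ℕ × ℕ)) (s : ℝ) (f : Fin 4 → ℝ) : ℝ :=
  dotR b (featR F f) / s
def homF (K : ℕ) (F : List (ℕ × ℕ × ℕ × ℕ)) : Prop :=
  ∀ μ ∈ F, μ.1 + 2 * μ.2.1 + 3 * μ.2.2.1 + 4 * μ.2.2.2 = K
noncomputable def Cell4.pt (U : Cell4) (x : ℕ → ℝ) : Fin 4 → ℝ :=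
  ![(lin4 U.x0).ev x, (lin4 U.x1).ev x, (lin4 U.x2).ev x, (lin4 U.x3).ev x]

/-! three colours -/

noncomputable def mul3 (w : ℤ × ℤ × ℤ × ℤ) (s : ℝ) (f : Fin 3 → ℝ) : ℝ :=
  (w.1 + w.2.1 * ca f + w.2.2.1 * cc f + w.2.2.2 * ca f ^ 2) / s
noncomputable def Cell3.pt (U : Cell3) (x y : ℝ) : Fin 3 → ℝ :=
  ![U.x0.1 + (U.x0.2.1 * x + U.x0.2.2 * y), U.x1.1 + (U.x1.2.1 * x + U.x1.2.2 * y),
    U.x2.1 + (U.x2.2.1 * x + U.x2.2.2 * y)]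

end Vale.Agent.P154
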