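import Vale.Agent.P154.Data
import Vale.Agent.P154.Obj

/-! Kernel checks. -/

namespace Vale.Agent.P154

theorem cT3 : allL (fun U => allL (fun U' => posChk 200 [8, 8, 8, 8] (chkT3 dT3 wT3 U U'))
    [cellP, cellQ, cellR]) [cellP, cellQ, cellR] = true := by decide +kernel
theorem cS3 : allL (fun U => allL (fun U' => posChk 200 [7, 7, 7, 7] (chkS3 dS3 wS3 tS3 U U'))
    [cellP, cellQ, cellR]) [cellP, cellQ, cellR] = true := by decide +kernel
theorem mT3 : allL (fun U => posChk 200 [7, 7] (chkM3 wT3 U)) [cellP, cellQ, cellR] = true := by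
  decide +kernel
theorem mS3 : allL (fun U => posChk 200 [7, 7] (chkM3 wS3 U)) [cellP, cellQ, cellR] = true := by
  decide +kernel

end Vale.Agent.P154
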