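import Vale.Agent.P154.Data
import Vale.Agent.P154.Obj

/-! Kernel checks. -/

namespace Vale.Agent.P154

theorem vT41 : valChkT dT4 ⟨0, 3, 0, 0, 0, 6⟩ 0 1 3 3 4 420 [24, 10] = true := by decide +kernel
theorem vT42 : valChkT dT4 ⟨0, 3, 0, 0, 0, -6⟩ 0 1 9 3 4 420 [24, 10] = true := by decide +kernel
theorem vT43 : valChkT dT4 ⟨1, 0, 0, -1, 1, 0⟩ 3 2 9 3 4 420 [24, 10] = true := by decide +kernel
theorem vT44 : valChkT dT4 ⟨1, 0, -3, 3, 0, 0⟩ 3 2 3 3 4 420 [24, 10] = true := by decide +kernel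
theorem vS4 : valChkS dS4 3 2 2 3 300 [16, 6] = true := by decide +kernel
theorem vT31 : valChkT dT3 ⟨0, 2, 0, 0, 0, 2⟩ 0 1 1 1 2 300 [16, 6] = true := by decide +kernel
theorem vT32 : valChkT dT3 ⟨0, 2, 0, 0, 0, -2⟩ 0 1 2 1 2 300 [16, 6] = true := by decide +kernel
theorem vT33 : valChkT dT3 ⟨2, 0, -1, 3, 0, 0⟩ 1 3 4 1 2 300 [16, 6] = true := by decide +kernel
theorem vS3 : valChkS dS3 1 1 2 2 300 [14, 5] = true := by decide +kernel

end Vale.Agent.P154
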