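import Vale.Agent.P154.Obj

/-! TASK Region: the range of `(ca x, cc x)` on the simplex lies between explicit curves, and the
radial monotonicity of the potentials.
Plan. A function `G a c` that is affine in `c` and nonnegative at `(a, cl)` and `(a, cu)` is
nonnegative at `(a, c)` for `cl ≤ c ≤ cu`. Write `y i = x i - 1` (sum zero, `y i ≥ -1`).
Four colours, `a = 3 t^2` with `t = sqrt (a / 3) ∈ [0,1]` (`ca_le`): `|c| ≤ 6 t^3`: each `|y i| ≤ 3 t`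
(Cauchy-Schwarz: `4 y_i^2 ≤ 3 ∑ y^2`), and `(y + t)^2 (3 t - y) ≥ 0` summed over `i` gives
`c ≤ t a + 3 t^3 = 6 t^3`; symmetric for the lower bound with `(y - t)^2 (3 t + y) ≥ 0`.
`c ≥ a^2 - a`: sum `(y + 1) (y - a)^2 ≥ 0`: `c + a - 2 a^2 + a^2 ≥ 0`. `c ≥ 3 a - 3` is `e3 ≥ 0`
(sum of the triple products of the `x i`). Three colours: `a = 2 t^2`, `|y i| ≤ 2 t`,
`(y + t)^2 (2 t - y) ≥ 0` gives `c ≤ 2 t^3`; `c ≥ 3 a / 2 - 1` is `x0 x1 x2 ≥ 0`.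
`rad4`: the difference is `lam^3 (1 - lam) a (75 a - 11 (1 + lam) c)` and `c ≤ 3 a` (`cc_le`). -/

namespace Vale.Agent.P154

theorem between_region (G : ℝ → ℝ → ℝ) (hG : ∀ a, ∃ u w : ℝ, ∀ c, G a c = u + w * c)
    {a cl cu c : ℝ} (h1 : 0 ≤ G a cl) (h2 : 0 ≤ G a cu) (hl : cl ≤ c) (hu : c ≤ cu) :
    0 ≤ G a c := by
  obtain ⟨u, w, h⟩ := hG a
  rw [h] at h1 h2 ⊢
  rcases le_total 0 w with hw | hw
  · nlinarith
  · nlinarith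

theorem abs4_region {t p q r s : ℝ} (ht : 0 ≤ t) (h : p + q + r + s = 0)
    (h' : 3 * t ^ 2 = (p ^ 2 + q ^ 2 + r ^ 2 + s ^ 2) / 4) : -(3 * t) ≤ p ∧ p ≤ 3 * t := by
  refine abs_le_of_sq_le_sq' ?_ (by linarith)
  have : p = -(q + r + s) := by linarith
  subst this
  nlinarith [sq_nonneg (q - r), sq_nonneg (q - s), sq_nonneg (r - s)]

theorem cub4_region {t y0 y1 y2 y3 : ℝ} (ht : 0 ≤ t) (hs : y0 + y1 + y2 + y3 = 0)
    (ea : 3 * t ^ 2 = (y0 ^ 2 + y1 ^ 2 + y2 ^ 2 + y3 ^ 2) / 4) :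
    (y0 ^ 3 + y1 ^ 3 + y2 ^ 3 + y3 ^ 3) / 4 ≤ 6 * t ^ 3 := by
  have u0 := (abs4_region ht hs ea).2
  have u1 := (abs4_region (p := y1) (q := y0) (r := y2) (s := y3) ht (by linarith) (by linarith)).2
  have u2 := (abs4_region (p := y2) (q := y0) (r := y1) (s := y3) ht (by linarith) (by linarith)).2
  have u3 := (abs4_region (p := y3) (q := y0) (r := y1) (s := y2) ht (by linarith) (by linarith)).2
  have f0 := mul_nonneg (sq_nonneg (y0 + t)) (sub_nonneg.2 u0)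
  have f1 := mul_nonneg (sq_nonneg (y1 + t)) (sub_nonneg.2 u1)
  have f2 := mul_nonneg (sq_nonneg (y2 + t)) (sub_nonneg.2 u2)
  have f3 := mul_nonneg (sq_nonneg (y3 + t)) (sub_nonneg.2 u3)
  rw [← sub_nonneg]
  have : 6 * t ^ 3 - (y0 ^ 3 + y1 ^ 3 + y2 ^ 3 + y3 ^ 3) / 4 =
      ((y0 + t) ^ 2 * (3 * t - y0) + (y1 + t) ^ 2 * (3 * t - y1) +
        (y2 + t) ^ 2 * (3 * t - y2) + (y3 + t) ^ 2 * (3 * t - y3)) / 4 := by
    linear_combination t * ea - 5 / 4 * t ^ 2 * hs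
  rw [this]
  positivity

theorem low4_region {a x0 x1 x2 x3 : ℝ} (n0 : 0 ≤ x0) (n1 : 0 ≤ x1) (n2 : 0 ≤ x2) (n3 : 0 ≤ x3)
    (hs : (x0 - 1) + (x1 - 1) + (x2 - 1) + (x3 - 1) = 0)
    (ea : a = ((x0 - 1) ^ 2 + (x1 - 1) ^ 2 + (x2 - 1) ^ 2 + (x3 - 1) ^ 2) / 4) :
    a ^ 2 - a ≤ ((x0 - 1) ^ 3 + (x1 - 1) ^ 3 + (x2 - 1) ^ 3 + (x3 - 1) ^ 3) / 4 ∧
      3 * a - 3 ≤ ((x0 - 1) ^ 3 + (x1 - 1) ^ 3 + (x2 - 1) ^ 3 + (x3 - 1) ^ 3) / 4 := by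
  constructor
  · rw [← sub_nonneg]
    have : ((x0 - 1) ^ 3 + (x1 - 1) ^ 3 + (x2 - 1) ^ 3 + (x3 - 1) ^ 3) / 4 - (a ^ 2 - a) =
        ((x0 - 1 - a) ^ 2 * x0 + (x1 - 1 - a) ^ 2 * x1 +
          (x2 - 1 - a) ^ 2 * x2 + (x3 - 1 - a) ^ 2 * x3) / 4 := by
      linear_combination (1 - 2 * a) * ea - (a ^ 2 - 2 * a) / 4 * hs
    rw [this]
    positivity
  · rw [← sub_nonneg]
    have : ((x0 - 1) ^ 3 + (x1 - 1) ^ 3 + (x2 - 1) ^ 3 + (x3 - 1) ^ 3) / 4 - (3 * a - 3) =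
        3 / 4 * (x0 * x1 * (x2 + x3) + x2 * x3 * (x0 + x1)) := by
      rw [ea, show x3 = 4 - (x0 + x1 + x2) by linarith]
      ring
    rw [this]
    positivity

theorem region4 (G : ℝ → ℝ → ℝ) (hG : ∀ a, ∃ u w : ℝ, ∀ c, G a c = u + w * c)
    (h1 : ∀ t : ℝ, 0 ≤ t → t ≤ 1 → 0 ≤ G (3 * t ^ 2) (6 * t ^ 3))
    (h2 : ∀ t : ℝ, 0 ≤ t → t ≤ 1 / 3 → 0 ≤ G (3 * t ^ 2) (-6 * t ^ 3))
    (h3 : ∀ t : ℝ, 1 / 3 ≤ t → t ≤ 1 → 0 ≤ G t (t ^ 2 - t))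
    (h4 : ∀ t : ℝ, 1 ≤ t → t ≤ 3 → 0 ≤ G t (3 * t - 3))
    {x : Fin 4 → ℝ} (hx : x ∈ Simp 4) : 0 ≤ G (ca x) (cc x) := by
  have ha0 := ca_nonneg x
  have ha3 := ca_le hx
  obtain ⟨hx0, hx1⟩ := hx
  have hs : (x 0 - 1) + (x 1 - 1) + (x 2 - 1) + (x 3 - 1) = 0 := by
    simp only [avg, Fin.sum_univ_four] at hx1
    push_cast at hx1
    linarith
  have ea : ca x = ((x 0 - 1) ^ 2 + (x 1 - 1) ^ 2 + (x 2 - 1) ^ 2 + (x 3 - 1) ^ 2) / 4 := by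
    simp [ca, avg, Fin.sum_univ_four]
  have ec : cc x = ((x 0 - 1) ^ 3 + (x 1 - 1) ^ 3 + (x 2 - 1) ^ 3 + (x 3 - 1) ^ 3) / 4 := by
    simp [cc, avg, Fin.sum_univ_four]
  push_cast at ha3
  obtain ⟨t, ht0, ht⟩ : ∃ t : ℝ, 0 ≤ t ∧ 3 * t ^ 2 = ca x :=
    ⟨√(ca x / 3), Real.sqrt_nonneg _, by rw [Real.sq_sqrt (by linarith)]; ring⟩
  have hu := cub4_region ht0 hs (ht.trans ea)
  have hl := cub4_region (y0 := -(x 0 - 1)) (y1 := -(x 1 - 1)) (y2 := -(x 2 - 1))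
    (y3 := -(x 3 - 1)) ht0 (by linarith) (by rw [ht, ea]; ring)
  have hl' : -6 * t ^ 3 ≤ cc x := by rw [ec]; linarith
  obtain ⟨l1, l2⟩ := low4_region (hx0 0) (hx0 1) (hx0 2) (hx0 3) hs ea
  rw [← ec] at hu l1 l2
  clear hl ea ec hs
  generalize ca x = a at *
  generalize cc x = c at *
  have g1 := h1 t ht0 (by nlinarith)
  rw [ht] at g1
  rcases le_total a (1 / 3) with c1 | c1
  · have g2 := h2 t ht0 (by nlinarith)
    rw [ht] at g2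
    exact between_region G hG g2 g1 hl' hu
  rcases le_total a 1 with c2 | c2
  · exact between_region G hG (h3 a c1 c2) g1 l1 hu
  · exact between_region G hG (h4 a c2 (by linarith)) g1 l2 hu

theorem region3 (G : ℝ → ℝ → ℝ) (hG : ∀ a, ∃ u w : ℝ, ∀ c, G a c = u + w * c)
    (h1 : ∀ t : ℝ, 0 ≤ t → t ≤ 1 → 0 ≤ G (2 * t ^ 2) (2 * t ^ 3))
    (h2 : ∀ t : ℝ, 0 ≤ t → t ≤ 1 / 2 → 0 ≤ G (2 * t ^ 2) (-2 * t ^ 3))
    (h3 : ∀ t : ℝ, 1 / 4 ≤ t → t ≤ 1 → 0 ≤ G (2 * t) (3 * t - 1))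
    {x : Fin 3 → ℝ} (hx : x ∈ Simp 3) : 0 ≤ G (ca x) (cc x) := by
  have ha0 := ca_nonneg x
  have ha3 := ca_le hx
  obtain ⟨hx0, hx1⟩ := hx
  have hs : (x 0 - 1) + (x 1 - 1) + (x 2 - 1) = 0 := by
    simp only [avg, Fin.sum_univ_three] at hx1
    push_cast at hx1
    linarith
  have ea : ca x = ((x 0 - 1) ^ 2 + (x 1 - 1) ^ 2 + (x 2 - 1) ^ 2) / 3 := by
    simp [ca, avg, Fin.sum_univ_three]
  have ec : cc x = ((x 0 - 1) ^ 3 + (x 1 - 1) ^ 3 + (x 2 - 1) ^ 3) / 3 := by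
    simp [cc, avg, Fin.sum_univ_three]
  push_cast at ha3
  have n0 := hx0 0
  have n1 := hx0 1
  have n2 := hx0 2
  generalize ca x = a at *
  generalize cc x = c at *
  obtain ⟨t, ht0, ht⟩ : ∃ t : ℝ, 0 ≤ t ∧ 2 * t ^ 2 = a :=
    ⟨√(a / 2), Real.sqrt_nonneg _, by rw [Real.sq_sqrt (by linarith)]; ring⟩
  obtain ⟨y0, e0⟩ : ∃ y, y = x 0 - 1 := ⟨_, rfl⟩
  obtain ⟨y1, e1⟩ : ∃ y, y = x 1 - 1 := ⟨_, rfl⟩
  obtain ⟨y2, e2⟩ : ∃ y, y = x 2 - 1 := ⟨_, rfl⟩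
  rw [← e0, ← e1, ← e2] at hs ea ec
  have key : ∀ p q r : ℝ, p + q + r = 0 → a = (p ^ 2 + q ^ 2 + r ^ 2) / 3 →
      -(2 * t) ≤ p ∧ p ≤ 2 * t := by
    intro p q r h h'
    refine abs_le_of_sq_le_sq' ?_ (by linarith)
    have : p = -(q + r) := by linarith
    subst this
    nlinarith [sq_nonneg (q - r)]
  obtain ⟨l0, u0⟩ := key y0 y1 y2 hs ea
  obtain ⟨l1, u1⟩ := key y1 y0 y2 (by linarith) (by linarith)
  obtain ⟨l2, u2⟩ := key y2 y0 y1 (by linarith) (by linarith)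
  have ht1 : t ≤ 1 := by nlinarith
  have hu : c ≤ 2 * t ^ 3 := by
    have f0 := mul_nonneg (sq_nonneg (y0 + t)) (sub_nonneg.2 u0)
    have f1 := mul_nonneg (sq_nonneg (y1 + t)) (sub_nonneg.2 u1)
    have f2 := mul_nonneg (sq_nonneg (y2 + t)) (sub_nonneg.2 u2)
    have : 2 * t ^ 3 - c = ((y0 + t) ^ 2 * (2 * t - y0) + (y1 + t) ^ 2 * (2 * t - y1) +
        (y2 + t) ^ 2 * (2 * t - y2)) / 3 := by
      linear_combination -ec - t ^ 2 * hs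
    linarith
  have g1 := h1 t ht0 ht1
  rw [ht] at g1
  rcases le_total a (1 / 2) with c1 | c1
  · have g2 := h2 t ht0 (by nlinarith)
    rw [ht] at g2
    refine between_region G hG g2 g1 ?_ hu
    have f0 := mul_nonneg (sq_nonneg (y0 - t)) (sub_nonneg.2 l0)
    have f1 := mul_nonneg (sq_nonneg (y1 - t)) (sub_nonneg.2 l1)
    have f2 := mul_nonneg (sq_nonneg (y2 - t)) (sub_nonneg.2 l2)
    have : 2 * t ^ 3 + c = ((y0 - t) ^ 2 * (y0 - -(2 * t)) + (y1 - t) ^ 2 * (y1 - -(2 * t)) +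
        (y2 - t) ^ 2 * (y2 - -(2 * t))) / 3 := by
      linear_combination ec + t ^ 2 * hs
    linarith
  · have g3 := h3 (a / 2) (by linarith) (by linarith)
    rw [show 2 * (a / 2) = a by ring] at g3
    refine between_region G hG g3 g1 ?_ hu
    have f0 := mul_nonneg (mul_nonneg n0 n1) n2
    have : c - (3 * (a / 2) - 1) = x 0 * x 1 * x 2 := by
      rw [show x 0 = y0 + 1 by linarith, show x 1 = y1 + 1 by linarith,
        show x 2 = y2 + 1 by linarith, ec, ea, show y2 = -(y0 + y1) by linarith]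
      ring
    linarith

theorem rad4 {lam : ℝ} (h0 : 0 ≤ lam) (h1 : lam ≤ 1) {f : Fin 4 → ℝ} (hf : f ∈ Simp 4) :
    lam ^ 3 * psiR 100 75 11 f ≤ psiR 100 75 11 (shr lam f) := by
  have ha := ca_nonneg f
  have hc := cc_le hf
  push_cast at hc
  have h2 : 0 ≤ 75 * ca f - 11 * (1 + lam) * cc f := by
    rcases le_total 0 (cc f) with h | h <;> nlinarith
  have h3 := mul_nonneg (mul_nonneg (mul_nonneg (pow_nonneg h0 3) (sub_nonneg.2 h1)) ha) h2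
  simp only [psiR, ca_shr, cc_shr]
  linarith

theorem rad3 {lam : ℝ} (h0 : 0 ≤ lam) (h1 : lam ≤ 1) {f : Fin 3 → ℝ} (hf : f ∈ Simp 3) :
    lam ^ 3 * psiR 4 1 0 f ≤ psiR 4 1 0 (shr lam f) := by
  have h3 := mul_nonneg (mul_nonneg (pow_nonneg h0 3) (sub_nonneg.2 h1)) (sq_nonneg (ca f))
  simp only [psiR, ca_shr, cc_shr]
  linarith

theorem continuous_psiR {q : ℕ} [NeZero q] (k2 k3 k4 : ℝ) :
    Continuous (psiR k2 k3 k4 : (Fin q → ℝ) → ℝ) := by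
  have h1 := continuous_ca (q := q)
  have h2 := continuous_cc (q := q)
  unfold psiR
  fun_prop

theorem psiR_perm {q : ℕ} [NeZero q] (k2 k3 k4 : ℝ) (f : Fin q → ℝ) (τ : Equiv.Perm (Fin q)) :
    psiR k2 k3 k4 (f ∘ τ) = psiR k2 k3 k4 f := by
  simp only [psiR, ca_perm, cc_perm]

theorem continuous_mul3 (w : ℤ × ℤ × ℤ × ℤ) (s : ℝ) : Continuous (mul3 w s) := by
  have h1 := continuous_ca (q := 3)
  have h2 := continuous_cc (q := 3)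
  unfold mul3
  fun_prop

end Vale.Agent.P154
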