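import Vale.Agent.P154.Cover
import Vale.Agent.P154.Region
import Vale.Agent.P154.KrPos

/-! TASK Glue3: the averaged inequalities for three colours.
Plan. First reduce to sorted points: for a function `Φ` with `Φ (h ∘ σ) = Φ h`,
`∑ τ, Φ ((f ∘ σ) * ((g ∘ ρ) ∘ τ)) = ∑ τ, Φ (f * (g ∘ τ))` (reindex `τ`); apply it to
`Φ h = d.pol (avg h - 1) (Mh h) (Ch h)` (`avg_perm`), and use `ca_perm`, `cc_perm` on the other side.
So prove first: for `y, y' ∈ Simp 3`, `s, s' > 0` and expressions `a b c x y z` evaluating to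
`s y0, s y1, s y2, s' y'0, ..`: `ev (p31 a b c) = 3 s`, `ev A3 = (3s)^2 ca y`, `ev C3 = (3s)^3 cc y`
(substitute `y 2 = 3 - y 0 - y 1`, `ring`); for a product `h` with `H = 9 s s'`:
`3 p31 - H = H m`, `9 A3 = H^2 Mh h`, `27 C3 = H^3 Ch h`; by `ev_hor` and the lengths,
`ev (polT3 ..) = H^6 * d.pol m M C` (`D = 4`, `Q4 = []`), `ev (polS3 ..) = H^5 * d.pol 2 (1-m) m M`.
The six terms of `sym3` are the sum over `Equiv.Perm (Fin 3)` (enumerate, e.g.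
`Finset.univ_perm_fin_succ` or a `decide` proved list). Use `x = fun i => if i = 0 then x0 else ..`
(variables `0, 1` for the first point, `2, 3` for the second). -/

namespace Vale.Agent.P154

open Ex

theorem sum_perm_g3 (Ψ : (Fin 3 → ℝ) → ℝ) (y : Fin 3 → ℝ) :
    ∑ τ : Equiv.Perm (Fin 3), Ψ (y ∘ τ) = Ψ ![y 0, y 1, y 2] + Ψ ![y 0, y 2, y 1] +
      (Ψ ![y 1, y 0, y 2] + Ψ ![y 1, y 2, y 0]) + (Ψ ![y 2, y 0, y 1] + Ψ ![y 2, y 1, y 0]) := by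
  have e : ∀ τ : Equiv.Perm (Fin 3), y ∘ τ = ![y (τ 0), y (τ 1), y (τ 2)] := by
    intro τ; funext i; fin_cases i <;> rfl
  have hu : (Finset.univ : Finset (Equiv.Perm (Fin 3))) = {1, Equiv.swap 1 2, Equiv.swap 0 1,
      Equiv.swap 0 1 * Equiv.swap 1 2, Equiv.swap 1 2 * Equiv.swap 0 1, Equiv.swap 0 2} := by
    decide
  simp only [e]
  rw [hu, Finset.sum_insert (by decide), Finset.sum_insert (by decide),
    Finset.sum_insert (by decide), Finset.sum_insert (by decide), Finset.sum_insert (by decide),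
    Finset.sum_singleton]
  simp only [add_assoc]
  rfl

theorem reindex_g3 (Φ : (Fin 3 → ℝ) → ℝ) (hΦ : ∀ h (σ : Equiv.Perm (Fin 3)), Φ (h ∘ σ) = Φ h)
    (f g : Fin 3 → ℝ) (σ ρ : Equiv.Perm (Fin 3)) :
    ∑ τ : Equiv.Perm (Fin 3), Φ ((f ∘ σ) * ((g ∘ ρ) ∘ τ)) =
      ∑ τ : Equiv.Perm (Fin 3), Φ (f * (g ∘ τ)) := by
  rw [← Equiv.sum_comp ((Equiv.mulLeft ρ).trans (Equiv.mulRight σ⁻¹))
    fun τ : Equiv.Perm (Fin 3) => Φ (f * (g ∘ τ))]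
  refine Finset.sum_congr rfl fun τ _ => ?_
  rw [← hΦ (f * _) σ]
  congr 1
  funext i
  simp

theorem MC_perm_g3 (h : Fin 3 → ℝ) (σ : Equiv.Perm (Fin 3)) :
    Mh (h ∘ σ) = Mh h ∧ Ch (h ∘ σ) = Ch h := by
  simp only [Mh, Ch, avg_perm]
  exact ⟨avg_perm (fun i => (h i - avg h) ^ 2) σ, avg_perm (fun i => (h i - avg h) ^ 3) σ⟩

theorem ev_prod_g3 (x : ℕ → ℝ) (a b c H : Ex) {k : ℝ} (h : Fin 3 → ℝ) (hH : H.ev x = 9 * k)
    (h0 : a.ev x = k * h 0) (h1 : b.ev x = k * h 1) (h2 : c.ev x = k * h 2) :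
    (sub (sm 3 (p31 a b c)) H).ev x = H.ev x * (avg h - 1) ∧
      (sm 9 (A3 a b c)).ev x = H.ev x ^ 2 * Mh h ∧ (sm 27 (C3 a b c)).ev x = H.ev x ^ 3 * Ch h := by
  simp only [p31, p32, p33, A3, C3, ev_sub, ev_add, ev_sm, ev_mul, hH, h0, h1, h2, Mh, Ch, avg,
    Fin.sum_univ_three]
  push_cast
  refine ⟨by ring, by ring, by ring⟩

theorem ev_hor_g3 (x : ℕ → ℝ) (m H : Ex) {t : ℝ} (ht : m.ev x = H.ev x * t) (hH : H.ev x ≠ 0)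
    (l : List ℤ) {n : ℕ} (hl : l.length = n + 1) : (hor m H l).ev x = H.ev x ^ n * horR t l := by
  have := ev_hor x m H t ht l
  rw [hl] at this
  refine mul_right_cancel₀ hH (this.trans ?_)
  ring

theorem ev_polT_g3 (d : TD) (hd : d.Ok) (hD : d.D = 4) (h2 : d.k2 = 4) (h3 : d.k3 = 1)
    (h4 : d.k4 = 0) (hka : d.ka = 1) (x : ℕ → ℝ) (a b c H : Ex) {k : ℝ} (hk : 0 < k)
    (h : Fin 3 → ℝ) (hH : H.ev x = 9 * k) (e0 : a.ev x = k * h 0) (e1 : b.ev x = k * h 1)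
    (e2 : c.ev x = k * h 2) :
    (polT3 d H a b c).ev x = (9 * k) ^ 6 * d.pol (avg h - 1) (Mh h) (Ch h) := by
  obtain ⟨m1, m2, m3⟩ := ev_prod_g3 x a b c H h hH e0 e1 e2
  obtain ⟨-, l0, l1, l2, l3, l4⟩ := hd
  rw [hD] at l0 l1 l2 l3 l4
  have hH0 : H.ev x ≠ 0 := by rw [hH]; positivity
  have q0 := ev_hor_g3 x _ H m1 hH0 d.Q0 (n := 4) l0
  have q1 := ev_hor_g3 x _ H m1 hH0 d.Q1 (n := 2) l1
  have q2 := ev_hor_g3 x _ H m1 hH0 d.Q2 (n := 1) l2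
  have q3 := ev_hor_g3 x _ H m1 hH0 d.Q3 (n := 0) l3
  have q4 : d.Q4 = [] := List.length_eq_zero_iff.1 l4
  rw [polT3, ← hH]
  generalize sub (sm 3 (p31 a b c)) H = m at *
  generalize sm 9 (A3 a b c) = M at *
  generalize sm 27 (C3 a b c) = C at *
  simp only [polT3', TD.pol, ev_sub, ev_add, ev_sm, ev_mul, m1, m2, m3, q0, q1, q2, q3, q4, h2, h3,
    h4, hka, horR, Int.cast_one, one_mul]
  push_cast
  ring

theorem ev_polS_g3 (d : SD) (hd : d.Ok) (hD : d.D = 3) (hka : d.ka = 1) (x : ℕ → ℝ) (a b c H : Ex)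
    {k : ℝ} (hk : 0 < k) (h : Fin 3 → ℝ) (hH : H.ev x = 9 * k) (e0 : a.ev x = k * h 0)
    (e1 : b.ev x = k * h 1) (e2 : c.ev x = k * h 2) :
    (polS3 d H a b c).ev x = (9 * k) ^ 5 * d.pol 2 (1 - (avg h - 1)) (avg h - 1) (Mh h) := by
  obtain ⟨m1, m2, -⟩ := ev_prod_g3 x a b c H h hH e0 e1 e2
  obtain ⟨-, l0, l1⟩ := hd
  rw [hD] at l0 l1
  have hH0 : H.ev x ≠ 0 := by rw [hH]; positivity
  have q0 := ev_hor_g3 x _ H m1 hH0 d.Q0 (n := 3) l0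
  have q1 := ev_hor_g3 x _ H m1 hH0 d.Q1 (n := 1) l1
  rw [polS3, ← hH]
  generalize sub (sm 3 (p31 a b c)) H = m at *
  generalize sm 9 (A3 a b c) = M at *
  simp only [polS3', SD.pol, ev_sub, ev_add, ev_sm, ev_mul, m1, m2, q0, q1, hka, Int.cast_one,
    one_mul]
  ring

theorem ev_pt_g3 (x : ℕ → ℝ) (a b c : Ex) {s : ℝ} {y : Fin 3 → ℝ} (hy : y ∈ Simp 3)
    (h0 : a.ev x = s * y 0) (h1 : b.ev x = s * y 1) (h2 : c.ev x = s * y 2)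
    (w : ℤ × ℤ × ℤ × ℤ) :
    (p31 a b c).ev x = 3 * s ∧ (A3 a b c).ev x = (3 * s) ^ 2 * ca y ∧
      (psi3E a b c).ev x = (3 * s) ^ 4 * psiR 4 1 0 y ∧
      (mul3E w a b c).ev x = (3 * s) ^ 4 * mul3 w 1 y := by
  have hs : y 2 = 3 - y 0 - y 1 := by
    have := hy.2
    simp only [avg, Fin.sum_univ_three] at this
    push_cast at this
    linarith
  have a1 : (p31 a b c).ev x = 3 * s := by
    simp only [p31, ev_add, h0, h1, h2, hs]; ring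
  have a2 : (A3 a b c).ev x = (3 * s) ^ 2 * ca y := by
    simp only [A3, p32, ev_sub, ev_add, ev_sm, ev_mul, a1, h0, h1, h2, hs, ca, avg,
      Fin.sum_univ_three]
    push_cast
    ring
  have a3 : (C3 a b c).ev x = (3 * s) ^ 3 * cc y := by
    simp only [C3, p32, p33, ev_sub, ev_add, ev_sm, ev_mul, a1, h0, h1, h2, hs, cc, avg,
      Fin.sum_univ_three]
    push_cast
    ring
  refine ⟨a1, a2, ?_, ?_⟩
  · simp only [psi3E, psiR, ev_sub, ev_sm, ev_mul, a1, a2, a3]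
    push_cast
    ring
  · simp only [mul3E, mul3, ev_add, ev_sm, ev_mul, ev_pw, a1, a2, a3]
    ring

theorem ev_sym_g3 (P : Ex → Ex → Ex → Ex) (Φ : (Fin 3 → ℝ) → ℝ) (x : ℕ → ℝ) (a b c a' b' c' : Ex)
    {s s' K : ℝ} {y y' : Fin 3 → ℝ}
    (hP : ∀ (u v w : Ex) (h : Fin 3 → ℝ), u.ev x = s * s' * h 0 → v.ev x = s * s' * h 1 →
      w.ev x = s * s' * h 2 → (P u v w).ev x = K * Φ h)
    (h0 : a.ev x = s * y 0) (h1 : b.ev x = s * y 1) (h2 : c.ev x = s * y 2)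
    (k0 : a'.ev x = s' * y' 0) (k1 : b'.ev x = s' * y' 1) (k2 : c'.ev x = s' * y' 2) :
    (sym3 P a b c a' b' c').ev x = K * ∑ τ : Equiv.Perm (Fin 3), Φ (y * (y' ∘ τ)) := by
  rw [sum_perm_g3 fun z => Φ (y * z)]
  simp only [sym3, ev_add]
  rw [hP _ _ _ (y * ![y' 0, y' 1, y' 2]), hP _ _ _ (y * ![y' 0, y' 2, y' 1]),
    hP _ _ _ (y * ![y' 1, y' 0, y' 2]), hP _ _ _ (y * ![y' 1, y' 2, y' 0]),
    hP _ _ _ (y * ![y' 2, y' 0, y' 1]), hP _ _ _ (y * ![y' 2, y' 1, y' 0])]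
  · ring
  all_goals
    simp only [ev_mul, h0, h1, h2, k0, k1, k2, Pi.mul_apply, Matrix.cons_val_zero,
      Matrix.cons_val_one, Matrix.cons_val]
    ring

theorem setup_g3 {f g : Fin 3 → ℝ} (hf : f ∈ Simp 3) (hg : g ∈ Simp 3) :
    ∃ σ ρ : Equiv.Perm (Fin 3), ∃ U ∈ [cellP, cellQ, cellR], ∃ U' ∈ [cellP, cellQ, cellR],
      ∃ x : ℕ → ℝ, (∀ i, 0 ≤ x i) ∧ ∃ s s' : ℝ, 0 < s ∧ 0 < s' ∧
        (lin3 0 U.x0).ev x = s * (f ∘ σ) 0 ∧ (lin3 0 U.x1).ev x = s * (f ∘ σ) 1 ∧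
        (lin3 0 U.x2).ev x = s * (f ∘ σ) 2 ∧ (lin3 2 U'.x0).ev x = s' * (g ∘ ρ) 0 ∧
        (lin3 2 U'.x1).ev x = s' * (g ∘ ρ) 1 ∧ (lin3 2 U'.x2).ev x = s' * (g ∘ ρ) 2 := by
  obtain ⟨σ, U, hU, x0, x1, n0, n1, s, hs, h1⟩ := cover3 hf
  obtain ⟨ρ, U', hU', x2, x3, n2, n3, s', hs', h2⟩ := cover3 hg
  refine ⟨σ, ρ, U, hU, U', hU',
    fun i => if i = 0 then x0 else if i = 1 then x1 else if i = 2 then x2 else x3,
    fun i => by beta_reduce; split_ifs <;> assumption, s, s', hs, hs', ?_, ?_, ?_, ?_, ?_, ?_⟩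
  · exact h1 0
  · exact h1 1
  · exact h1 2
  · exact h2 0
  · exact h2 1
  · exact h2 2

theorem mul3_perm_g3 (w : ℤ × ℤ × ℤ × ℤ) (f : Fin 3 → ℝ) (σ : Equiv.Perm (Fin 3)) (N : ℝ) :
    mul3 w N f = mul3 w 1 (f ∘ σ) / N := by
  simp only [mul3, ca_perm, cc_perm, div_one]

theorem pavg3_g3 (Φ : Equiv.Perm (Fin 3) → ℝ) : ∑ τ, Φ τ = 6 * pavg Φ := by
  simp only [pavg, Nat.factorial]
  push_cast
  ring

theorem T3_of (d : TD) (hd : d.Ok) (hD : d.D = 4) (h2 : d.k2 = 4) (h3 : d.k3 = 1) (h4 : d.k4 = 0)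
    (hka : d.ka = 1) (hN : 0 < d.N) (w : ℤ × ℤ × ℤ × ℤ) {W : ℕ} {bs : List ℕ}
    (hval : ∀ f ∈ Simp 3, ∀ g ∈ Simp 3, d.pol (avg (f * g) - 1) (Mh (f * g)) (Ch (f * g)) ≤
      d.N * hom (psiR 4 1 0) (f * g))
    (h : ∀ U ∈ [cellP, cellQ, cellR], ∀ U' ∈ [cellP, cellQ, cellR],
      posChk W bs (chkT3 d w U U') = true)
    {f g : Fin 3 → ℝ} (hf : f ∈ Simp 3) (hg : g ∈ Simp 3) :
    mul3 w d.N g * psiR 4 1 0 f + mul3 w d.N f * psiR 4 1 0 g ≤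
      pavg (fun τ => hom (psiR 4 1 0) (f * (g ∘ τ))) := by
  have hN' : (0 : ℝ) < d.N := by exact_mod_cast hN
  obtain ⟨σ, ρ, U, hU, U', hU', x, hx, s, s', hs, hs', a0, a1, a2, b0, b1, b2⟩ := setup_g3 hf hg
  have k := posChk_sound (h U hU U' hU') x hx
  obtain ⟨p1, -, p3, p4⟩ := ev_pt_g3 x _ _ _ (perm_mem hf σ) a0 a1 a2 w
  obtain ⟨q1, -, q3, q4⟩ := ev_pt_g3 x _ _ _ (perm_mem hg ρ) b0 b1 b2 w
  have hH : (mul (p31 (lin3 0 U.x0) (lin3 0 U.x1) (lin3 0 U.x2))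
      (p31 (lin3 2 U'.x0) (lin3 2 U'.x1) (lin3 2 U'.x2))).ev x = 9 * (s * s') := by
    rw [ev_mul, p1, q1]; ring
  have e := ev_sym_g3 _ (fun h => d.pol (avg h - 1) (Mh h) (Ch h)) x _ _ _ _ _ _
    (fun u v w h => ev_polT_g3 d hd hD h2 h3 h4 hka x u v w _ (mul_pos hs hs') h hH)
    a0 a1 a2 b0 b1 b2
  rw [reindex_g3 (fun h => d.pol (avg h - 1) (Mh h) (Ch h))
    fun h σ => by rw [avg_perm, (MC_perm_g3 h σ).1, (MC_perm_g3 h σ).2]] at e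
  rw [chkT3, chkT3', ev_sub, e, ev_sm, ev_mul, ev_pw, hH, cross3, ev_add, ev_mul, ev_mul, p3, p4,
    q3, q4, psiR_perm, psiR_perm] at k
  have k3 := Finset.sum_le_sum fun τ (_ : τ ∈ Finset.univ) => hval f hf _ (perm_mem hg τ)
  rw [← Finset.mul_sum, pavg3_g3 fun τ => hom _ _] at k3
  rw [mul3_perm_g3 w g ρ, mul3_perm_g3 w f σ, div_mul_eq_mul_div, div_mul_eq_mul_div, ← add_div,
    div_le_iff₀ hN']
  have k4 : 0 ≤ (9 * (s * s')) ^ 6 * (∑ τ : Equiv.Perm (Fin 3),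
      d.pol (avg (f * (g ∘ τ)) - 1) (Mh (f * (g ∘ τ))) (Ch (f * (g ∘ τ))) -
      6 * (mul3 w 1 (g ∘ ρ) * psiR 4 1 0 f + mul3 w 1 (f ∘ σ) * psiR 4 1 0 g)) := by
    push_cast at k
    linarith
  have k5 := (mul_nonneg_iff_of_pos_left (by positivity)).1 k4
  linarith

theorem S3_of (d : SD) (hd : d.Ok) (hD : d.D = 3) (hka : d.ka = 1) (hN : 0 < d.N)
    (w : ℤ × ℤ × ℤ × ℤ) (t : ℤ) {W : ℕ} {bs : List ℕ}
    (hval : ∀ f ∈ Simp 3, ∀ g ∈ Simp 3, d.N * hom ca (f * g) ≤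
      d.pol 2 (1 - (avg (f * g) - 1)) (avg (f * g) - 1) (Mh (f * g)))
    (h : ∀ U ∈ [cellP, cellQ, cellR], ∀ U' ∈ [cellP, cellQ, cellR],
      posChk W bs (chkS3 d w t U U') = true)
    {f g : Fin 3 → ℝ} (hf : f ∈ Simp 3) (hg : g ∈ Simp 3) :
    pavg (fun τ => hom ca (f * (g ∘ τ))) ≤ ca f + ca g
      - mul3 w d.N g * psiR 4 1 0 f - mul3 w d.N f * psiR 4 1 0 g
      - t / d.N * (ca f * ca g ^ 2) := by
  have hN' : (0 : ℝ) < d.N := by exact_mod_cast hN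
  obtain ⟨σ, ρ, U, hU, U', hU', x, hx, s, s', hs, hs', a0, a1, a2, b0, b1, b2⟩ := setup_g3 hf hg
  have k := posChk_sound (h U hU U' hU') x hx
  obtain ⟨p1, p2, p3, p4⟩ := ev_pt_g3 x _ _ _ (perm_mem hf σ) a0 a1 a2 w
  obtain ⟨q1, q2, q3, q4⟩ := ev_pt_g3 x _ _ _ (perm_mem hg ρ) b0 b1 b2 w
  have hH : (mul (p31 (lin3 0 U.x0) (lin3 0 U.x1) (lin3 0 U.x2))
      (p31 (lin3 2 U'.x0) (lin3 2 U'.x1) (lin3 2 U'.x2))).ev x = 9 * (s * s') := by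
    rw [ev_mul, p1, q1]; ring
  have e := ev_sym_g3 _ (fun h => d.pol 2 (1 - (avg h - 1)) (avg h - 1) (Mh h)) x _ _ _ _ _ _
    (fun u v w h => ev_polS_g3 d hd hD hka x u v w _ (mul_pos hs hs') h hH)
    a0 a1 a2 b0 b1 b2
  rw [reindex_g3 (fun h => d.pol 2 (1 - (avg h - 1)) (avg h - 1) (Mh h))
    fun h σ => by rw [avg_perm, (MC_perm_g3 h σ).1]] at e
  rw [chkS3, chkS3', ev_sub, e] at k
  simp only [cross3, ev_sub, ev_add, ev_sm, ev_mul, ev_pw, p1, p2, p3, p4, q1, q2, q3, q4,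
    psiR_perm, ca_perm] at k
  have k3 := Finset.sum_le_sum fun τ (_ : τ ∈ Finset.univ) => hval f hf _ (perm_mem hg τ)
  rw [← Finset.mul_sum, pavg3_g3 fun τ => hom _ _] at k3
  have k4 : 0 ≤ (9 * (s * s')) ^ 5 * (6 * (d.N * (ca f + ca g) -
      (mul3 w 1 (g ∘ ρ) * psiR 4 1 0 f + mul3 w 1 (f ∘ σ) * psiR 4 1 0 g) -
      t * (ca f * ca g ^ 2)) - ∑ τ : Equiv.Perm (Fin 3),
      d.pol 2 (1 - (avg (f * (g ∘ τ)) - 1)) (avg (f * (g ∘ τ)) - 1) (Mh (f * (g ∘ τ)))) := by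
    push_cast at k
    linarith
  have k5 := (mul_nonneg_iff_of_pos_left (by positivity)).1 k4
  rw [mul3_perm_g3 w g ρ, mul3_perm_g3 w f σ]
  refine le_of_mul_le_mul_left ?_ hN'
  have e' : (d.N : ℝ) * (ca f + ca g - mul3 w 1 (g ∘ ρ) / d.N * psiR 4 1 0 f -
      mul3 w 1 (f ∘ σ) / d.N * psiR 4 1 0 g - t / d.N * (ca f * ca g ^ 2)) =
      d.N * (ca f + ca g) - mul3 w 1 (g ∘ ρ) * psiR 4 1 0 f -
        mul3 w 1 (f ∘ σ) * psiR 4 1 0 g - t * (ca f * ca g ^ 2) := by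
    field_simp
  rw [e']
  linarith

theorem M3_of (w : ℤ × ℤ × ℤ × ℤ) {s : ℝ} (hs : 0 < s) {W : ℕ} {bs : List ℕ}
    (h : ∀ U ∈ [cellP, cellQ, cellR], posChk W bs (chkM3 w U) = true)
    {f : Fin 3 → ℝ} (hf : f ∈ Simp 3) : 0 ≤ mul3 w s f := by
  obtain ⟨σ, -, U, hU, -, -, x, hx, s', -, hs', -, a0, a1, a2, -⟩ := setup_g3 hf hf
  have k := posChk_sound (h U hU) x hx
  obtain ⟨p1, -, -, p4⟩ := ev_pt_g3 x _ _ _ (perm_mem hf σ) a0 a1 a2 w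
  rw [chkM3, ev_mul, ev_pw, p1, p4] at k
  rw [mul3_perm_g3 w f σ]
  refine div_nonneg ?_ hs.le
  exact (mul_nonneg_iff_of_pos_left (by positivity)).1
    ((mul_nonneg_iff_of_pos_right (by positivity)).1 k)

end Vale.Agent.P154
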