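import Vale.Agent.P154.Obj
import Vale.Agent.P154.KrPos

/-! Val: the polynomial bounds are valid.
Plan. `valChkT_sound`: pick the box `i < nt`, `k < nz` containing `(t, z)` (floor, or induction on
`nt`). With `a = n0 + i st`, `b = a + st`: solve `t = vT / vS`, i.e.
`x0 = 31 (t den - a) / (32 b - a - 31 t den) ≥ 0` (denominator `≥ b - a > 0`), and
`x1 = 31 (z nz - k) / (31 k + 32 - 31 z nz)`. Then with `s = ev (vS den) > 0`, `o = ev (vO nz) > 0`,
`H = s^2 o`: `ev vT = s t`, `ev vZ = o z`, `ev cA = s^2 a(t)`, `ev cC = s^3 c(t)`,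
`ev cZ = H (1 + m)`, `ev (cZ - cH) = H m`, where `m = z (1 + a t) - 1`; by `ev_hor` and the lengths,
`ev (valT ..) = H^D * s^5 * V` (write `D = D' + 4`; multiply by `H` and cancel). `posChk_sound`.
`holder`: with `Z = avg h`, `N = avg h^2 = Z^2 (1 + ca (h / Z))` show `Z^3 ≤ N`: pointwise for
`y = sqrt (h i) ≥ 0` and `u > 0`: `3 u^2 y^2 ≤ 2 u^3 y + y^4`  (`y (y-u)^2 (y+2u) ≥ 0`) and
`avg y ≤ 1` (`2 sqrt (f g) ≤ f + g`); take `u = Z`: `3 Z^3 ≤ 2 Z^3 + N`.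
`valT_of`: if `Z = 0` then `h = 0`, use the hypothesis at `x = 1`, `z = 0`. Otherwise `x = h / Z`,
`Mh h = Z^2 ca x`, `Ch h = Z^3 cc x`, `z = Z / (1 + ca x) ∈ [0, 1]`, and
`N * Z * psi x - pol = m^2 * V` by `ring`. Same for `valS_of` with `pol - N * Z * ca x = m^e * V`. -/

namespace Vale.Agent.P154

open Ex

theorem val_box {n : ℕ} (hn : 0 < n) {st u : ℝ} (h0 : 0 ≤ u) (h1 : u ≤ n * st) :
    ∃ i < n, (i : ℝ) * st ≤ u ∧ u ≤ (i + 1) * st := by
  induction n with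
  | zero => omega
  | succ n ih =>
    by_cases h : (n : ℝ) * st ≤ u
    · exact ⟨n, Nat.lt_succ_self n, h, by exact_mod_cast h1⟩
    · rcases Nat.eq_zero_or_pos n with rfl | hn'
      · exact absurd (by simpa using h0) h
      · obtain ⟨i, hi, h2⟩ := ih hn' (not_le.1 h).le
        exact ⟨i, by omega, h2⟩

theorem val_solve {a b u : ℝ} (hab : a < b) (h0 : a ≤ u) (h1 : u ≤ b) :
    ∃ x : ℝ, 0 ≤ x ∧ 31 * a + (32 * b - a) * x = 31 * (1 + x) * u := by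
  have h : 0 < 32 * b - a - 31 * u := by linarith
  refine ⟨31 * (u - a) / (32 * b - a - 31 * u), div_nonneg (by linarith) h.le, ?_⟩
  field_simp
  ring

theorem val_point {n0 n1 den k nz : ℤ} {t z : ℝ} (h01 : (n0 : ℝ) < n1) (hden : 0 < den)
    (hnz : 0 < nz) (h1 : (n0 : ℝ) ≤ t * den) (h2 : t * den ≤ n1) (h3 : (k : ℝ) ≤ z * nz)
    (h4 : z * nz ≤ k + 1) : ∃ x : ℕ → ℝ, (∀ i, 0 ≤ x i) ∧
      (vT n0 n1).ev x = (vS den).ev x * t ∧ (vZ k).ev x = (vO nz).ev x * z ∧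
      0 < (vS den).ev x ∧ 0 < (vO nz).ev x := by
  obtain ⟨x0, a0, b0⟩ := val_solve h01 h1 h2
  obtain ⟨x1, a1, b1⟩ := val_solve (lt_add_one (k : ℝ)) h3 h4
  have hd : (0 : ℝ) < den := by exact_mod_cast hden
  have hn : (0 : ℝ) < nz := by exact_mod_cast hnz
  refine ⟨fun i => if i = 0 then x0 else x1, fun i => by dsimp only; split_ifs <;> assumption,
    ?_, ?_, ?_, ?_⟩
  · simp only [vT, vS, ev_add, ev_sm, ev_c, ev_v, if_true]
    push_cast
    linear_combination b0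
  · simp only [vZ, vO, ev_add, ev_sm, ev_c, ev_v, one_ne_zero, if_false]
    push_cast
    linear_combination b1
  · simp only [vS, ev_add, ev_sm, ev_c, ev_v, if_true]
    push_cast
    positivity
  · simp only [vO, ev_add, ev_sm, ev_c, ev_v, one_ne_zero, if_false]
    push_cast
    positivity

theorem val_hor (x : ℕ → ℝ) (ka : ℤ) {m H : Ex} {μ : ℝ} (hm : m.ev x = H.ev x * μ) (l : List ℤ)
    {n : ℕ} (hl : l.length = n) :
    (hor (sm ka m) H l).ev x * H.ev x = H.ev x ^ n * horR (ka * μ) l := by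
  rw [← hl]
  exact ev_hor x _ H _ (by rw [ev_sm, hm]; ring) l

theorem val_evT (x : ℕ → ℝ) {d : TD} (hd : d.Ok) {s A C H Z m : Ex} {a c μ : ℝ}
    (hH : H.ev x ≠ 0) (hA : A.ev x = s.ev x ^ 2 * a) (hC : C.ev x = s.ev x ^ 3 * c)
    (hZ : Z.ev x = H.ev x * (1 + μ)) (hm : m.ev x = H.ev x * μ) :
    (valT' d s A C H Z m).ev x = H.ev x ^ d.D * s.ev x ^ 5 * d.V μ a c := by
  obtain ⟨h, l0, l1, l2, l3, l4⟩ := hd
  obtain ⟨D, hD⟩ : ∃ D, d.D = D + 4 := ⟨d.D - 4, by omega⟩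
  have h0 := val_hor x d.ka hm d.Q0 (n := D + 5) (by omega)
  have h1 := val_hor x d.ka hm d.Q1 (n := D + 3) (by omega)
  have h2 := val_hor x d.ka hm d.Q2 (n := D + 2) (by omega)
  have h3 := val_hor x d.ka hm d.Q3 (n := D + 1) (by omega)
  have h4 := val_hor x d.ka hm d.Q4 (n := D) (by omega)
  refine mul_right_cancel₀ hH ?_
  rw [valT', show d.D - 2 = D + 2 by omega, show d.D - 3 = D + 1 by omega,
    show d.D - 4 = D by omega, hD, TD.V]
  simp only [ev_add, ev_sm, ev_mul, ev_sub, ev_pw, hA, hC, hZ, hm]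
  push_cast
  generalize H.ev x = H' at *
  generalize s.ev x = s' at *
  linear_combination (-s' ^ 5) * h0 - (H' * (1 + μ)) ^ 2 * (s' ^ 5 * a) * h1 -
    (H' * (1 + μ)) ^ 3 * (s' ^ 5 * c) * h2 - (H' * (1 + μ)) ^ 4 * (s' ^ 5 * a ^ 2) * h3 -
    (H' * (1 + μ)) ^ 5 * (s' ^ 5 * (a * c)) * h4

theorem val_evS (x : ℕ → ℝ) {d : SD} (hd : d.Ok) {s A H Z m : Ex} {a μ : ℝ}
    (hH : H.ev x ≠ 0) (hA : A.ev x = s.ev x ^ 2 * a)
    (hZ : Z.ev x = H.ev x * (1 + μ)) (hm : m.ev x = H.ev x * μ) :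
    (valS' d s A H Z m).ev x = H.ev x ^ d.D * s.ev x ^ 5 * d.V μ a := by
  obtain ⟨h, l0, l1⟩ := hd
  obtain ⟨D, hD⟩ : ∃ D, d.D = D + 2 := ⟨d.D - 2, by omega⟩
  have h0 := val_hor x d.ka hm d.Q0 (n := D + 3) (by omega)
  have h1 := val_hor x d.ka hm d.Q1 (n := D + 1) (by omega)
  refine mul_right_cancel₀ hH ?_
  rw [valS', show d.D - 1 = D + 1 by omega, hD, SD.V]
  simp only [ev_add, ev_sm, ev_mul, ev_sub, ev_pw, hA, hZ]
  generalize H.ev x = H' at *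
  generalize s.ev x = s' at *
  linear_combination s' ^ 5 * h0 + (H' * (1 + μ)) ^ 2 * (s' ^ 5 * a) * h1

theorem valChkT_sound {d : TD} (hd : d.Ok) {w : Crv} {n0 st den nt nz W : ℕ} {bs : List ℕ}
    (h : valChkT d w n0 st den nt nz W bs = true) (hst : 0 < st) (hden : 0 < den) (hnt : 0 < nt)
    (hnz : 0 < nz) {t z : ℝ} (ht0 : (n0 : ℝ) ≤ t * den) (ht1 : t * den ≤ n0 + nt * st)
    (hz0 : 0 ≤ z) (hz1 : z ≤ 1) : 0 ≤ d.V (z * (1 + w.a t) - 1) (w.a t) (w.c t) := by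
  obtain ⟨i, hi, h1, h2⟩ := val_box hnt (st := st) (u := t * den - n0) (by linarith) (by linarith)
  have hnz' : (0 : ℝ) < nz := by exact_mod_cast hnz
  obtain ⟨k, hk, h3, h4⟩ := val_box hnz (st := 1) (u := z * nz) (by positivity) (by nlinarith)
  have h5 := (allLt_iff _ _).1 ((allLt_iff _ _).1 h i hi) k hk
  have hst' : (0 : ℝ) < st := by exact_mod_cast hst
  obtain ⟨x, hx, e1, e2, p1, p2⟩ := val_point (n0 := Int.ofNat (n0 + i * st))
    (n1 := Int.ofNat (n0 + (i + 1) * st)) (den := Int.ofNat den) (k := Int.ofNat k)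
    (nz := Int.ofNat nz) (t := t) (z := z) (by simp; nlinarith) (by simpa using hden)
    (by simpa using hnz) (by simp; linarith) (by simp; linarith) (by simp; linarith)
    (by simp; linarith)
  have h6 := posChk_sound h5 x hx
  have p3 : 0 < (cH (vS (Int.ofNat den)) (vO (Int.ofNat nz))).ev x := by
    simp only [cH, ev_mul]
    positivity
  rw [valT, val_evT x hd (a := w.a t) (c := w.c t) (μ := z * (1 + w.a t) - 1) p3.ne'] at h6
  · exact nonneg_of_mul_nonneg_right h6 (by positivity)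
  · simp only [cA, Crv.a, ev_add, ev_sm, ev_mul, e1]
    ring
  · simp only [cC, Crv.c, ev_add, ev_sm, ev_mul, e1]
    ring
  · simp only [cZ, cH, cA, Crv.a, ev_add, ev_sm, ev_mul, e1, e2]
    ring
  · simp only [cZ, cH, cA, Crv.a, ev_add, ev_sm, ev_mul, ev_sub, e1, e2]
    ring

theorem valChkS_sound {d : SD} (hd : d.Ok) {st den nt nz W : ℕ} {bs : List ℕ}
    (h : valChkS d st den nt nz W bs = true) (hst : 0 < st) (hden : 0 < den) (hnt : 0 < nt)
    (hnz : 0 < nz) {t z : ℝ} (ht0 : 0 ≤ t) (ht1 : t * den ≤ nt * st)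
    (hz0 : 0 ≤ z) (hz1 : z ≤ 1) : 0 ≤ d.V (z * (1 + t) - 1) t := by
  obtain ⟨i, hi, h1, h2⟩ := val_box hnt (st := st) (u := t * den) (by positivity) ht1
  have hnz' : (0 : ℝ) < nz := by exact_mod_cast hnz
  obtain ⟨k, hk, h3, h4⟩ := val_box hnz (st := 1) (u := z * nz) (by positivity) (by nlinarith)
  have h5 := (allLt_iff _ _).1 ((allLt_iff _ _).1 h i hi) k hk
  have hst' : (0 : ℝ) < st := by exact_mod_cast hst
  obtain ⟨x, hx, e1, e2, p1, p2⟩ := val_point (n0 := Int.ofNat (i * st))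
    (n1 := Int.ofNat ((i + 1) * st)) (den := Int.ofNat den) (k := Int.ofNat k)
    (nz := Int.ofNat nz) (t := t) (z := z) (by simp; nlinarith) (by simpa using hden)
    (by simpa using hnz) (by simp; linarith) (by simp; linarith) (by simp; linarith)
    (by simp; linarith)
  have h6 := posChk_sound h5 x hx
  have p3 : 0 < (cH (vS (Int.ofNat den)) (vO (Int.ofNat nz))).ev x := by
    simp only [cH, ev_mul]
    positivity
  rw [valS, val_evS x hd (a := t) (μ := z * (1 + t) - 1) p3.ne'] at h6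
  · exact nonneg_of_mul_nonneg_right h6 (by positivity)
  · simp only [ev_mul, e1]
    ring
  · simp only [cZ, cH, ev_add, ev_mul, e1, e2]
    ring
  · simp only [cZ, cH, ev_add, ev_mul, ev_sub, e1, e2]
    ring

variable {q : ℕ} [NeZero q]

omit [NeZero q] in
theorem val_avg_le {u v : Fin q → ℝ} (h : ∀ i, u i ≤ v i) : avg u ≤ avg v :=
  div_le_div_of_nonneg_right (Finset.sum_le_sum fun i _ => h i) (Nat.cast_nonneg _)

theorem val_avg_lin (h f g : Fin q → ℝ) (a b c e : ℝ) :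
    avg (fun i => a * h i + b * f i + c * g i + e) = a * avg h + b * avg f + c * avg g + e := by
  have hq : (q : ℝ) ≠ 0 := by exact_mod_cast NeZero.ne q
  simp only [avg, Finset.sum_add_distrib, ← Finset.mul_sum, Finset.sum_const, Finset.card_univ,
    Fintype.card_fin, nsmul_eq_mul]
  field_simp

omit [NeZero q] in
theorem val_avg_smul (c : ℝ) (h : Fin q → ℝ) : avg (fun i => c * h i) = c * avg h := by
  simp only [avg, ← Finset.mul_sum, mul_div_assoc]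

theorem val_pt {a b u : ℝ} (ha : 0 ≤ a) (hb : 0 ≤ b) (hu : 0 ≤ u) :
    3 * u ^ 2 * (a * b) ≤ u ^ 3 * (a + b) + (a * b) ^ 2 := by
  obtain ⟨r, hr, rfl⟩ : ∃ r, 0 ≤ r ∧ a = r ^ 2 := ⟨√a, Real.sqrt_nonneg a, (Real.sq_sqrt ha).symm⟩
  obtain ⟨s, hs, rfl⟩ : ∃ s, 0 ≤ s ∧ b = s ^ 2 := ⟨√b, Real.sqrt_nonneg b, (Real.sq_sqrt hb).symm⟩
  have h1 : 0 ≤ r * s * (r * s - u) ^ 2 * (r * s + 2 * u) := by positivity
  have h2 : 0 ≤ u ^ 3 * (r - s) ^ 2 := by positivity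
  linarith [show u ^ 3 * (r ^ 2 + s ^ 2) + (r ^ 2 * s ^ 2) ^ 2 - 3 * u ^ 2 * (r ^ 2 * s ^ 2) =
    r * s * (r * s - u) ^ 2 * (r * s + 2 * u) + u ^ 3 * (r - s) ^ 2 by ring]

theorem holder {f g : Fin q → ℝ} (hf : f ∈ Simp q) (hg : g ∈ Simp q) (h0 : avg (f * g) ≠ 0) :
    avg (f * g) ≤ 1 + ca (fun i => (f * g) i / avg (f * g)) := by
  have hh : ∀ i, 0 ≤ (f * g) i := fun i => mul_nonneg (hf.1 i) (hg.1 i)
  have hZ : 0 < avg (f * g) := lt_of_le_of_ne (avg_nonneg hh) h0.symm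
  have h1 := val_avg_lin (f * g) f g (3 - 2 / avg (f * g)) (-avg (f * g)) (-avg (f * g)) 1
  rw [hf.2, hg.2] at h1
  have h2 : (3 - 2 / avg (f * g)) * avg (f * g) = 3 * avg (f * g) - 2 := by field_simp
  generalize avg (f * g) = Z at hZ h1 h2 ⊢
  have h3 : avg (fun i => (3 - 2 / Z) * (f * g) i + -Z * f i + -Z * g i + 1) ≤
      ca (fun i => (f * g) i / Z) := by
    refine val_avg_le fun i => ?_
    have h4 := val_pt (hf.1 i) (hg.1 i) hZ.le
    have h5 : ((f * g) i / Z - 1) ^ 2 - ((3 - 2 / Z) * (f * g) i + -Z * f i + -Z * g i + 1) =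
        (Z ^ 3 * (f i + g i) + (f i * g i) ^ 2 - 3 * Z ^ 2 * (f i * g i)) / Z ^ 2 := by
      rw [Pi.mul_apply]
      field_simp
      ring
    have h6 : 0 ≤ (Z ^ 3 * (f i + g i) + (f i * g i) ^ 2 - 3 * Z ^ 2 * (f i * g i)) / Z ^ 2 :=
      div_nonneg (by linarith) (by positivity)
    linarith
  linarith

theorem val_norm {f g : Fin q → ℝ} (hf : f ∈ Simp q) (hg : g ∈ Simp q) :
    ∃ x ∈ Simp q, ∃ z : ℝ, 0 ≤ z ∧ z ≤ 1 ∧ z * (1 + ca x) = avg (f * g) ∧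
      Mh (f * g) = avg (f * g) ^ 2 * ca x ∧ Ch (f * g) = avg (f * g) ^ 3 * cc x ∧
      ∀ φ, hom φ (f * g) = avg (f * g) * φ x := by
  have hh : ∀ i, 0 ≤ (f * g) i := fun i => mul_nonneg (hf.1 i) (hg.1 i)
  by_cases h0 : avg (f * g) = 0
  · have h1 := eq_zero_of_avg hh h0
    refine ⟨fun _ => 1, one_mem_simp, 0, le_rfl, zero_le_one, by rw [h0, zero_mul], ?_, ?_,
      fun φ => by rw [hom, h0, zero_mul, zero_mul]⟩
    · simp only [Mh, h0, h1]
      simp [avg]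
    · simp only [Ch, h0, h1]
      simp [avg]
  · have h1 := holder hf hg h0
    have h2 := ca_nonneg (fun i => (f * g) i / avg (f * g))
    refine ⟨_, norm_mem hh h0, avg (f * g) / (1 + ca fun i => (f * g) i / avg (f * g)),
      div_nonneg (avg_nonneg hh) (by linarith), (div_le_one (by linarith)).2 h1,
      div_mul_cancel₀ _ (by linarith), ?_, ?_, fun φ => rfl⟩
    · rw [ca, ← val_avg_smul, Mh]
      congr 1
      funext i
      field_simp
    · rw [cc, ← val_avg_smul, Ch]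
      congr 1
      funext i
      field_simp

theorem valT_of (d : TD)
    (hV : ∀ x ∈ Simp q, ∀ z : ℝ, 0 ≤ z → z ≤ 1 → 0 ≤ d.V (z * (1 + ca x) - 1) (ca x) (cc x))
    {f g : Fin q → ℝ} (hf : f ∈ Simp q) (hg : g ∈ Simp q) :
    d.pol (avg (f * g) - 1) (Mh (f * g)) (Ch (f * g)) ≤
      d.N * hom (psiR d.k2 d.k3 d.k4) (f * g) := by
  obtain ⟨x, hx, z, h0, h1, e1, e2, e3, e4⟩ := val_norm hf hg
  have h2 := hV x hx z h0 h1
  rw [e1] at h2
  rw [e2, e3, e4, psiR]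
  generalize avg (f * g) = Z at h2 ⊢
  have h3 : d.N * (Z * (d.k2 * cc x - d.k3 * ca x ^ 2 + d.k4 * (ca x * cc x))) -
      d.pol (Z - 1) (Z ^ 2 * ca x) (Z ^ 3 * cc x) = (Z - 1) ^ 2 * d.V (Z - 1) (ca x) (cc x) := by
    rw [TD.pol, TD.V]
    ring
  have h4 := mul_nonneg (sq_nonneg (Z - 1)) h2
  linarith

theorem valS_of (d : SD) (e : ℕ) (he : Even e) (tay : ℝ → ℝ)
    (ht : ∀ m, tay m * (1 + m) = 1 - m ^ e)
    (hV : ∀ x ∈ Simp q, ∀ z : ℝ, 0 ≤ z → z ≤ 1 → 0 ≤ d.V (z * (1 + ca x) - 1) (ca x))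
    {f g : Fin q → ℝ} (hf : f ∈ Simp q) (hg : g ∈ Simp q) :
    d.N * hom ca (f * g) ≤ d.pol e (tay (avg (f * g) - 1)) (avg (f * g) - 1) (Mh (f * g)) := by
  obtain ⟨x, hx, z, h0, h1, e1, e2, -, e4⟩ := val_norm hf hg
  have h2 := hV x hx z h0 h1
  rw [e1] at h2
  rw [e2, e4]
  generalize avg (f * g) = Z at h2 ⊢
  have h3 : d.pol e (tay (Z - 1)) (Z - 1) (Z ^ 2 * ca x) - d.N * (Z * ca x) =
      (Z - 1) ^ e * d.V (Z - 1) (ca x) := by
    rw [SD.pol, SD.V]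
    linear_combination d.N * Z * ca x * ht (Z - 1)
  have h4 := mul_nonneg (he.pow_nonneg (Z - 1)) h2
  linarith

end Vale.Agent.P154
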