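import Vale.Agent.P154.Ferro
import Vale.Agent.P154.Val
import Vale.Agent.P154.Glue3
import Vale.Agent.P154.ChkV
import Vale.Agent.P154.Chk3

/-! The certificate for three colours. -/

namespace Vale.Agent.P154

theorem TD.V_affine (d : TD) (m a : ℝ) : ∃ u w : ℝ, ∀ c, d.V m a c = u + w * c :=
  ⟨d.V m a 0, d.V m a 1 - d.V m a 0, fun c => by unfold TD.V; ring⟩

theorem dT3_ok : dT3.Ok := by simp [TD.Ok, dT3]
theorem dS3_ok : dS3.Ok := by simp [SD.Ok, dS3]

theorem VT3 : ∀ x ∈ Simp 3, ∀ z : ℝ, 0 ≤ z → z ≤ 1 →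
    0 ≤ dT3.V (z * (1 + ca x) - 1) (ca x) (cc x) := by
  intro x hx z h0 h1
  refine region3 (fun a c => dT3.V (z * (1 + a) - 1) a c) (fun a => dT3.V_affine _ _) ?_ ?_ ?_ hx
  · intro t a b
    have := valChkT_sound dT3_ok vT31 (t := t) (z := z) (by norm_num) (by norm_num) (by norm_num)
      (by norm_num) (by simpa using a) (by simpa using b) h0 h1
    simpa [Crv.a, Crv.c] using this
  · intro t a b
    have := valChkT_sound dT3_ok vT32 (t := t) (z := z) (by norm_num) (by norm_num) (by norm_num)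
      (by norm_num) (by push_cast; linarith) (by push_cast; linarith) h0 h1
    simpa [Crv.a, Crv.c] using this
  · intro t a b
    have := valChkT_sound dT3_ok vT33 (t := t) (z := z) (by norm_num) (by norm_num) (by norm_num)
      (by norm_num) (by push_cast; linarith) (by push_cast; linarith) h0 h1
    have e : (3 : ℝ) * t - 1 = -1 + 3 * t := by ring
    simpa [Crv.a, Crv.c, e] using this

theorem VS3 : ∀ x ∈ Simp 3, ∀ z : ℝ, 0 ≤ z → z ≤ 1 → 0 ≤ dS3.V (z * (1 + ca x) - 1) (ca x) := by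
  intro x hx z h0 h1
  have h := ca_le hx
  exact valChkS_sound dS3_ok vS3 (by norm_num) (by norm_num) (by norm_num) (by norm_num)
    (ca_nonneg x) (by push_cast at h ⊢; linarith) h0 h1

theorem psiR_one {q : ℕ} [NeZero q] (a b c : ℝ) : psiR a b c (fun _ : Fin q => (1 : ℝ)) = 0 := by
  simp [psiR, ca_one, cc_one]

noncomputable def cert3 : Cert 3 where
  ψ := psiR 4 1 0
  α := mul3 wS3 dS3.N
  β := mul3 wT3 dT3.N
  t := tS3 / dS3.N
  bψ := Bdd.of_continuous (continuous_psiR _ _ _)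
  bα := Bdd.of_continuous (continuous_mul3 _ _)
  bβ := Bdd.of_continuous (continuous_mul3 _ _)
  hα := fun f hf => M3_of wS3 (by norm_num [dS3]) ((allL_iff _ _).1 mS3) hf
  hβ := fun f hf => M3_of wT3 (by norm_num [dT3]) ((allL_iff _ _).1 mT3) hf
  ht := by norm_num [tS3, dS3]
  S := fun f hf g hg => S3_of dS3 dS3_ok rfl rfl (by norm_num [dS3]) wS3 tS3
    (fun f hf g hg => valS_of dS3 2 (by decide) (fun m => 1 - m) (fun m => by ring) VS3 hf hg)
    (fun U hU => (allL_iff _ _).1 ((allL_iff _ _).1 cS3 U hU)) hf hg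
  T := fun f hf g hg => T3_of dT3 dT3_ok rfl rfl rfl rfl rfl (by norm_num [dT3]) wT3
    (fun f hf g hg => by simpa [dT3] using valT_of dT3 VT3 hf hg)
    (fun U hU => (allL_iff _ _).1 ((allL_iff _ _).1 cT3 U hU)) hf hg
  rad := fun lam h0 h1 f hf => rad3 h0 h1 hf
  vertex := fun i => by norm_num [psiR, ca_vtx, cc_vtx]
  one := psiR_one _ _ _

end Vale.Agent.P154
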