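import Vale.Agent.P154.Data
import Vale.Agent.P154.Obj

/-! Kernel checks. -/

namespace Vale.Agent.P154

theorem pTBA : pairChk 320 120 11 (bil BT (featC cellB feT) (featC cellA feT)) = true := by
  decide +kernel
theorem pTBB : pairChk 320 120 11 (bil BT (featC cellB feT) (featC cellB feT)) = true := by
  decide +kernel
theorem pTBC : pairChk 320 120 11 (bil BT (featC cellB feT) (featC cellC feT)) = true := by
  decide +kernel
theorem pSBA : pairChk 260 96 9 (bil BS (featC cellB feS) (featC cellA feS)) = true := by
  decide +kernel
theorem pSBB : pairChk 260 96 9 (bil BS (featC cellB feS) (featC cellB feS)) = true := by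
  decide +kernel
theorem pSBC : pairChk 260 96 9 (bil BS (featC cellB feS) (featC cellC feS)) = true := by
  decide +kernel
theorem lTB : posChk 256 [11, 11, 11] (Ex.dot bT (featC cellB feT)) = true := by
  decide +kernel
theorem lSB : posChk 256 [9, 9, 9] (Ex.dot bS (featC cellB feS)) = true := by
  decide +kernel

end Vale.Agent.P154
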