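import Vale.Agent.P154.Data
import Vale.Agent.P154.Obj

/-! Kernel checks. -/

namespace Vale.Agent.P154

theorem i1T : posChk 160 [12, 6, 4, 3] (id1T dT4 cmT paT) = true := by decide +kernel
theorem i1S : posChk 160 [10, 5, 3, 3] (id1S dS4 cmS paS) = true := by decide +kernel
theorem i2T : posChk 256 [6, 4, 3, 6, 4, 3] (id2T denT cmT paT bT feT BT) = true := by
  decide +kernel
theorem i2S : posChk 256 [5, 3, 3, 5, 3, 3] (id2S denS scS tS4 cmS paS bS feS BS) = true := by
  decide +kernel

end Vale.Agent.P154
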