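import Vale.Agent.P154.Obj

/-! TASK Cover: after sorting, every point of the simplex lies in one of three cells.
Plan (four colours). Sort (`Tuple.sort` applied to `-f`, or any argument): `y = f ∘ σ` with
`y0 ≥ y1 ≥ y2 ≥ y3 ≥ 0`, sum `4`. Barycentric coordinates for the vertices `V0 = (1,1,1,1)`,
`V1 = (2,2,0,0)`, `V2 = (4,0,0,0)`, `V3 = (4,4,4,0)/3`: `b0 = y3`, `b1 = (y1-y2)/2`, `b2 = (y0-y1)/4`,
`b3 = 3(y2-y3)/4`. Put `m = (V0+V2)/2`, `n = (V2+V3)/2`. Cells: `C = [V0, V1, m, V3]` if `b2 ≤ b0`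
(weights `b0-b2, b1, 2 b2, b3`); otherwise with `r = b2 - b0`: `A = [m, V1, n, V3]` if `r ≤ b3`
(weights `2 b0, b1, 2 r, b3 - r`), `B = [m, V1, V2, n]` if `b3 ≤ r` (weights `2 b0, b1, r - b3, 2 b3`).
For a cell `[W0, W1, W2, W3]` the stored columns are `6 * 31 * W0` and `6 * (32 Wi - W0)`; for weights
`w0..w3 ≥ 0` with sum one put `g = 32 w0 + w1 + w2 + w3 > 0`, `x (i-1) = 31 * w i / g`, and
`s = 6 * 31 * 32 / g`: then `pt x = s * y` (`field_simp`, `ring`/`linarith`).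
Three colours: `V0 = (1,1,1)`, `V1 = (3,0,0)`, `V2 = (3,3,0)/2`, `b0 = y2`, `b1 = (y0-y1)/3`,
`b2 = 2(y1-y2)/3`, `m = (V0+V1)/2`, `n = (V1+V2)/2`; `R = [V0, m, V2]` if `b1 ≤ b0`, else with
`r = b1 - b0`: `P = [m, n, V2]` if `r ≤ b2`, `Q = [m, V1, n]` otherwise; the scale is `4` instead of `6`. -/

namespace Vale.Agent.P154

theorem sort_Cover {n : ℕ} (f : Fin n → ℝ) :
    ∃ σ : Equiv.Perm (Fin n), ∀ i j, i ≤ j → f (σ j) ≤ f (σ i) :=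
  ⟨Tuple.sort (fun i => -f i), fun _ _ h =>
    neg_le_neg_iff.1 (Tuple.monotone_sort (fun i => -f i) h)⟩

/-- numerator of a coordinate -/
def num4_Cover (a : ℤ × ℤ × ℤ × ℤ) (w0 w1 w2 w3 : ℝ) : ℝ :=
  a.1 * (32 * w0 + w1 + w2 + w3) + 31 * (a.2.1 * w1 + a.2.2.1 * w2 + a.2.2.2 * w3)

theorem aux4_Cover (U : Cell4) (y : Fin 4 → ℝ) {w0 w1 w2 w3 : ℝ} (h0 : 0 ≤ w0) (h1 : 0 ≤ w1)
    (h2 : 0 ≤ w2) (h3 : 0 ≤ w3) (hs : w0 + w1 + w2 + w3 = 1)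
    (e0 : num4_Cover U.x0 w0 w1 w2 w3 = 5952 * y 0) (e1 : num4_Cover U.x1 w0 w1 w2 w3 = 5952 * y 1)
    (e2 : num4_Cover U.x2 w0 w1 w2 w3 = 5952 * y 2)
    (e3 : num4_Cover U.x3 w0 w1 w2 w3 = 5952 * y 3) :
    ∃ x : ℕ → ℝ, (∀ i, 0 ≤ x i) ∧ ∃ s : ℝ, 0 < s ∧ ∀ i, U.pt x i = s * y i := by
  have hg : 0 < 32 * w0 + w1 + w2 + w3 := by linarith
  set x : ℕ → ℝ := fun i => 31 * (if i = 0 then w1 else if i = 1 then w2 else w3) /
    (32 * w0 + w1 + w2 + w3) with hx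
  have key : ∀ (a : ℤ × ℤ × ℤ × ℤ) (t : ℝ), num4_Cover a w0 w1 w2 w3 = 5952 * t →
      (lin4 a).ev x = 5952 / (32 * w0 + w1 + w2 + w3) * t := by
    intro a t h
    rw [div_mul_eq_mul_div, ← h]
    simp only [lin4, Ex.ev_add, Ex.ev_c, Ex.ev_sm, Ex.ev_v, hx, num4_Cover]
    norm_num
    field_simp
    ring
  refine ⟨x, fun i => ?_, 5952 / (32 * w0 + w1 + w2 + w3), by positivity, fun i => ?_⟩
  · simp only [hx]
    split_ifs <;> positivity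
  · fin_cases i
    · exact key _ _ e0
    · exact key _ _ e1
    · exact key _ _ e2
    · exact key _ _ e3

/-- numerator of a coordinate -/
def num3_Cover (a : ℤ × ℤ × ℤ) (w0 w1 w2 : ℝ) : ℝ :=
  a.1 * (32 * w0 + w1 + w2) + 31 * (a.2.1 * w1 + a.2.2 * w2)

theorem aux3_Cover (U : Cell3) (y : Fin 3 → ℝ) {w0 w1 w2 : ℝ} (h0 : 0 ≤ w0) (h1 : 0 ≤ w1)
    (h2 : 0 ≤ w2) (hs : w0 + w1 + w2 = 1)
    (e0 : num3_Cover U.x0 w0 w1 w2 = 3968 * y 0) (e1 : num3_Cover U.x1 w0 w1 w2 = 3968 * y 1)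
    (e2 : num3_Cover U.x2 w0 w1 w2 = 3968 * y 2) :
    ∃ a b : ℝ, 0 ≤ a ∧ 0 ≤ b ∧ ∃ s : ℝ, 0 < s ∧ ∀ i, U.pt a b i = s * y i := by
  have hg : 0 < 32 * w0 + w1 + w2 := by linarith
  have key : ∀ (a : ℤ × ℤ × ℤ) (t : ℝ), num3_Cover a w0 w1 w2 = 3968 * t →
      (a.1 : ℝ) + (a.2.1 * (31 * w1 / (32 * w0 + w1 + w2)) +
        a.2.2 * (31 * w2 / (32 * w0 + w1 + w2))) = 3968 / (32 * w0 + w1 + w2) * t := by
    intro a t h
    rw [div_mul_eq_mul_div, ← h]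
    simp only [num3_Cover]
    field_simp
  refine ⟨31 * w1 / (32 * w0 + w1 + w2), 31 * w2 / (32 * w0 + w1 + w2), by positivity,
    by positivity, 3968 / (32 * w0 + w1 + w2), by positivity, fun i => ?_⟩
  fin_cases i
  · exact key _ _ e0
  · exact key _ _ e1
  · exact key _ _ e2

theorem cover4 {f : Fin 4 → ℝ} (hf : f ∈ Simp 4) :
    ∃ σ : Equiv.Perm (Fin 4), ∃ U ∈ [cellA, cellB, cellC], ∃ x : ℕ → ℝ, (∀ i, 0 ≤ x i) ∧
      ∃ s : ℝ, 0 < s ∧ ∀ i, U.pt x i = s * f (σ i) := by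
  obtain ⟨σ, hσ⟩ := sort_Cover f
  have a1 := hσ 0 1 (by decide)
  have a2 := hσ 1 2 (by decide)
  have a3 := hσ 2 3 (by decide)
  have a4 := hf.1 (σ 3)
  have hs : f (σ 0) + f (σ 1) + f (σ 2) + f (σ 3) = 4 := by
    have h := hf.2
    rw [avg, ← Equiv.sum_comp σ, Fin.sum_univ_four] at h
    push_cast at h
    linarith
  refine ⟨σ, ?_⟩
  rcases le_total ((f (σ 0) - f (σ 1)) / 4) (f (σ 3)) with h | h
  · refine ⟨cellC, by simp, aux4_Cover cellC (fun i => f (σ i))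
      (w0 := f (σ 3) - (f (σ 0) - f (σ 1)) / 4) (w1 := (f (σ 1) - f (σ 2)) / 2)
      (w2 := (f (σ 0) - f (σ 1)) / 2) (w3 := 3 * (f (σ 2) - f (σ 3)) / 4)
      (by linarith) (by linarith) (by linarith) (by linarith) (by linarith) ?_ ?_ ?_ ?_⟩ <;>
    simp only [num4_Cover, cellC] <;> push_cast <;> linarith
  rcases le_total ((f (σ 0) - f (σ 1)) / 4 - f (σ 3)) (3 * (f (σ 2) - f (σ 3)) / 4) with h' | h'
  · refine ⟨cellA, by simp, aux4_Cover cellA (fun i => f (σ i))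
      (w0 := 2 * f (σ 3)) (w1 := (f (σ 1) - f (σ 2)) / 2)
      (w2 := 2 * ((f (σ 0) - f (σ 1)) / 4 - f (σ 3)))
      (w3 := 3 * (f (σ 2) - f (σ 3)) / 4 - ((f (σ 0) - f (σ 1)) / 4 - f (σ 3)))
      (by linarith) (by linarith) (by linarith) (by linarith) (by linarith) ?_ ?_ ?_ ?_⟩ <;>
    simp only [num4_Cover, cellA] <;> push_cast <;> linarith
  · refine ⟨cellB, by simp, aux4_Cover cellB (fun i => f (σ i))
      (w0 := 2 * f (σ 3)) (w1 := (f (σ 1) - f (σ 2)) / 2)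
      (w2 := ((f (σ 0) - f (σ 1)) / 4 - f (σ 3)) - 3 * (f (σ 2) - f (σ 3)) / 4)
      (w3 := 2 * (3 * (f (σ 2) - f (σ 3)) / 4))
      (by linarith) (by linarith) (by linarith) (by linarith) (by linarith) ?_ ?_ ?_ ?_⟩ <;>
    simp only [num4_Cover, cellB] <;> push_cast <;> linarith

theorem cover3 {f : Fin 3 → ℝ} (hf : f ∈ Simp 3) :
    ∃ σ : Equiv.Perm (Fin 3), ∃ U ∈ [cellP, cellQ, cellR], ∃ x y : ℝ, 0 ≤ x ∧ 0 ≤ y ∧
      ∃ s : ℝ, 0 < s ∧ ∀ i, U.pt x y i = s * f (σ i) := by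
  obtain ⟨σ, hσ⟩ := sort_Cover f
  have a1 := hσ 0 1 (by decide)
  have a2 := hσ 1 2 (by decide)
  have a4 := hf.1 (σ 2)
  have hs : f (σ 0) + f (σ 1) + f (σ 2) = 3 := by
    have h := hf.2
    rw [avg, ← Equiv.sum_comp σ, Fin.sum_univ_three] at h
    push_cast at h
    linarith
  refine ⟨σ, ?_⟩
  rcases le_total ((f (σ 0) - f (σ 1)) / 3) (f (σ 2)) with h | h
  · refine ⟨cellR, by simp, aux3_Cover cellR (fun i => f (σ i))
      (w0 := f (σ 2) - (f (σ 0) - f (σ 1)) / 3) (w1 := 2 * ((f (σ 0) - f (σ 1)) / 3))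
      (w2 := 2 * (f (σ 1) - f (σ 2)) / 3)
      (by linarith) (by linarith) (by linarith) (by linarith) ?_ ?_ ?_⟩ <;>
    simp only [num3_Cover, cellR] <;> push_cast <;> linarith
  rcases le_total ((f (σ 0) - f (σ 1)) / 3 - f (σ 2)) (2 * (f (σ 1) - f (σ 2)) / 3) with h' | h'
  · refine ⟨cellP, by simp, aux3_Cover cellP (fun i => f (σ i))
      (w0 := 2 * f (σ 2)) (w1 := 2 * ((f (σ 0) - f (σ 1)) / 3 - f (σ 2)))
      (w2 := 2 * (f (σ 1) - f (σ 2)) / 3 - ((f (σ 0) - f (σ 1)) / 3 - f (σ 2)))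
      (by linarith) (by linarith) (by linarith) (by linarith) ?_ ?_ ?_⟩ <;>
    simp only [num3_Cover, cellP] <;> push_cast <;> linarith
  · refine ⟨cellQ, by simp, aux3_Cover cellQ (fun i => f (σ i))
      (w0 := 2 * f (σ 2))
      (w1 := ((f (σ 0) - f (σ 1)) / 3 - f (σ 2)) - 2 * (f (σ 1) - f (σ 2)) / 3)
      (w2 := 2 * (2 * (f (σ 1) - f (σ 2)) / 3))
      (by linarith) (by linarith) (by linarith) (by linarith) ?_ ?_ ?_⟩ <;>
    simp only [num3_Cover, cellQ] <;> push_cast <;> linarith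

end Vale.Agent.P154
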