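import Vale.Agent.P154.KrBase

/-! TASK KrPair: soundness of `pairChk`.
Plan. Let `box S` be the finite set of `m : ℕ →₀ ℕ` supported in `{0,1,2}` with `m 0 + m 1 + m 2 < S`
(for instance the union of the supports of all `toP p.1`, `toP p.2`, `p ∈ L`), and
`ι m = m 0 + S * (m 1 + S * m 2) < S^3`, injective there; `st3 W S i = W * S^i`.
By `ev_toP` (extended to the common finite set),
`∑ p, ev x p.1 * ev y p.2 = ∑ m, ∑ n, (∑ p, coeff m p.1 * coeff n p.2) * x^m * y^n`, so it is enough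
to show `0 ≤ ∑ p ∈ L, coeff m (toP p.1) * coeff n (toP p.2)` for all `m, n` in the box. Fix `n`.
By `digit_eq` the number `d` computed in `rowOK` is `coeff n (toP p.2) + 2^(V-1)`. Invariant of
`rowOK` (induction on the list, generalising `P N`): if it returns `true` then there are `P' N'`
with `mskOK (P' - N') O = true` and `(P' : ℤ) - N' = P - N + ∑ p, coeff n (toP p.2) * kv p.1`
(`kv = ± natAbs` according to `isNeg`). The sum is `∑ m, c m * 2^(W ι m)` with
`c m = ∑ p, coeff n p.2 * coeff m p.1`, `|c m| ≤ nsum L < 2^(W-1)`; `pack`, `pack_nonneg` (so that the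
truncated subtraction is exact) and `mskOK_sound` finish. -/

namespace Vale.Agent.P154

open MvPolynomial Finset

/-- the monomial with number `j` -/
noncomputable def kpM (S j : ℕ) : ℕ →₀ ℕ :=
  Finsupp.single 0 (j % S) + Finsupp.single 1 (j / S % S) + Finsupp.single 2 (j / S / S)

theorem kp_sum3 (g : ℕ → ℕ) (a b c : ℕ) :
    (Finsupp.single 0 a + Finsupp.single 1 b + Finsupp.single 2 c : ℕ →₀ ℕ).sum
      (fun i k => g i * k) = g 0 * a + g 1 * b + g 2 * c := by
  rw [Finsupp.sum_add_index' (by simp) (by simp [mul_add]),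
    Finsupp.sum_add_index' (by simp) (by simp [mul_add]), Finsupp.sum_single_index (by simp),
    Finsupp.sum_single_index (by simp), Finsupp.sum_single_index (by simp)]

theorem kp_sum (W S j : ℕ) : (kpM S j).sum (fun i k => st3 W S i * k) = W * j := by
  rw [kpM, kp_sum3]
  change W * S ^ 0 * _ + W * S ^ 1 * _ + W * S ^ 2 * _ = _
  conv_rhs => rw [← Nat.mod_add_div j S, ← Nat.mod_add_div (j / S) S]
  ring

theorem kp_inj (S : ℕ) : Function.Injective (kpM S) := fun j j' h => by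
  have h1 := kp_sum 1 S j
  rw [h, kp_sum] at h1
  omega

theorem kp_supp {S : ℕ} {e : Ex} (h1 : e.nv ≤ 3) (h2 : e.td < S) {m : ℕ →₀ ℕ}
    (hm : m ∈ e.toP.support) : ∃ i j k, i + j + k < S ∧ m = kpM S (i + S * (j + S * k)) := by
  have e1 : m = Finsupp.single 0 (m 0) + Finsupp.single 1 (m 1) + Finsupp.single 2 (m 2) := by
    ext i
    rcases i with _ | _ | _ | i
    · simp
    · simp
    · simp
    · simp [Ex.toP_nv e hm (i := i + 1 + 1 + 1) (by omega)]
  have h3 := Ex.toP_td e hm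
  have h4 := kp_sum3 (fun _ => 1) (m 0) (m 1) (m 2)
  simp only [one_mul, ← e1] at h4
  have h5 : 0 < S := by omega
  refine ⟨m 0, m 1, m 2, by omega, ?_⟩
  rw [kpM, Nat.add_mul_mod_self_left, Nat.add_mul_div_left _ _ h5, Nat.mod_eq_of_lt (by omega),
    Nat.div_eq_of_lt (by omega), zero_add, Nat.add_mul_mod_self_left, Nat.add_mul_div_left _ _ h5,
    Nat.mod_eq_of_lt (by omega), Nat.div_eq_of_lt (by omega), zero_add]
  exact e1

theorem kp_lt {S i j k : ℕ} (h : i + j + k < S) : i + S * (j + S * k) < S ^ 3 := by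
  have h1 : j + S * k + 1 ≤ S * S := by nlinarith
  have h2 := Nat.mul_le_mul_left S h1
  nlinarith

theorem kp_rep {R : Type} [CommRing R] {S : ℕ} {e : Ex} (h1 : e.nv ≤ 3) (h2 : e.td < S)
    (f : (ℕ →₀ ℕ) → R) : ∑ m ∈ e.toP.support, ((coeff m e.toP : ℤ) : R) * f m =
      ∑ j ∈ range (S ^ 3), ((coeff (kpM S j) e.toP : ℤ) : R) * f (kpM S j) := by
  classical
  rw [← sum_image (f := fun m => ((coeff m e.toP : ℤ) : R) * f m) (kp_inj S).injOn]
  refine sum_subset (fun m hm => ?_) fun m _ hm => by rw [notMem_support_iff.1 hm]; simp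
  obtain ⟨i, j, k, h, rfl⟩ := kp_supp h1 h2 hm
  exact mem_image_of_mem _ (mem_range.2 (kp_lt h))

theorem kp_kv {S : ℕ} {e : Ex} (h1 : e.nv ≤ 3) (h2 : e.td < S) (W : ℕ) :
    e.kv (st3 W S) = ∑ j ∈ range (S ^ 3), coeff (kpM S j) e.toP * 2 ^ (W * j) := by
  have h := kp_rep (R := ℤ) h1 h2 fun m => 2 ^ (m.sum fun i k => st3 W S i * k)
  simp only [Int.cast_id, kp_sum] at h
  rw [Ex.kv_toP, h]

theorem kp_row (H M sh O : ℕ) (D : List (Bool × ℕ × ℕ)) (P N : ℕ)
    (h : rowOK H M sh O D P N = true) : ∃ P' N' : ℕ, mskOK (P' - N') O = true ∧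
      (P' : ℤ) - N' = P - N + (D.map fun t => ((((t.2.2 >>> sh) % M : ℕ) : ℤ) - H) *
        if t.1 = true then -(t.2.1 : ℤ) else t.2.1).sum := by
  induction D generalizing P N with
  | nil => exact ⟨P, N, h, by simp⟩
  | cons t D ih =>
    obtain ⟨sg, a, u⟩ := t
    rw [List.map_cons, List.sum_cons]
    change Bool.rec (motive := fun _ => Bool) (Bool.rec (motive := fun _ => Bool)
      (Bool.rec (motive := fun _ => Bool) (rowOK H M sh O D P (N + (H - (u >>> sh) % M) * a))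
        (rowOK H M sh O D (P + (H - (u >>> sh) % M) * a) N) sg)
      (Bool.rec (motive := fun _ => Bool) (rowOK H M sh O D (P + ((u >>> sh) % M - H) * a) N)
        (rowOK H M sh O D P (N + ((u >>> sh) % M - H) * a)) sg) (Nat.ble H ((u >>> sh) % M)))
      (rowOK H M sh O D P N) (Nat.beq ((u >>> sh) % M) H) = true at h
    dsimp only
    generalize (u >>> sh) % M = d at h
    cases h1 : Nat.beq d H with
    | true =>
      rw [h1] at h
      obtain ⟨P', N', h2, h3⟩ := ih P N h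
      exact ⟨P', N', h2, by rw [h3, Nat.eq_of_beq_eq_true h1]; ring⟩
    | false =>
      rw [h1] at h
      cases h4 : Nat.ble H d with
      | true =>
        rw [h4] at h
        have h5 := Nat.le_of_ble_eq_true h4
        cases sg <;> obtain ⟨P', N', h2, h3⟩ := ih _ _ h <;>
          exact ⟨P', N', h2, by rw [h3]; push_cast [Nat.cast_sub h5]; simp; ring⟩
      | false =>
        rw [h4] at h
        have h5 : d ≤ H := by
          by_contra h6
          rw [Nat.ble_eq_true_of_le (by omega)] at h4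
          exact Bool.noConfusion h4
        cases sg <;> obtain ⟨P', N', h2, h3⟩ := ih _ _ h <;>
          exact ⟨P', N', h2, by rw [h3]; push_cast [Nat.cast_sub h5]; simp; ring⟩

theorem kp_sign (z : ℤ) : (if isNeg z = true then -(z.natAbs : ℤ) else z.natAbs) = z := by
  cases z with
  | ofNat n => rfl
  | negSucc n => rfl

/-- the coefficients of the bilinear expression -/
noncomputable def kpC (S : ℕ) (L : List (Ex × Ex)) (m n : ℕ) : ℤ :=
  (L.map fun p => coeff (kpM S m) p.1.toP * coeff (kpM S n) p.2.toP).sum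

theorem kpC_cons (S : ℕ) (p : Ex × Ex) (L : List (Ex × Ex)) (m n : ℕ) : kpC S (p :: L) m n =
    coeff (kpM S m) p.1.toP * coeff (kpM S n) p.2.toP + kpC S L m n := rfl

theorem kp_abs (S : ℕ) (L : List (Ex × Ex)) (m n : ℕ) : |kpC S L m n| ≤ nsum L := by
  induction L with
  | nil => simp [kpC]
  | cons p L ih =>
    change |_ + kpC S L m n| ≤ ((p.1.nrm * p.2.nrm + nsum L : ℕ) : ℤ)
    push_cast
    refine (abs_add_le _ _).trans (add_le_add ?_ ih)
    rw [abs_mul]
    exact mul_le_mul (Ex.abs_coeff_le _ _) (Ex.abs_coeff_le _ _) (abs_nonneg _) (Nat.cast_nonneg _)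

theorem kp_D {W V S n : ℕ} (hV : 1 ≤ V) (hn : n < S ^ 3) (L : List (Ex × Ex))
    (hL : ∀ p ∈ L, p.1.nv ≤ 3 ∧ p.2.nv ≤ 3 ∧ p.1.td < S ∧ p.2.td < S ∧ p.2.nrm < 2 ^ (V - 1)) :
    ((pairD W V S L).map fun t => ((((t.2.2 >>> (V * n)) % 2 ^ V : ℕ) : ℤ) - (2 ^ (V - 1) : ℕ)) *
      if t.1 = true then -(t.2.1 : ℤ) else t.2.1).sum =
      ∑ m ∈ range (S ^ 3), kpC S L m n * 2 ^ (W * m) := by
  induction L with
  | nil => simp [kpC, pairD]
  | cons p L ih =>
    obtain ⟨h1, h2, h3, h4, h5⟩ := hL p List.mem_cons_self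
    have hc : ∀ j, |coeff (kpM S j) p.2.toP| < 2 ^ (V - 1) := fun j =>
      (Ex.abs_coeff_le _ _).trans_lt (by exact_mod_cast h5)
    have h6 := digit_eq hV _ hc (p.2.kv (st3 V S) + (mask V (S ^ 3) : ℤ)).toNat (by
      rw [kp_kv h2 h4, Int.toNat_of_nonneg (pack_nonneg hV _ hc)]) hn
    have e1 : pairD W V S (p :: L) = (isNeg (p.1.kv (st3 W S)), (p.1.kv (st3 W S)).natAbs,
      (p.2.kv (st3 V S) + (mask V (S ^ 3) : ℤ)).toNat) :: pairD W V S L := rfl
    simp only [kpC_cons]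
    rw [e1, List.map_cons, List.sum_cons, ih fun q hq => hL q (List.mem_cons_of_mem _ hq), h6,
      kp_sign, kp_kv h1 h3, mul_sum, ← sum_add_distrib]
    refine sum_congr rfl fun m _ => ?_
    push_cast
    ring

theorem kp_ev {S : ℕ} (x y : ℕ → ℝ) (L : List (Ex × Ex))
    (hL : ∀ p ∈ L, p.1.nv ≤ 3 ∧ p.2.nv ≤ 3 ∧ p.1.td < S ∧ p.2.td < S) :
    (L.map fun p => p.1.ev x * p.2.ev y).sum = ∑ m ∈ range (S ^ 3), ∑ n ∈ range (S ^ 3),
      (kpC S L m n : ℝ) *
        ((kpM S m).prod (fun i k => x i ^ k) * (kpM S n).prod fun i k => y i ^ k) := by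
  induction L with
  | nil => simp [kpC]
  | cons p L ih =>
    obtain ⟨h1, h2, h3, h4⟩ := hL p List.mem_cons_self
    rw [List.map_cons, List.sum_cons, ih fun q hq => hL q (List.mem_cons_of_mem _ hq), Ex.ev_toP,
      Ex.ev_toP, kp_rep h1 h3, kp_rep h2 h4, sum_mul_sum, ← sum_add_distrib]
    refine sum_congr rfl fun m _ => ?_
    rw [← sum_add_distrib]
    refine sum_congr rfl fun n _ => ?_
    change _ = (((_ + kpC S L m n : ℤ)) : ℝ) * _
    push_cast
    ring

theorem pairChk_sound {W V S : ℕ} {L : List (Ex × Ex)} (h : pairChk W V S L = true)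
    (x y : ℕ → ℝ) (hx : ∀ i, 0 ≤ x i) (hy : ∀ i, 0 ≤ y i) :
    0 ≤ (L.map fun p => p.1.ev x * p.2.ev y).sum := by
  simp only [pairChk, Bool.and_eq_true, Nat.ble_eq, allL_iff, rows, allLt_iff] at h
  obtain ⟨hW, hV, hL, hN, hR⟩ := h
  have e1 : ∀ k, Nat.shiftLeft 1 k = 2 ^ k := fun k => Nat.one_shiftLeft k
  simp only [e1] at hL hN hR
  rw [kp_ev (S := S) x y L fun p hp =>
    ⟨(hL p hp).1, (hL p hp).2.1, (hL p hp).2.2.1, (hL p hp).2.2.2.1⟩]
  refine sum_nonneg fun m hm => sum_nonneg fun n hn => mul_nonneg (Int.cast_nonneg ?_)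
    (mul_nonneg (prod_nonneg fun i _ => pow_nonneg (hx i) _)
      (prod_nonneg fun i _ => pow_nonneg (hy i) _))
  by_cases h1 : ∃ i j k, i + j + k < S ∧ n = i + S * (j + S * k)
  · obtain ⟨i, j, k, h1, rfl⟩ := h1
    obtain ⟨P, N, h2, h3⟩ := kp_row _ _ _ _ _ _ _ (hR k (by omega) j
      (show j < S - k by omega) i (show i < S - k - j by omega))
    have h4 := kp_D (W := W) (by omega) (mem_range.1 hn) L hL
    have hc : ∀ m, |kpC S L m (i + S * (j + S * k))| < 2 ^ (W - 1) := fun m =>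
      (kp_abs _ _ _ _).trans_lt (by exact_mod_cast (show nsum L < 2 ^ (W - 1) from hN))
    have h5 : (P : ℤ) - N = ∑ m ∈ range (S ^ 3), kpC S L m (i + S * (j + S * k)) * 2 ^ (W * m) +
        (mask W (S ^ 3) : ℤ) := by
      rw [← h4, add_comm]
      exact h3.trans (by rw [Nat.cast_zero, sub_zero]; rfl)
    have h6 := pack_nonneg (N := S ^ 3) (by omega) _ hc
    exact mskOK_sound (N := S ^ 3) (by omega) _ hc (P - N) (by rw [← h5, Nat.cast_sub (by omega)]) h2
      (mem_range.1 hm)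
  · refine List.sum_nonneg fun z hz => ?_
    obtain ⟨p, hp, rfl⟩ := List.mem_map.1 hz
    have h2 : coeff (kpM S n) p.2.toP = 0 := by
      by_contra h2
      obtain ⟨i, j, k, h3, h4⟩ := kp_supp (hL p hp).2.1 (hL p hp).2.2.2.1 (mem_support_iff.2 h2)
      exact h1 ⟨i, j, k, h3, kp_inj S h4⟩
    rw [h2, mul_zero]

end Vale.Agent.P154
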