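import Vale.Agent.P154.Chr
import Vale.Agent.P154.Cover
import Vale.Agent.P154.KrPos
import Vale.Agent.P154.KrPair

/-! TASK Glue4a: from the cell checks to inequalities on the whole simplex.
Plan. `cover4` gives `U.pt x = s * (f ∘ σ)`. `ev_feat` (the `el1 .. el4` of the four coordinates
evaluate to `e1R .. e4R` of `U.pt x` by `simp`), homogeneity
`featR F (fun i => s * y i) = (featR F y).map (s^K * ·)` from `homF`, invariance `eR_perm`;
`dotR r (l.map (c * ·)) = c * dotR r l`; `mapL_eq`, `zipL_eq`, `ev_dot`; finally cancel the positive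
factor `s^K * s'^K`. -/

namespace Vale.Agent.P154

open Ex

theorem featR_smul_g4a {K : ℕ} {F : List (ℕ × ℕ × ℕ × ℕ)} (hF : homF K F) (s : ℝ)
    (y : Fin 4 → ℝ) : featR F (fun i => s * y i) = (featR F y).map (s ^ K * ·) := by
  unfold featR
  rw [List.map_map]
  refine List.map_congr_left fun μ hμ => ?_
  have e1 : e1R (fun i => s * y i) = s * e1R y := by simp only [e1R]; ring
  have e2 : e2R (fun i => s * y i) = s ^ 2 * e2R y := by simp only [e2R]; ring
  have e3 : e3R (fun i => s * y i) = s ^ 3 * e3R y := by simp only [e3R]; ring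
  have e4 : e4R (fun i => s * y i) = s ^ 4 * e4R y := by simp only [e4R]; ring
  rw [e1, e2, e3, e4, ← hF μ hμ]
  simp only [Function.comp, mul_pow, pow_add, pow_mul]
  ring

theorem featR_perm_g4a (F : List (ℕ × ℕ × ℕ × ℕ)) (f : Fin 4 → ℝ) (σ : Equiv.Perm (Fin 4)) :
    featR F (f ∘ σ) = featR F f := by
  obtain ⟨h1, h2, h3, h4⟩ := eR_perm f σ
  simp only [featR, h1, h2, h3, h4]

theorem dotR_map_g4a (c : ℝ) (r : List ℤ) (l : List ℝ) :
    dotR r (l.map (c * ·)) = c * dotR r l := by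
  induction r generalizing l with
  | nil => simp [dotR]
  | cons z r ih => cases l with
    | nil => simp [dotR]
    | cons a l => simp only [List.map_cons, dotR, ih]; ring

theorem featC_ev_g4a {K : ℕ} {F : List (ℕ × ℕ × ℕ × ℕ)} (hF : homF K F) (U : Cell4) (x : ℕ → ℝ)
    {s : ℝ} {f : Fin 4 → ℝ} {σ : Equiv.Perm (Fin 4)} (h : ∀ i, U.pt x i = s * f (σ i)) :
    (featC U F).map (ev x) = (featR F f).map (s ^ K * ·) := by
  have e : U.pt x = fun i => s * (f ∘ σ) i := funext h
  rw [featC, ev_feat x _ _ _ _ (U.pt x), e, featR_smul_g4a hF, featR_perm_g4a]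
  · simp [el1, e1R, Cell4.pt]
  · simp [el2, e2R, Cell4.pt]
  · simp [el3, e3R, Cell4.pt]
  · simp [el4, e4R, Cell4.pt]

theorem zip_sum_g4a {α β : Type} (A : List α) (Y : List β) (u : α → ℝ) (u' : α → ℝ) (v : β → ℝ)
    (Z : List ℝ) (c c' : ℝ) (hu : ∀ a, u a = c * u' a) (hv : Y.map v = Z.map (c' * ·)) :
    ((A.zip Y).map fun p => u p.1 * v p.2).sum =
      c * c' * (((A.map u').zip Z).map fun p => p.1 * p.2).sum := by
  induction A generalizing Y Z with
  | nil => simp
  | cons a A ih =>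
    cases Y with
    | nil => cases Z with
      | nil => simp
      | cons z Z => simp at hv
    | cons y Y => cases Z with
      | nil => simp at hv
      | cons z Z =>
        simp only [List.map_cons, List.cons.injEq] at hv
        simp only [List.zip_cons_cons, List.map_cons, List.sum_cons, ih Y Z hv.2]
        rw [hu, hv.1]
        ring

theorem bil_nonneg {K W V S : ℕ} {B : List (List ℤ)} {F : List (ℕ × ℕ × ℕ × ℕ)} (hF : homF K F)
    (h : ∀ U ∈ [cellA, cellB, cellC], ∀ U' ∈ [cellA, cellB, cellC],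
      pairChk W V S (bil B (featC U F) (featC U' F)) = true)
    {f g : Fin 4 → ℝ} (hf : f ∈ Simp 4) (hg : g ∈ Simp 4) : 0 ≤ bilR B F f g := by
  obtain ⟨σ, U, hU, x, hx, s, hs, h1⟩ := cover4 hf
  obtain ⟨ρ, U', hU', y, hy, s', hs', h2⟩ := cover4 hg
  have h3 := pairChk_sound (h U hU U' hU') x y hx hy
  have h4 := zip_sum_g4a B (featC U' F) (fun r => (dot r (featC U F)).ev x)
    (fun r => dotR r (featR F f)) (ev y) (featR F g) (s ^ K) (s' ^ K)
    (fun r => by rw [ev_dot, featC_ev_g4a hF U x h1, dotR_map_g4a]) (featC_ev_g4a hF U' y h2)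
  rw [bil, zipL_eq, mapL_eq, List.zip_map_left, List.map_map] at h3
  have h5 := h3.trans_eq h4
  exact (mul_nonneg_iff_of_pos_left (by positivity)).1 h5

theorem lin_nonneg {K W : ℕ} {bs : List ℕ} {b : List ℤ} {F : List (ℕ × ℕ × ℕ × ℕ)}
    (hF : homF K F) (h : ∀ U ∈ [cellA, cellB, cellC], posChk W bs (dot b (featC U F)) = true)
    {f : Fin 4 → ℝ} (hf : f ∈ Simp 4) : 0 ≤ dotR b (featR F f) := by
  obtain ⟨σ, U, hU, x, hx, s, hs, h1⟩ := cover4 hf
  have h3 := posChk_sound (h U hU) x hx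
  rw [ev_dot, featC_ev_g4a hF U x h1, dotR_map_g4a] at h3
  exact (mul_nonneg_iff_of_pos_left (by positivity)).1 h3

end Vale.Agent.P154
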