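import Vale.Agent.P154.Chr

/-! TASK Glue4b: the two averaged inequalities for four colours.
Plan. For `h = f * (g ∘ τ) ≥ 0` evaluate `id1T` at `x = (e1R h, e2R h, e3R h, e4R h, 0, ..)`:
`ev (m4 ..) = 4 m`, `ev M4 = 16 Mh h`, `ev C4 = 32 Ch h` (`avg4`, `Mh4`, `Ch4`), `ev_hor` with
`H = c 1`, so `ev (polT4 ..) = 2^13 * d.pol m M C`, and `ev (cT cm pa) = dotR cm (pa.map (Mmu · h))`
(`ev_dot`, `mapL_eq`, `ev_perm4`). Hence `dotR cm (..) ≤ 24 * 2^13 * N * hom psi h`. Sum over the 24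
permutations (`perm_mem`; `∑ τ, dotR cm (pa.map ..) = dotR cm (pa.map fun μ => Mmu μ f * Mmu μ g)`
by induction and `Mmu_mul`). Evaluate `id2T` at `(e2R f, e3R f, e4R f, e2R g, e3R g, e4R g, 0, ..)`
with `e1R f = 4`: `ev (psi4E ..) = 1024 * psiR 100 75 11 f` (`Mh_simp`), `ev_feat`,
`ev (bilE ..) = bilR B F f g`. Divide by `den > 0` and by `576 * 2^13 * N`. Same for `S4_of` with
`ev (polS4 ..) = 2^12 * d.pol 4 (1 - m + m^2 - m^3) m M` and scale `576 * 2^12 * N`;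
drop the nonnegative term `t a^2 b`. -/

namespace Vale.Agent.P154

open Ex

/-- a point with six coordinates -/
def vec_g4b (a b c d e f : ℝ) : ℕ → ℝ
  | 0 => a
  | 1 => b
  | 2 => c
  | 3 => d
  | 4 => e
  | 5 => f
  | _ => 0

theorem vec_nonneg_g4b {a b c d e f : ℝ} (ha : 0 ≤ a) (hb : 0 ≤ b) (hc : 0 ≤ c) (hd : 0 ≤ d)
    (he : 0 ≤ e) (hf : 0 ≤ f) : ∀ i, 0 ≤ vec_g4b a b c d e f i
  | 0 => ha
  | 1 => hb
  | 2 => hc
  | 3 => hd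
  | 4 => he
  | 5 => hf
  | _ + 6 => le_rfl

theorem ev_hor_one_g4b (x : ℕ → ℝ) (m : Ex) (l : List ℤ) :
    (hor m (c 1) l).ev x = horR (m.ev x) l := by
  simpa using ev_hor x m (c 1) (m.ev x) (by simp) l

theorem dotR_sum_g4b {ι α : Type} (s : Finset ι) (Φ : ι → α → ℝ) (cm : List ℤ) (pa : List α) :
    ∑ τ ∈ s, dotR cm (pa.map (Φ τ)) = dotR cm (pa.map fun μ => ∑ τ ∈ s, Φ τ μ) := by
  induction cm generalizing pa with
  | nil => simp [dotR]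
  | cons z cm ih => cases pa with
    | nil => simp [dotR]
    | cons a l => simp only [List.map_cons, dotR, Finset.sum_add_distrib, ih, Finset.mul_sum]

theorem ev_MC_g4b (x : ℕ → ℝ) (a b c : Ex) (h : Fin 4 → ℝ) (h1 : a.ev x = e1R h)
    (h2 : b.ev x = e2R h) (h3 : c.ev x = e3R h) :
    (m4 a).ev x = 4 * (avg h - 1) ∧ (M4 a b).ev x = 16 * Mh h ∧ (C4 a b c).ev x = 32 * Ch h := by
  rw [avg4, Mh4, Ch4]
  simp only [m4, M4, C4, ev_sub, ev_add, ev_sm, ev_mul, ev_c, h1, h2, h3]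
  push_cast
  refine ⟨by ring, by ring, by ring⟩

theorem ev_cT_g4b (cm : List ℤ) (pa : List (ℕ × ℕ × ℕ × ℕ)) (h : Fin 4 → ℝ) :
    (cT cm pa).ev (vec_g4b (e1R h) (e2R h) (e3R h) (e4R h) 0 0) =
      dotR cm (pa.map fun μ => Mmu μ h) := by
  rw [cT, ev_dot, mapL_eq, List.map_map]
  congr 1
  exact List.map_congr_left fun μ _ => ev_perm4 _ _ _ _ _ h rfl rfl rfl rfl μ

theorem e1_simp_g4b {f : Fin 4 → ℝ} (hf : f ∈ Simp 4) (x : ℕ → ℝ) : (c 4).ev x = e1R f := by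
  have h := hf.2
  rw [avg4] at h
  simp only [ev_c]
  push_cast
  linarith

theorem ev_psi_g4b (x : ℕ → ℝ) (b d : Ex) {f : Fin 4 → ℝ} (hf : f ∈ Simp 4)
    (h2 : b.ev x = e2R f) (h3 : d.ev x = e3R f) :
    (psi4E (c 4) b d).ev x = 1024 * psiR 100 75 11 f ∧ (M4 (c 4) b).ev x = 16 * ca f := by
  obtain ⟨-, h4, h5⟩ := ev_MC_g4b x (c 4) b d f (e1_simp_g4b hf x) h2 h3
  rw [(Mh_simp hf).1] at h4
  rw [(Mh_simp hf).2] at h5
  refine ⟨?_, h4⟩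
  simp only [psi4E, psiR, ev_sub, ev_add, ev_sm, ev_mul, ev_c, h4, h5]
  push_cast
  ring

theorem ev_bilE_g4b (x : ℕ → ℝ) (B : List (List ℤ)) (X Y : List Ex) (F : List (ℕ × ℕ × ℕ × ℕ))
    (f g : Fin 4 → ℝ) (hX : X.map (ev x) = featR F f) (hY : Y.map (ev x) = featR F g) :
    (bilE B X Y).ev x = bilR B F f g := by
  rw [bilE, ev_sum, mapL_eq, bil, zipL_eq, mapL_eq, bilR, ← hX, ← hY]
  simp only [← ev_dot]
  rw [List.zip_map, List.zip_map_left, List.map_map, List.map_map, List.map_map]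
  rfl

theorem ev_two_g4b (cm : List ℤ) (pa : List (ℕ × ℕ × ℕ × ℕ)) (b : List ℤ)
    (F : List (ℕ × ℕ × ℕ × ℕ)) (B : List (List ℤ)) {f g : Fin 4 → ℝ} (hf : f ∈ Simp 4)
    (hg : g ∈ Simp 4) : ∃ x : ℕ → ℝ, (∀ i, 0 ≤ x i) ∧
      (cTT cm pa).ev x = ∑ τ : Equiv.Perm (Fin 4), dotR cm (pa.map fun μ => Mmu μ (f * (g ∘ τ))) ∧
      (crossE b F).ev x = 1024 * (dotR b (featR F g) * psiR 100 75 11 f +
        dotR b (featR F f) * psiR 100 75 11 g) ∧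
      (bilE B (feat (c 4) (v 0) (v 1) (v 2) F) (feat (c 4) (v 3) (v 4) (v 5) F)).ev x =
        bilR B F f g ∧
      (M4 (c 4) (v 0)).ev x = 16 * ca f ∧ (M4 (c 4) (v 3)).ev x = 16 * ca g := by
  obtain ⟨-, a2, a3, a4⟩ := eR_nonneg hf.1
  obtain ⟨-, b2, b3, b4⟩ := eR_nonneg hg.1
  set x := vec_g4b (e2R f) (e3R f) (e4R f) (e2R g) (e3R g) (e4R g) with hx
  have hX := ev_feat x (c 4) (v 0) (v 1) (v 2) f (e1_simp_g4b hf x) rfl rfl rfl F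
  have hY := ev_feat x (c 4) (v 3) (v 4) (v 5) g (e1_simp_g4b hg x) rfl rfl rfl F
  obtain ⟨p1, p2⟩ := ev_psi_g4b x (v 0) (v 1) hf rfl rfl
  obtain ⟨q1, q2⟩ := ev_psi_g4b x (v 3) (v 4) hg rfl rfl
  refine ⟨x, vec_nonneg_g4b a2 a3 a4 b2 b3 b4, ?_, ?_, ev_bilE_g4b x B _ _ F f g hX hY, p2, q2⟩
  · rw [dotR_sum_g4b, cTT, ev_dot, mapL_eq, List.map_map]
    congr 1
    refine List.map_congr_left fun μ _ => ?_
    rw [Mmu_mul, Function.comp, ev_mul, ev_perm4 x _ _ _ _ f (e1_simp_g4b hf x) rfl rfl rfl,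
      ev_perm4 x _ _ _ _ g (e1_simp_g4b hg x) rfl rfl rfl]
  · rw [crossE, ev_add, ev_mul, ev_mul, ev_dot, ev_dot, hX, hY, p1, q1]
    ring

theorem pavg4_g4b (Φ : Equiv.Perm (Fin 4) → ℝ) : ∑ τ, Φ τ = 24 * pavg Φ := by
  simp only [pavg, Nat.factorial]
  push_cast
  ring

theorem T4_of (d : TD) (h2 : d.k2 = 100) (h3 : d.k3 = 75) (h4 : d.k4 = 11) (hka : d.ka = 4)
    (hN : 0 < d.N) (cm : List ℤ) (pa : List (ℕ × ℕ × ℕ × ℕ)) (b : List ℤ)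
    (F : List (ℕ × ℕ × ℕ × ℕ)) (B : List (List ℤ)) (den : ℤ) (hden : 0 < den)
    (hval : ∀ f ∈ Simp 4, ∀ g ∈ Simp 4, d.pol (avg (f * g) - 1) (Mh (f * g)) (Ch (f * g)) ≤
      d.N * hom (psiR 100 75 11) (f * g))
    (i1 : ∀ x : ℕ → ℝ, (∀ i, 0 ≤ x i) → 0 ≤ (id1T d cm pa).ev x)
    (i2 : ∀ x : ℕ → ℝ, (∀ i, 0 ≤ x i) → 0 ≤ (id2T den cm pa b F B).ev x)
    (i3 : ∀ f ∈ Simp 4, ∀ g ∈ Simp 4, 0 ≤ bilR B F f g)
    {f g : Fin 4 → ℝ} (hf : f ∈ Simp 4) (hg : g ∈ Simp 4) :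
    mul4 b F (4608 * d.N) g * psiR 100 75 11 f + mul4 b F (4608 * d.N) f * psiR 100 75 11 g ≤
      pavg (fun τ => hom (psiR 100 75 11) (f * (g ∘ τ))) := by
  have hN' : (0 : ℝ) < d.N := by exact_mod_cast hN
  have hden' : (0 : ℝ) < den := by exact_mod_cast hden
  have s1 : ∀ τ : Equiv.Perm (Fin 4), dotR cm (pa.map fun μ => Mmu μ (f * (g ∘ τ))) ≤
      24 * 8192 * d.N * hom (psiR 100 75 11) (f * (g ∘ τ)) := by
    intro τ
    have hv := hval f hf _ (perm_mem hg τ)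
    obtain ⟨a1, a2, a3, a4⟩ := eR_nonneg (f := f * (g ∘ τ))
      fun i => mul_nonneg (hf.1 i) (hg.1 _)
    set h := f * (g ∘ τ)
    have k := i1 _ (vec_nonneg_g4b a1 a2 a3 a4 le_rfl le_rfl)
    obtain ⟨m1, m2, m3⟩ := ev_MC_g4b (vec_g4b (e1R h) (e2R h) (e3R h) (e4R h) 0 0)
      (v 0) (v 1) (v 2) h rfl rfl rfl
    rw [id1T, ev_sub, ev_cT_g4b] at k
    simp only [polT4, ev_sub, ev_add, ev_sm, ev_mul, ev_c, ev_hor_one_g4b, m1, m2, m3] at k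
    simp only [TD.pol, h2, h3, h4, hka] at hv
    push_cast at k hv
    linarith
  obtain ⟨x, hx, e1, e2, e3, -, -⟩ := ev_two_g4b cm pa b F B hf hg
  have k := i2 x hx
  simp only [id2T, ev_sub, ev_sm, e1, e2, e3] at k
  have k2 := (mul_nonneg_iff_of_pos_left hden').1 ((i3 f hf g hg).trans (sub_nonneg.1 k))
  have k3 := Finset.sum_le_sum fun τ (_ : τ ∈ Finset.univ) => s1 τ
  rw [← Finset.mul_sum, pavg4_g4b fun τ => hom _ _] at k3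
  simp only [mul4]
  rw [div_mul_eq_mul_div, div_mul_eq_mul_div, ← add_div, div_le_iff₀ (by positivity)]
  linarith

theorem S4_of (d : SD) (hka : d.ka = 4) (hN : 0 < d.N) (cm : List ℤ)
    (pa : List (ℕ × ℕ × ℕ × ℕ)) (b : List ℤ) (F : List (ℕ × ℕ × ℕ × ℕ)) (B : List (List ℤ))
    (den sc t : ℤ) (hden : 0 < den) (hsc : sc = 147456 * d.N) (ht : 0 ≤ t)
    (hval : ∀ f ∈ Simp 4, ∀ g ∈ Simp 4, d.N * hom ca (f * g) ≤
      d.pol 4 (1 - (avg (f * g) - 1) + (avg (f * g) - 1) ^ 2 - (avg (f * g) - 1) ^ 3)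
        (avg (f * g) - 1) (Mh (f * g)))
    (i1 : ∀ x : ℕ → ℝ, (∀ i, 0 ≤ x i) → 0 ≤ (id1S d cm pa).ev x)
    (i2 : ∀ x : ℕ → ℝ, (∀ i, 0 ≤ x i) → 0 ≤ (id2S den sc t cm pa b F B).ev x)
    (i3 : ∀ f ∈ Simp 4, ∀ g ∈ Simp 4, 0 ≤ bilR B F f g)
    {f g : Fin 4 → ℝ} (hf : f ∈ Simp 4) (hg : g ∈ Simp 4) :
    pavg (fun τ => hom ca (f * (g ∘ τ))) ≤ ca f + ca g
      - mul4 b F (2304 * d.N) g * psiR 100 75 11 f - mul4 b F (2304 * d.N) f * psiR 100 75 11 g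
      - t / (576 * d.N) * (ca f * ca g ^ 2) := by
  have hN' : (0 : ℝ) < d.N := by exact_mod_cast hN
  have hden' : (0 : ℝ) < den := by exact_mod_cast hden
  have ht' : (0 : ℝ) ≤ t := by exact_mod_cast ht
  have s1 : ∀ τ : Equiv.Perm (Fin 4), 24 * 4096 * d.N * hom ca (f * (g ∘ τ)) ≤
      dotR cm (pa.map fun μ => Mmu μ (f * (g ∘ τ))) := by
    intro τ
    have hv := hval f hf _ (perm_mem hg τ)
    obtain ⟨a1, a2, a3, a4⟩ := eR_nonneg (f := f * (g ∘ τ))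
      fun i => mul_nonneg (hf.1 i) (hg.1 _)
    set h := f * (g ∘ τ)
    have k := i1 _ (vec_nonneg_g4b a1 a2 a3 a4 le_rfl le_rfl)
    obtain ⟨m1, m2, -⟩ := ev_MC_g4b (vec_g4b (e1R h) (e2R h) (e3R h) (e4R h) 0 0)
      (v 0) (v 1) (v 2) h rfl rfl rfl
    rw [id1S, ev_sub, ev_cT_g4b] at k
    simp only [polS4, ev_add, ev_sm, ev_mul, ev_pw, ev_hor_one_g4b, m1, m2, horR] at k
    simp only [SD.pol, hka] at hv
    push_cast at k hv
    linarith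
  obtain ⟨x, hx, e1, e2, e3, e4, e5⟩ := ev_two_g4b cm pa b F B hf hg
  have k := i2 x hx
  simp only [id2S, ev_sub, ev_sm, ev_add, ev_mul, e1, e2, e3, e4, e5, hsc] at k
  push_cast at k
  have k2 := (mul_nonneg_iff_of_pos_left hden').1 ((i3 f hf g hg).trans (sub_nonneg.1 k))
  have k3 := Finset.sum_le_sum fun τ (_ : τ ∈ Finset.univ) => s1 τ
  rw [← Finset.mul_sum, pavg4_g4b fun τ => hom _ _] at k3
  have k4 : 0 ≤ t * (ca f ^ 2 * ca g) := mul_nonneg ht' (mul_nonneg (sq_nonneg _) (ca_nonneg g))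
  simp only [mul4]
  refine le_of_mul_le_mul_left ?_ (show (0 : ℝ) < 2304 * d.N by positivity)
  have e : 2304 * (d.N : ℝ) * (ca f + ca g -
      dotR b (featR F g) / (2304 * d.N) * psiR 100 75 11 f -
      dotR b (featR F f) / (2304 * d.N) * psiR 100 75 11 g - t / (576 * d.N) * (ca f * ca g ^ 2)) =
      2304 * d.N * (ca f + ca g) - dotR b (featR F g) * psiR 100 75 11 f -
        dotR b (featR F f) * psiR 100 75 11 g - 4 * t * (ca f * ca g ^ 2) := by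
    field_simp
    ring
  rw [e]
  linarith

end Vale.Agent.P154
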