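import Vale.Agent.P154.Cert3
import Vale.Agent.P154.Glue4a
import Vale.Agent.P154.Glue4b
import Vale.Agent.P154.ChkA
import Vale.Agent.P154.ChkB
import Vale.Agent.P154.ChkC
import Vale.Agent.P154.ChkI

/-! The certificate for four colours. -/

namespace Vale.Agent.P154

theorem dT4_ok : dT4.Ok := by simp [TD.Ok, dT4]
theorem dS4_ok : dS4.Ok := by simp [SD.Ok, dS4]

theorem VT4 : ∀ x ∈ Simp 4, ∀ z : ℝ, 0 ≤ z → z ≤ 1 →
    0 ≤ dT4.V (z * (1 + ca x) - 1) (ca x) (cc x) := by
  intro x hx z h0 h1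
  refine region4 (fun a c => dT4.V (z * (1 + a) - 1) a c) (fun a => dT4.V_affine _ _)
    ?_ ?_ ?_ ?_ hx
  · intro t a b
    have := valChkT_sound dT4_ok vT41 (t := t) (z := z) (by norm_num) (by norm_num) (by norm_num)
      (by norm_num) (by push_cast; linarith) (by push_cast; linarith) h0 h1
    simpa [Crv.a, Crv.c] using this
  · intro t a b
    have := valChkT_sound dT4_ok vT42 (t := t) (z := z) (by norm_num) (by norm_num) (by norm_num)
      (by norm_num) (by push_cast; linarith) (by push_cast; linarith) h0 h1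
    simpa [Crv.a, Crv.c] using this
  · intro t a b
    have := valChkT_sound dT4_ok vT43 (t := t) (z := z) (by norm_num) (by norm_num) (by norm_num)
      (by norm_num) (by push_cast; linarith) (by push_cast; linarith) h0 h1
    have e : t ^ 2 - t = -t + t ^ 2 := by ring
    simpa [Crv.a, Crv.c, e] using this
  · intro t a b
    have := valChkT_sound dT4_ok vT44 (t := t) (z := z) (by norm_num) (by norm_num) (by norm_num)
      (by norm_num) (by push_cast; linarith) (by push_cast; linarith) h0 h1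
    have e : (3 : ℝ) * t - 3 = -3 + 3 * t := by ring
    simpa [Crv.a, Crv.c, e] using this

theorem VS4 : ∀ x ∈ Simp 4, ∀ z : ℝ, 0 ≤ z → z ≤ 1 → 0 ≤ dS4.V (z * (1 + ca x) - 1) (ca x) := by
  intro x hx z h0 h1
  have h := ca_le hx
  exact valChkS_sound dS4_ok vS4 (by norm_num) (by norm_num) (by norm_num) (by norm_num)
    (ca_nonneg x) (by push_cast at h ⊢; linarith) h0 h1

theorem homT : homF 10 feT := by unfold homF; decide
theorem homS : homF 8 feS := by unfold homF; decide

theorem all3 {α : Type} {a b c : α} {P : α → Prop} (ha : P a) (hb : P b) (hc : P c) :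
    ∀ U ∈ [a, b, c], P U := by
  intro U hU
  simp only [List.mem_cons, List.not_mem_nil, or_false] at hU
  rcases hU with rfl | rfl | rfl <;> assumption

theorem bilT : ∀ f ∈ Simp 4, ∀ g ∈ Simp 4, 0 ≤ bilR BT feT f g := fun _ hf _ hg =>
  bil_nonneg homT (all3 (all3 pTAA pTAB pTAC) (all3 pTBA pTBB pTBC) (all3 pTCA pTCB pTCC)) hf hg

theorem bilS : ∀ f ∈ Simp 4, ∀ g ∈ Simp 4, 0 ≤ bilR BS feS f g := fun _ hf _ hg =>
  bil_nonneg homS (all3 (all3 pSAA pSAB pSAC) (all3 pSBA pSBB pSBC) (all3 pSCA pSCB pSCC)) hf hg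

noncomputable def cert4 : Cert 4 where
  ψ := psiR 100 75 11
  α := mul4 bS feS (2304 * dS4.N)
  β := mul4 bT feT (4608 * dT4.N)
  t := tS4 / (576 * dS4.N)
  bψ := Bdd.of_continuous (continuous_psiR _ _ _)
  bα := Bdd.of_continuous (continuous_mul4 _ _ _)
  bβ := Bdd.of_continuous (continuous_mul4 _ _ _)
  hα := fun f hf => div_nonneg (lin_nonneg homS (all3 lSA lSB lSC) hf) (by norm_num [dS4])
  hβ := fun f hf => div_nonneg (lin_nonneg homT (all3 lTA lTB lTC) hf) (by norm_num [dT4])
  ht := by norm_num [tS4, dS4]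
  S := fun f hf g hg => S4_of dS4 rfl (by norm_num [dS4]) cmS paS bS feS BS denS scS tS4
    (by norm_num [denS]) (by norm_num [scS, dS4]) (by norm_num [tS4])
    (fun f hf g hg => valS_of dS4 4 (by decide) (fun m => 1 - m + m ^ 2 - m ^ 3)
      (fun m => by ring) VS4 hf hg)
    (posChk_sound i1S) (posChk_sound i2S) bilS hf hg
  T := fun f hf g hg => T4_of dT4 rfl rfl rfl rfl (by norm_num [dT4]) cmT paT bT feT BT denT
    (by norm_num [denT])
    (fun f hf g hg => by
      have := valT_of dT4 VT4 hf hg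
      have e : psiR (q := 4) dT4.k2 dT4.k3 dT4.k4 = psiR 100 75 11 := by norm_num [dT4]
      rwa [e] at this)
    (posChk_sound i1T) (posChk_sound i2T) bilT hf hg
  rad := fun lam h0 h1 f hf => rad4 h0 h1 hf
  vertex := fun i => by norm_num [psiR, ca_vtx, cc_vtx]
  one := psiR_one _ _ _

end Vale.Agent.P154
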