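import Vale.Agent.P154.Obj

/-! TASK Chr: monomial symmetric functions in four variables.
Plan. `Mmu_mul`: expand, `mul_pow`, swap the sums, and for fixed `σ` reindex `τ ↦ τ * σ`
(`Equiv.sum_comp (Equiv.mulRight σ)`). `ev_psE`: induction on `k` for the window `ns` (four
consecutive power sums); each `f i` is a root of `x^4 - e1 x^3 + e2 x^2 - e3 x + e4`
(`fin_cases i`, `ring`), multiply by `f i ^ k`. `ev_perm4`: enumerate `Equiv.Perm (Fin 4)`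
(`Finset.univ_perm_fin_succ`, `Equiv.Perm.decomposeFin`, `Fintype.sum_prod_type`,
`Fin.sum_univ_succ`; or prove by `decide` that `univ` is an explicit list of 24 permutations),
`pow_add`, generalise the sixteen powers, `ring`. -/

namespace Vale.Agent.P154

open Ex

theorem Mmu_mul (μ : ℕ × ℕ × ℕ × ℕ) (f g : Fin 4 → ℝ) :
    ∑ τ : Equiv.Perm (Fin 4), Mmu μ (f * (g ∘ τ)) = Mmu μ f * Mmu μ g := by
  have h : ∀ σ : Equiv.Perm (Fin 4), ∑ τ : Equiv.Perm (Fin 4),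
      (f * (g ∘ τ)) (σ 0) ^ μ.1 * (f * (g ∘ τ)) (σ 1) ^ μ.2.1 * (f * (g ∘ τ)) (σ 2) ^ μ.2.2.1 *
        (f * (g ∘ τ)) (σ 3) ^ μ.2.2.2 =
      (f (σ 0) ^ μ.1 * f (σ 1) ^ μ.2.1 * f (σ 2) ^ μ.2.2.1 * f (σ 3) ^ μ.2.2.2) * Mmu μ g := by
    intro σ
    unfold Mmu
    rw [Finset.mul_sum]
    symm
    rw [← Equiv.sum_comp (Equiv.mulRight σ)]
    refine Finset.sum_congr rfl fun τ _ => ?_
    simp only [Pi.mul_apply, Function.comp_apply, Equiv.coe_mulRight, Equiv.Perm.mul_apply, mul_pow]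
    ring
  calc _ = ∑ σ : Equiv.Perm (Fin 4), ∑ τ : Equiv.Perm (Fin 4),
      (f * (g ∘ τ)) (σ 0) ^ μ.1 * (f * (g ∘ τ)) (σ 1) ^ μ.2.1 * (f * (g ∘ τ)) (σ 2) ^ μ.2.2.1 *
        (f * (g ∘ τ)) (σ 3) ^ μ.2.2.2 := Finset.sum_comm
    _ = _ := by rw [Finset.sum_congr rfl fun σ _ => h σ, ← Finset.sum_mul]; rfl

theorem ns_zero_Chr (a b c d : Ex) : ns a b c d 0 =
    (Ex.c 4, a, sub (mul a a) (sm 2 b), add (sub (pw a 3) (sm 3 (mul a b))) (sm 3 c)) := rfl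

theorem ns_succ_Chr (a b c d : Ex) (k : ℕ) : ns a b c d (k + 1) =
    ((ns a b c d k).2.1, (ns a b c d k).2.2.1, (ns a b c d k).2.2.2,
      sub (add (sub (mul a (ns a b c d k).2.2.2) (mul b (ns a b c d k).2.2.1))
        (mul c (ns a b c d k).2.1)) (mul d (ns a b c d k).1)) := rfl

theorem ev_psE (x : ℕ → ℝ) (a b c d : Ex) (f : Fin 4 → ℝ) (h1 : a.ev x = e1R f)
    (h2 : b.ev x = e2R f) (h3 : c.ev x = e3R f) (h4 : d.ev x = e4R f) (k : ℕ) :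
    (psE a b c d k).ev x = f 0 ^ k + f 1 ^ k + f 2 ^ k + f 3 ^ k := by
  have key : ∀ k, (ns a b c d k).1.ev x = f 0 ^ k + f 1 ^ k + f 2 ^ k + f 3 ^ k ∧
      (ns a b c d k).2.1.ev x = f 0 ^ (k + 1) + f 1 ^ (k + 1) + f 2 ^ (k + 1) + f 3 ^ (k + 1) ∧
      (ns a b c d k).2.2.1.ev x = f 0 ^ (k + 2) + f 1 ^ (k + 2) + f 2 ^ (k + 2) + f 3 ^ (k + 2) ∧
      (ns a b c d k).2.2.2.ev x =
        f 0 ^ (k + 3) + f 1 ^ (k + 3) + f 2 ^ (k + 3) + f 3 ^ (k + 3) := by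
    intro k
    induction k with
    | zero =>
      rw [ns_zero_Chr]
      simp only [ev_c, ev_sub, ev_mul, ev_sm, ev_add, ev_pw, h1, h2, h3, e1R, e2R, e3R]
      push_cast
      refine ⟨by norm_num, by ring, by ring, by ring⟩
    | succ k ih =>
      rw [ns_succ_Chr]
      refine ⟨ih.2.1, ih.2.2.1, ih.2.2.2, ?_⟩
      simp only [ev_sub, ev_mul, ev_add, h1, h2, h3, h4, ih.1, ih.2.1, ih.2.2.1, ih.2.2.2,
        e1R, e2R, e3R, e4R]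
      ring
  exact (key k).1

theorem sum_perm4_Chr (G : Fin 4 → Fin 4 → Fin 4 → Fin 4 → ℝ) :
    ∑ σ : Equiv.Perm (Fin 4), G (σ 0) (σ 1) (σ 2) (σ 3) =
      G 0 1 2 3 + G 0 1 3 2 + G 0 2 1 3 + G 0 2 3 1 + G 0 3 1 2 + G 0 3 2 1 +
      G 1 0 2 3 + G 1 0 3 2 + G 1 2 0 3 + G 1 2 3 0 + G 1 3 0 2 + G 1 3 2 0 +
      G 2 0 1 3 + G 2 0 3 1 + G 2 1 0 3 + G 2 1 3 0 + G 2 3 0 1 + G 2 3 1 0 +
      G 3 0 1 2 + G 3 0 2 1 + G 3 1 0 2 + G 3 1 2 0 + G 3 2 0 1 + G 3 2 1 0 := by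
  have hinj : Function.Injective fun σ : Equiv.Perm (Fin 4) => (σ 0, σ 1, σ 2, σ 3) := by
    intro σ τ h
    simp only [Prod.mk.injEq] at h
    ext i
    fin_cases i
    · exact congrArg Fin.val h.1
    · exact congrArg Fin.val h.2.1
    · exact congrArg Fin.val h.2.2.1
    · exact congrArg Fin.val h.2.2.2
  have h1 : ∑ σ : Equiv.Perm (Fin 4), G (σ 0) (σ 1) (σ 2) (σ 3) =
      ∑ t ∈ Finset.univ.image fun σ : Equiv.Perm (Fin 4) => (σ 0, σ 1, σ 2, σ 3),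
        G t.1 t.2.1 t.2.2.1 t.2.2.2 := by
    rw [Finset.sum_image fun σ _ τ _ h => hinj h]
  have h2 : (Finset.univ.image fun σ : Equiv.Perm (Fin 4) => (σ 0, σ 1, σ 2, σ 3)) =
      ([(0, 1, 2, 3), (0, 1, 3, 2), (0, 2, 1, 3), (0, 2, 3, 1), (0, 3, 1, 2), (0, 3, 2, 1),
        (1, 0, 2, 3), (1, 0, 3, 2), (1, 2, 0, 3), (1, 2, 3, 0), (1, 3, 0, 2), (1, 3, 2, 0),
        (2, 0, 1, 3), (2, 0, 3, 1), (2, 1, 0, 3), (2, 1, 3, 0), (2, 3, 0, 1), (2, 3, 1, 0),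
        (3, 0, 1, 2), (3, 0, 2, 1), (3, 1, 0, 2), (3, 1, 2, 0), (3, 2, 0, 1), (3, 2, 1, 0)] :
        List (Fin 4 × Fin 4 × Fin 4 × Fin 4)).toFinset := by
    decide +kernel
  rw [h1, h2, List.sum_toFinset _ (by decide +kernel)]
  simp only [List.map_cons, List.sum_cons, List.map_nil, List.sum_nil]
  ring

theorem ev_perm4 (x : ℕ → ℝ) (a b c d : Ex) (f : Fin 4 → ℝ) (h1 : a.ev x = e1R f)
    (h2 : b.ev x = e2R f) (h3 : c.ev x = e3R f) (h4 : d.ev x = e4R f) (μ : ℕ × ℕ × ℕ × ℕ) :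
    (perm4 (psE a b c d) μ).ev x = Mmu μ f := by
  obtain ⟨m₁, m₂, m₃, m₄⟩ := μ
  rw [Mmu, sum_perm4_Chr (fun i j k l => f i ^ m₁ * f j ^ m₂ * f k ^ m₃ * f l ^ m₄)]
  simp only [perm4, ev_sub, ev_mul, ev_add, ev_sm, ev_psE x a b c d f h1 h2 h3 h4, pow_add]
  push_cast
  generalize f 0 ^ m₁ = a₁
  generalize f 0 ^ m₂ = a₂
  generalize f 0 ^ m₃ = a₃
  generalize f 0 ^ m₄ = a₄
  generalize f 1 ^ m₁ = b₁
  generalize f 1 ^ m₂ = b₂
  generalize f 1 ^ m₃ = b₃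
  generalize f 1 ^ m₄ = b₄
  generalize f 2 ^ m₁ = c₁
  generalize f 2 ^ m₂ = c₂
  generalize f 2 ^ m₃ = c₃
  generalize f 2 ^ m₄ = c₄
  generalize f 3 ^ m₁ = d₁
  generalize f 3 ^ m₂ = d₂
  generalize f 3 ^ m₃ = d₃
  generalize f 3 ^ m₄ = d₄
  ring

theorem ev_feat (x : ℕ → ℝ) (a b c d : Ex) (f : Fin 4 → ℝ) (h1 : a.ev x = e1R f)
    (h2 : b.ev x = e2R f) (h3 : c.ev x = e3R f) (h4 : d.ev x = e4R f)
    (F : List (ℕ × ℕ × ℕ × ℕ)) : (feat a b c d F).map (ev x) = featR F f := by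
  simp only [feat, featR, mapL_eq, List.map_map]
  refine List.map_congr_left fun μ _ => ?_
  simp only [Function.comp_apply, ev_mul, ev_pw, h1, h2, h3, h4]

theorem eR_perm (f : Fin 4 → ℝ) (σ : Equiv.Perm (Fin 4)) :
    e1R (f ∘ σ) = e1R f ∧ e2R (f ∘ σ) = e2R f ∧ e3R (f ∘ σ) = e3R f ∧ e4R (f ∘ σ) = e4R f := by
  have h : ∀ k : ℕ, (f ∘ σ) 0 ^ k + (f ∘ σ) 1 ^ k + (f ∘ σ) 2 ^ k + (f ∘ σ) 3 ^ k =
      f 0 ^ k + f 1 ^ k + f 2 ^ k + f 3 ^ k := by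
    intro k
    have := Equiv.sum_comp σ fun i => f i ^ k
    simpa only [Fin.sum_univ_four, Function.comp_apply] using this
  have h4 : (f ∘ σ) 0 * (f ∘ σ) 1 * (f ∘ σ) 2 * (f ∘ σ) 3 = f 0 * f 1 * f 2 * f 3 := by
    have := Equiv.prod_comp σ f
    simpa only [Fin.prod_univ_four, Function.comp_apply] using this
  generalize f ∘ σ = g at h h4
  have a1 : e1R g = e1R f := by unfold e1R; linear_combination h 1
  have n2 : ∀ u : Fin 4 → ℝ,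
      2 * e2R u = e1R u ^ 2 - (u 0 ^ 2 + u 1 ^ 2 + u 2 ^ 2 + u 3 ^ 2) := by
    intro u; unfold e1R e2R; ring
  have n3 : ∀ u : Fin 4 → ℝ, 3 * e3R u =
      (u 0 ^ 3 + u 1 ^ 3 + u 2 ^ 3 + u 3 ^ 3) - e1R u ^ 3 + 3 * e1R u * e2R u := by
    intro u; unfold e1R e2R e3R; ring
  have a2 : e2R g = e2R f := by
    have b1 := n2 g
    rw [a1, h 2, ← n2 f] at b1
    linarith
  have a3 : e3R g = e3R f := by
    have b1 := n3 g
    rw [a1, a2, h 3, ← n3 f] at b1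
    linarith
  refine ⟨a1, a2, a3, ?_⟩
  unfold e4R
  linear_combination h4

theorem eR_nonneg {f : Fin 4 → ℝ} (h : ∀ i, 0 ≤ f i) :
    0 ≤ e1R f ∧ 0 ≤ e2R f ∧ 0 ≤ e3R f ∧ 0 ≤ e4R f := by
  have h0 := h 0
  have h1 := h 1
  have h2 := h 2
  have h3 := h 3
  unfold e1R e2R e3R e4R
  refine ⟨by positivity, by positivity, by positivity, by positivity⟩

theorem avg4 (h : Fin 4 → ℝ) : avg h = e1R h / 4 := by
  simp only [avg, e1R, Fin.sum_univ_four]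
  push_cast
  ring

theorem Mh4 (h : Fin 4 → ℝ) : 16 * Mh h = 3 * e1R h ^ 2 - 8 * e2R h := by
  simp only [Mh, avg, e1R, e2R, Fin.sum_univ_four]
  push_cast
  ring

theorem Ch4 (h : Fin 4 → ℝ) : 32 * Ch h = 3 * e1R h ^ 3 - 12 * (e1R h * e2R h) + 24 * e3R h := by
  simp only [Ch, avg, e1R, e2R, e3R, Fin.sum_univ_four]
  push_cast
  ring

theorem Mh_simp {q : ℕ} {f : Fin q → ℝ} (hf : f ∈ Simp q) : Mh f = ca f ∧ Ch f = cc f := by
  unfold Mh Ch ca cc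
  rw [hf.2]
  exact ⟨rfl, rfl⟩

theorem continuous_mul4 (b : List ℤ) (F : List (ℕ × ℕ × ℕ × ℕ)) (s : ℝ) :
    Continuous (mul4 b F s) := by
  unfold mul4
  refine Continuous.div_const ?_ s
  induction F generalizing b with
  | nil => cases b <;> exact continuous_const
  | cons μ F ih =>
    cases b with
    | nil => exact continuous_const
    | cons z b =>
      show Continuous fun f : Fin 4 → ℝ => (z : ℝ) *
        (e1R f ^ μ.1 * e2R f ^ μ.2.1 * (e3R f ^ μ.2.2.1 * e4R f ^ μ.2.2.2)) + dotR b (featR F f)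
      refine Continuous.add ?_ (ih b)
      unfold e1R e2R e3R e4R
      fun_prop

end Vale.Agent.P154
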