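import Mathlib

/-! Statement definitions for P154 (broadcasting on trees with the Potts channel). -/

namespace Vale.Agent.P154

/-- What the observer sees at depth `n`: the tree cut at depth `n` (each vertex lists its
children) together with the spins at depth `n`. -/
def Obs (q : ℕ) : ℕ → Type
  | 0 => Fin q
  | n + 1 => List (Obs q n)

/-- The Potts channel `P(j | i)`. -/
noncomputable def chan (q : ℕ) (lam : ℝ) (i j : Fin q) : ℝ :=
  lam * (if i = j then 1 else 0) + (1 - lam) / q

/-- `lik q p lam n o i` is the probability of the observation `o` at depth `n` given that the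
root spin is `i`; the number of children of each vertex has law `p`, independently. -/
noncomputable def lik (q : ℕ) (p : ℕ → ℝ) (lam : ℝ) : (n : ℕ) → Obs q n → Fin q → ℝ
  | 0, o, i => if (show Fin q from o) = i then 1 else 0
  | n + 1, l, i => p (show List (Obs q n) from l).length *
      ((show List (Obs q n) from l).map
        (fun o => ∑ j, chan q lam i j * lik q p lam n o j)).prod

/-- `a_n`: the expected total variation distance between the posterior of the root spin given
the depth `n` observation and the uniform law (the root spin is uniform). -/
noncomputable def adv (q : ℕ) (p : ℕ → ℝ) (lam : ℝ) (n : ℕ) : ℝ :=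
  ∑' o : Obs q n, ((∑ j, lik q p lam n o j) / q) *
    ((1 / 2) * ∑ i, |lik q p lam n o i / (∑ j, lik q p lam n o j) - 1 / q|)

/-- Offspring law of the `d`-ary tree. -/
noncomputable def regOff (d : ℕ) (k : ℕ) : ℝ := if k = d then 1 else 0

/-- Poisson offspring law. -/
noncomputable def poiOff (d : ℝ) (k : ℕ) : ℝ := Real.exp (-d) * d ^ k / (k.factorial : ℝ)

end Vale.Agent.P154
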