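import Vale.Agent.P154.Fam

/-! TASK Exp: basic calculus of `Fam.E` (linearity, monotonicity) and of `Bdd`.
Plan: `hom φ h = avg h * φ (h / avg h)`; if `avg h = 0` it is `0`, otherwise `h / avg h ∈ Simp q`
(`norm_mem`). `abs_hom_le` and `hasSum_avg` give summability (`Summable.of_norm_bounded`);
then use `Summable.tsum_add`, `tsum_mul_left`, `Summable.tsum_le_tsum`.
`E_coord`: `hom (fun f => f i) h = h i` for `h ≥ 0` (if `avg h = 0` then `h = 0`).
`E_sq_le`: monotonicity applied to `2 * c * φ f - c^2 ≤ φ f ^ 2` with `c = F.E φ`.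
`Bdd.of_continuous`: `Simp q` is closed and contained in the compact box `[0, q]^q`. -/

namespace Vale.Agent.P154

variable {q : ℕ} [NeZero q]

omit [NeZero q] in
lemma avg_add_Exp (f g : Fin q → ℝ) : avg (fun i => f i + g i) = avg f + avg g := by
  simp only [avg, Finset.sum_add_distrib, add_div]

omit [NeZero q] in
lemma avg_mul_Exp (c : ℝ) (f : Fin q → ℝ) : avg (fun i => c * f i) = c * avg f := by
  simp only [avg, ← Finset.mul_sum, mul_div_assoc]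

omit [NeZero q] in
lemma avg_mono_Exp {f g : Fin q → ℝ} (h : ∀ i, f i ≤ g i) : avg f ≤ avg g :=
  div_le_div_of_nonneg_right (Finset.sum_le_sum fun i _ => h i) (Nat.cast_nonneg q)

lemma avg_const (c : ℝ) : avg (fun _ : Fin q => c) = c := by
  have hq : (q : ℝ) ≠ 0 := by exact_mod_cast (NeZero.ne q)
  simp [avg, mul_div_cancel_left₀ c hq]

lemma avg_nonneg {h : Fin q → ℝ} (hh : ∀ i, 0 ≤ h i) : 0 ≤ avg h := by
  exact div_nonneg (Finset.sum_nonneg fun i _ => hh i) (Nat.cast_nonneg q)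

lemma avg_perm (h : Fin q → ℝ) (τ : Equiv.Perm (Fin q)) : avg (h ∘ τ) = avg h := by
  simp only [avg, Function.comp_apply, Equiv.sum_comp τ h]

lemma eq_zero_of_avg {h : Fin q → ℝ} (hh : ∀ i, 0 ≤ h i) (h0 : avg h = 0) (i : Fin q) :
    h i = 0 := by
  have hq : (q : ℝ) ≠ 0 := by exact_mod_cast (NeZero.ne q)
  rw [avg, div_eq_zero_iff, or_iff_left hq] at h0
  exact (Finset.sum_eq_zero_iff_of_nonneg fun i _ => hh i).1 h0 i (Finset.mem_univ _)

lemma one_mem_simp : (fun _ => 1 : Fin q → ℝ) ∈ Simp q := by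
  exact ⟨fun _ => zero_le_one, avg_const 1⟩

lemma le_of_simp {f : Fin q → ℝ} (hf : f ∈ Simp q) (i : Fin q) : f i ≤ q := by
  have hq : (q : ℝ) ≠ 0 := by exact_mod_cast (NeZero.ne q)
  have h := hf.2
  rw [avg, div_eq_one_iff_eq hq] at h
  rw [← h]
  exact Finset.single_le_sum (fun j _ => hf.1 j) (Finset.mem_univ i)

lemma perm_mem {f : Fin q → ℝ} (hf : f ∈ Simp q) (τ : Equiv.Perm (Fin q)) :
    f ∘ τ ∈ Simp q := by
  exact ⟨fun i => hf.1 _, by rw [avg_perm]; exact hf.2⟩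

lemma shr_mem {lam : ℝ} (h : Adm q lam) {f : Fin q → ℝ} (hf : f ∈ Simp q) :
    shr lam f ∈ Simp q := by
  refine ⟨fun i => ?_, ?_⟩
  · have h1 := hf.1 i
    have h2 := le_of_simp hf i
    have h3 := h.1
    have h4 := h.2
    unfold shr
    rcases le_total 0 lam with hl | hl <;> nlinarith
  · have e : shr lam f = fun i => (1 - lam) + lam * f i := by funext i; unfold shr; ring
    rw [e, avg_add_Exp, avg_const, avg_mul_Exp, hf.2]; ring

lemma norm_mem {h : Fin q → ℝ} (hh : ∀ i, 0 ≤ h i) (h0 : avg h ≠ 0) :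
    (fun i => h i / avg h) ∈ Simp q := by
  refine ⟨fun i => div_nonneg (hh i) (avg_nonneg hh), ?_⟩
  have e : (fun i => h i / avg h) = fun i => (avg h)⁻¹ * h i := by funext i; ring
  rw [e, avg_mul_Exp, inv_mul_cancel₀ h0]

lemma hom_of_simp (φ : (Fin q → ℝ) → ℝ) {f : Fin q → ℝ} (hf : f ∈ Simp q) : hom φ f = φ f := by
  simp [hom, hf.2]

lemma hom_smul (φ : (Fin q → ℝ) → ℝ) {c : ℝ} (hc : 0 ≤ c) (h : Fin q → ℝ) :
    hom φ (fun i => c * h i) = c * hom φ h := by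
  rcases hc.eq_or_lt with rfl | hc
  · simp [hom, avg]
  · simp only [hom, avg_mul_Exp, mul_div_mul_left _ _ hc.ne', mul_assoc]

lemma hom_perm (φ : (Fin q → ℝ) → ℝ) (h : Fin q → ℝ) (τ : Equiv.Perm (Fin q)) :
    hom (fun f => φ (f ∘ τ)) h = hom φ (h ∘ τ) := by
  simp only [hom, avg_perm]
  rfl

lemma hom_mono {φ ψ : (Fin q → ℝ) → ℝ} (H : ∀ f ∈ Simp q, φ f ≤ ψ f) {h : Fin q → ℝ}
    (hh : ∀ i, 0 ≤ h i) : hom φ h ≤ hom ψ h := by
  by_cases h0 : avg h = 0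
  · simp [hom, h0]
  · exact mul_le_mul_of_nonneg_left (H _ (norm_mem hh h0)) (avg_nonneg hh)

lemma abs_hom_le {φ : (Fin q → ℝ) → ℝ} {C : ℝ} (hC : ∀ f ∈ Simp q, |φ f| ≤ C) {h : Fin q → ℝ}
    (hh : ∀ i, 0 ≤ h i) : |hom φ h| ≤ C * avg h := by
  by_cases h0 : avg h = 0
  · simp [hom, h0]
  · rw [hom, abs_mul, abs_of_nonneg (avg_nonneg hh), mul_comm]
    exact mul_le_mul_of_nonneg_right (hC _ (norm_mem hh h0)) (avg_nonneg hh)

lemma ca_nonneg (f : Fin q → ℝ) : 0 ≤ ca f := by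
  exact avg_nonneg fun i => sq_nonneg _

lemma ca_perm (f : Fin q → ℝ) (τ : Equiv.Perm (Fin q)) : ca (f ∘ τ) = ca f := by
  exact avg_perm (fun i => (f i - 1) ^ 2) τ

lemma cc_perm (f : Fin q → ℝ) (τ : Equiv.Perm (Fin q)) : cc (f ∘ τ) = cc f := by
  exact avg_perm (fun i => (f i - 1) ^ 3) τ

lemma ca_one : ca (fun _ : Fin q => (1 : ℝ)) = 0 := by
  simp [ca, avg]

lemma cc_one : cc (fun _ : Fin q => (1 : ℝ)) = 0 := by
  simp [cc, avg]

lemma ca_shr (lam : ℝ) (f : Fin q → ℝ) : ca (shr lam f) = lam ^ 2 * ca f := by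
  rw [ca, ca, ← avg_mul_Exp]
  congr 1; funext i; unfold shr; ring

lemma cc_shr (lam : ℝ) (f : Fin q → ℝ) : cc (shr lam f) = lam ^ 3 * cc f := by
  rw [cc, cc, ← avg_mul_Exp]
  congr 1; funext i; unfold shr; ring

/-- `ca f = avg f^2 - 1 ≤ q - 1` since `f i ^ 2 ≤ q * f i` -/
lemma ca_le {f : Fin q → ℝ} (hf : f ∈ Simp q) : ca f ≤ (q : ℝ) - 1 := by
  have h := avg_mono_Exp (f := fun i => (f i - 1) ^ 2) (g := fun i => 1 + ((q : ℝ) - 2) * f i)
    fun i => by nlinarith [hf.1 i, le_of_simp hf i]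
  rw [avg_add_Exp, avg_const, avg_mul_Exp, hf.2] at h
  unfold ca; linarith

/-- `(f i - 1)^3 ≤ (q - 1) * (f i - 1)^2` -/
lemma cc_le {f : Fin q → ℝ} (hf : f ∈ Simp q) : cc f ≤ ((q : ℝ) - 1) * ca f := by
  rw [cc, ca, ← avg_mul_Exp]
  exact avg_mono_Exp fun i => by nlinarith [le_of_simp hf i, sq_nonneg (f i - 1)]

namespace Bdd

lemma of_continuous {φ : (Fin q → ℝ) → ℝ} (h : Continuous φ) : Bdd φ := by
  obtain ⟨C, hC⟩ := (isCompact_Icc (a := fun _ : Fin q => (0 : ℝ))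
    (b := fun _ => (q : ℝ))).exists_bound_of_continuousOn h.continuousOn
  exact ⟨C, fun f hf => hC f ⟨hf.1, le_of_simp hf⟩⟩

lemma const (c : ℝ) : Bdd (fun _ : Fin q → ℝ => c) := by
  exact ⟨|c|, fun _ _ => le_rfl⟩

lemma add {φ ψ : (Fin q → ℝ) → ℝ} (h : Bdd φ) (k : Bdd ψ) : Bdd (fun f => φ f + ψ f) := by
  obtain ⟨C, hC⟩ := h
  obtain ⟨D, hD⟩ := k
  exact ⟨C + D, fun f hf => (abs_add_le _ _).trans (add_le_add (hC f hf) (hD f hf))⟩

lemma sub {φ ψ : (Fin q → ℝ) → ℝ} (h : Bdd φ) (k : Bdd ψ) : Bdd (fun f => φ f - ψ f) := by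
  obtain ⟨C, hC⟩ := h
  obtain ⟨D, hD⟩ := k
  exact ⟨C + D, fun f hf => (abs_sub _ _).trans (add_le_add (hC f hf) (hD f hf))⟩

lemma neg {φ : (Fin q → ℝ) → ℝ} (h : Bdd φ) : Bdd (fun f => - φ f) := by
  obtain ⟨C, hC⟩ := h
  exact ⟨C, fun f hf => by rw [abs_neg]; exact hC f hf⟩

lemma mul {φ ψ : (Fin q → ℝ) → ℝ} (h : Bdd φ) (k : Bdd ψ) : Bdd (fun f => φ f * ψ f) := by
  obtain ⟨C, hC⟩ := h
  obtain ⟨D, hD⟩ := k
  refine ⟨C * D, fun f hf => ?_⟩
  rw [abs_mul]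
  exact mul_le_mul (hC f hf) (hD f hf) (abs_nonneg _) ((abs_nonneg _).trans (hC f hf))

lemma smul (c : ℝ) {φ : (Fin q → ℝ) → ℝ} (h : Bdd φ) : Bdd (fun f => c * φ f) := by
  exact (const c).mul h

lemma sq {φ : (Fin q → ℝ) → ℝ} (h : Bdd φ) : Bdd (fun f => φ f ^ 2) := by
  simpa only [pow_two] using h.mul h

lemma sum {ι : Type} (s : Finset ι) {φ : ι → (Fin q → ℝ) → ℝ} (h : ∀ i ∈ s, Bdd (φ i)) :
    Bdd (fun f => ∑ i ∈ s, φ i f) := by
  classical
  induction s using Finset.induction_on with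
  | empty => simpa using const 0
  | insert a s ha ih =>
    simp only [Finset.sum_insert ha]
    exact (h a (Finset.mem_insert_self _ _)).add (ih fun i hi => h i (Finset.mem_insert_of_mem hi))

lemma perm {φ : (Fin q → ℝ) → ℝ} (h : Bdd φ) (τ : Equiv.Perm (Fin q)) :
    Bdd (fun f => φ (f ∘ τ)) := by
  obtain ⟨C, hC⟩ := h
  exact ⟨C, fun f hf => hC _ (perm_mem hf τ)⟩

lemma shr {φ : (Fin q → ℝ) → ℝ} (h : Bdd φ) {lam : ℝ} (hl : Adm q lam) :
    Bdd (fun f => φ (shr lam f)) := by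
  obtain ⟨C, hC⟩ := h
  exact ⟨C, fun f hf => hC _ (shr_mem hl hf)⟩

end Bdd

lemma continuous_ca : Continuous (ca : (Fin q → ℝ) → ℝ) := by
  unfold ca avg; fun_prop

lemma continuous_cc : Continuous (cc : (Fin q → ℝ) → ℝ) := by
  unfold cc avg; fun_prop

lemma bdd_ca : Bdd (ca : (Fin q → ℝ) → ℝ) := Bdd.of_continuous continuous_ca

lemma bdd_tv : Bdd (tv : (Fin q → ℝ) → ℝ) := by
  refine Bdd.of_continuous ?_
  unfold tv avg; fun_prop

namespace Fam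

variable (F : Fam q) {φ ψ : (Fin q → ℝ) → ℝ}

lemma hasSum_avg : HasSum (fun o => avg (F.l o)) 1 := by
  have hq : (q : ℝ) ≠ 0 := by exact_mod_cast (NeZero.ne q)
  have := (hasSum_sum (s := Finset.univ) fun i _ => F.hasSum i).div_const (q : ℝ)
  simpa [avg, div_self hq] using this

lemma summable_hom (h : Bdd φ) : Summable fun o => hom φ (F.l o) := by
  obtain ⟨C, hC⟩ := h
  exact Summable.of_norm_bounded (F.hasSum_avg.summable.mul_left C)
    fun o => abs_hom_le hC (F.nonneg o)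

lemma E_const (c : ℝ) : F.E (fun _ => c) = c := by
  simpa [E, ex, hom] using (F.hasSum_avg.mul_right c).tsum_eq

lemma E_congr (H : ∀ f ∈ Simp q, φ f = ψ f) : F.E φ = F.E ψ := by
  refine tsum_congr fun o => le_antisymm (hom_mono (fun f hf => (H f hf).le) (F.nonneg o))
    (hom_mono (fun f hf => (H f hf).ge) (F.nonneg o))

lemma E_add (h : Bdd φ) (k : Bdd ψ) : F.E (fun f => φ f + ψ f) = F.E φ + F.E ψ := by
  rw [E, E, E, ex, ex, ex, ← (F.summable_hom h).tsum_add (F.summable_hom k)]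
  exact tsum_congr fun o => mul_add _ _ _

lemma E_sub (h : Bdd φ) (k : Bdd ψ) : F.E (fun f => φ f - ψ f) = F.E φ - F.E ψ := by
  rw [E, E, E, ex, ex, ex, ← (F.summable_hom h).tsum_sub (F.summable_hom k)]
  exact tsum_congr fun o => mul_sub _ _ _

lemma E_smul (c : ℝ) (φ : (Fin q → ℝ) → ℝ) : F.E (fun f => c * φ f) = c * F.E φ := by
  rw [E, E, ex, ex, ← tsum_mul_left]
  exact tsum_congr fun o => mul_left_comm _ _ _

lemma E_neg (φ : (Fin q → ℝ) → ℝ) : F.E (fun f => - φ f) = - F.E φ := by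
  simpa using F.E_smul (-1) φ

lemma E_mono (h : Bdd φ) (k : Bdd ψ) (H : ∀ f ∈ Simp q, φ f ≤ ψ f) : F.E φ ≤ F.E ψ := by
  exact (F.summable_hom h).tsum_le_tsum (fun o => hom_mono H (F.nonneg o)) (F.summable_hom k)

lemma E_nonneg (H : ∀ f ∈ Simp q, 0 ≤ φ f) : 0 ≤ F.E φ := by
  refine tsum_nonneg fun o => ?_
  simpa [hom] using hom_mono (φ := fun _ => 0) H (F.nonneg o)

lemma E_abs_le {C : ℝ} (H : ∀ f ∈ Simp q, |φ f| ≤ C) : |F.E φ| ≤ C := by
  have h1 := F.E_mono ⟨C, H⟩ (Bdd.const C) fun f hf => (abs_le.1 (H f hf)).2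
  have h2 := F.E_mono (Bdd.const (-C)) ⟨C, H⟩ fun f hf => (abs_le.1 (H f hf)).1
  rw [E_const] at h1 h2
  exact abs_le.2 ⟨h2, h1⟩

lemma E_sum {ι : Type} (s : Finset ι) {φ : ι → (Fin q → ℝ) → ℝ} (h : ∀ i ∈ s, Bdd (φ i)) :
    F.E (fun f => ∑ i ∈ s, φ i f) = ∑ i ∈ s, F.E (φ i) := by
  classical
  induction s using Finset.induction_on with
  | empty => simpa using F.E_const 0
  | insert a s ha ih =>
    have h2 := fun i hi => h i (Finset.mem_insert_of_mem hi)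
    simp only [Finset.sum_insert ha]
    rw [F.E_add (h a (Finset.mem_insert_self _ _)) (Bdd.sum s h2), ih h2]

lemma E_coord (i : Fin q) : F.E (fun f => f i) = 1 := by
  rw [← (F.hasSum i).tsum_eq]
  refine tsum_congr fun o => ?_
  by_cases h0 : avg (F.l o) = 0
  · simp [hom, h0, eq_zero_of_avg (F.nonneg o) h0 i]
  · simp only [hom]; field_simp

lemma E_sq_le (h : Bdd φ) : F.E φ ^ 2 ≤ F.E (fun f => φ f ^ 2) := by
  have h1 := F.E_mono ((h.smul (2 * F.E φ)).sub (Bdd.const (F.E φ ^ 2))) h.sq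
    fun f _ => by nlinarith [sq_nonneg (φ f - F.E φ)]
  rw [F.E_sub (h.smul _) (Bdd.const _), E_smul, E_const] at h1
  linarith

end Fam

end Vale.Agent.P154
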