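import Vale.Agent.P154.Exp

/-! TASK Exp2: expectation under the constructions `delta, one, ch, mul, mix`, and symmetry.
Plan. `E_ch`: by `chan_apply` the vector `k i = ∑ j, chan i j * h j` has `avg k = avg h` and
`k / avg h = shr lam (h / avg h)` when `avg h ≠ 0`. `E_mul`: for `h, k ≥ 0` one has
`hom (fun g => hom φ (f * g)) k = hom φ (f * k)` (use `hom_smul`; trivial if `avg k = 0`), and
`hom (fun f => G.E (fun g => hom φ (f * g))) h = ∑' o, hom φ (h * G.l o)`; then
`Summable.tsum_prod` (summability is `summable_hom` of `F.mul G`). `E_mix`: `HasSum.sigma` and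
`hom_smul`. Symmetry of `mul`: `hom φ ((f * g) ∘ τ) = hom φ ((f ∘ τ) * (g ∘ τ))`, use `G.Sym`
for the inner and `F.Sym` for the outer expectation. Symmetry of `mix`: uniqueness of sums. -/

namespace Vale.Agent.P154

variable {q : ℕ} [NeZero q]

/-- the vertex of the simplex -/
def vtx (i : Fin q) : Fin q → ℝ := fun j => if i = j then (q : ℝ) else 0

lemma q_pos_Exp2 : (0 : ℝ) < q := by exact_mod_cast Nat.pos_of_ne_zero (NeZero.ne q)

omit [NeZero q] in
lemma avg_vtx_Exp2 (i : Fin q) (u : ℝ → ℝ) :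
    avg (fun j => u (vtx i j)) = (u q + ((q : ℝ) - 1) * u 0) / q := by
  have e : ∀ j, u (vtx i j) = u 0 + if i = j then u q - u 0 else 0 := fun j => by
    unfold vtx
    split_ifs <;> ring
  simp only [avg, e, Finset.sum_add_distrib, Finset.sum_const, Finset.card_univ, Fintype.card_fin,
    nsmul_eq_mul, Finset.sum_ite_eq, Finset.mem_univ, if_true]
  ring

lemma vtx_mem (i : Fin q) : vtx i ∈ Simp q := by
  refine ⟨fun j => ?_, ?_⟩
  · unfold vtx
    split_ifs <;> positivity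
  · have := avg_vtx_Exp2 i id
    simpa [(q_pos_Exp2 (q := q)).ne'] using this

lemma ca_vtx (i : Fin q) : ca (vtx i) = (q : ℝ) - 1 := by
  have := (q_pos_Exp2 (q := q)).ne'
  rw [ca, avg_vtx_Exp2 i fun x => (x - 1) ^ 2]
  field_simp
  ring

lemma cc_vtx (i : Fin q) : cc (vtx i) = ((q : ℝ) - 1) * ((q : ℝ) - 2) := by
  have := (q_pos_Exp2 (q := q)).ne'
  rw [cc, avg_vtx_Exp2 i fun x => (x - 1) ^ 3]
  field_simp
  ring

lemma abs_hom_mul_le {φ : (Fin q → ℝ) → ℝ} {C : ℝ} (hC : ∀ f ∈ Simp q, |φ f| ≤ C)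
    {f g : Fin q → ℝ} (hf : f ∈ Simp q) (hg : g ∈ Simp q) : |hom φ (f * g)| ≤ C * q := by
  have hq := q_pos_Exp2 (q := q)
  refine (abs_hom_le hC fun i => mul_nonneg (hf.1 i) (hg.1 i)).trans
    (mul_le_mul_of_nonneg_left ?_ ((abs_nonneg _).trans (hC f hf)))
  have h1 : ∑ i, g i = q := by
    have := hg.2
    rwa [avg, div_eq_one_iff_eq hq.ne'] at this
  rw [avg, div_le_iff₀ hq]
  refine (Finset.sum_le_sum fun i _ =>
    mul_le_mul_of_nonneg_right (le_of_simp hf i) (hg.1 i)).trans (le_of_eq ?_)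
  rw [← Finset.mul_sum, h1]

lemma bdd_hom_mul {φ : (Fin q → ℝ) → ℝ} (h : Bdd φ) {f : Fin q → ℝ} (hf : f ∈ Simp q) :
    Bdd (fun g => hom φ (f * g)) := by
  obtain ⟨C, hC⟩ := h
  exact ⟨C * q, fun g hg => abs_hom_mul_le hC hf hg⟩

lemma hom_mul_Exp2 (φ : (Fin q → ℝ) → ℝ) (f : Fin q → ℝ) {k : Fin q → ℝ} (hk : ∀ i, 0 ≤ k i) :
    hom (fun g => hom φ (f * g)) k = hom φ (f * k) := by
  rw [hom, ← hom_smul φ (avg_nonneg hk)]
  congr 1
  funext i
  by_cases h : avg k = 0
  · simp [eq_zero_of_avg hk h i]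
  · simp only [Pi.mul_apply]
    field_simp

namespace Fam

variable {φ : (Fin q → ℝ) → ℝ}

lemma E_delta (φ : (Fin q → ℝ) → ℝ) : (delta q).E φ = avg fun i => φ (vtx i) := by
  have hq := (q_pos_Exp2 (q := q)).ne'
  have e : ∀ o : Fin q, hom φ (fun i => if o = i then 1 else 0) = φ (vtx o) / q := fun o => by
    have h1 : avg (fun i : Fin q => if o = i then (1 : ℝ) else 0) = 1 / q := by simp [avg]
    rw [hom, h1, mul_comm, mul_one_div]
    congr 2
    funext i
    unfold vtx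
    split_ifs <;> simp
  change ∑' o : Fin q, hom φ (fun i => if o = i then 1 else 0) = _
  simp only [e, tsum_fintype, avg, Finset.sum_div]

lemma E_one (φ : (Fin q → ℝ) → ℝ) : (one q).E φ = φ (fun _ => 1) := by
  change ∑' _ : Unit, hom φ (fun _ => 1) = _
  simp [hom_of_simp φ one_mem_simp]

lemma E_ch (F : Fam q) {lam : ℝ} (h : Adm q lam) (φ : (Fin q → ℝ) → ℝ) :
    (F.ch h).E φ = F.E (fun f => φ (shr lam f)) := by
  have hq := (q_pos_Exp2 (q := q)).ne'
  refine tsum_congr fun o => ?_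
  change hom φ (fun i => ∑ j, chan q lam i j * F.l o j) = hom _ (F.l o)
  simp only [chan_apply]
  have e : avg (fun i => lam * F.l o i + (1 - lam) * avg (F.l o)) = avg (F.l o) := by
    simp only [avg, Finset.sum_add_distrib, ← Finset.mul_sum, Finset.sum_const, Finset.card_univ,
      Fintype.card_fin, nsmul_eq_mul]
    field_simp
    ring
  rw [hom, hom, e]
  by_cases h0 : avg (F.l o) = 0
  · simp only [h0, zero_mul]
  · congr 2
    funext i
    simp only [shr]
    field_simp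
    ring

lemma bdd_E_mul (G : Fam q) (h : Bdd φ) : Bdd (fun f => G.E (fun g => hom φ (f * g))) := by
  obtain ⟨C, hC⟩ := h
  exact ⟨C * q, fun f hf => G.E_abs_le fun g hg => abs_hom_mul_le hC hf hg⟩

lemma E_mul (F G : Fam q) (h : Bdd φ) :
    (F.mul G).E φ = F.E (fun f => G.E (fun g => hom φ (f * g))) := by
  have e1 : ∀ f, G.E (fun g => hom φ (f * g)) = ∑' o, hom φ (G.l o * f) := fun f =>
    tsum_congr fun o => by rw [hom_mul_Exp2 φ f (G.nonneg o), mul_comm]
  refine (((F.mul G).summable_hom h).tsum_prod).trans (tsum_congr fun o => ?_)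
  simp only [e1]
  rw [hom, ← tsum_mul_left]
  refine tsum_congr fun o' => ?_
  refine Eq.trans ?_ (hom_mul_Exp2 φ (G.l o') (F.nonneg o)).symm
  rw [mul_comm]
  rfl

lemma E_mul_comm (F G : Fam q) (φ : (Fin q → ℝ) → ℝ) : (F.mul G).E φ = (G.mul F).E φ := by
  refine Eq.trans ?_ ((Equiv.prodComm F.ι G.ι).tsum_eq fun o => hom φ ((G.mul F).l o))
  refine tsum_congr fun o => congrArg (hom φ) (funext fun i => mul_comm _ _)

lemma E_mul_one (F : Fam q) (h : Bdd φ) : (F.mul (one q)).E φ = F.E φ := by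
  rw [E_mul _ _ h]
  refine F.E_congr fun f hf => ?_
  rw [E_one, ← hom_of_simp φ hf]
  exact congrArg (hom φ) (mul_one f)

lemma E_mix (p : ℕ → ℝ) (hp : ∀ k, 0 ≤ p k) (hs : HasSum p 1) (Fs : ℕ → Fam q) (h : Bdd φ) :
    HasSum (fun k => p k * (Fs k).E φ) ((mix p hp hs Fs).E φ) := by
  refine ((mix p hp hs Fs).summable_hom h).hasSum.sigma fun k => ?_
  have := ((Fs k).summable_hom h).hasSum.mul_left (p k)
  simp only [← hom_smul φ (hp k)] at this
  exact this

lemma sym_delta : (delta q).Sym := by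
  intro τ φ _
  rw [E_delta, E_delta, ← avg_perm (fun i => φ (vtx i)) τ.symm]
  congr 1
  funext i
  refine congrArg φ (funext fun j => ?_)
  simp only [vtx, Function.comp, Equiv.symm_apply_eq]

lemma sym_one : (one q).Sym := by
  intro τ φ _
  rw [E_one, E_one]
  rfl

lemma Sym.ch {F : Fam q} (hF : F.Sym) {lam : ℝ} (h : Adm q lam) : (F.ch h).Sym := by
  intro τ φ hφ
  rw [E_ch, E_ch]
  exact hF τ _ (hφ.shr h)

lemma Sym.mul {F G : Fam q} (hF : F.Sym) (hG : G.Sym) : (F.mul G).Sym := by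
  intro τ φ hφ
  rw [E_mul _ _ hφ, E_mul _ _ (hφ.perm τ), ← hF τ _ (bdd_E_mul G hφ)]
  refine F.E_congr fun f hf => ?_
  simp only [hom_perm]
  exact hG τ _ (bdd_hom_mul hφ (perm_mem hf τ))

lemma Sym.pow {F : Fam q} (hF : F.Sym) (k : ℕ) : (F.pow k).Sym := by
  induction k with
  | zero => exact sym_one
  | succ k ih => exact hF.mul ih

lemma sym_mix (p : ℕ → ℝ) (hp : ∀ k, 0 ≤ p k) (hs : HasSum p 1) (Fs : ℕ → Fam q)
    (h : ∀ k, (Fs k).Sym) : (mix p hp hs Fs).Sym := by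
  intro τ φ hφ
  have h1 := E_mix p hp hs Fs (hφ.perm τ)
  simp only [fun k => h k τ φ hφ] at h1
  exact h1.unique (E_mix p hp hs Fs hφ)

lemma sym_lev {p : ℕ → ℝ} {d s2 : ℝ} (hp : Off p d s2) {lam : ℝ} (h : Adm q lam) (n : ℕ) :
    (lev hp h n).Sym := by
  induction n with
  | zero => exact sym_delta
  | succ n ih => exact sym_mix p hp.nonneg hp.sum_one _ fun k => (ih.ch h).pow k

end Fam

end Vale.Agent.P154
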