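import Vale.Agent.P154.Defs

/-! Families of likelihood vectors and their expectations. -/

namespace Vale.Agent.P154

open scoped BigOperators

variable {q : ℕ}

noncomputable def avg (h : Fin q → ℝ) : ℝ := (∑ i, h i) / q

/-- normalised likelihood vectors -/
def Simp (q : ℕ) : Set (Fin q → ℝ) := {f | (∀ i, 0 ≤ f i) ∧ avg f = 1}

/-- one-homogeneous extension of a function on `Simp q` -/
noncomputable def hom (φ : (Fin q → ℝ) → ℝ) (h : Fin q → ℝ) : ℝ :=
  avg h * φ (fun i => h i / avg h)

def Bdd (φ : (Fin q → ℝ) → ℝ) : Prop := ∃ C : ℝ, ∀ f ∈ Simp q, |φ f| ≤ C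

/-- action of the channel on a normalised likelihood vector -/
def shr (lam : ℝ) (f : Fin q → ℝ) : Fin q → ℝ := fun i => 1 + lam * (f i - 1)

/-- average over all permutations of the colours -/
noncomputable def pavg (F : Equiv.Perm (Fin q) → ℝ) : ℝ := (∑ τ, F τ) / (q.factorial : ℝ)

structure Fam (q : ℕ) where
  ι : Type
  l : ι → Fin q → ℝ
  nonneg : ∀ o i, 0 ≤ l o i
  hasSum : ∀ i, HasSum (fun o => l o i) 1

/-- admissible channel parameter -/
def Adm (q : ℕ) (lam : ℝ) : Prop := -1 ≤ lam * ((q : ℝ) - 1) ∧ lam ≤ 1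

/-- admissible offspring law with mean `d` and finite second factorial moment `s2` -/
structure Off (p : ℕ → ℝ) (d s2 : ℝ) : Prop where
  nonneg : ∀ k, 0 ≤ p k
  sum_one : HasSum p 1
  mean : HasSum (fun k : ℕ => p k * (k : ℝ)) d
  second : HasSum (fun k : ℕ => p k * ((k : ℝ) * ((k : ℝ) - 1))) s2

lemma chan_nonneg [NeZero q] {lam : ℝ} (h : Adm q lam) (i j : Fin q) : 0 ≤ chan q lam i j := by
  have hq : (0 : ℝ) < q := by exact_mod_cast Nat.pos_of_ne_zero (NeZero.ne q)
  unfold chan
  split_ifs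
  · have : lam * 1 + (1 - lam) / q = (lam * ((q : ℝ) - 1) + 1) / q := by field_simp; ring
    rw [this]; apply div_nonneg _ hq.le; linarith [h.1]
  · have := h.2
    have : 0 ≤ (1 - lam) / (q : ℝ) := div_nonneg (by linarith) hq.le
    linarith

lemma chan_sum [NeZero q] (lam : ℝ) (i : Fin q) : ∑ j, chan q lam i j = 1 := by
  have hq : (q : ℝ) ≠ 0 := by exact_mod_cast (NeZero.ne q)
  simp [chan, Finset.sum_add_distrib]
  field_simp; ring

lemma chan_apply [NeZero q] (lam : ℝ) (h : Fin q → ℝ) (i : Fin q) :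
    ∑ j, chan q lam i j * h j = lam * h i + (1 - lam) * avg h := by
  simp [chan, add_mul, Finset.sum_add_distrib, avg, ← Finset.mul_sum]
  ring

namespace Fam

noncomputable def ex (F : Fam q) (Φ : (Fin q → ℝ) → ℝ) : ℝ := ∑' o, Φ (F.l o)

noncomputable def E (F : Fam q) (φ : (Fin q → ℝ) → ℝ) : ℝ := F.ex (hom φ)

def Sym (F : Fam q) : Prop :=
  ∀ (τ : Equiv.Perm (Fin q)) (φ : (Fin q → ℝ) → ℝ), Bdd φ → F.E (fun f => φ (f ∘ τ)) = F.E φ

/-- the root spin is observed -/
def delta (q : ℕ) : Fam q where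
  ι := Fin q
  l := fun o i => if o = i then 1 else 0
  nonneg := by intro o i; split_ifs <;> norm_num
  hasSum := by
    intro i
    simpa using hasSum_ite_eq i (1 : ℝ)

/-- no observation -/
def one (q : ℕ) : Fam q where
  ι := Unit
  l := fun _ _ => 1
  nonneg := by intro o i; norm_num
  hasSum := by intro i; simp

noncomputable def ch [NeZero q] (F : Fam q) {lam : ℝ} (h : Adm q lam) : Fam q where
  ι := F.ι
  l := fun o i => ∑ j, chan q lam i j * F.l o j
  nonneg := fun o i => Finset.sum_nonneg fun j _ => mul_nonneg (chan_nonneg h i j) (F.nonneg o j)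
  hasSum := by
    intro i
    have := hasSum_sum (s := Finset.univ) (fun j _ => (F.hasSum j).mul_left (chan q lam i j))
    simpa [chan_sum] using this

def mul (F G : Fam q) : Fam q where
  ι := F.ι × G.ι
  l := fun o i => F.l o.1 i * G.l o.2 i
  nonneg := fun o i => mul_nonneg (F.nonneg _ _) (G.nonneg _ _)
  hasSum := by
    intro i
    have hs : Summable (fun o : F.ι × G.ι => F.l o.1 i * G.l o.2 i) :=
      (F.hasSum i).summable.mul_of_nonneg (G.hasSum i).summable (fun o => F.nonneg o i)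
        (fun o => G.nonneg o i)
    simpa using (F.hasSum i).mul (G.hasSum i) hs

def pow (F : Fam q) : ℕ → Fam q
  | 0 => one q
  | k + 1 => mul F (pow F k)

def mix (p : ℕ → ℝ) (hp : ∀ k, 0 ≤ p k) (hs : HasSum p 1) (Fs : ℕ → Fam q) : Fam q where
  ι := Σ k : ℕ, (Fs k).ι
  l := fun o i => p o.1 * (Fs o.1).l o.2 i
  nonneg := fun o i => mul_nonneg (hp _) ((Fs _).nonneg _ _)
  hasSum := by
    intro i
    have h1 : ∀ k, HasSum (fun o : (Fs k).ι => p k * (Fs k).l o i) (p k) := fun k => by
      simpa using ((Fs k).hasSum i).mul_left (p k)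
    have hsm : Summable (fun o : (Σ k : ℕ, (Fs k).ι) => p o.1 * (Fs o.1).l o.2 i) := by
      rw [summable_sigma_of_nonneg (fun o => mul_nonneg (hp _) ((Fs _).nonneg _ _))]
      refine ⟨fun k => (h1 k).summable, ?_⟩
      simpa [fun k => (h1 k).tsum_eq] using hs.summable
    have h2 := hsm.hasSum.sigma h1
    have h3 := hsm.hasSum
    rwa [← hs.unique h2] at h3

/-- one step of the tree recursion -/
noncomputable def step [NeZero q] {p : ℕ → ℝ} {d s2 : ℝ} (hp : Off p d s2) {lam : ℝ}
    (h : Adm q lam) (F : Fam q) : Fam q :=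
  mix p hp.nonneg hp.sum_one (fun k => (F.ch h).pow k)

noncomputable def lev [NeZero q] {p : ℕ → ℝ} {d s2 : ℝ} (hp : Off p d s2) {lam : ℝ}
    (h : Adm q lam) : ℕ → Fam q
  | 0 => delta q
  | n + 1 => step hp h (lev hp h n)

end Fam

/-- chi-square, third and fourth central moments of a normalised likelihood vector -/
noncomputable def ca (f : Fin q → ℝ) : ℝ := avg fun i => (f i - 1) ^ 2
noncomputable def cc (f : Fin q → ℝ) : ℝ := avg fun i => (f i - 1) ^ 3
noncomputable def ce (f : Fin q → ℝ) : ℝ := avg fun i => (f i - 1) ^ 4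

/-- total variation to uniform of the posterior `f / q` -/
noncomputable def tv (f : Fin q → ℝ) : ℝ := (1 / 2) * avg fun i => |f i - 1|

end Vale.Agent.P154
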