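import Vale.Agent.P154.Pair

/-! TASK Ferro: a certificate gives nonreconstruction for `0 ≤ lam`, `d * lam^2 ≤ 1`.
Plan. Invariant: `0 ≤ (lev n).E C.ψ` (level 0: `E_delta`, `vertex`; channel: `E_ch`, `rad`;
powers: `E_one`, `one`, `pair_ge` with `T` and `E_nonneg`; mixture: `E_mix`, `HasSum.nonneg`).
With `F = (lev n).ch h`, `B = F.E ca = lam^2 * A n` (`ca_shr`), `A_k = (F.pow k).E ca`:
`A_0 = 0`, `A_1 = B` (`E_mul_one`), and `pair_le` with `S` gives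
`A_{k+1} ≤ B + A_k - t * B * (F.pow k).E (ca^2) ≤ B + A_k - t * B * A_k^2` (`E_sq_le`), so
`A_k ≤ k * B` and `A_k ≤ k * B - t * B^3` for `k ≥ 2`. By `E_mix` and `Off.mean`:
`A (n+1) ≤ d * B - t * p k0 * B^3` (compare sums termwise with `hasSum_le`, using
`hasSum_ite_eq k0`). So `0 ≤ A (n+1) ≤ A n - c * A n ^ 3` with `c = t * p k0 * lam^6`; if
`lam ≠ 0` the antitone sequence converges to a limit `L` with `c * L^3 ≤ 0`; if `lam = 0` then
`A (n+1) ≤ d * 0 = 0`. -/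

namespace Vale.Agent.P154

open Filter Topology

structure Cert (q : ℕ) where
  ψ : (Fin q → ℝ) → ℝ
  α : (Fin q → ℝ) → ℝ
  β : (Fin q → ℝ) → ℝ
  t : ℝ
  bψ : Bdd ψ
  bα : Bdd α
  bβ : Bdd β
  hα : ∀ f ∈ Simp q, 0 ≤ α f
  hβ : ∀ f ∈ Simp q, 0 ≤ β f
  ht : 0 < t
  S : ∀ f ∈ Simp q, ∀ g ∈ Simp q, pavg (fun τ => hom ca (f * (g ∘ τ))) ≤
    ca f + ca g - α g * ψ f - α f * ψ g - t * (ca f * ca g ^ 2)
  T : ∀ f ∈ Simp q, ∀ g ∈ Simp q, β g * ψ f + β f * ψ g ≤ pavg (fun τ => hom ψ (f * (g ∘ τ)))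
  rad : ∀ lam : ℝ, 0 ≤ lam → lam ≤ 1 → ∀ f ∈ Simp q, lam ^ 3 * ψ f ≤ ψ (shr lam f)
  vertex : ∀ i, 0 ≤ ψ (vtx i)
  one : ψ (fun _ => 1) = 0

section

variable {q : ℕ} [NeZero q]

lemma psi_mul_Ferro (C : Cert q) {F G : Fam q} (hG : G.Sym) (h1 : 0 ≤ F.E C.ψ)
    (h2 : 0 ≤ G.E C.ψ) : 0 ≤ (F.mul G).E C.ψ := by
  have h := pair_ge F G hG C.bψ [(C.ψ, C.β), (C.β, C.ψ)]
    (by
      intro p hp
      simp only [List.mem_cons, List.not_mem_nil, or_false] at hp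
      rcases hp with rfl | rfl
      · exact ⟨C.bψ, C.bβ⟩
      · exact ⟨C.bβ, C.bψ⟩)
    (fun f hf g hg => by
      have := C.T f hf g hg
      simp only [List.map_cons, List.map_nil, List.sum_cons, List.sum_nil]
      linarith)
  simp only [List.map_cons, List.map_nil, List.sum_cons, List.sum_nil] at h
  have h3 := mul_nonneg h1 (G.E_nonneg C.hβ)
  have h4 := mul_nonneg (F.E_nonneg C.hβ) h2
  linarith

lemma psi_pow_Ferro (C : Cert q) {F : Fam q} (hF : F.Sym) (h1 : 0 ≤ F.E C.ψ) (k : ℕ) :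
    0 ≤ (F.pow k).E C.ψ := by
  induction k with
  | zero => rw [Fam.pow, Fam.E_one, C.one]
  | succ k ih => exact psi_mul_Ferro C (hF.pow k) h1 ih

lemma psi_ch_Ferro (C : Cert q) {F : Fam q} {lam : ℝ} (h : Adm q lam) (h0 : 0 ≤ lam)
    (h1 : 0 ≤ F.E C.ψ) : 0 ≤ (F.ch h).E C.ψ := by
  rw [Fam.E_ch]
  refine le_trans ?_ (F.E_mono (C.bψ.smul (lam ^ 3)) (C.bψ.shr h) (C.rad lam h0 h.2))
  rw [Fam.E_smul]
  positivity

lemma psi_lev_Ferro (C : Cert q) {p : ℕ → ℝ} {d s2 : ℝ} (hp : Off p d s2) {lam : ℝ}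
    (h : Adm q lam) (h0 : 0 ≤ lam) (n : ℕ) : 0 ≤ (Fam.lev hp h n).E C.ψ := by
  induction n with
  | zero =>
    rw [Fam.lev, Fam.E_delta]
    exact avg_nonneg C.vertex
  | succ n ih =>
    refine (Fam.E_mix p hp.nonneg hp.sum_one _ C.bψ).nonneg fun k => mul_nonneg (hp.nonneg k) ?_
    exact psi_pow_Ferro C ((Fam.sym_lev hp h n).ch h) (psi_ch_Ferro C h h0 ih) k

lemma ca_mul_Ferro (C : Cert q) {F G : Fam q} (hG : G.Sym) (h1 : 0 ≤ F.E C.ψ)
    (h2 : 0 ≤ G.E C.ψ) :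
    (F.mul G).E ca ≤ F.E ca + G.E ca - C.t * (F.E ca * G.E ca ^ 2) := by
  have h := pair_le F G hG bdd_ca [(ca, fun _ => 1), (fun _ => 1, ca), (fun f => -C.ψ f, C.α),
      (fun f => -C.α f, C.ψ), (fun f => -C.t * ca f, fun g => ca g ^ 2)]
    (by
      intro p hp
      simp only [List.mem_cons, List.not_mem_nil, or_false] at hp
      rcases hp with rfl | rfl | rfl | rfl | rfl
      · exact ⟨bdd_ca, Bdd.const 1⟩
      · exact ⟨Bdd.const 1, bdd_ca⟩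
      · exact ⟨C.bψ.neg, C.bα⟩
      · exact ⟨C.bα.neg, C.bψ⟩
      · exact ⟨bdd_ca.smul _, bdd_ca.sq⟩)
    (fun f hf g hg => by
      have := C.S f hf g hg
      simp only [List.map_cons, List.map_nil, List.sum_cons, List.sum_nil]
      linarith)
  simp only [List.map_cons, List.map_nil, List.sum_cons, List.sum_nil] at h
  rw [Fam.E_const, Fam.E_const, Fam.E_neg, Fam.E_neg, Fam.E_smul] at h
  have h3 := mul_nonneg h1 (G.E_nonneg C.hα)
  have h4 := mul_nonneg (F.E_nonneg C.hα) h2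
  have h5 : 0 ≤ F.E ca := F.E_nonneg fun f _ => ca_nonneg f
  have h6 := mul_le_mul_of_nonneg_left (G.E_sq_le bdd_ca) (mul_nonneg C.ht.le h5)
  linarith

lemma ca_pow_Ferro (C : Cert q) {F : Fam q} (hF : F.Sym) (h1 : 0 ≤ F.E C.ψ) (k : ℕ) :
    (F.pow k).E ca ≤ k * F.E ca - if 2 ≤ k then C.t * F.E ca ^ 3 else 0 := by
  have h5 : 0 ≤ F.E ca := F.E_nonneg fun f _ => ca_nonneg f
  have step : ∀ k, (F.pow (k + 1)).E ca ≤
      F.E ca + (F.pow k).E ca - C.t * (F.E ca * (F.pow k).E ca ^ 2) := fun k =>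
    ca_mul_Ferro C (hF.pow k) h1 (psi_pow_Ferro C hF h1 k)
  have e1 : (F.pow 1).E ca = F.E ca := F.E_mul_one bdd_ca
  match k with
  | 0 => simp [Fam.pow, Fam.E_one, ca_one]
  | 1 => simp [e1]
  | k + 2 =>
    rw [if_pos (by omega)]
    induction k with
    | zero =>
      have := step 1
      rw [e1] at this
      push_cast
      linarith
    | succ k ih =>
      have := step (k + 2)
      have h6 : 0 ≤ C.t * (F.E ca * (F.pow (k + 2)).E ca ^ 2) :=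
        mul_nonneg C.ht.le (mul_nonneg h5 (sq_nonneg _))
      push_cast at ih ⊢
      linarith

lemma ca_step_Ferro (C : Cert q) {p : ℕ → ℝ} {d s2 : ℝ} (hp : Off p d s2) {k0 : ℕ} (hk : 2 ≤ k0)
    {lam : ℝ} (h : Adm q lam) (h0 : 0 ≤ lam) (n : ℕ) :
    (Fam.lev hp h (n + 1)).E ca ≤ d * lam ^ 2 * (Fam.lev hp h n).E ca -
      C.t * p k0 * lam ^ 6 * (Fam.lev hp h n).E ca ^ 3 := by
  have hB : ((Fam.lev hp h n).ch h).E ca = lam ^ 2 * (Fam.lev hp h n).E ca := by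
    rw [Fam.E_ch, ← Fam.E_smul]
    simp only [ca_shr]
  have hS := (Fam.sym_lev hp h n).ch h
  have hψ := psi_ch_Ferro C h h0 (psi_lev_Ferro C hp h h0 n)
  have h5 : 0 ≤ ((Fam.lev hp h n).ch h).E ca := Fam.E_nonneg _ fun f _ => ca_nonneg f
  have h1 := Fam.E_mix p hp.nonneg hp.sum_one (fun k => ((Fam.lev hp h n).ch h).pow k) bdd_ca
  have h2 := (hp.mean.mul_right (((Fam.lev hp h n).ch h).E ca)).sub
    (hasSum_ite_eq k0 (p k0 * (C.t * ((Fam.lev hp h n).ch h).E ca ^ 3)))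
  have h3 := hasSum_le (fun k => ?_) h1 h2
  · rw [hB] at h3
    refine le_trans h3 (le_of_eq ?_)
    ring
  have h4 := mul_le_mul_of_nonneg_left (ca_pow_Ferro C hS hψ k) (hp.nonneg k)
  refine h4.trans ?_
  have h6 : 0 ≤ p k * (C.t * ((Fam.lev hp h n).ch h).E ca ^ 3) :=
    mul_nonneg (hp.nonneg k) (mul_nonneg C.ht.le (pow_nonneg h5 3))
  by_cases e : k = k0
  · subst e
    rw [if_pos hk, if_pos rfl]
    linarith
  · rw [if_neg e]
    split_ifs <;> linarith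

lemma seq_Ferro {A : ℕ → ℝ} {c : ℝ} (hc : 0 < c) (h0 : ∀ n, 0 ≤ A n)
    (h : ∀ n, A (n + 1) ≤ A n - c * A n ^ 3) : Tendsto A atTop (𝓝 0) := by
  have hA : Antitone A := antitone_nat_of_succ_le fun n => by
    have := mul_nonneg hc.le (pow_nonneg (h0 n) 3)
    linarith [h n]
  have hb : BddBelow (Set.range A) := ⟨0, by rintro _ ⟨n, rfl⟩; exact h0 n⟩
  have hL := tendsto_atTop_ciInf hA hb
  generalize (⨅ i, A i) = L at hL
  have h1 : 0 ≤ L := ge_of_tendsto' hL h0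
  have h2 : L ≤ L - c * L ^ 3 :=
    le_of_tendsto_of_tendsto' (hL.comp (tendsto_add_atTop_nat 1))
      (hL.sub ((hL.pow 3).const_mul c)) h
  have h3 : L = 0 := by
    by_contra hne
    have := mul_pos hc (pow_pos (lt_of_le_of_ne h1 (Ne.symm hne)) 3)
    linarith
  rwa [h3] at hL

end

theorem Cert.tendsto {q : ℕ} [NeZero q] (C : Cert q) {p : ℕ → ℝ} {d s2 : ℝ} (hp : Off p d s2)
    (h2 : ∃ k, 2 ≤ k ∧ 0 < p k) {lam : ℝ} (h : Adm q lam) (h0 : 0 ≤ lam)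
    (hd : d * lam ^ 2 ≤ 1) :
    Tendsto (fun n => (Fam.lev hp h n).E ca) atTop (𝓝 0) := by
  obtain ⟨k0, hk, hpk⟩ := h2
  have hA : ∀ n, 0 ≤ (Fam.lev hp h n).E ca := fun n => Fam.E_nonneg _ fun f _ => ca_nonneg f
  have hs := ca_step_Ferro C hp hk h h0
  rcases h0.eq_or_lt with e | e
  · rw [← tendsto_add_atTop_iff_nat 1]
    refine tendsto_const_nhds.congr fun n => le_antisymm (hA _) ?_
    have := hs n
    have e2 : lam ^ 2 = 0 := by rw [← e]; ring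
    have e6 : lam ^ 6 = 0 := by rw [← e]; ring
    rw [e2, e6] at this
    linarith
  · refine seq_Ferro (c := C.t * p k0 * lam ^ 6) (mul_pos (mul_pos C.ht hpk) (pow_pos e 6)) hA
      fun n => ?_
    have := mul_le_mul_of_nonneg_right hd (hA n)
    linarith [hs n]

end Vale.Agent.P154
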