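import Vale.Agent.P154.Pair

/-! TASK KS: the Kesten-Stigum direction, a positive lower bound for the chi-square.
Plan. With `F = (lev n).ch h`, `B = F.E ca = lam^2 * A n`, `A_k = (F.pow k).E ca`.
`pair_ge` with `ks1`: `A_{k+1} ≥ B + A_k - 2 * B * A_k`; `pair_ge` with `ks2` and `E_mul_comm`:
`A_{k+1} ≥ B`. Claim `A_k ≥ k B - k (k-1) B^2`: if `2 B ≤ 1`, induction:
`A_{k+1} ≥ B + (1 - 2B) A_k ≥ B + (1-2B)(kB - k(k-1)B^2) ≥ (k+1) B - (k+1) k B^2`;
if `2 B > 1` use `A_k ≥ 0` when `(k-1) B ≥ 1`, and `A_k ≥ B` for `k = 1, 2`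
(`2B - 2B^2 ≤ B` iff `B ≥ 1/2`), `k = 0` trivial (`k ≥ 3` has `(k-1) B > 1`).
By `E_mix`, `Off.mean`, `Off.second`: `A (n+1) ≥ d B - s2 B^2`, and
`A (n+1) ≥ p k1 * B` for some `k1 ≥ 1` with `p k1 > 0` (exists as `d > 0`).
Put `r = d lam^2 > 1`, `x0 = (r - 1) / (s2 lam^4 + 1)` (`s2 ≥ 0`),
`ε = min (min x0 (p k1 * lam^2 * x0)) (q - 1)`; induction on `n` (`A 0 = q - 1` by `E_delta`,
`ca_vtx`): if `ε ≤ A n ≤ x0` then `A (n+1) ≥ A n`, if `A n ≥ x0` use the second bound. -/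

namespace Vale.Agent.P154

lemma mul_ge1_KS {q : ℕ} [NeZero q] (F G : Fam q) (hG : G.Sym) :
    F.E ca + G.E ca - 2 * (F.E ca * G.E ca) ≤ (F.mul G).E ca := by
  have h := pair_ge F G hG bdd_ca
    [(ca, fun _ => 1), (fun _ => 1, ca), (fun f => (-2) * ca f, ca)]
    (by
      intro p hp
      simp only [List.mem_cons, List.not_mem_nil, or_false] at hp
      rcases hp with rfl | rfl | rfl
      · exact ⟨bdd_ca, Bdd.const 1⟩
      · exact ⟨Bdd.const 1, bdd_ca⟩
      · exact ⟨Bdd.smul (-2) bdd_ca, bdd_ca⟩)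
    (by
      intro f hf g hg
      have := ks1 hf hg
      simp only [List.map_cons, List.map_nil, List.sum_cons, List.sum_nil]
      linarith)
  simp only [List.map_cons, List.map_nil, List.sum_cons, List.sum_nil, Fam.E_const,
    Fam.E_smul] at h
  linarith

lemma mul_ge2_KS {q : ℕ} [NeZero q] (F G : Fam q) (hG : G.Sym) :
    G.E ca ≤ (F.mul G).E ca := by
  have h := pair_ge F G hG bdd_ca [(fun _ => 1, ca)]
    (by
      intro p hp
      simp only [List.mem_cons, List.not_mem_nil, or_false] at hp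
      rcases hp with rfl
      exact ⟨Bdd.const 1, bdd_ca⟩)
    (by
      intro f hf g hg
      have := ks2 hf hg
      simp only [List.map_cons, List.map_nil, List.sum_cons, List.sum_nil]
      linarith)
  simp only [List.map_cons, List.map_nil, List.sum_cons, List.sum_nil, Fam.E_const] at h
  linarith

lemma E_ca_nonneg_KS {q : ℕ} [NeZero q] (F : Fam q) : 0 ≤ F.E ca :=
  F.E_nonneg fun f _ => ca_nonneg f

lemma pow_succ_ge_KS {q : ℕ} [NeZero q] (F : Fam q) (hF : F.Sym) (k : ℕ) :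
    F.E ca ≤ (F.pow (k + 1)).E ca := by
  have : (F.pow (k + 1)).E ca = ((F.pow k).mul F).E ca := Fam.E_mul_comm F (F.pow k) ca
  rw [this]
  exact mul_ge2_KS _ _ hF

lemma pow_ge_KS {q : ℕ} [NeZero q] (F : Fam q) (hF : F.Sym) (k : ℕ) :
    (k : ℝ) * F.E ca - (k : ℝ) * ((k : ℝ) - 1) * F.E ca ^ 2 ≤ (F.pow k).E ca := by
  have hB := E_ca_nonneg_KS F
  by_cases hs : 2 * F.E ca ≤ 1
  · induction k with
    | zero => simpa using E_ca_nonneg_KS (F.pow 0)
    | succ k ih =>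
      have h1 : F.E ca + (F.pow k).E ca - 2 * (F.E ca * (F.pow k).E ca) ≤
          (F.pow (k + 1)).E ca := mul_ge1_KS F (F.pow k) (hF.pow k)
      have h2 := mul_le_mul_of_nonneg_left ih (sub_nonneg.2 hs)
      have h3 : 0 ≤ (k : ℝ) * ((k : ℝ) - 1) := by
        rcases Nat.eq_zero_or_pos k with rfl | hk
        · simp
        · have : (1 : ℝ) ≤ k := by exact_mod_cast hk
          exact mul_nonneg (by linarith) (by linarith)
      have h4 : 0 ≤ (k : ℝ) * ((k : ℝ) - 1) * F.E ca ^ 3 := mul_nonneg h3 (pow_nonneg hB 3)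
      push_cast
      nlinarith
  · have hs' : 1 < 2 * F.E ca := not_le.1 hs
    rcases k with _ | k
    · simpa using E_ca_nonneg_KS (F.pow 0)
    · have h1 := pow_succ_ge_KS F hF k
      rcases k with _ | k
      · simpa using h1
      · have hk : (0 : ℝ) ≤ k := Nat.cast_nonneg k
        push_cast
        have h5 : (0 : ℝ) ≤ ((k : ℝ) + 1) * F.E ca := mul_nonneg (by linarith) hB
        have h6 : (1 : ℝ) ≤ ((k : ℝ) + 2) * F.E ca := by nlinarith
        have h7 := mul_le_mul_of_nonneg_left h6 h5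
        nlinarith

lemma lev_step_KS {q : ℕ} [NeZero q] {p : ℕ → ℝ} {d s2 : ℝ} (hp : Off p d s2)
    {lam : ℝ} (h : Adm q lam) (n : ℕ) :
    d * (lam ^ 2 * (Fam.lev hp h n).E ca) - s2 * (lam ^ 2 * (Fam.lev hp h n).E ca) ^ 2 ≤
        (Fam.lev hp h (n + 1)).E ca ∧
      ∀ k, p (k + 1) * (lam ^ 2 * (Fam.lev hp h n).E ca) ≤ (Fam.lev hp h (n + 1)).E ca := by
  have hF : ((Fam.lev hp h n).ch h).Sym := (Fam.sym_lev hp h n).ch h
  have hB : ((Fam.lev hp h n).ch h).E ca = lam ^ 2 * (Fam.lev hp h n).E ca := by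
    rw [Fam.E_ch]
    simp only [ca_shr]
    exact Fam.E_smul _ _ _
  have hm : HasSum (fun k => p k * (((Fam.lev hp h n).ch h).pow k).E ca)
      ((Fam.lev hp h (n + 1)).E ca) :=
    Fam.E_mix p hp.nonneg hp.sum_one (fun k => ((Fam.lev hp h n).ch h).pow k) bdd_ca
  rw [← hB]
  refine ⟨?_, fun k => ?_⟩
  · have h1 := (hp.mean.mul_right (((Fam.lev hp h n).ch h).E ca)).sub
      (hp.second.mul_right (((Fam.lev hp h n).ch h).E ca ^ 2))
    refine hasSum_le (fun k => ?_) h1 hm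
    have := mul_le_mul_of_nonneg_left (pow_ge_KS _ hF k) (hp.nonneg k)
    linarith
  · refine le_trans (mul_le_mul_of_nonneg_left (pow_succ_ge_KS _ hF k) (hp.nonneg _)) ?_
    exact le_hasSum hm (k + 1) fun j _ => mul_nonneg (hp.nonneg j) (E_ca_nonneg_KS _)

theorem ks_lower {q : ℕ} [NeZero q] (hq : 2 ≤ q) {p : ℕ → ℝ} {d s2 : ℝ} (hp : Off p d s2)
    {lam : ℝ} (h : Adm q lam) (hd : 1 < d * lam ^ 2) :
    ∃ ε : ℝ, 0 < ε ∧ ∀ n, ε ≤ (Fam.lev hp h n).E ca := by
  have hs2 : 0 ≤ s2 := by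
    refine hp.second.nonneg fun k => mul_nonneg (hp.nonneg k) ?_
    rcases Nat.eq_zero_or_pos k with rfl | hk
    · simp
    · have : (1 : ℝ) ≤ k := by exact_mod_cast hk
      exact mul_nonneg (by linarith) (by linarith)
  have hl : 0 < lam ^ 2 := by
    rcases (sq_nonneg lam).lt_or_eq with h1 | h1
    · exact h1
    · rw [← h1] at hd; linarith
  obtain ⟨k1, hk1⟩ : ∃ k, 0 < p (k + 1) := by
    by_contra hne
    have hz : ∀ k, p (k + 1) = 0 := fun k =>
      le_antisymm (not_lt.1 fun hk => hne ⟨k, hk⟩) (hp.nonneg _)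
    have h0 : (fun k : ℕ => p k * (k : ℝ)) = fun _ => 0 := by
      funext k
      rcases k with _ | k
      · simp
      · rw [hz k, zero_mul]
    have h1 := hp.mean
    rw [h0] at h1
    have : d = 0 := h1.unique hasSum_zero
    rw [this] at hd
    linarith
  have hq' : (2 : ℝ) ≤ q := by exact_mod_cast hq
  have hden : 0 < s2 * (lam ^ 2) ^ 2 + 1 := by positivity
  obtain ⟨x0, hx0⟩ : ∃ x0 : ℝ, x0 = (d * lam ^ 2 - 1) / (s2 * (lam ^ 2) ^ 2 + 1) := ⟨_, rfl⟩
  have hx0p : 0 < x0 := by rw [hx0]; exact div_pos (by linarith) hden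
  have hx0e : x0 * (s2 * (lam ^ 2) ^ 2 + 1) = d * lam ^ 2 - 1 := by
    rw [hx0]; exact div_mul_cancel₀ _ hden.ne'
  refine ⟨min (min x0 (p (k1 + 1) * (lam ^ 2 * x0))) ((q : ℝ) - 1),
    lt_min (lt_min hx0p (by positivity)) (by linarith), fun n => ?_⟩
  induction n with
  | zero =>
    have : (Fam.lev hp h 0).E ca = (q : ℝ) - 1 := by
      have h1 : (Fam.lev hp h 0).E ca = avg fun i : Fin q => ca (vtx i) := Fam.E_delta ca
      rw [h1]
      simp only [ca_vtx, avg_const]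
    rw [this]
    exact min_le_right _ _
  | succ n ih =>
    obtain ⟨h1, h2⟩ := lev_step_KS hp h n
    have hA := E_ca_nonneg_KS (Fam.lev hp h n)
    by_cases hc : (Fam.lev hp h n).E ca ≤ x0
    · refine le_trans ih (le_trans ?_ h1)
      have h3 : s2 * (lam ^ 2) ^ 2 * (Fam.lev hp h n).E ca ≤ s2 * (lam ^ 2) ^ 2 * x0 :=
        mul_le_mul_of_nonneg_left hc (by positivity)
      have h4 : s2 * (lam ^ 2) ^ 2 * (Fam.lev hp h n).E ca ≤ d * lam ^ 2 - 1 := by nlinarith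
      have h5 := mul_le_mul_of_nonneg_left h4 hA
      nlinarith
    · refine le_trans (le_trans (min_le_left _ _) (min_le_right _ _)) (le_trans ?_ (h2 k1))
      exact mul_le_mul_of_nonneg_left
        (mul_le_mul_of_nonneg_left (not_le.1 hc).le hl.le) hk1.le

end Vale.Agent.P154
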