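import Vale.Agent.P154.KrDef

/-! TASK KrBase: expressions as integer polynomials, and digits of packed integers.
Plan. All `toP` lemmas are by induction on the expression (the recursor definitions unfold by
`rfl`: state `kv s (add a b) = kv s a + kv s b` etc. with `rfl`/`show`). For `abs_coeff_le` use the
majorant `toA e` (constants replaced by absolute values): `|coeff m (toP e)| ≤ coeff m (toA e)` by
induction (`MvPolynomial.coeff_mul`, triangle inequality), and `coeff m (toA e) ≤ eval 1 (toA e) = nrm e`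
because all coefficients of `toA e` are nonnegative (`MvPolynomial.eval_eq`).
`degreeOf_mul_le`, `degreeOf_add_le`, `totalDegree_mul`, `totalDegree_add`; `toP_nv` follows from
`degreeOf i (toP e) = 0` for `nv e ≤ i` (`MvPolynomial.monomial_le_degreeOf`).
Digits: `mask_eq` is `Nat.geomSum_eq`. `digit_eq`: the natural number is
`∑ j < N, d j * 2^(W j)` with `d j = (c j + 2^(W-1)).toNat < 2^W`; induction on `N` or
`Nat.ofDigits`. `mskOK_sound`: `u &&& O = O` gives `testBit u (W j + W - 1)` (`Nat.testBit_and`,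
the mask has that bit by `digit_eq` with `c = 0`), so the `j`-th digit is at least `2^(W-1)`.
`pack`: regroup `MvPolynomial.eval_eq` with `Finset.sum_fiberwise_of_maps_to`. -/

namespace Vale.Agent.P154

open MvPolynomial

namespace Ex

noncomputable def toP : Ex → MvPolynomial ℕ ℤ
  | v i => X i
  | c z => C z
  | add a b => toP a + toP b
  | mul a b => toP a * toP b

theorem ev_toP (x : ℕ → ℝ) (e : Ex) :
    e.ev x = ∑ m ∈ e.toP.support, ((coeff m e.toP : ℤ) : ℝ) * m.prod (fun i k => x i ^ k) := by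
  have h : e.ev x = eval₂ (Int.castRingHom ℝ) x e.toP := by
    induction e with
    | v i => simp [toP]
    | c z => rw [toP, eval₂_C]; rfl
    | add a b ha hb => rw [ev_add, toP, eval₂_add, ha, hb]
    | mul a b ha hb => rw [ev_mul, toP, eval₂_mul, ha, hb]
  rw [h, eval₂_eq]
  rfl

theorem kv_toP (s : ℕ → ℕ) (e : Ex) :
    e.kv s = ∑ m ∈ e.toP.support, coeff m e.toP * 2 ^ (m.sum fun i k => s i * k) := by
  have h : e.kv s = eval (fun i => (2 : ℤ) ^ s i) e.toP := by
    induction e with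
    | v i =>
      rw [toP, eval_X]
      change ((1 <<< s i : ℕ) : ℤ) = _
      rw [Nat.one_shiftLeft, Nat.cast_pow, Nat.cast_ofNat]
    | c z => rw [toP, eval_C]; rfl
    | add a b ha hb => rw [toP, map_add, ← ha, ← hb]; rfl
    | mul a b ha hb => rw [toP, map_mul, ← ha, ← hb]; rfl
  rw [h, eval_eq]
  simp only [← pow_mul, Finset.prod_pow_eq_pow_sum]
  rfl

/-- the majorant of `toP` -/
noncomputable def toA : Ex → MvPolynomial ℕ ℕ
  | v i => X i
  | c z => C z.natAbs
  | add a b => toA a + toA b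
  | mul a b => toA a * toA b

theorem abs_coeff_toA (e : Ex) (m : ℕ →₀ ℕ) : |coeff m e.toP| ≤ ((coeff m e.toA : ℕ) : ℤ) := by
  induction e generalizing m with
  | v i => rw [toP, toA, coeff_X, coeff_X]; split_ifs <;> simp
  | c z => rw [toP, toA, coeff_C, coeff_C]; split_ifs <;> simp
  | add a b ha hb =>
    rw [toP, toA, coeff_add, coeff_add, Nat.cast_add]
    exact (abs_add_le _ _).trans (add_le_add (ha m) (hb m))
  | mul a b ha hb =>
    rw [toP, toA, coeff_mul, coeff_mul, Nat.cast_sum]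
    refine (Finset.abs_sum_le_sum_abs _ _).trans (Finset.sum_le_sum fun p _ => ?_)
    rw [abs_mul, Nat.cast_mul]
    exact mul_le_mul (ha _) (hb _) (abs_nonneg _) (Nat.cast_nonneg _)

theorem abs_coeff_le (e : Ex) (m : ℕ →₀ ℕ) : |coeff m e.toP| ≤ (e.nrm : ℤ) := by
  have h1 : eval (fun _ => 1) e.toA = e.nrm := by
    induction e with
    | v i => rw [toA, eval_X]; rfl
    | c z => rw [toA, eval_C]; rfl
    | add a b ha hb => rw [toA, map_add, ha, hb]; rfl
    | mul a b ha hb => rw [toA, map_mul, ha, hb]; rfl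
  refine (abs_coeff_toA e m).trans (Int.ofNat_le.2 ?_)
  rw [← h1, eval_eq]
  simp only [one_pow, Finset.prod_const_one, mul_one]
  by_cases hm : m ∈ e.toA.support
  · exact Finset.single_le_sum (f := fun m => coeff m e.toA) (fun _ _ => Nat.zero_le _) hm
  · rw [notMem_support_iff.1 hm]
    exact Nat.zero_le _

theorem toP_dg (e : Ex) {m : ℕ →₀ ℕ} (hm : m ∈ e.toP.support) (i : ℕ) : m i ≤ e.dg i := by
  refine (monomial_le_degreeOf i hm).trans ?_
  clear hm
  induction e with
  | v j =>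
    rw [toP, degreeOf_X]
    split_ifs with h
    · subst h
      change 1 ≤ Bool.rec 0 1 (Nat.beq i i)
      rw [Nat.beq_refl]
    · exact Nat.zero_le _
  | c z => rw [toP, degreeOf_C]; exact Nat.zero_le _
  | add a b ha hb =>
    refine (degreeOf_add_le _ _ _).trans ?_
    change _ ≤ a.dg i + (b.dg i - a.dg i)
    omega
  | mul a b ha hb => exact (degreeOf_mul_le _ _ _).trans (Nat.add_le_add ha hb)

theorem toP_td (e : Ex) {m : ℕ →₀ ℕ} (hm : m ∈ e.toP.support) :
    (m.sum fun _ k => k) ≤ e.td := by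
  refine (le_totalDegree hm).trans ?_
  clear hm
  induction e with
  | v j => rw [toP, totalDegree_X]; exact le_rfl
  | c z => rw [toP, totalDegree_C]; exact Nat.zero_le _
  | add a b ha hb =>
    refine (totalDegree_add _ _).trans ?_
    change _ ≤ a.td + (b.td - a.td)
    omega
  | mul a b ha hb => exact (totalDegree_mul _ _).trans (Nat.add_le_add ha hb)

theorem toP_nv (e : Ex) {m : ℕ →₀ ℕ} (hm : m ∈ e.toP.support) {i : ℕ} (hi : e.nv ≤ i) :
    m i = 0 := by
  refine Nat.le_zero.1 ((toP_dg e hm i).trans ?_)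
  clear hm
  induction e with
  | v j =>
    change Bool.rec 0 1 (Nat.beq i j) ≤ 0
    have : Nat.beq i j = false := Bool.eq_false_iff.2 fun h => by
      have h1 := Nat.eq_of_beq_eq_true h
      change j + 1 ≤ i at hi
      omega
    rw [this]
  | c z => exact le_rfl
  | add a b ha hb =>
    change a.nv + (b.nv - a.nv) ≤ i at hi
    change a.dg i + (b.dg i - a.dg i) ≤ 0
    have := ha (by omega)
    have := hb (by omega)
    omega
  | mul a b ha hb =>
    change a.nv + (b.nv - a.nv) ≤ i at hi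
    change a.dg i + b.dg i ≤ 0
    have := ha (by omega)
    have := hb (by omega)
    omega

end Ex

theorem mask_eq {W : ℕ} (hW : 1 ≤ W) (N : ℕ) :
    mask W N = ∑ j ∈ Finset.range N, 2 ^ (W - 1) * 2 ^ (W * j) := by
  change (((1 <<< (W * N) - 1) / (1 <<< W - 1)) <<< (W - 1) : ℕ) = _
  rw [Nat.one_shiftLeft, Nat.one_shiftLeft, Nat.shiftLeft_eq, mul_comm, ← Finset.mul_sum, pow_mul,
    ← Nat.geomSum_eq (Nat.succ_le_of_lt (Nat.one_lt_two_pow (by omega)))]
  simp only [pow_mul]

theorem digit_KrBase (B N : ℕ) (d : ℕ → ℕ) (hd : ∀ j, d j < B) {j : ℕ} (hj : j < N) :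
    (∑ i ∈ Finset.range N, d i * B ^ i) / B ^ j % B = d j := by
  induction j generalizing N d with
  | zero =>
    obtain ⟨N, rfl⟩ := Nat.exists_eq_succ_of_ne_zero hj.ne'
    simp only [Finset.sum_range_succ', pow_succ, ← mul_assoc, ← Finset.sum_mul, pow_zero, mul_one,
      Nat.div_one, Nat.mul_add_mod_of_lt (hd 0)]
  | succ j ih =>
    obtain ⟨N, rfl⟩ := Nat.exists_eq_succ_of_ne_zero (Nat.ne_zero_of_lt hj)
    have hB : 0 < B := Nat.zero_lt_of_lt (hd 0)
    rw [pow_succ' B j, ← Nat.div_div_eq_div_mul]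
    simp only [Finset.sum_range_succ', pow_succ, ← mul_assoc, ← Finset.sum_mul, pow_zero, mul_one]
    rw [add_comm, Nat.add_mul_div_right _ _ hB, Nat.div_eq_of_lt (hd 0), zero_add]
    exact ih N (fun i => d (i + 1)) (fun i => hd _) (Nat.lt_of_succ_lt_succ hj)

theorem digit_eq {W N : ℕ} (hW : 1 ≤ W) (c : ℕ → ℤ) (hc : ∀ j, |c j| < 2 ^ (W - 1)) (u : ℕ)
    (hu : (u : ℤ) = ∑ j ∈ Finset.range N, c j * 2 ^ (W * j) + (mask W N : ℤ)) {j : ℕ}
    (hj : j < N) : (((u >>> (W * j)) % 2 ^ W : ℕ) : ℤ) = c j + 2 ^ (W - 1) := by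
  have h2 : (2 : ℤ) ^ W = 2 * 2 ^ (W - 1) := by rw [← pow_succ', Nat.sub_add_cancel hW]
  have h0 : ∀ j, (((c j + 2 ^ (W - 1)).toNat : ℕ) : ℤ) = c j + 2 ^ (W - 1) := fun j =>
    Int.toNat_of_nonneg (by linarith [(abs_lt.1 (hc j)).1])
  have h1 : u = ∑ j ∈ Finset.range N, (c j + 2 ^ (W - 1)).toNat * (2 ^ W) ^ j := by
    zify
    rw [hu, mask_eq hW]
    push_cast
    rw [← Finset.sum_add_distrib]
    exact Finset.sum_congr rfl fun j _ => by rw [h0, pow_mul]; ring
  rw [h1, Nat.shiftRight_eq_div_pow, pow_mul, digit_KrBase _ _ _ (fun j => ?_) hj, h0]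
  zify
  linarith [(abs_lt.1 (hc j)).2, h0 j]

theorem pack_nonneg {W N : ℕ} (hW : 1 ≤ W) (c : ℕ → ℤ) (hc : ∀ j, |c j| < 2 ^ (W - 1)) :
    0 ≤ ∑ j ∈ Finset.range N, c j * 2 ^ (W * j) + (mask W N : ℤ) := by
  rw [mask_eq hW]
  push_cast
  rw [← Finset.sum_add_distrib]
  refine Finset.sum_nonneg fun j _ => ?_
  rw [← add_mul]
  exact mul_nonneg (by linarith [(abs_lt.1 (hc j)).1]) (by positivity)

theorem mskOK_sound {W N : ℕ} (hW : 1 ≤ W) (c : ℕ → ℤ) (hc : ∀ j, |c j| < 2 ^ (W - 1)) (u : ℕ)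
    (hu : (u : ℤ) = ∑ j ∈ Finset.range N, c j * 2 ^ (W * j) + (mask W N : ℤ))
    (h : mskOK u (mask W N) = true) {j : ℕ} (hj : j < N) : 0 ≤ c j := by
  have h1 : u &&& mask W N = mask W N := Nat.eq_of_beq_eq_true h
  have h2 := digit_eq hW c hc u hu hj
  have h3 := digit_eq hW (fun _ => 0) (fun _ => by simp) (mask W N) (by simp) hj
  have h4 : (mask W N >>> (W * j)) % 2 ^ W ≤ (u >>> (W * j)) % 2 ^ W := by
    rw [← h1, Nat.shiftRight_and_distrib, Nat.and_mod_two_pow]
    exact Nat.and_le_left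
  have h5 := Int.ofNat_le.2 h4
  linarith

/-- regrouping a sum over monomials along an index map that is injective on a finite set -/
theorem pack {W N : ℕ} (s : Finset (ℕ →₀ ℕ)) (a : (ℕ →₀ ℕ) → ℤ) (ι : (ℕ →₀ ℕ) → ℕ)
    (hι : Set.InjOn ι s) (hN : ∀ m ∈ s, ι m < N) :
    ∃ c : ℕ → ℤ, (∀ m ∈ s, c (ι m) = a m) ∧ (∀ j, (∀ m ∈ s, ι m ≠ j) → c j = 0) ∧
      ∑ m ∈ s, a m * 2 ^ (W * ι m) = ∑ j ∈ Finset.range N, c j * 2 ^ (W * j) := by
  refine ⟨fun j => ∑ m ∈ s with ι m = j, a m, fun m hm => ?_, fun j hj => ?_, ?_⟩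
  · refine Finset.sum_eq_single_of_mem m (Finset.mem_filter.2 ⟨hm, rfl⟩) fun n hn hne => ?_
    exact absurd (hι (Finset.mem_filter.1 hn).1 hm (Finset.mem_filter.1 hn).2) hne
  · exact Finset.sum_eq_zero fun m hm =>
      absurd (Finset.mem_filter.1 hm).2 (hj m (Finset.mem_filter.1 hm).1)
  · rw [← Finset.sum_fiberwise_of_maps_to (g := ι) fun m hm => Finset.mem_range.2 (hN m hm)]
    refine Finset.sum_congr rfl fun j _ => ?_
    rw [Finset.sum_mul]
    exact Finset.sum_congr rfl fun m hm => by rw [(Finset.mem_filter.1 hm).2]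

theorem allLt_iff (n : ℕ) (f : ℕ → Bool) : allLt n f = true ↔ ∀ k < n, f k = true := by
  induction n with
  | zero => exact ⟨fun _ k hk => absurd hk (Nat.not_lt_zero k), fun _ => rfl⟩
  | succ n ih =>
    have e : allLt (n + 1) f = Bool.rec false (allLt n f) (f n) := rfl
    rw [e, Nat.forall_lt_succ_right, ← ih]
    cases f n <;> simp

theorem allL_iff {α : Type} (f : α → Bool) (l : List α) :
    allL f l = true ↔ ∀ a ∈ l, f a = true := by
  induction l with
  | nil => exact ⟨fun _ a ha => absurd ha List.not_mem_nil, fun _ => rfl⟩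
  | cons a l ih =>
    have e : allL f (a :: l) = Bool.rec false (allL f l) (f a) := rfl
    rw [e, List.forall_mem_cons, ← ih]
    cases f a <;> simp

end Vale.Agent.P154
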