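import Mathlib

/-! Polynomial expressions and a Kronecker substitution checker for nonnegativity of all
coefficients (definitions only; written with recursors so that the kernel runs them fast). -/

namespace Vale.Agent.P154

inductive Ex where
  | v (i : ℕ) : Ex
  | c (z : ℤ) : Ex
  | add (a b : Ex) : Ex
  | mul (a b : Ex) : Ex

namespace Ex

noncomputable def ev (x : ℕ → ℝ) : Ex → ℝ
  | v i => x i
  | c z => (z : ℝ)
  | add a b => ev x a + ev x b
  | mul a b => ev x a * ev x b

/-- value when variable `i` is replaced by `2 ^ s i` -/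
noncomputable def kv (s : ℕ → ℕ) (e : Ex) : ℤ :=
  Ex.rec (motive := fun _ => ℤ) (fun i => Int.ofNat (Nat.shiftLeft 1 (s i))) (fun z => z)
    (fun _ _ a b => Int.add a b) (fun _ _ a b => Int.mul a b) e

/-- bound for the sum of the absolute values of the coefficients -/
noncomputable def nrm (e : Ex) : ℕ :=
  Ex.rec (motive := fun _ => ℕ) (fun _ => 1) (fun z => Int.natAbs z)
    (fun _ _ a b => Nat.add a b) (fun _ _ a b => Nat.mul a b) e

/-- bound for the degree in the variable `i` -/
noncomputable def dg (i : ℕ) (e : Ex) : ℕ :=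
  Ex.rec (motive := fun _ => ℕ) (fun j => Bool.rec 0 1 (Nat.beq i j)) (fun _ => 0)
    (fun _ _ a b => Nat.add a (Nat.sub b a)) (fun _ _ a b => Nat.add a b) e

/-- bound for the total degree -/
noncomputable def td (e : Ex) : ℕ :=
  Ex.rec (motive := fun _ => ℕ) (fun _ => 1) (fun _ => 0)
    (fun _ _ a b => Nat.add a (Nat.sub b a)) (fun _ _ a b => Nat.add a b) e

/-- all variables have index below `nv e` -/
noncomputable def nv (e : Ex) : ℕ :=
  Ex.rec (motive := fun _ => ℕ) (fun j => Nat.succ j) (fun _ => 0)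
    (fun _ _ a b => Nat.add a (Nat.sub b a)) (fun _ _ a b => Nat.add a (Nat.sub b a)) e

def sm (z : ℤ) (a : Ex) : Ex := mul (c z) a
def sub (a b : Ex) : Ex := add a (mul (c (-1)) b)
noncomputable def pw (a : Ex) (k : ℕ) : Ex :=
  Nat.rec (motive := fun _ => Ex) (c 1) (fun _ r => mul a r) k
noncomputable def sum (l : List Ex) : Ex :=
  List.rec (motive := fun _ => Ex) (c 0) (fun a _ r => add a r) l
/-- `∑ z_k * a_k` -/
noncomputable def dot (z : List ℤ) : List Ex → Ex :=
  List.rec (motive := fun _ => List Ex → Ex) (fun _ => c 0)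
    (fun z _ r l => List.rec (motive := fun _ => Ex) (c 0)
      (fun a l _ => add (mul (c z) a) (r l)) l) z
/-- homogeneous Horner scheme: `∑ z_k * m^k * H^(length - 1 - k)` -/
noncomputable def hor (m H : Ex) (z : List ℤ) : Ex :=
  List.rec (motive := fun _ => Ex) (c 0)
    (fun z l r => add (mul (c z) (pw H l.length)) (mul m r)) z

@[simp] theorem ev_v (x : ℕ → ℝ) (i : ℕ) : (v i).ev x = x i := rfl
@[simp] theorem ev_c (x : ℕ → ℝ) (z : ℤ) : (c z).ev x = z := rfl
@[simp] theorem ev_add (x : ℕ → ℝ) (a b : Ex) : (add a b).ev x = a.ev x + b.ev x := rfl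
@[simp] theorem ev_mul (x : ℕ → ℝ) (a b : Ex) : (mul a b).ev x = a.ev x * b.ev x := rfl
@[simp] theorem ev_sm (x : ℕ → ℝ) (z : ℤ) (a : Ex) : (sm z a).ev x = z * a.ev x := rfl
@[simp] theorem ev_sub (x : ℕ → ℝ) (a b : Ex) : (sub a b).ev x = a.ev x - b.ev x := by
  simp [sub]; ring
@[simp] theorem ev_pw (x : ℕ → ℝ) (a : Ex) (k : ℕ) : (pw a k).ev x = a.ev x ^ k := by
  induction k with
  | zero => simp [pw]
  | succ k ih =>
    have : pw a (k + 1) = mul a (pw a k) := rfl
    rw [this, ev_mul, ih]; ring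
theorem sum_nil : sum [] = c 0 := rfl
theorem sum_cons (a : Ex) (l : List Ex) : sum (a :: l) = add a (sum l) := rfl
@[simp] theorem ev_sum (x : ℕ → ℝ) (l : List Ex) : (sum l).ev x = (l.map (ev x)).sum := by
  induction l with
  | nil => simp [sum_nil]
  | cons a l ih => simp [sum_cons, ih]
theorem dot_nil (l : List Ex) : dot [] l = c 0 := rfl
theorem dot_nil' (z : List ℤ) : dot z [] = c 0 := by cases z <;> rfl
theorem dot_cons (z : ℤ) (zs : List ℤ) (a : Ex) (l : List Ex) :
    dot (z :: zs) (a :: l) = add (mul (c z) a) (dot zs l) := rfl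

/-- real dot product of an integer list and a real list -/
noncomputable def dotR : List ℤ → List ℝ → ℝ
  | z :: zs, a :: l => z * a + dotR zs l
  | _, _ => 0
theorem ev_dot (x : ℕ → ℝ) (z : List ℤ) (l : List Ex) :
    (dot z l).ev x = dotR z (l.map (ev x)) := by
  induction z generalizing l with
  | nil => simp [dot_nil, dotR]
  | cons z zs ih => cases l with
    | nil => simp [dot_nil', dotR]
    | cons a l => simp [dot_cons, dotR, ih]

/-- real Horner scheme `∑ z_k * m^k` -/
noncomputable def horR (m : ℝ) : List ℤ → ℝ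
  | [] => 0
  | z :: l => z + m * horR m l
theorem hor_nil (m H : Ex) : hor m H [] = c 0 := rfl
theorem hor_cons (m H : Ex) (z : ℤ) (l : List ℤ) :
    hor m H (z :: l) = add (mul (c z) (pw H l.length)) (mul m (hor m H l)) := rfl
theorem ev_hor (x : ℕ → ℝ) (m H : Ex) (t : ℝ) (ht : m.ev x = H.ev x * t) (l : List ℤ) :
    (hor m H l).ev x * H.ev x = H.ev x ^ l.length * horR t l := by
  induction l with
  | nil => simp [hor_nil, horR]
  | cons z l ih =>
    simp only [hor_cons, ev_add, ev_mul, ev_c, ev_pw, horR, List.length_cons, ht]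
    calc _ = z * H.ev x ^ l.length * H.ev x + H.ev x * t * ((hor m H l).ev x * H.ev x) := by ring
      _ = _ := by rw [ih]; ring

end Ex

/-- mixed radix stride: the product of the first `i` entries -/
noncomputable def strd (bs : List ℕ) : ℕ → ℕ :=
  List.rec (motive := fun _ => ℕ → ℕ) (fun _ => 1)
    (fun b _ r i => Nat.rec (motive := fun _ => ℕ) 1 (fun j _ => Nat.mul b (r j)) i) bs

/-- the mask `∑ j < N, 2^(W-1) * 2^(W j)` -/
def mask (W N : ℕ) : ℕ :=
  Nat.shiftLeft (Nat.div (Nat.sub (Nat.shiftLeft 1 (Nat.mul W N)) 1)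
    (Nat.sub (Nat.shiftLeft 1 W) 1)) (Nat.sub W 1)

/-- the degree in the variable `i + k` is below entry `k` of the list -/
noncomputable def degOK (e : Ex) (bs : List ℕ) : ℕ → Bool :=
  List.rec (motive := fun _ => ℕ → Bool) (fun _ => true)
    (fun b _ r i => Bool.rec false (r (Nat.succ i)) (Nat.ble (Nat.succ (e.dg i)) b)) bs

def mskOK (u O : ℕ) : Bool := Nat.beq (Nat.land u O) O

/-- checks that all coefficients of `e` are nonnegative -/
noncomputable def posChk (W : ℕ) (bs : List ℕ) (e : Ex) : Bool :=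
  Bool.and (Nat.ble 2 W) (Bool.and (Nat.ble e.nv bs.length) (Bool.and (degOK e bs 0)
    (Bool.and (Nat.ble (Nat.succ e.nrm) (Nat.shiftLeft 1 (Nat.sub W 1)))
      (mskOK (Int.toNat (Int.add (e.kv (fun i => Nat.mul W (strd bs i)))
        (Int.ofNat (mask W (strd bs bs.length))))) (mask W (strd bs bs.length))))))

noncomputable def allLt (n : ℕ) (f : ℕ → Bool) : Bool :=
  Nat.rec (motive := fun _ => Bool) true (fun k r => Bool.rec false r (f k)) n

noncomputable def allL {α : Type} (f : α → Bool) (l : List α) : Bool :=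
  List.rec (motive := fun _ => Bool) true (fun a _ r => Bool.rec false r (f a)) l

def isNeg : ℤ → Bool
  | Int.ofNat _ => false
  | Int.negSucc _ => true

/-- one row: the entries are (sign, magnitude, shifted packed coefficients) -/
noncomputable def rowOK (H M sh O : ℕ) (D : List (Bool × ℕ × ℕ)) : ℕ → ℕ → Bool :=
  List.rec (motive := fun _ => ℕ → ℕ → Bool) (fun P N => mskOK (Nat.sub P N) O)
    (fun t _ r P N =>
      (fun d : ℕ =>
        Bool.rec
          (Bool.rec
            (Bool.rec (r P (Nat.add N (Nat.mul (Nat.sub H d) t.2.1)))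
              (r (Nat.add P (Nat.mul (Nat.sub H d) t.2.1)) N) t.1)
            (Bool.rec (r (Nat.add P (Nat.mul (Nat.sub d H) t.2.1)) N)
              (r P (Nat.add N (Nat.mul (Nat.sub d H) t.2.1))) t.1)
            (Nat.ble H d))
          (r P N) (Nat.beq d H))
      (Nat.mod (Nat.shiftRight t.2.2 sh) M)) D

noncomputable def nsum (L : List (Ex × Ex)) : ℕ :=
  List.rec (motive := fun _ => ℕ) 0 (fun p _ r => Nat.add (Nat.mul p.1.nrm p.2.nrm) r) L

def st3 (W S : ℕ) (i : ℕ) : ℕ := Nat.mul W (Nat.pow S i)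

noncomputable def pairD (W V S : ℕ) (L : List (Ex × Ex)) : List (Bool × ℕ × ℕ) :=
  List.rec (motive := fun _ => List (Bool × ℕ × ℕ)) []
    (fun p _ r => (isNeg (p.1.kv (st3 W S)), Int.natAbs (p.1.kv (st3 W S)),
      Int.toNat (Int.add (p.2.kv (st3 V S)) (Int.ofNat (mask V (Nat.pow S 3))))) :: r) L

noncomputable def rows (W V S : ℕ) (D : List (Bool × ℕ × ℕ)) : Bool :=
  allLt S fun k => allLt (Nat.sub S k) fun j => allLt (Nat.sub (Nat.sub S k) j) fun i =>
    rowOK (Nat.shiftLeft 1 (Nat.sub V 1)) (Nat.shiftLeft 1 V)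
      (Nat.mul V (Nat.add i (Nat.mul S (Nat.add j (Nat.mul S k))))) (mask W (Nat.pow S 3)) D
      (mask W (Nat.pow S 3)) 0

/-- checks that all coefficients of `∑ p.1 (x) * p.2 (y)` are nonnegative; both sides use the
variables `0, 1, 2` and have total degree below `S` -/
noncomputable def pairChk (W V S : ℕ) (L : List (Ex × Ex)) : Bool :=
  Bool.and (Nat.ble 2 W) (Bool.and (Nat.ble 2 V)
    (Bool.and (allL (fun p : Ex × Ex =>
        Bool.and (Nat.ble p.1.nv 3) (Bool.and (Nat.ble p.2.nv 3)
          (Bool.and (Nat.ble (Nat.succ p.1.td) S) (Bool.and (Nat.ble (Nat.succ p.2.td) S)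
            (Nat.ble (Nat.succ p.2.nrm) (Nat.shiftLeft 1 (Nat.sub V 1))))))) L)
      (Bool.and (Nat.ble (Nat.succ (nsum L)) (Nat.shiftLeft 1 (Nat.sub W 1)))
        (rows W V S (pairD W V S L)))))

end Vale.Agent.P154
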