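import Vale.Agent.P154.KS
import Vale.Agent.P154.Bridge
import Vale.Agent.P154.Cvx

/-! Assembly: from the vanishing of the chi-square to the statement about `adv`. -/

namespace Vale.Agent.P154

open Filter Topology

theorem assemble {q : ℕ} [NeZero q] (hq : 2 ≤ q) {p : ℕ → ℝ} {d s2 : ℝ} (hp : Off p d s2)
    {lam : ℝ} (h : Adm q lam)
    (H : d * lam ^ 2 ≤ 1 → Tendsto (fun n => (Fam.lev hp h n).E ca) atTop (𝓝 0)) :
    (Tendsto (adv q p lam) atTop (𝓝 0) ↔ d * lam ^ 2 ≤ 1) ∧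
      ((∃ c : ℝ, 0 < c ∧ Tendsto (adv q p lam) atTop (𝓝 c)) ↔ 1 < d * lam ^ 2) := by
  have e : adv q p lam = fun n => (Fam.lev hp h n).E tv := funext fun n => adv_eq hp h n
  have hq0 : (0 : ℝ) < q := by exact_mod_cast (by omega : 0 < q)
  have A : d * lam ^ 2 ≤ 1 → Tendsto (adv q p lam) atTop (𝓝 0) := by
    intro hd
    rw [e]
    have h1 := (Real.continuous_sqrt.tendsto 0).comp (H hd)
    rw [Real.sqrt_zero] at h1
    refine squeeze_zero (fun n => (tv_le _).1) (fun n => ?_) h1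
    exact Real.le_sqrt_of_sq_le (tv_le _).2
  have B : 1 < d * lam ^ 2 → ∃ c : ℝ, 0 < c ∧ Tendsto (adv q p lam) atTop (𝓝 c) := by
    intro hd
    obtain ⟨ε, hε, hb⟩ := ks_lower hq hp h hd
    have lb : ∀ n, ε / (2 * q) ≤ (Fam.lev hp h n).E tv := fun n => by
      rw [div_le_iff₀ (by positivity)]
      have := le_tv (Fam.lev hp h n)
      have := hb n
      linarith
    have bdd : BddBelow (Set.range fun n => (Fam.lev hp h n).E tv) :=
      ⟨ε / (2 * q), by rintro _ ⟨n, rfl⟩; exact lb n⟩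
    refine ⟨⨅ n, (Fam.lev hp h n).E tv, lt_of_lt_of_le (by positivity) (le_ciInf lb), ?_⟩
    rw [e]
    exact tendsto_atTop_ciInf (Fam.antitone_tv hp h) bdd
  refine ⟨⟨fun h0 => ?_, A⟩, ⟨fun ⟨c, hc, h1⟩ => ?_, B⟩⟩
  · by_contra hd
    obtain ⟨c, hc, h1⟩ := B (not_le.1 hd)
    exact hc.ne' (tendsto_nhds_unique h1 h0)
  · by_contra hd
    exact hc.ne' (tendsto_nhds_unique h1 (A (not_lt.1 hd)))

theorem reg_two {d : ℕ} (hd : 2 ≤ d) : ∃ k, 2 ≤ k ∧ 0 < regOff d k := ⟨d, hd, by simp [regOff]⟩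

theorem poi_two {d : ℝ} (hd : 0 < d) : ∃ k, 2 ≤ k ∧ 0 < poiOff d k :=
  ⟨2, le_rfl, by unfold poiOff; positivity⟩

end Vale.Agent.P154
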